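import Crest.Agent.Ku.Defs

/-! Finite-dimensional division algebras: basic facts (S0270). -/

set_option autoImplicit false

namespace Crest.Agent.Ku.H3
open Module

variable {K D : Type} [Field K] [DivisionRing D] [Algebra K D] [FiniteDimensional K D]

lemma ker_comp_le (g T : D →ₗ[K] D) :
    finrank K (LinearMap.ker (g ∘ₗ T)) ≤ finrank K (LinearMap.ker g) + finrank K (LinearMap.ker T) := by
  let T' : LinearMap.ker (g ∘ₗ T) →ₗ[K] LinearMap.ker g :=
    (T.domRestrict _).codRestrict _ (fun z => z.2)
  have h1 := LinearMap.finrank_range_add_finrank_ker T'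
  have h2 := Submodule.finrank_le (LinearMap.range T')
  have h3 : finrank K (LinearMap.ker T') ≤ finrank K (LinearMap.ker T) := by
    let ι : LinearMap.ker T' →ₗ[K] LinearMap.ker T :=
      (((LinearMap.ker (g ∘ₗ T)).subtype ∘ₗ (LinearMap.ker T').subtype)).codRestrict _
        (fun z => congrArg Subtype.val z.2)
    apply LinearMap.finrank_le_finrank_of_injective (f := ι)
    intro x y h
    have h4 : (ι x : D) = ι y := congrArg Subtype.val h
    exact Subtype.ext (Subtype.ext h4)
  omega

lemma sdiv (a b : D) (n : ℕ) : ∀ f : ℕ → D, ∃ (g : ℕ → D) (ρ : D), g n = f (n + 1) ∧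
    ∀ z, ∑ i ∈ Finset.range (n + 2), f i * z * a ^ i
      = ∑ j ∈ Finset.range (n + 1), g j * (z * a - b * z) * a ^ j + ρ * z := by
  induction n with
  | zero =>
    intro f
    refine ⟨fun _ => f 1, f 0 + f 1 * b, rfl, fun z => ?_⟩
    simp [Finset.sum_range_succ]
    noncomm_ring
  | succ n ih =>
    intro f
    obtain ⟨g, ρ, -, hg⟩ := ih (Function.update f (n + 1) (f (n + 1) + f (n + 2) * b))
    refine ⟨Function.update g (n + 1) (f (n + 2)), ρ, by simp, fun z => ?_⟩
    have h := hg z
    rw [Finset.sum_range_succ, Function.update_self,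
      Finset.sum_congr rfl (g := fun i => f i * z * a ^ i) (fun i hi => by
        rw [Function.update_of_ne (by simp at hi; omega)])] at h
    rw [Finset.sum_range_succ _ (n + 2), Finset.sum_range_succ _ (n + 1),
      Finset.sum_range_succ _ (n + 1), Function.update_self,
      Finset.sum_congr rfl (f := fun j => Function.update g (n + 1) (f (n + 2)) j
        * (z * a - b * z) * a ^ j) (g := fun j => g j * (z * a - b * z) * a ^ j) (fun i hi => by
        rw [Function.update_of_ne (by simp at hi; omega)]), add_right_comm _ _ (ρ * z), ← h,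
      pow_succ' a (n + 1)]
    noncomm_ring

noncomputable def op (K : Type) {D : Type} [Field K] [DivisionRing D] [Algebra K D] (a : D) (n : ℕ)
    (f : ℕ → D) : D →ₗ[K] D :=
  ∑ i ∈ Finset.range (n + 1), LinearMap.mulRight K (a ^ i) ∘ₗ LinearMap.mulLeft K (f i)

lemma op_apply (a : D) (n : ℕ) (f : ℕ → D) (z : D) :
    op K a n f z = ∑ i ∈ Finset.range (n + 1), f i * z * a ^ i := by
  simp [op, LinearMap.sum_apply]

lemma ker_op (a : D) (n : ℕ) : ∀ f : ℕ → D, f n ≠ 0 →
    finrank K (LinearMap.ker (op K a n f)) ≤ n * finrank K (Subalgebra.centralizer K {a}) := by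
  induction n with
  | zero =>
    intro f hf
    have : LinearMap.ker (op K a 0 f) = ⊥ := by
      rw [LinearMap.ker_eq_bot']
      intro z hz
      simpa [op_apply, hf] using hz
    rw [this]; simp
  | succ n ih =>
    intro f hf
    by_cases h0 : LinearMap.ker (op K a (n + 1) f) = ⊥
    · rw [h0]; simp
    obtain ⟨z0, hz, hz0⟩ := (Submodule.ne_bot_iff _).1 h0
    obtain ⟨g, ρ, hg, hgz⟩ := sdiv a (z0 * a * z0⁻¹) n f
    have hρ : ρ = 0 := by
      have h1 := hgz z0
      rw [LinearMap.mem_ker, op_apply] at hz
      rw [hz, inv_mul_cancel_right₀ hz0, sub_self] at h1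
      simpa [hz0] using h1
    let T : D →ₗ[K] D := LinearMap.mulRight K a - LinearMap.mulLeft K (z0 * a * z0⁻¹)
    have h1 : op K a (n + 1) f = op K a n g ∘ₗ T := by
      ext z
      rw [LinearMap.comp_apply, op_apply, op_apply, hgz, hρ, zero_mul, add_zero]
      rfl
    have h2 : finrank K (LinearMap.ker T) ≤ finrank K (Subalgebra.centralizer K {a}) := by
      let ι : LinearMap.ker T →ₗ[K] Subalgebra.toSubmodule (Subalgebra.centralizer K {a}) :=
        (LinearMap.mulLeft K z0⁻¹ ∘ₗ (LinearMap.ker T).subtype).codRestrict _ (by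
          rintro ⟨z, hz⟩
          have h3 : z * a - z0 * a * z0⁻¹ * z = 0 := hz
          rw [Subalgebra.mem_toSubmodule, Subalgebra.mem_centralizer_iff]
          intro _ h
          rw [Set.mem_singleton_iff.1 h]
          show a * (z0⁻¹ * z) = z0⁻¹ * z * a
          rw [mul_assoc, sub_eq_zero.1 h3]
          simp only [← mul_assoc, inv_mul_cancel₀ hz0, one_mul])
      apply LinearMap.finrank_le_finrank_of_injective (f := ι)
      intro x y h
      have h4 : z0⁻¹ * (x : D) = z0⁻¹ * (y : D) := congrArg Subtype.val h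
      exact Subtype.ext (mul_left_cancel₀ (inv_ne_zero hz0) h4)
    rw [h1]
    have h3 := ker_comp_le (op K a n g) T
    have h4 := ih g (hg ▸ hf)
    rw [add_mul, one_mul]
    omega

lemma tr0 (a c z : D) (hc : Commute c a) (hz : z ∈ LinearMap.range (ad K a)) :
    LinearMap.trace K D (LinearMap.mulLeft K (c * z)) = 0 := by
  obtain ⟨w, rfl⟩ := hz
  have h1 : LinearMap.mulLeft K (c * ad K a w)
      = LinearMap.mulLeft K (c * w) * LinearMap.mulLeft K a
        - LinearMap.mulLeft K a * LinearMap.mulLeft K (c * w) := by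
    ext y
    simp only [ad, LinearMap.sub_apply, LinearMap.mulRight_apply, LinearMap.mulLeft_apply,
      Module.End.mul_apply]
    rw [mul_sub, sub_mul, ← mul_assoc c a, hc.eq]
    simp only [mul_assoc]
  rw [h1, map_sub, LinearMap.trace_mul_comm, sub_self]

end Crest.Agent.Ku.H3

namespace Crest.Agent.Ku
open Module H3

theorem alg3 : AlgStmt := by
  intro K D _ _ _ _ _
  have h1 : ∀ (A : Subalgebra K D) z, z ∈ A → z⁻¹ ∈ A :=
    fun A z hz => (IsIntegral.of_finite K z).inv_mem hz
  refine ⟨h1, ?_, ?_, tr0, ?_⟩
  · intro A B hAB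
    obtain ⟨b, hbB, hbA⟩ := SetLike.exists_of_lt hAB
    let ι : (A × A) →ₗ[K] Subalgebra.toSubmodule B :=
      (A.val.toLinearMap ∘ₗ LinearMap.fst K A A
        + LinearMap.mulRight K b ∘ₗ A.val.toLinearMap ∘ₗ LinearMap.snd K A A).codRestrict _
        (fun p => B.add_mem (hAB.le p.1.2) (B.mul_mem (hAB.le p.2.2) hbB))
    have hι : Function.Injective ι := by
      rw [injective_iff_map_eq_zero]
      rintro ⟨x, y⟩ h
      have h2 : (x : D) + (y : D) * b = 0 := congrArg Subtype.val h
      have h3 : (y : D) = 0 := by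
        by_contra h3
        apply hbA
        have : b = -((y : D)⁻¹ * x) := by
          rw [eq_neg_of_add_eq_zero_left h2, mul_neg, neg_neg, inv_mul_cancel_left₀ h3]
        rw [this]
        exact A.neg_mem (A.mul_mem (h1 A _ y.2) x.2)
      rw [h3, zero_mul, add_zero] at h2
      exact Prod.ext (Subtype.ext h2) (Subtype.ext h3)
    have h4 := LinearMap.finrank_le_finrank_of_injective hι
    rw [Module.finrank_prod] at h4
    rw [two_mul]
    exact h4
  · intro a
    have hk : Subalgebra.toSubmodule (Subalgebra.centralizer K {a}) = LinearMap.ker (ad K a) := by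
      ext z
      simp only [Subalgebra.mem_toSubmodule, Subalgebra.mem_centralizer_iff, Set.mem_singleton_iff,
        forall_eq, LinearMap.mem_ker, ad, LinearMap.sub_apply, LinearMap.mulRight_apply,
        LinearMap.mulLeft_apply, sub_eq_zero]
      exact eq_comm
    have hd : Disjoint (LinearMap.ker (ad K a)) (LinearMap.range (ad K a)) := by
      rw [Submodule.disjoint_def]
      intro z hz hz'
      by_contra h0
      have h2 : z * a - a * z = 0 := hz
      have h3 : Commute z a := sub_eq_zero.1 h2
      have h4 := tr0 a z⁻¹ z h3.inv_left₀ hz'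
      rw [inv_mul_cancel₀ h0, LinearMap.mulLeft_one, LinearMap.trace_id] at h4
      exact (Module.finrank_pos (R := K) (M := D)).ne' (Nat.cast_eq_zero.1 h4)
    rw [hk]
    refine ⟨hd, codisjoint_iff.2 (Submodule.eq_top_of_disjoint _ _ ?_ hd)⟩
    have := LinearMap.finrank_range_add_finrank_ker (ad K a)
    omega
  · intro a
    have hint : IsIntegral K a := IsIntegral.of_finite K a
    set p := minpoly K a with hp
    have h2 := ker_op (K := K) a p.natDegree (fun i => algebraMap K D (p.coeff i)) (by
      have : p.coeff p.natDegree = 1 := minpoly.monic hint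
      rw [this, map_one]; exact one_ne_zero)
    have h3 : LinearMap.ker (op K a p.natDegree (fun i => algebraMap K D (p.coeff i))) = ⊤ := by
      rw [eq_top_iff]
      intro z _
      rw [LinearMap.mem_ker, op_apply]
      have h4 := minpoly.aeval K a
      rw [← hp, Polynomial.aeval_eq_sum_range] at h4
      have h5 := congrArg (fun y => z * y) h4
      simp only [Finset.mul_sum, mul_zero] at h5
      rw [← h5]
      apply Finset.sum_congr rfl
      intro i _
      rw [← Algebra.smul_def, smul_mul_assoc, mul_smul_comm]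
    rw [h3, finrank_top] at h2
    have h6 : p.natDegree ≤ finrank K (Subalgebra.centralizer K {a}) := by
      have h7 : a ∈ Subalgebra.centralizer K {a} := by
        rw [Subalgebra.mem_centralizer_iff]
        intro _ h; rw [Set.mem_singleton_iff.1 h]
      have h8 := minpoly.natDegree_le (A := K) (⟨a, h7⟩ : Subalgebra.centralizer K {a})
      have h9 := minpoly.algHom_eq (Subalgebra.centralizer K {a}).val Subtype.val_injective ⟨a, h7⟩
      rw [← h9] at h8
      exact h8
    calc _ ≤ _ := h2
      _ ≤ _ := by rw [sq]; exact Nat.mul_le_mul_right _ h6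

end Crest.Agent.Ku
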