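import Crest.Agent.Ku.Rig

set_option autoImplicit false

namespace Crest.Agent.Ku
open Module PowerSeries

lemma Ext.tenL_mul {r : ℕ} {K D K₁ D₁ : Type} [Field K] [DivisionRing D] [Algebra K D] [Field K₁]
    [DivisionRing D₁] [Algebra K₁ D₁] (E : Ext r K D K₁ D₁) (U : Submodule K D)
    (Λ : Submodule K₁ D₁) (h : E.tenL U ≤ Λ) (hr : 1 ≤ r) : E.tenL (U ^ 2) ≤ Λ ^ 2 := by
  refine Submodule.span_le.mpr ?_
  rintro _ ⟨d, hd, a, ha, b, hb, rfl, rfl⟩
  rw [pow_two] at hd
  rw [pow_two]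
  refine Submodule.mul_induction_on hd (fun x hx y hy => ?_) fun x y hx hy => ?_
  · have h1 : E.ψ x * (E.u ^ 0 * E.v ^ 0) ∈ Λ := h (E.mono_mem hr hx 0 0 (by simp))
    have h2 : E.ψ y * (E.u ^ a * E.v ^ 0) ∈ Λ := h (E.mono_mem hr hy a 0 (by simp))
    have := Submodule.mul_mem_mul h1 h2
    simpa [mul_assoc] using this
  · rw [map_add, add_mul]; exact Submodule.add_mem _ hx hy

theorem alt (hB : Base) (hC : CenStmt) (hP : PtBStmt) (hA : PertAStmt) : AltStmt := by
  obtain ⟨hEv, hFilt, hDer, hExp, -, -, hExt, -, hTen, -⟩ := hB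
  intro S hG hP2 hK
  obtain ⟨hcen, -, -, -, -, hex, -, -⟩ := hC S hG
  constructor
  · intro l hl
    obtain ⟨b, hb, hb0⟩ := Submodule.exists_mem_ne_zero_of_ne_bot hG.1
    obtain ⟨δ, hδ⟩ := hex b hb
    obtain ⟨K₁, D₁, _, _, _, _, _, ⟨E⟩⟩ := hExt 1 le_rfl S.K S.D
    have : CharZero K₁ := charZero_of_injective_algebraMap (algebraMap ℂ K₁).injective
    have h1 : (1 : D₁) ∈ E.tenR 1 := by
      simpa [Ext.tenR] using E.mono_one le_rfl (P := fun _ _ => True) 0 0 trivial
    have hu : E.u ∈ E.tenR 1 := by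
      simpa [Ext.tenR] using E.mono_one le_rfl (P := fun _ _ => True) 1 0 trivial
    let ω : S.ι → D₁⟦X⟧ := fun j => X ^ 2 * C (E.φ (l j) • (1 : D₁)) + X ^ 3 * C (E.φ (δ j) • E.u)
    have hAdm : Adm E ω := by
      intro j i
      simp only [ω, map_add, coeff_X_pow_mul', coeff_C]
      refine Submodule.add_mem _ ?_ ?_ <;> split_ifs <;>
        first | exact Submodule.zero_mem _ | exact Submodule.smul_mem _ _ h1 | exact Submodule.smul_mem _ _ hu
    have h0 : ∀ j, constantCoeff (ω j) = 0 := fun j => by simp [ω]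
    have hdv : ∀ j, X ^ 2 ∣ ω j := fun j =>
      xdvd_add (dvd_mul_right _ _) (xdvd_mono (by norm_num) (dvd_mul_right _ _))
    obtain ⟨e, he⟩ := E.exists_ev ω hAdm h0
    have hE := hExp S.ι S.D D₁ E.ψ ω e 2 (by norm_num) hdv he
    obtain ⟨t, ht⟩ := hE.1 S.H
    have hsum : ∑ j, ω j * C (E.ψ (S.H [j])) = X ^ 3 * C (E.ψ b * E.u) := by
      simp only [ω, add_mul, Finset.sum_add_distrib, mul_assoc, ← map_mul, ← Finset.mul_sum, ← map_sum]
      rw [Ext.sum_t S E l h1, Ext.sum_t S E δ hu, hl, hδ]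
      simp
    have heH : e S.H = C (E.ψ S.a) + X ^ 3 * (C (E.ψ b * E.u) + X * t) := by
      rw [hsum, sub_sub, sub_eq_iff_eq_add] at ht
      rw [ht, St.a, mul_add, ← mul_assoc, ← pow_succ]; abel
    obtain ⟨S', Λ, hrel, hW', hc', hf', hΛ, hle, -, hpow, htan, -⟩ := hP S 1 K₁ D₁ E ω e 3 _ b
      ⟨le_rfl, hG, hcen, hAdm, h0, he, by norm_num, heH, hb, hb0, by simp⟩
    have hT := hTen 1 S.K S.D K₁ D₁ E le_rfl
    have hP2' : S'.Pw 2 := by
      have h2 := Submodule.finrank_mono (E.tenL_mul S.W Λ hle le_rfl)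
      rw [hT.2.1] at h2
      have h3 := hpow 2
      unfold St.Pw at hP2 ⊢
      omega
    have hk := hK S' 1 hrel hW' hc'.le hf'.ge hP2'
    have hΛe : E.tenL S.W = Λ := by
      refine Submodule.eq_of_le_of_finrank_le hle ?_
      rw [hT.2.1, hΛ]
      have : S.w = finrank S.K S.W := rfl
      omega
    let l₁ : S.ι → D₁⟦X⟧ := fun j => C (E.φ (l j) • (1 : D₁))
    have hAdm1 : Adm E l₁ := by
      intro j i
      simp only [l₁, coeff_C]
      split_ifs
      · exact Submodule.smul_mem _ _ h1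
      · exact Submodule.zero_mem _
    obtain ⟨d, hd⟩ := (hDer S.ι S.D D₁ E.ψ ω e h0 he).1 l₁
    have hs1 : ∑ j, l₁ j * C (E.ψ (S.H [j])) = 0 := by
      simp only [l₁, ← map_mul, ← map_sum]
      rw [Ext.sum_t S E l h1, hl]; simp
    obtain ⟨hd1, hd2⟩ := hE.2.1 l₁ d hd S.H
    rw [hs1, sub_zero] at hd1 hd2
    obtain ⟨t', ht'⟩ := hd1
    have hct : constantCoeff t' = (2 : K₁) • E.ψ (S.q l l) := by
      have h2 := X_pow_dvd_iff.mp hd2 2 (by norm_num)
      rw [map_sub, sub_eq_zero, ht', coeff_X_pow_mul', if_pos le_rfl, Nat.sub_self,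
        coeff_zero_eq_constantCoeff_apply] at h2
      rw [h2, St.q]
      simp only [map_sum, Finset.smul_sum]
      refine Finset.sum_congr rfl fun j _ => Finset.sum_congr rfl fun k _ => ?_
      have e2 : ∀ j, coeff 2 (ω j) = E.φ (l j) • (1 : D₁) := fun j => by
        simp [ω, coeff_X_pow_mul']
      simp only [l₁, coeff_mul_C, map_add, coeff_C_mul, e2, E.psi_smul, map_mul, smul_mul_smul_comm,
        mul_one, add_mul, smul_mul_assoc, one_mul, smul_smul, two_mul, add_smul]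
    have hqC : S.q l l ∈ Subalgebra.toSubmodule S.C :=
      Submodule.sum_mem _ fun j _ => Submodule.sum_mem _ fun k _ => Submodule.smul_mem _ _ (hG.2.2.2 _)
    have hz := htan l₁ d 2 t' hAdm1 hd ht' ((2 : K₁) • E.ψ (S.q l l))
      (Submodule.smul_mem _ _ (by
        simpa [Ext.tenL] using E.mono_mem le_rfl (P := fun _ b => b = 0) hqC 0 0 (by simp)))
      (by rw [hct, sub_self]; exact Submodule.zero_mem _)
    rw [← hΛe, Submodule.smul_mem_iff _ two_ne_zero] at hz
    by_contra hq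
    obtain ⟨c, hc1, hc2⟩ := Submodule.exists_le_ker_of_notMem hq
    obtain ⟨c₁, hc₁⟩ := hT.2.2.2.2.2.2.2.2 ⊤ c
    have hker : E.tenL S.W ≤ LinearMap.ker c₁ := by
      refine Submodule.span_le.mpr ?_
      rintro _ ⟨d, hd, a, -, b, -, -, rfl⟩
      rw [SetLike.mem_coe, LinearMap.mem_ker, hc₁, LinearMap.mem_ker.mp (hc2 hd), map_zero, zero_smul]
    have h5 := hc₁ (S.q l l) 0 0
    simp only [pow_zero, mul_one] at h5
    rw [LinearMap.mem_ker.mp (hker hz), eq_comm, smul_eq_zero] at h5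
    rcases h5 with h5 | h5
    · exact hc1 ((map_eq_zero E.φ).mp h5)
    · exact one_ne_zero h5
  · intro l l' hl hl'
    classical
    let φ : S.ι → NC Bool S.K := fun j w => if w = [true] then l j else if w = [false] then l' j else 0
    obtain ⟨F, hF⟩ := hFilt.2.1 Bool S.D
    have hφ0 : ∀ j, φ j [] = 0 := fun j => by simp [φ]
    obtain ⟨Θ, hΘ⟩ := hEv S.ι S.D (NC Bool S.D) F NC.C (fun j => NC.map (algebraMap S.K S.D) (φ j))
      (fun j => (hF _ _).2 fun w hw => by
        obtain rfl : w = [] := List.length_eq_zero_iff.mp (by omega)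
        simp [hφ0])
      (fun j a => by
        ext w
        rw [NC.C_mul, NC.mul_C, NC.map_apply, Algebra.commutes])
    have e0 : ∀ f, Θ f [] = f [] := by
      intro f
      rw [hΘ f, NC.add_apply, NC.sum_apply]
      simp [hφ0]
    have e1 : ∀ f i, Θ f [i] = ∑ j, φ j [i] • f [j] := by
      intro f i
      rw [hΘ f, NC.add_apply, NC.sum_apply]
      simp [NC.mul_one_letter, hφ0, e0, Algebra.smul_def]
    have h := hA S hG Bool φ Θ ⟨hφ0, hΘ⟩ 2 le_rfl (by
      intro α h0 h1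
      obtain ⟨i, rfl⟩ := List.length_eq_one_iff.mp (show α.length = 1 by omega)
      rw [e1]
      cases i
      · simpa [φ, St.t] using hl'
      · simpa [φ, St.t] using hl) [true, false] rfl
    have e2 : Θ S.H [true, false] = S.q l l' := by
      rw [hΘ S.H, NC.add_apply, NC.sum_apply]
      simp [NC.mul_two_letters, e1, φ, St.q, ← Algebra.smul_def, Finset.smul_sum, smul_smul]
    rwa [e2] at h

end Crest.Agent.Ku
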