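import Crest.Agent.Ku.Defs

set_option autoImplicit false

namespace Crest.Agent.Ku.A9
open Module

lemma pert {K Y ι : Type} [Field K] [Infinite K] [AddCommGroup Y] [Module K Y] [Fintype ι]
    (v w : ι → Y) (hv : LinearIndependent K v) :
    ∃ t : K, t ≠ 0 ∧ LinearIndependent K fun i => v i + t • w i := by
  classical
  let f := Fintype.linearCombination K v
  have hf : LinearMap.ker f = ⊥ :=
    LinearMap.ker_eq_bot'.mpr fun c hc => funext (Fintype.linearIndependent_iff.mp hv c hc)
  obtain ⟨π, hπ⟩ := f.exists_leftInverse_of_injective hf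
  let A : Module.End K (ι → K) := π ∘ₗ Fintype.linearCombination K w
  obtain ⟨μ, hμ⟩ := ((Module.End.finite_hasEigenvalue A).insert 0).infinite_compl.nonempty
  simp only [Set.mem_compl_iff, Set.mem_insert_iff, not_or, Set.mem_ofPred_eq] at hμ
  refine ⟨-μ⁻¹, by simpa using hμ.1, Fintype.linearIndependent_iff.mpr fun c hc => ?_⟩
  have h1 : f c + (-μ⁻¹) • Fintype.linearCombination K w c = 0 := by
    rw [← hc]
    simp only [f, Fintype.linearCombination_apply, smul_add, Finset.sum_add_distrib, Finset.smul_sum]
    congr 1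
    exact Finset.sum_congr rfl fun i _ => smul_comm _ _ _
  have h2 : A c = μ • c := by
    have := congrArg π h1
    rw [map_add, map_smul, map_zero, show π (f c) = c from LinearMap.congr_fun hπ c] at this
    have h3 : c = μ⁻¹ • A c := by
      rw [neg_smul, add_neg_eq_zero] at this; exact this
    conv_rhs => rw [h3, smul_smul, mul_inv_cancel₀ hμ.1, one_smul]
  by_contra h
  apply hμ.2
  refine Module.End.hasEigenvalue_of_hasEigenvector (x := c) ⟨Module.End.mem_eigenspace_iff.mpr h2, ?_⟩
  intro h0
  exact h fun i => congrFun h0 i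

lemma core {K U Y : Type} [Field K] [Infinite K] [AddCommGroup U] [Module K U] [AddCommGroup Y]
    [Module K Y] [FiniteDimensional K Y] (n : ℕ) : ∀ (T : Fin n → U →ₗ[K] Y),
    (∀ c : Fin n → K, c ≠ 0 → n ≤ finrank K (LinearMap.range (∑ i, c i • T i))) →
    ∃ ξ : U, LinearIndependent K fun i => T i ξ := by
  induction n with
  | zero => intro T _; exact ⟨0, linearIndependent_empty_type⟩
  | succ n ih =>
    intro T hT
    obtain ⟨ξ, hξ⟩ := ih (fun i => T i.succ) fun c hc => by
      have := hT (Fin.cons 0 c) (fun h => hc (funext fun i => by simpa using congrFun h i.succ))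
      have e : ∑ i : Fin (n + 1), (Fin.cons 0 c : Fin (n + 1) → K) i • T i =
          ∑ i, c i • T i.succ := by
        rw [Fin.sum_univ_succ]; simp
      rw [e] at this
      omega
    by_contra hne
    push Not at hne
    have hcons : ∀ η, (fun i => T i η) = Fin.cons (T 0 η) fun i : Fin n => T i.succ η := fun η => by
      funext i; refine Fin.cases rfl (fun _ => rfl) i
    have h0 := hne ξ
    rw [hcons, linearIndependent_finCons, not_and, not_not] at h0
    obtain ⟨α, hα⟩ := (Submodule.mem_span_range_iff_exists_fun _).mp (h0 hξ)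
    let S : U →ₗ[K] Y := T 0 - ∑ i, α i • T i.succ
    have hSξ : S ξ = 0 := by simp [S, LinearMap.sum_apply, hα]
    have hr := hT (Fin.cons 1 fun i => -α i) (fun h => by simpa using congrFun h 0)
    have hS : ∑ i : Fin (n + 1), (Fin.cons 1 fun i => -α i : Fin (n + 1) → K) i • T i = S := by
      rw [Fin.sum_univ_succ]
      simp [S, sub_eq_add_neg]
    rw [hS] at hr
    have hle : LinearMap.range S ≤ Submodule.span K (Set.range fun i : Fin n => T i.succ ξ) := by
      rintro _ ⟨η, rfl⟩
      by_contra hη
      have hli : LinearIndependent K (Fin.cons (S η) fun i : Fin n => T i.succ ξ : Fin (n + 1) → Y) :=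
        linearIndependent_finCons.mpr ⟨hξ, hη⟩
      obtain ⟨t, ht, hli'⟩ := pert _ (Fin.cons 0 fun i : Fin n => T i.succ η : Fin (n + 1) → Y) hli
      have e : (fun i => (Fin.cons (S η) fun i : Fin n => T i.succ ξ : Fin (n + 1) → Y) i +
          t • (Fin.cons 0 fun i : Fin n => T i.succ η : Fin (n + 1) → Y) i) =
          Fin.cons (S η) fun i : Fin n => T i.succ (ξ + t • η) := by
        funext i; refine Fin.cases (by simp) (fun _ => by simp) i
      rw [e, linearIndependent_finCons] at hli'
      apply hne (ξ + t • η)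
      rw [hcons, linearIndependent_finCons]
      refine ⟨hli'.1, fun hmem => hli'.2 ?_⟩
      have h1 : S (ξ + t • η) ∈ Submodule.span K (Set.range fun i : Fin n => T i.succ (ξ + t • η)) := by
        simp only [S, LinearMap.sub_apply, LinearMap.sum_apply, LinearMap.smul_apply]
        exact Submodule.sub_mem _ hmem (Submodule.sum_mem _ fun i _ => Submodule.smul_mem _ _
          (Submodule.subset_span ⟨i, rfl⟩))
      rwa [map_add, hSξ, zero_add, map_smul, Submodule.smul_mem_iff _ ht] at h1
    have h2 := Submodule.finrank_mono hle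
    rw [finrank_span_eq_card hξ, Fintype.card_fin] at h2
    omega

theorem ami9 : AmiStmt := by
  intro K U Y _ _ _ _ _ _ _ n T Y₀ h
  refine core n (fun i => Y₀.mkQ ∘ₗ T i) fun c hc => ?_
  have h1 := h c hc
  have e : ∑ i, c i • (Y₀.mkQ ∘ₗ T i) = Y₀.mkQ ∘ₗ ∑ i, c i • T i := by
    ext x; simp [LinearMap.sum_apply]
  rw [e, LinearMap.range_comp]
  set R := LinearMap.range (∑ i, c i • T i)
  have h2 := LinearMap.finrank_range_add_finrank_ker (Y₀.mkQ ∘ₗ R.subtype)
  rw [LinearMap.range_comp, Submodule.range_subtype, LinearMap.ker_comp, Submodule.ker_mkQ] at h2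
  have h3 : finrank K (Y₀.comap R.subtype) ≤ finrank K Y₀ := by
    rw [← Submodule.finrank_map_subtype_eq, Submodule.map_comap_subtype]
    exact Submodule.finrank_mono inf_le_right
  omega

end Crest.Agent.Ku.A9
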