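import Crest.Agent.Ku.Defs

set_option autoImplicit false

namespace Crest.Agent.Ku
open Module PowerSeries

namespace BstAux
section
variable {r : ℕ} {K D K₁ D₁ : Type} [Field K] [DivisionRing D] [Algebra K D] [Field K₁]
  [DivisionRing D₁] [Algebra K₁ D₁] (E : Ext r K D K₁ D₁)

lemma psi_smul (k : K) (d : D) : E.ψ (k • d) = E.φ k • E.ψ d := by
  rw [Algebra.smul_def, map_mul, E.compat, Algebra.smul_def]

lemma vpow_u (j : ℕ) : E.v ^ j * E.u = E.ζ ^ j • (E.u * E.v ^ j) := by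
  induction j with
  | zero => simp
  | succ j ih =>
    rw [pow_succ' E.v, mul_assoc, ih, mul_smul_comm, ← mul_assoc, E.vu, smul_mul_assoc, smul_smul,
      mul_assoc, pow_succ E.ζ]

lemma vpow_upow (j a : ℕ) : E.v ^ j * E.u ^ a = E.ζ ^ (j * a) • (E.u ^ a * E.v ^ j) := by
  induction a with
  | zero => simp
  | succ a ih =>
    rw [pow_succ E.u, ← mul_assoc, ih, smul_mul_assoc, mul_assoc, vpow_u, mul_smul_comm, smul_smul,
      ← mul_assoc, ← pow_add, mul_add, mul_one]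

lemma mem_ten {U : Submodule K D} {P : ℕ → ℕ → Prop} {d : D} (hd : d ∈ U) {a b : ℕ} (ha : a < r)
    (hb : b < r) (h : P a b) : E.ψ d * (E.u ^ a * E.v ^ b) ∈ E.ten U P :=
  Submodule.subset_span ⟨d, hd, a, ha, b, hb, h, rfl⟩

lemma mem_tenN (hr : 1 ≤ r) {U : Submodule K D} {d : D} (hd : d ∈ U) {a b : ℕ} (ha : a < r)
    (hb : ¬ r ∣ b) : E.ψ d * (E.u ^ a * E.v ^ b) ∈ E.tenN U := by
  obtain ⟨s, -, hs⟩ := E.vr
  have : E.v ^ b = s ^ (b / r) • E.v ^ (b % r) := by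
    conv_lhs => rw [← Nat.div_add_mod b r, pow_add, pow_mul, hs, ← map_pow, ← Algebra.smul_def]
  rw [this, mul_smul_comm, mul_smul_comm]
  refine Submodule.smul_mem _ _ (mem_ten E hd ha (Nat.mod_lt _ hr) ?_)
  intro h; exact hb (Nat.dvd_of_mod_eq_zero h)

lemma upow_mod (a : ℕ) : ∃ s : K₁, s ≠ 0 ∧ E.u ^ a = s • E.u ^ (a % r) := by
  obtain ⟨s, hs0, hs⟩ := E.ur
  refine ⟨s ^ (a / r), pow_ne_zero _ hs0, ?_⟩
  conv_lhs => rw [← Nat.div_add_mod a r, pow_add, pow_mul, hs, ← map_pow, ← Algebra.smul_def]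

lemma one_mem_tenR {a b : ℕ} (ha : a < r) (hb : b < r) : E.u ^ a * E.v ^ b ∈ E.tenR 1 := by
  have := mem_ten E (U := 1) (P := fun _ _ => True) (d := 1) (Submodule.mem_one.2 ⟨1, map_one _⟩) ha hb trivial
  rwa [map_one, one_mul] at this
end

lemma sum_t (S : St) {r : ℕ} {K₁ D₁ : Type} [Field K₁] [DivisionRing D₁] [Algebra K₁ D₁]
    (E : Ext r S.K S.D K₁ D₁) (δ : S.ι → S.K) (y : D₁) (hy : ∀ d, Commute (E.ψ d) y) :
    ∑ j, (E.φ (δ j) • y) * E.ψ (S.H [j]) = E.ψ (S.t δ) * y := by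
  unfold St.t
  rw [map_sum, Finset.sum_mul]
  refine Finset.sum_congr rfl fun j _ => ?_
  rw [psi_smul, smul_mul_assoc, smul_mul_assoc, (hy _).eq]

lemma rank_pow_succ (S : St) {b : S.D} (hb : b ∈ S.W) (hb0 : b ≠ 0) (k : ℕ) :
    finrank S.K ↥(S.W ^ k) ≤ finrank S.K ↥(S.W ^ (k + 1)) := by
  have h1 : (S.W ^ k).map (LinearMap.mulRight S.K b) ≤ S.W ^ (k + 1) := by
    rintro _ ⟨x, hx, rfl⟩
    rw [pow_succ]
    exact Submodule.mul_mem_mul hx hb
  have hinj : Function.Injective (LinearMap.mulRight S.K b) := fun x y h => mul_right_cancel₀ hb0 h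
  rw [LinearEquiv.finrank_eq (Submodule.equivMapOfInjective _ hinj (S.W ^ k))]
  exact Submodule.finrank_mono h1

/-- the core construction -/
lemma core (hB : Base) (hC : CenStmt) (hP : PtBStmt) (S : St) (hg : Good S) (R : ℕ) {b : S.D}
    (hb : b ∈ S.W) (hb0 : b ≠ 0) :
    ∃ (r : ℕ) (K₁ D₁ : Type) (_ : Field K₁) (_ : DivisionRing D₁) (_ : Algebra K₁ D₁)
      (_ : FiniteDimensional K₁ D₁) (E : Ext r S.K S.D K₁ D₁) (ω : S.ι → D₁⟦X⟧)
      (e : NC S.ι S.D →+* D₁⟦X⟧) (s : D₁⟦X⟧) (S' : St) (Λ : Submodule K₁ D₁),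
      R ≤ r ∧ 3 ≤ r ∧ Split S E ω e s S' Λ ∧
      ∀ a, ¬ r ∣ a → ∀ x ∈ S.W * S.W, E.ψ (x * b⁻¹) * E.u ^ a ∈ Λ := by
  classical
  obtain ⟨hEv, hFilt, hDer, hExp, -, -, hExt, hAlg, -⟩ := hB
  obtain ⟨hcen, -, -, -, -, ht, -⟩ := hC S hg
  obtain ⟨n, w, hw⟩ := Submodule.fg_iff_exists_fin_generating_family.1 (IsNoetherian.noetherian S.W)
  have hwW : ∀ i, w i ∈ S.W := fun i => hw ▸ Submodule.subset_span ⟨i, rfl⟩
  choose δ hδ using fun i => ht (w i) (hwW i)
  obtain ⟨δ0, hδ0⟩ := ht b hb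
  obtain ⟨r, hrge, hrp⟩ := Nat.exists_infinite_primes (R + n + 3)
  have hr1 : 1 ≤ r := by omega
  obtain ⟨K₁, D₁, _, _, _, _, _, ⟨E⟩⟩ := hExt r hr1 S.K S.D
  have hbC : b⁻¹ ∈ S.C := (hAlg S.K S.D).1 S.C b hb.2
  let y : Fin n → D₁ := fun i => E.v ^ (i.val + 1) * E.u - E.u * E.v ^ (i.val + 1)
  have hy : ∀ i d, Commute (E.ψ d) (y i) := fun i d =>
    (((E.cv d).pow_right _).mul_right (E.cu d)).sub_right ((E.cu d).mul_right ((E.cv d).pow_right _))
  have hyR : ∀ i, y i ∈ E.tenR 1 := by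
    intro i
    have h1 : E.u * E.v ^ (i.val + 1) ∈ E.tenR 1 := by
      have := one_mem_tenR E (a := 1) (b := i.val + 1) (by omega) (by omega)
      rwa [pow_one] at this
    refine Submodule.sub_mem _ ?_ h1
    rw [vpow_u]; exact Submodule.smul_mem _ _ h1
  have huR : E.u ∈ E.tenR 1 := by
    have := one_mem_tenR E (a := 1) (b := 0) (by omega) (by omega)
    simpa using this
  let ω : S.ι → D₁⟦X⟧ := fun j =>
    X ^ 2 * (C (E.φ (δ0 j) • E.u) + X * C (∑ i, E.φ (δ i j) • y i))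
  have hω2 : ∀ j, X ^ 2 ∣ ω j := fun j => Dvd.intro _ rfl
  have hω0 : ∀ j, constantCoeff (ω j) = 0 := fun j => by simp [ω]
  obtain ⟨F, hF⟩ := hFilt.1 D₁
  obtain ⟨e, he⟩ := hEv S.ι S.D D₁⟦X⟧ F (C.comp E.ψ) ω (fun j => by
      rw [hF]; intro i hi
      have : i = 0 := by omega
      subst this
      simpa using hω0 j) (fun j a => by
      have hX : ∀ z : D₁⟦X⟧, Commute z X := fun z => (commute_X z)
      refine ((hX _).pow_right 2).mul_right (Commute.add_right ?_ ((hX _).mul_right ?_))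
      · exact ((E.cu a).smul_right _).map C
      · exact (Commute.sum_right _ _ _ fun i _ => (hy i a).smul_right _).map C)
  have hadm : Adm E ω := by
    intro j i
    simp only [ω]
    rw [coeff_X_pow_mul']
    split_ifs
    · rw [map_add]
      refine Submodule.add_mem _ ?_ ?_
      · rw [coeff_C]; split_ifs
        · exact Submodule.smul_mem _ _ huR
        · exact Submodule.zero_mem _
      · rw [← pow_one X, coeff_X_pow_mul']; split_ifs
        · rw [coeff_C]; split_ifs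
          · exact Submodule.sum_mem _ fun i _ => Submodule.smul_mem _ _ (hyR i)
          · exact Submodule.zero_mem _
        · exact Submodule.zero_mem _
    · exact Submodule.zero_mem _
  obtain ⟨hE1, hE2, -⟩ := hExp S.ι S.D D₁ E.ψ ω e 2 (by norm_num) hω2 he
  obtain ⟨ρ, hρ⟩ := hE1 S.H
  let z : D₁ := ∑ i, E.ψ (w i) * y i
  have hsum : ∑ j, ω j * C (E.ψ (S.H [j])) = X ^ 2 * (C (E.ψ b * E.u) + X * C z) := by
    simp only [ω, mul_assoc, ← Finset.mul_sum, add_mul, Finset.sum_add_distrib, ← map_mul, ← map_sum]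
    congr 3
    · rw [sum_t S E δ0 E.u E.cu, hδ0]
    · congr 1
      simp only [Finset.sum_mul, z]
      rw [Finset.sum_comm]
      refine Finset.sum_congr rfl fun i _ => ?_
      rw [sum_t S E (δ i) (y i) (hy i), hδ]
  let s : D₁⟦X⟧ := C (E.ψ b * E.u) + X * C z + X ^ 2 * ρ
  have heH : e S.H = C (E.ψ S.a) + X ^ 2 * s := by
    rw [hsum] at hρ
    have : e S.H = C (E.ψ S.a) + X ^ 2 * (C (E.ψ b * E.u) + X * C z) + X ^ (2 * 2) * ρ := by
      rw [← hρ]; simp [St.a]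
    rw [this]; simp only [s, mul_add, ← mul_assoc, ← pow_add]; abel
  have hs0 : constantCoeff s = E.ψ b * E.u := by simp [s]
  have hs1 : coeff 1 s = z := by
    simp only [s, map_add]
    rw [coeff_X_pow_mul', coeff_C, show (1 : ℕ) = 0 + 1 from rfl, coeff_succ_X_mul]
    simp
  obtain ⟨S', Λ, hS⟩ := hP S r K₁ D₁ E ω e 2 s b
    ⟨hr1, hg, hcen, hadm, hω0, he, by norm_num, heH, hb, hb0, hs0⟩
  refine ⟨r, K₁, D₁, _, _, _, inferInstance, E, ω, e, s, S', Λ, by omega, by omega, hS, ?_⟩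
  have hcl := hS.2.2.2.2.2.2.2.2.2.1
  let γ : D₁ := ∑ i, E.ψ (w i * b⁻¹) * E.v ^ (i.val + 1)
  have hγ : γ ∈ E.tenR (Subalgebra.toSubmodule S.C) := by
    refine Submodule.sum_mem _ fun i _ => ?_
    have := mem_ten E (U := Subalgebra.toSubmodule S.C) (P := fun _ _ => True) (d := w i * b⁻¹)
      (S.C.mul_mem (hwW i).2 hbC) (a := 0) (b := i.val + 1) (by omega) (by omega) trivial
    rw [pow_zero, one_mul] at this
    exact this
  have hadγ : coeff 1 s - ad K₁ (constantCoeff s) γ = 0 := by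
    rw [hs1, hs0, sub_eq_zero]
    simp only [ad, LinearMap.sub_apply, LinearMap.mulRight_apply, LinearMap.mulLeft_apply, γ, z,
      Finset.sum_mul, Finset.mul_sum, ← Finset.sum_sub_distrib, y, mul_sub]
    refine Finset.sum_congr rfl fun i _ => ?_
    congr 1
    · rw [mul_assoc, ← mul_assoc (E.v ^ _), ← ((E.cv b).pow_right _).eq, mul_assoc,
        ← mul_assoc (E.ψ (w i * b⁻¹)), ← map_mul, inv_mul_cancel_right₀ hb0]
    · rw [mul_assoc, ← mul_assoc E.u, ← (E.cu _).eq, mul_assoc, ← mul_assoc (E.ψ b), ← map_mul,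
        ← mul_assoc b, ← (hcen b hb (w i) (hwW i).2).eq, mul_inv_cancel_right₀ hb0]
  have key : ∀ a, 0 < a → a < r → ∀ w' ∈ S.W, ∀ i, E.ψ (w' * w i * b⁻¹) * E.u ^ a ∈ Λ := by
    intro a ha0 har w' hw' i
    obtain ⟨δ', hδ'⟩ := ht w' hw'
    let y' : D₁ := E.u ^ a * E.v ^ (r - (i.val + 1))
    have hy' : ∀ d, Commute (E.ψ d) y' := fun d =>
      ((E.cu d).pow_right _).mul_right ((E.cv d).pow_right _)
    let l : S.ι → D₁⟦X⟧ := fun j => C (E.φ (δ' j) • y')
    obtain ⟨d, hd⟩ := (hDer S.ι S.D D₁ E.ψ ω e hω0 he).1 l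
    have hl : Adm E l := by
      intro j k
      simp only [l]
      rw [coeff_C]; split_ifs
      · exact Submodule.smul_mem _ _ (one_mem_tenR E har (by omega))
      · exact Submodule.zero_mem _
    obtain ⟨τ, hτ⟩ := (hE2 l d hd S.H).1
    have hsum' : ∑ j, l j * C (E.ψ (S.H [j])) = C (E.ψ w' * y') := by
      simp only [l, ← map_mul, ← map_sum]
      rw [sum_t S E δ' y' hy', hδ']
    have hdH : d S.H = C (E.ψ w' * y') + X ^ 2 * τ := by rw [← hτ, hsum']; simp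
    have hd0 : constantCoeff (d S.H) = E.ψ w' * y' := by rw [hdH]; simp
    have hd1 : coeff 1 (d S.H) = 0 := by
      rw [hdH, map_add, coeff_X_pow_mul', coeff_C]; simp
    obtain ⟨sv, hsv0, hsv⟩ := E.vr
    have hterm : ∀ k : Fin n, E.ψ w' * y' * (E.ψ (w k * b⁻¹) * E.v ^ (k.val + 1)) -
        E.ψ (w k * b⁻¹) * E.v ^ (k.val + 1) * (E.ψ w' * y') =
        (1 - E.ζ ^ ((k.val + 1) * a)) • (E.ψ (w' * w k * b⁻¹) *
          (E.u ^ a * E.v ^ (r - (i.val + 1) + (k.val + 1)))) := by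
      intro k
      have hc : w k * b⁻¹ * w' = w' * w k * b⁻¹ := by
        rw [(hcen w' hw' _ (S.C.mul_mem (hwW k).2 hbC)).eq, mul_assoc]
      rw [sub_smul, one_smul]
      congr 1
      · rw [mul_assoc, ← mul_assoc y', ← (hy' _).eq, mul_assoc, ← mul_assoc (E.ψ _), ← map_mul,
          ← mul_assoc w', pow_add E.v (r - _)]
        simp only [y', mul_assoc]
      · rw [mul_assoc, ← mul_assoc (E.v ^ _), ← ((E.cv w').pow_right _).eq, mul_assoc,
          ← mul_assoc (E.ψ _), ← map_mul, hc]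
        simp only [y']
        rw [← mul_assoc (E.v ^ _), vpow_upow, smul_mul_assoc, mul_smul_comm, mul_assoc (E.u ^ a),
          ← pow_add E.v, add_comm (k.val + 1) (r - _)]
    have hmemC : ∀ k, w' * w k * b⁻¹ ∈ Subalgebra.toSubmodule S.C := fun k =>
      S.C.mul_mem (S.C.mul_mem hw'.2 (hwW k).2) hbC
    have hζ : (1 - E.ζ ^ ((i.val + 1) * a)) ≠ 0 := by
      rw [sub_ne_zero, ne_comm, Ne, E.hζ.pow_eq_one_iff_dvd, hrp.dvd_mul]
      rintro (h | h)
      · have := Nat.le_of_dvd (by omega) h; omega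
      · have := Nat.le_of_dvd ha0 h; omega
    have hz := hcl l d hl hd (by
        rw [hd0]
        refine mem_tenN E hr1 hw'.2 har fun h => ?_
        have := Nat.le_of_dvd (by omega) h; omega) hd1 γ hγ (by rw [hadγ]; exact Submodule.zero_mem _)
      (((1 - E.ζ ^ ((i.val + 1) * a)) * sv) • (E.ψ (w' * w i * b⁻¹) * E.u ^ a))
      (Submodule.smul_mem _ _ (by
        have := mem_ten E (P := fun _ b => b = 0) (hmemC i) har (b := 0) (by omega) rfl
        rw [pow_zero, mul_one] at this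
        exact this)) (by
        rw [hd0]
        simp only [ad, LinearMap.sub_apply, LinearMap.mulRight_apply, LinearMap.mulLeft_apply, γ,
          Finset.sum_mul, Finset.mul_sum, ← Finset.sum_sub_distrib, hterm]
        rw [← Finset.add_sum_erase _ _ (Finset.mem_univ i), show r - (i.val + 1) + (i.val + 1) = r by omega,
          hsv, ← Algebra.commutes, ← Algebra.smul_def, mul_smul_comm, smul_smul, add_sub_cancel_left]
        refine Submodule.sum_mem _ fun k hk => Submodule.smul_mem _ _ (mem_tenN E hr1 (hmemC k) har ?_)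
        have hki : k.val ≠ i.val := fun h => (Finset.mem_erase.1 hk).1 (Fin.ext h)
        rintro ⟨c, hc⟩
        have hi := i.2
        have hk' := k.2
        rcases c with _ | _ | c
        · omega
        · omega
        · have : r * (c + 1 + 1) = r * c + 2 * r := by ring
          omega)
    exact (Submodule.smul_mem_iff _ (mul_ne_zero hζ hsv0)).1 hz
  intro a ha x hx
  obtain ⟨su, -, hsu⟩ := upow_mod E a
  rw [hsu, mul_smul_comm]
  refine Submodule.smul_mem _ _ ?_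
  have ha0 : 0 < a % r := Nat.pos_of_ne_zero fun h => ha (Nat.dvd_of_mod_eq_zero h)
  have har : a % r < r := Nat.mod_lt _ hr1
  refine Submodule.mul_induction_on hx (fun w' hw' w'' hw'' => ?_) (fun x y hx hy => ?_)
  · rw [← hw] at hw''
    obtain ⟨c, rfl⟩ := (Submodule.mem_span_range_iff_exists_fun _).1 hw''
    simp only [Finset.mul_sum, Finset.sum_mul, map_sum, mul_smul_comm, smul_mul_assoc, psi_smul]
    exact Submodule.sum_mem _ fun i _ => Submodule.smul_mem _ _ (key _ ha0 har w' hw' i)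
  · rw [add_mul, map_add, add_mul]; exact Submodule.add_mem _ hx hy

lemma pow_mem (S : St) (hcen : S.Cen) {b : S.D} (hb : b ∈ S.W) {r : ℕ} {K₁ D₁ : Type} [Field K₁]
    [DivisionRing D₁] [Algebra K₁ D₁] (E : Ext r S.K S.D K₁ D₁) (hr : 3 ≤ r) (Λ : Submodule K₁ D₁)
    (h1 : ∀ a, ¬ r ∣ a → ∀ x ∈ S.W * S.W, E.ψ (x * b⁻¹) * E.u ^ a ∈ Λ) (j : ℕ) :
    ∀ a, (j = 0 → ¬ r ∣ a) → ∀ x ∈ (S.W * S.W) ^ (j + 1),
      E.ψ (x * b⁻¹ ^ (j + 1)) * E.u ^ a ∈ Λ ^ (j + 1) := by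
  induction j with
  | zero => intro a ha x hx; simp only [zero_add, pow_one] at hx ⊢; exact h1 a (ha rfl) x hx
  | succ j ih =>
    intro a _ x hx
    obtain ⟨a1, a2, h1', h2', hs⟩ : ∃ a1 a2, ¬ r ∣ a1 ∧ ¬ r ∣ a2 ∧ a1 + a2 = a + r := by
      by_cases h : r ∣ (a + r - 1)
      · refine ⟨a + r - 2, 2, fun h' => ?_, fun h' => ?_, by omega⟩
        · have := (Nat.dvd_sub h h')
          rw [show a + r - 1 - (a + r - 2) = 1 by omega] at this
          have := Nat.le_of_dvd (by omega) this; omega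
        · have := Nat.le_of_dvd (by omega) h'; omega
      · refine ⟨a + r - 1, 1, h, fun h' => ?_, by omega⟩
        have := Nat.le_of_dvd (by omega) h'; omega
    obtain ⟨s, hs0, hsu⟩ := E.ur
    have hWC : ∀ y ∈ S.W * S.W, Commute y b := by
      intro y hy
      refine Submodule.mul_induction_on hy (fun w hw w' hw' => ?_) (fun x y hx hy => hx.add_left hy)
      exact (hcen b hb w hw.2).mul_left (hcen b hb w' hw'.2)
    rw [pow_succ] at hx
    rw [← Submodule.smul_mem_iff _ hs0]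
    refine Submodule.mul_induction_on hx (fun y hy y' hy' => ?_) (fun x y hx hy => ?_)
    · have e1 : s • (E.ψ (y * y' * b⁻¹ ^ (j + 1 + 1)) * E.u ^ a) =
          (E.ψ (y * b⁻¹ ^ (j + 1)) * E.u ^ a1) * (E.ψ (y' * b⁻¹) * E.u ^ a2) := by
        have hc : Commute y' (b⁻¹ ^ (j + 1)) := ((hWC y' hy').inv_right₀).pow_right _
        rw [mul_assoc (E.ψ _) (E.u ^ a1), ← mul_assoc (E.u ^ a1), ← ((E.cu _).pow_right a1).eq,
          mul_assoc (E.ψ (y' * b⁻¹)), ← pow_add, hs, pow_add E.u, hsu, ← Algebra.commutes,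
          ← Algebra.smul_def, mul_smul_comm, mul_smul_comm, ← mul_assoc (E.ψ _), ← map_mul,
          pow_succ b⁻¹ (j + 1), mul_assoc y y', ← mul_assoc y', hc.eq]
        simp only [mul_assoc]
      rw [e1, pow_succ Λ (j + 1)]
      exact Submodule.mul_mem_mul (ih a1 (fun _ => h1') y hy) (h1 a2 h2' y' hy')
    · rw [add_mul, map_add, add_mul, smul_add]; exact Submodule.add_mem _ hx hy

lemma rank_map (S : St) {c : S.D} (hc : c ≠ 0) (U : Submodule S.K S.D) :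
    finrank S.K ↥(U.map (LinearMap.mulRight S.K c)) = finrank S.K U := by
  have hinj : Function.Injective (LinearMap.mulRight S.K c) := fun x y h => mul_right_cancel₀ hc h
  exact (LinearEquiv.finrank_eq (Submodule.equivMapOfInjective _ hinj U)).symm

lemma pw_of (hT : TenStmt) (S : St) (hcen : S.Cen) {b : S.D} (hb : b ∈ S.W) (hb0 : b ≠ 0) {r : ℕ}
    {K₁ D₁ : Type} [Field K₁] [DivisionRing D₁] [Algebra K₁ D₁] [FiniteDimensional K₁ D₁]
    (E : Ext r S.K S.D K₁ D₁) (hr : 3 ≤ r) {ω e s S' Λ} (hS : Split S E ω e s S' Λ)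
    (h1 : ∀ a, ¬ r ∣ a → ∀ x ∈ S.W * S.W, E.ψ (x * b⁻¹) * E.u ^ a ∈ Λ) (j : ℕ) (hj : 2 ≤ j)
    (hp : S.Pw (2 * j)) : S'.Pw j := by
  obtain ⟨j, rfl⟩ : ∃ k, j = k + 1 := ⟨j - 1, by omega⟩
  have hle : E.tenL ((S.W ^ (2 * (j + 1))).map (LinearMap.mulRight S.K (b⁻¹ ^ (j + 1)))) ≤ Λ ^ (j + 1) := by
    refine Submodule.span_le.2 ?_
    rintro _ ⟨_, ⟨x, hx, rfl⟩, a, -, b', -, rfl, rfl⟩
    rw [pow_mul, sq] at hx
    have := pow_mem S hcen hb E hr Λ h1 j a (by omega) x hx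
    simpa using this
  have h2 := Submodule.finrank_mono hle
  rw [(hT r S.K S.D K₁ D₁ E (by omega)).2.1, rank_map S (pow_ne_zero _ (inv_ne_zero hb0))] at h2
  unfold St.Pw at hp ⊢
  rw [hS.2.2.2.1]
  exact (Nat.mul_le_mul_left _ hp).trans (h2.trans (hS.2.2.2.2.2.2.2.1 _))

end BstAux
open BstAux

theorem bst (hB : Base) (hC : CenStmt) (hP : PtBStmt) : BstStmt := by
  intro S hg
  have hT : TenStmt := hB.2.2.2.2.2.2.2.2.1
  obtain ⟨b, hb, hb0⟩ := Submodule.exists_mem_ne_zero_of_ne_bot hg.1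
  obtain ⟨hcen, hVf, hWV, -, hV, -⟩ := hC S hg
  obtain ⟨r, K₁, D₁, _, _, _, _, E, ω, e, s, S', Λ, hR, hr3, hS, h1⟩ :=
    core hB hC hP S hg (4 * (S.c + 2) * (S.f + 1) + 2 * S.c + 1) hb hb0
  refine ⟨fun j hj hp => ⟨S', r, hS.1, hS.2.1, hS.2.2.1, hS.2.2.2.1,
    pw_of hT S hcen hb hb0 E hr3 hS h1 j hj hp⟩, fun hp => ?_⟩
  have hp4 : S.Pw (2 * 2) := by
    unfold St.Pw at hp ⊢
    exact hp.trans ((rank_pow_succ S hb hb0 2).trans (rank_pow_succ S hb hb0 3))
  have hU : (S.W * S.W).map (LinearMap.mulRight S.K b⁻¹) = S.V := by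
    refine Submodule.eq_of_le_of_finrank_le ?_ ?_
    · rintro _ ⟨x, hx, rfl⟩
      refine Submodule.mul_induction_on hx (fun w hw w' hw' => ?_) (fun x y hx hy => ?_)
      · rw [LinearMap.mulRight_apply, hV b hb hb0]
        have hc : Commute w' b⁻¹ := (hcen b hb w' hw'.2).inv_right₀
        rw [mul_assoc w, hc.eq, ← mul_assoc, mul_assoc (w * b⁻¹)]
        exact S.F0.mul_mem (Algebra.subset_adjoin ⟨w, hw, b, hb, rfl⟩)
          (Algebra.subset_adjoin ⟨w', hw', b, hb, rfl⟩)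
      · rw [map_add]; exact Submodule.add_mem _ hx hy
    · rw [rank_map S (inv_ne_zero hb0), hVf, ← sq]; exact hp
  have hL0 : E.tenL0 S.V ≤ Λ := by
    rw [← hU]
    refine Submodule.span_le.2 ?_
    rintro _ ⟨_, ⟨x, hx, rfl⟩, a, har, b', -, ⟨ha0, rfl⟩, rfl⟩
    have := h1 a (fun h => by have := Nat.le_of_dvd (by omega) h; omega) x hx
    simpa using this
  have hdim := Submodule.finrank_mono (sup_le hS.2.2.2.2.2.1 hL0)
  rw [(hT r S.K S.D K₁ D₁ E (by omega)).2.2.2.1 _ _ hWV, hVf, hS.2.2.2.2.1] at hdim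
  have hf := hS.2.2.2.1
  have hc := hS.2.2.1
  have hw : S'.f + S.w ≤ S.f + S'.w := by
    obtain ⟨r', rfl⟩ : ∃ k, r = k + 1 := ⟨r - 1, by omega⟩
    have : finrank S.K S.W = S.w := rfl
    rw [hf]; simp only [Nat.add_sub_cancel, add_mul, one_mul] at hdim ⊢; omega
  have hM : 4 * (S'.c + 2) * (S'.f - S'.w + 1) + 2 * (r * S.c) ≤ r * (r - 1) := by
    have h2 : S'.f - S'.w + 1 ≤ S.f + 1 := by omega
    have h3 : S'.c + 2 ≤ r * (S.c + 2) := by rw [hc]; nlinarith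
    calc 4 * (S'.c + 2) * (S'.f - S'.w + 1) + 2 * (r * S.c)
        ≤ 4 * (r * (S.c + 2)) * (S.f + 1) + 2 * (r * S.c) := by gcongr
      _ = r * (4 * (S.c + 2) * (S.f + 1) + 2 * S.c) := by ring
      _ ≤ r * (r - 1) := Nat.mul_le_mul_left _ (by omega)
  refine ⟨S', r, hS.1, hS.2.1, hc, hf, pw_of hT S hcen hb hb0 E hr3 hS h1 2 le_rfl hp4, hw,
    hS.2.2.2.2.2.2.2.2.2.2 hp hL0 _ hM, ?_⟩
  have : r * (r - 1) ≤ r ^ 2 := by rw [sq]; exact Nat.mul_le_mul_left _ (by omega)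
  omega

end Crest.Agent.Ku
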