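import Crest.Agent.Ku.Pt0

set_option autoImplicit false

namespace Crest.Agent.Ku
open Module PowerSeries

lemma finrank_le_of_mulRight {K D : Type} [Field K] [DivisionRing D] [Algebra K D]
    [FiniteDimensional K D] {U U' : Submodule K D} {b : D} (hb : b ≠ 0) (h : ∀ z ∈ U, z * b ∈ U') :
    finrank K U ≤ finrank K U' := by
  have hi : Function.Injective (LinearMap.mulRight K b) := fun x y hxy => mul_right_cancel₀ hb hxy
  rw [(Submodule.equivMapOfInjective _ hi U).finrank_eq]
  refine Submodule.finrank_mono ?_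
  rintro _ ⟨z, hz, rfl⟩
  exact h z hz

lemma St.t_mem_W (S : St) (hN : S.Normal) (l : S.ι → S.K) : S.t l ∈ S.W :=
  ⟨Submodule.mem_sup_left (Submodule.sum_mem _ fun j _ => Submodule.smul_mem _ _
    (Submodule.subset_span ⟨j, rfl⟩)), Submodule.sum_mem _ fun _ _ => Submodule.smul_mem _ _ (hN _)⟩

lemma St.exists_t (hA : AlgStmt) (S : St) (hN : S.Normal) (b : S.D) (hb : b ∈ S.W) :
    ∃ l, S.t l = b := by
  obtain ⟨h1, h2⟩ := hb
  obtain ⟨s, hs, z, hz, rfl⟩ := Submodule.mem_sup.mp h1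
  obtain ⟨l, rfl⟩ := (Submodule.mem_span_range_iff_exists_fun _).mp hs
  refine ⟨l, ?_⟩
  have hd := ((hA S.K S.D).2.2.1 S.a).disjoint
  have hz0 : z = 0 := by
    refine (Submodule.disjoint_def.mp hd) z ?_ hz
    have := Submodule.sub_mem _ h2 (S.W_le_C (S.t_mem_W hN l))
    rwa [St.t, add_sub_cancel_left] at this
  rw [hz0, add_zero]; rfl

theorem cen (hB : Base) (_hR : RelStmt) (hA : PtAStmt) (hM : MoveStmt) : CenStmt := by
  obtain ⟨-, -, -, hExp, -, hLead, hExt, hAlg, hTen, -⟩ := hB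
  rintro S ⟨hW, hH, -, hN⟩
  have hcen : S.Cen := by
    intro b hb z hz
    by_cases hb0 : b = 0
    · rw [hb0]; exact Commute.zero_right z
    obtain ⟨l, hl⟩ := S.exists_t hAlg hN b hb
    obtain ⟨K₁, D₁, _, _, _, _, _, ⟨E⟩⟩ := hExt 1 le_rfl S.K S.D
    haveI : CharZero K₁ := charZero_of_injective_algebraMap (algebraMap ℂ K₁).injective
    have h1 : (1 : D₁) ∈ E.tenR 1 := by
      simpa [Ext.tenR] using E.mono_one le_rfl (P := fun _ _ => True) 0 0 trivial
    let ω : S.ι → D₁⟦X⟧ := fun j => X * C (E.φ (l j) • (1 : D₁))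
    have hAdm : Adm E ω := by
      intro j i
      cases i with
      | zero => simp [ω]
      | succ i =>
        simp only [ω, coeff_succ_X_mul, coeff_C]
        split_ifs
        · exact Submodule.smul_mem _ _ h1
        · exact Submodule.zero_mem _
    have h0 : ∀ j, constantCoeff (ω j) = 0 := fun j => by simp [ω]
    obtain ⟨e, he⟩ := E.exists_ev ω hAdm h0
    obtain ⟨t, ht⟩ := (hExp S.ι S.D D₁ E.ψ ω e 1 le_rfl (fun j => by simp [ω]) he).1 S.H
    have hsum : ∑ j, ω j * C (E.ψ (S.H [j])) = X * C (E.ψ b) := by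
      simp only [ω, mul_assoc, ← map_mul, ← Finset.mul_sum, ← map_sum]
      rw [Ext.sum_t S E l h1, hl, mul_one]
    have heH : e S.H = C (E.ψ S.a) + X ^ 1 * (C (E.ψ b) + X * t) := by
      rw [hsum, sub_sub, sub_eq_iff_eq_add] at ht
      rw [ht, St.a, pow_one, mul_add, ← mul_assoc, ← pow_two]; abel
    obtain ⟨S', hrel, ⟨P⟩⟩ := hA S 1 K₁ D₁ E ω e 1 le_rfl hAdm h0 he
    have hc : constantCoeff (C (E.ψ b) + X * t) = E.ψ b := by simp
    obtain ⟨hW', hlead⟩ := hM S 1 K₁ D₁ E ω e 1 S' P 1 _ le_rfl hN hAdm h0 he le_rfl heH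
      (by rw [hc]; exact (map_ne_zero E.ψ).mpr hb0) (by simp) (fun i => by
        simp only [Units.val_one, coeff_one]; split_ifs
        · exact Commute.one_left _
        · exact Commute.zero_left _)
    rw [hc] at hlead
    have hlt := hH S' 1 hrel hW'
    obtain ⟨B, hB, hBd⟩ := (hLead K₁ D₁ S'.K S'.D P.L).2.2.1 S'.C
    have hT := hTen 1 S.K S.D K₁ D₁ E le_rfl
    have hd : finrank K₁ (Subalgebra.centralizer K₁ {E.ψ S.a}) = S.c := by
      have := hT.1 (Subalgebra.toSubmodule S.C)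
      rw [St.C, ← hT.2.2.2.2.2.2.1 S.a] at this
      rw [one_pow, one_mul] at this
      exact this
    have hle : Subalgebra.centralizer K₁ {E.ψ S.a, E.ψ b} ≤ Subalgebra.centralizer K₁ {E.ψ S.a} :=
      Subalgebra.centralizer_le K₁ _ _ (by simp)
    have hBle : B ≤ Subalgebra.centralizer K₁ {E.ψ S.a, E.ψ b} := fun x hx => hlead (hB ▸ hx)
    have hB2 : finrank K₁ B ≤ finrank K₁ (Subalgebra.centralizer K₁ {E.ψ S.a, E.ψ b}) :=
      Submodule.finrank_mono (s := Subalgebra.toSubmodule B)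
        (t := Subalgebra.toSubmodule (Subalgebra.centralizer K₁ {E.ψ S.a, E.ψ b})) hBle
    rcases hle.lt_or_eq with hlt' | heq
    · have := (hAlg K₁ D₁).2.1 _ _ hlt'
      have e1 : S'.c = finrank S'.K S'.C := rfl
      omega
    · have hz1 : E.ψ z ∈ Subalgebra.centralizer K₁ {E.ψ S.a} := by
        rw [Subalgebra.mem_centralizer_iff]
        rintro _ rfl
        exact (((S.mem_C z).1 hz).map E.ψ).symm
      rw [← heq, Subalgebra.mem_centralizer_iff] at hz1
      have := hz1 (E.ψ b) (by simp)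
      rw [← map_mul, ← map_mul] at this
      exact (E.ψ.injective this).symm
  have hF0C : S.F0 ≤ S.C := by
    refine Algebra.adjoin_le ?_
    rintro _ ⟨w, hw, b, hb, rfl⟩
    exact S.C.mul_mem (S.W_le_C hw) (S.inv_mem_C (S.W_le_C hb))
  have hV : ∀ b ∈ S.W, b ≠ 0 → ∀ z, z ∈ S.V ↔ z * b⁻¹ ∈ S.F0 := by
    intro b hb hb0 z
    constructor
    · intro hz
      refine Submodule.mul_induction_on hz (fun x hx w hw => ?_) fun x y hx hy => ?_
      · rw [mul_assoc]
        exact S.F0.mul_mem hx (Algebra.subset_adjoin ⟨w, hw, b, hb, rfl⟩)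
      · rw [add_mul]; exact S.F0.add_mem hx hy
    · intro hz
      have := Submodule.mul_mem_mul (M := Subalgebra.toSubmodule S.F0) hz hb
      rwa [inv_mul_cancel_right₀ hb0] at this
  obtain ⟨b, hb, hb0⟩ := Submodule.exists_mem_ne_zero_of_ne_bot hW
  refine ⟨hcen, le_antisymm ?_ ?_, fun w hw => ?_, ?_, hV, S.exists_t hAlg hN, S.t_mem_W hN, ?_⟩
  · exact finrank_le_of_mulRight (U' := Subalgebra.toSubmodule S.F0) (inv_ne_zero hb0)
      fun z hz => (hV b hb hb0 z).1 hz
  · exact finrank_le_of_mulRight (U := Subalgebra.toSubmodule S.F0) hb0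
      fun z hz => (hV b hb hb0 _).2 (by rwa [mul_inv_cancel_right₀ hb0])
  · have := Submodule.mul_mem_mul (M := Subalgebra.toSubmodule S.F0) S.F0.one_mem hw
    rwa [one_mul] at this
  · exact Submodule.finrank_mono (s := Subalgebra.toSubmodule S.F0) (t := Subalgebra.toSubmodule S.C) hF0C
  · have hmono : ∀ z n, z * b ^ n ∈ S.W ^ n → ∀ m, z * b ^ (n + m) ∈ S.W ^ (n + m) := by
      intro z n h m
      rw [pow_add, pow_add, ← mul_assoc]
      exact Submodule.mul_mem_mul h (Submodule.pow_mem_pow _ hb m)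
    let A : Subalgebra S.K S.D :=
      { carrier := {z | z ∈ S.C ∧ ∃ n, z * b ^ n ∈ S.W ^ n}
        mul_mem' := by
          rintro x y ⟨hx, n, hn⟩ ⟨hy, m, hm⟩
          refine ⟨S.C.mul_mem hx hy, n + m, ?_⟩
          have := Submodule.mul_mem_mul hn hm
          rw [← pow_add] at this
          convert this using 1
          rw [pow_add, mul_assoc, mul_assoc, ← mul_assoc y, ((hcen b hb y hy).pow_right n).eq,
            mul_assoc]
        add_mem' := by
          rintro x y ⟨hx, n, hn⟩ ⟨hy, m, hm⟩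
          refine ⟨S.C.add_mem hx hy, n + m, ?_⟩
          rw [add_mul]
          exact Submodule.add_mem _ (hmono _ _ hn m) (by rw [add_comm n m]; exact hmono _ _ hm n)
        algebraMap_mem' := fun k => ⟨S.C.algebraMap_mem k, 0, by
          rw [pow_zero, pow_zero, mul_one]; exact Submodule.mem_one.mpr ⟨k, rfl⟩⟩ }
    have hgen : ∀ w ∈ S.W, w * b⁻¹ ∈ A := fun w hw =>
      ⟨S.C.mul_mem (S.W_le_C hw) (S.inv_mem_C (S.W_le_C hb)), 1, by
        rwa [pow_one, pow_one, inv_mul_cancel_right₀ hb0]⟩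
    have hFA : S.F0 ≤ A := by
      refine Algebra.adjoin_le ?_
      rintro _ ⟨w, hw, b', hb', rfl⟩
      have := A.mul_mem (hgen w hw) ((hAlg S.K S.D).1 A _ (hgen b' hb'))
      rwa [mul_inv_rev, inv_inv, mul_assoc, inv_mul_cancel_left₀ hb0] at this
    let U : ℕ →o Submodule S.K S.D :=
      { toFun := fun n => (S.W ^ n).comap (LinearMap.mulRight S.K (b ^ n))
        monotone' := fun n m hnm z hz => by
          obtain ⟨k, rfl⟩ := Nat.exists_eq_add_of_le hnm
          exact hmono z n hz k }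
    obtain ⟨N, hNN⟩ := monotone_stabilizes_iff_noetherian.mpr (inferInstance : IsNoetherian S.K S.D) U
    refine ⟨N, finrank_le_of_mulRight (U := Subalgebra.toSubmodule S.F0)
      (pow_ne_zero (2 ^ (N + 1)) hb0) fun z hz => ?_⟩
    obtain ⟨-, n, hn⟩ := hFA hz
    have h1 : z ∈ U (N + n) := U.monotone (Nat.le_add_left n N) hn
    rw [← hNN _ (Nat.le_add_right N n)] at h1
    exact U.monotone ((Nat.lt_two_pow_self (n := N)).le.trans (Nat.pow_le_pow_right (by norm_num)
      (Nat.le_succ N))) h1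

end Crest.Agent.Ku
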