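import Crest.Agent.Ku.Defs

set_option autoImplicit false
set_option linter.style.haveILetI false

namespace Crest.Agent.Ku
open Module Filter

abbrev FW' := FreeAlgebra ℤ (ℕ ⊕ Bool)

noncomputable def evNC (S : St) (v : ℕ → S.K) : FW' →+* NC S.ι S.D :=
  (FreeAlgebra.lift ℤ (fun z : ℕ ⊕ Bool => match z with
    | .inl i => algebraMap S.K (NC S.ι S.D) (v i)
    | .inr b => cond b S.x S.y)).toRingHom

lemma evNC_inl (S : St) (v : ℕ → S.K) (i : ℕ) :
    evNC S v (FreeAlgebra.ι ℤ (Sum.inl i)) = algebraMap S.K (NC S.ι S.D) (v i) :=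
  FreeAlgebra.lift_ι_apply _ _

lemma evNC_inr (S : St) (v : ℕ → S.K) (b : Bool) :
    evNC S v (FreeAlgebra.ι ℤ (Sum.inr b)) = cond b S.x S.y :=
  FreeAlgebra.lift_ι_apply _ _

noncomputable def rk (S : St) : ℕ := finrank S.K (Algebra.adjoin S.K {S.x [], S.y []})

def Pure (w : FW') : Prop :=
  w ∈ Submonoid.closure (Set.range fun b => FreeAlgebra.ι ℤ (Sum.inr b : ℕ ⊕ Bool))

lemma pure_compat {S S' : St} (v : ℕ → S.K) (v' : ℕ → S'.K) (Φ : NC S.ι S.D →+* NC S'.ι S'.D)
    (hx : Φ S.x = S'.x) (hy : Φ S.y = S'.y) {w : FW'} (hw : Pure w) :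
    Φ (evNC S v w) = evNC S' v' w := by
  induction hw using Submonoid.closure_induction with
  | mem z hz =>
    obtain ⟨b, rfl⟩ := hz
    simp only [evNC_inr]
    cases b
    · exact hy
    · exact hx
  | one => simp
  | mul a b _ _ ha hb => simp [ha, hb]

lemma pure_mem (S : St) (v : ℕ → S.K) {w : FW'} (hw : Pure w) :
    evNC S v w [] ∈ Algebra.adjoin S.K ({S.x [], S.y []} : Set S.D) := by
  induction hw using Submonoid.closure_induction with
  | mem z hz =>
    obtain ⟨b, rfl⟩ := hz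
    simp only [evNC_inr]
    cases b
    · exact Algebra.subset_adjoin (by simp)
    · exact Algebra.subset_adjoin (by simp)
  | one => rw [map_one]; exact Subalgebra.one_mem _
  | mul a b _ _ ha hb => rw [map_mul]; exact Subalgebra.mul_mem _ ha hb

lemma exists_pure (S : St) (v : ℕ → S.K) : ∃ g : Fin (rk S) → FW', (∀ i, Pure (g i)) ∧
    LinearIndependent S.K fun i => evNC S v (g i) [] := by
  obtain ⟨b, hb1, hb2, hb3⟩ := exists_linearIndependent S.K
    (Submonoid.closure ({S.x [], S.y []} : Set S.D) : Set S.D)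
  haveI : Finite b := hb3.finite
  haveI := Fintype.ofFinite b
  have hc : Fintype.card b = rk S := by
    have h1 := finrank_span_eq_card hb3
    rw [Subtype.range_coe, hb2, ← Algebra.adjoin_eq_span] at h1
    exact h1.symm
  have hp : ∀ z ∈ Submonoid.closure ({S.x [], S.y []} : Set S.D),
      ∃ w, Pure w ∧ evNC S v w [] = z := by
    intro z hz
    induction hz using Submonoid.closure_induction with
    | mem z hz =>
      rcases hz with rfl | rfl
      · exact ⟨_, Submonoid.subset_closure ⟨true, rfl⟩, by rw [evNC_inr]; rfl⟩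
      · exact ⟨_, Submonoid.subset_closure ⟨false, rfl⟩, by rw [evNC_inr]; rfl⟩
    | one => exact ⟨1, Submonoid.one_mem _, by rw [map_one]; rfl⟩
    | mul a b _ _ ha hb =>
      obtain ⟨u, hu, rfl⟩ := ha
      obtain ⟨w, hw, rfl⟩ := hb
      exact ⟨u * w, Submonoid.mul_mem _ hu hw, by rw [map_mul]; rfl⟩
  choose w hw1 hw2 using fun z : b => hp z.1 (hb1 z.2)
  let e : Fin (rk S) ≃ b := (Fintype.equivFinOfCardEq hc).symm
  refine ⟨fun i => w (e i), fun i => hw1 _, ?_⟩
  simp only [hw2]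
  exact hb3.comp e e.injective

lemma rk_le_of {S : St} (v : ℕ → S.K) {n : ℕ} (g : Fin n → FW') (hg : ∀ i, Pure (g i))
    (h : LinearIndependent S.K fun i => evNC S v (g i) []) : n ≤ rk S := by
  have h2 : LinearIndependent S.K fun i => (⟨evNC S v (g i) [], pure_mem S v (hg i)⟩ :
      Algebra.adjoin S.K ({S.x [], S.y []} : Set S.D)) :=
    LinearIndependent.of_comp (Subalgebra.val _).toLinearMap h
  simpa [rk] using h2.fintype_card_le_finrank

lemma rk_mono {S S' : St} (h : Rel0 S S') : rk S ≤ rk S' := by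
  obtain ⟨φ, Φ, -, hx, hy, -, hi⟩ := h
  obtain ⟨g, hg, hli⟩ := exists_pure S 0
  refine rk_le_of 0 g hg ?_
  have := hi _ _ hli
  simpa only [fun i => pure_compat 0 0 Φ hx hy (hg i)] using this

structure Tt where
  S : St
  v : ℕ → S.K
  N : ℕ
  room : S.room 1

def Stp (w : FW') (t t' : Tt) : Prop :=
  ∃ (φ : t.S.K →+* t'.S.K) (Φ : NC t.S.ι t.S.D →+* NC t'.S.ι t'.S.D),
    (∀ k, Φ (algebraMap _ _ k) = algebraMap _ _ (φ k)) ∧ Φ t.S.x = t'.S.x ∧ Φ t.S.y = t'.S.y ∧
    (∀ (n : ℕ) (g : Fin n → NC t.S.ι t.S.D), LinearIndependent t.S.K (fun i => g i []) →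
      LinearIndependent t'.S.K (fun i => Φ (g i) [])) ∧
    (∀ i < t.N, t'.v i = φ (t.v i)) ∧ rk t.S < rk t'.S ∧
    ∃ d, t.N + d < t'.N ∧ t'.v (t.N + d) ≠ 0 ∧
      ∑ j ∈ Finset.range (d + 1), algebraMap _ _ (t'.v (t.N + j)) * Φ (evNC t.S t.v w) ^ j = 0

lemma stp_exists (hK : KeyStmt) (hG : GrowStmt) (w : FW') (t : Tt) : ∃ t', Stp w t t' := by
  let S1 : St := { t.S with H := evNC t.S t.v w }
  have hp : S1.IsPoly := by
    have : ∀ w : FW', ∃ h : FreeAlgebra t.S.K Bool,
        FreeAlgebra.lift t.S.K (fun b => cond b t.S.x t.S.y) h = evNC t.S t.v w := by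
      intro w
      induction w using FreeAlgebra.induction with
      | grade0 r => exact ⟨(r : FreeAlgebra t.S.K Bool), by simp⟩
      | grade1 z =>
        rcases z with i | b
        · exact ⟨algebraMap _ _ (t.v i), by rw [evNC_inl, AlgHom.commutes]⟩
        · exact ⟨FreeAlgebra.ι _ b, by rw [evNC_inr, FreeAlgebra.lift_ι_apply]⟩
      | mul a b ha hb =>
        obtain ⟨u, hu⟩ := ha
        obtain ⟨u', hu'⟩ := hb
        exact ⟨u * u', by rw [map_mul, map_mul, hu, hu']⟩
      | add a b ha hb =>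
        obtain ⟨u, hu⟩ := ha
        obtain ⟨u', hu'⟩ := hb
        exact ⟨u + u', by rw [map_add, map_add, hu, hu']⟩
    obtain ⟨h, hh⟩ := this w
    exact ⟨h, 1, by simp only [inv_one, Units.val_one, one_mul, mul_one]; exact hh.symm⟩
  obtain ⟨S2, h12, hr2, p, hp0, hpe⟩ := hK S1 hp t.room
  obtain ⟨S3, h23, hr3, hlt⟩ := hG S2 hr2
  have hle := rk_mono h12
  obtain ⟨φ1, Φ1, a1, x1, y1, ⟨G, hG1⟩, i1⟩ := h12
  obtain ⟨φ2, Φ2, a2, x2, y2, -, i2⟩ := h23
  refine ⟨⟨S3, fun i => if i < t.N then φ2 (φ1 (t.v i)) else φ2 (p.coeff (i - t.N)),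
    t.N + p.natDegree + 1, hr3⟩, φ2.comp φ1, Φ2.comp Φ1, fun k => ?_, ?_, ?_,
    fun n g hg => i2 _ _ (i1 _ _ hg), fun i hi => if_pos hi, lt_of_le_of_lt hle hlt,
    p.natDegree, by simp, ?_, ?_⟩
  · exact (congrArg Φ2 (a1 k)).trans (a2 _)
  · exact (congrArg Φ2 x1).trans x2
  · exact (congrArg Φ2 y1).trans y2
  · simp only [add_lt_iff_neg_left, not_lt_zero, if_false, Nat.add_sub_cancel_left]
    exact (map_ne_zero φ2).2 (Polynomial.leadingCoeff_ne_zero.2 hp0)
  · simp only [add_lt_iff_neg_left, not_lt_zero, if_false, Nat.add_sub_cancel_left]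
    rw [Polynomial.aeval_eq_sum_range, hG1] at hpe
    have h1 : ∑ j ∈ Finset.range (p.natDegree + 1),
        algebraMap _ _ (p.coeff j) * Φ1 S1.H ^ j = 0 := by
      have h2 : (G : NC S2.ι S2.D) * (∑ i ∈ Finset.range (p.natDegree + 1),
          p.coeff i • (↑G⁻¹ * Φ1 S1.H * ↑G) ^ i) * ↑G⁻¹ = 0 := by rw [hpe]; simp
      rw [← h2, Finset.mul_sum, Finset.sum_mul]
      refine Finset.sum_congr rfl fun j _ => ?_
      rw [Units.conj_pow', mul_smul_comm, smul_mul_assoc, Algebra.smul_def]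
      congr 1
      simp [mul_assoc]
    have h3 := congrArg Φ2 h1
    rw [map_sum, map_zero] at h3
    rw [← h3]
    refine Finset.sum_congr rfl fun j _ => ?_
    rw [map_mul, map_pow, a2]
    rfl

noncomputable def S00 : St where
  K := ℂ
  D := ℂ
  ι := Bool
  x := NC.X true
  y := NC.X false
  H := 0

lemma S00_room : S00.room 1 := by
  have : Submodule.span S00.K (Set.range S00.tau) = ⊤ := by
    rw [eq_top_iff]
    rintro ⟨a, b⟩ -
    refine Submodule.subset_span ⟨fun j : Bool => cond j a b, ?_⟩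
    show ((∑ j : Bool, (cond j a b : ℂ) • (NC.X true : NC Bool ℂ) [j] : ℂ),
      (∑ j : Bool, (cond j a b : ℂ) • (NC.X false : NC Bool ℂ) [j] : ℂ)) = (a, b)
    simp [NC.X]
    rfl
  unfold St.room
  rw [this, top_sup_eq, finrank_top]
  show finrank ℂ ℂ + 1 ≤ finrank ℂ (ℂ × ℂ)
  simp

theorem fin_chain (hK : KeyStmt) (hG : GrowStmt) : ∃ (S : ℕ → St) (v : ∀ m, ℕ → (S m).K),
    (∀ w : FW', ∃ N d : ℕ, ∀ᶠ m in atTop, v m (N + d) ≠ 0 ∧
      ∑ j ∈ Finset.range (d + 1), algebraMap (S m).K (S m).D (v m (N + j)) *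
        (evNC (S m) (v m) w []) ^ j = 0) ∧
    (∀ n, ∃ g : Fin n → FW', (∀ i, Pure (g i)) ∧
      ∀ᶠ m in atTop, LinearIndependent (S m).K fun i => evNC (S m) (v m) (g i) []) := by
  haveI : Countable FW' := by
    rw [← Cardinal.mk_le_aleph0_iff]
    refine le_trans (FreeAlgebra.cardinalMk_le_max ℤ (ℕ ⊕ Bool)) ?_
    simp
  obtain ⟨e, he⟩ := exists_surjective_nat FW'
  choose nx hnx using stp_exists hK hG
  let t : ℕ → Tt := fun n => Nat.rec ⟨S00, 0, 0, S00_room⟩ (fun n t => nx (e n.unpair.1) t) n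
  have ht : ∀ n, Stp (e n.unpair.1) (t n) (t (n + 1)) := fun n => hnx _ _
  choose φ Φ ha hx hy hi hv hrk d hd hne hsum using ht
  have hN : StrictMono fun n => (t n).N := strictMono_nat_of_lt_succ fun n => by
    have := hd n
    omega
  have hrk' : ∀ n, n ≤ rk (t n).S := fun n =>
    (strictMono_nat_of_lt_succ (f := fun n => rk (t n).S) hrk).le_apply
  have hc : ∀ w : FW', ∀ᶠ m in atTop,
      Φ m (evNC (t m).S (t m).v w) = evNC (t (m + 1)).S (t (m + 1)).v w := by
    intro w
    induction w using FreeAlgebra.induction with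
    | grade0 r => exact Eventually.of_forall fun m => by simp
    | grade1 z =>
      rcases z with i | b
      · filter_upwards [eventually_gt_atTop i] with m hm
        rw [evNC_inl, evNC_inl, ha, hv m i (lt_of_lt_of_le hm hN.le_apply)]
      · exact Eventually.of_forall fun m =>
          pure_compat _ _ _ (hx m) (hy m) (Submonoid.subset_closure ⟨b, rfl⟩)
    | mul a b iha ihb =>
      filter_upwards [iha, ihb] with m h1 h2
      rw [map_mul, map_mul, map_mul, h1, h2]
    | add a b iha ihb =>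
      filter_upwards [iha, ihb] with m h1 h2
      rw [map_add, map_add, map_add, h1, h2]
  refine ⟨fun m => (t m).S, fun m => (t m).v, fun w => ?_, fun n => ?_⟩
  · obtain ⟨n0, hn0⟩ := eventually_atTop.1 (hc w)
    obtain ⟨i, rfl⟩ := he w
    set n := Nat.pair i n0 with hn
    have hnn : n0 ≤ n := Nat.right_le_pair _ _
    have hu : n.unpair.1 = i := by simp [hn]
    refine ⟨(t n).N, d n, eventually_atTop.2 ⟨n + 1, fun m hm => ?_⟩⟩
    have key : (t m).v ((t n).N + d n) ≠ 0 ∧ ∑ j ∈ Finset.range (d n + 1),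
        algebraMap _ _ ((t m).v ((t n).N + j)) * (evNC (t m).S (t m).v (e i)) ^ j = 0 := by
      induction m, hm using Nat.le_induction with
      | base =>
        refine ⟨hne n, ?_⟩
        have := hsum n
        rwa [hu, hn0 n hnn] at this
      | succ m hm ih =>
        have hlt : (t n).N + d n < (t m).N := lt_of_lt_of_le (hd n) (hN.monotone hm)
        refine ⟨?_, ?_⟩
        · rw [hv m _ hlt]
          exact (map_ne_zero _).2 ih.1
        · have h3 := congrArg (Φ m) ih.2
          rw [map_sum, map_zero] at h3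
          rw [← h3]
          refine Finset.sum_congr rfl fun j hj => ?_
          have hj := Finset.mem_range.1 hj
          rw [map_mul, map_pow, ha, hn0 m (by omega), hv m _ (by omega)]
    refine ⟨key.1, ?_⟩
    have h3 := congrArg NC.ct key.2
    rw [map_sum, map_zero] at h3
    rw [← h3]
    refine Finset.sum_congr rfl fun j _ => ?_
    rw [map_mul, map_pow]
    rfl
  · obtain ⟨g, hg, hli⟩ := exists_pure (t n).S (t n).v
    refine ⟨fun i => g (Fin.castLE (hrk' n) i), fun i => hg _, eventually_atTop.2 ⟨n, fun m hm => ?_⟩⟩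
    have key : LinearIndependent (t m).S.K fun i => evNC (t m).S (t m).v (g i) [] := by
      induction m, hm using Nat.le_induction with
      | base => exact hli
      | succ m hm ih =>
        have := hi m _ _ ih
        simpa only [fun i => pure_compat (t m).v (t (m + 1)).v (Φ m) (hx m) (hy m) (hg i)] using this
    exact key.comp _ (Fin.castLE_injective _)

end Crest.Agent.Ku
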