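import Crest.Agent.Ku.FinB
import Crest.Agent.Ku.FinC

set_option autoImplicit false

namespace Crest.Agent.Ku

theorem fin (_hB : Base) (_hR : RelStmt) (hK : KeyStmt) (hG : GrowStmt) : Goal := by
  obtain ⟨S, v, h1, h2⟩ := fin_chain hK hG
  exact fin_ultra (fun m => (S m).K) (fun m => (S m).D) v
    (fun m => NC.ct.comp (evNC (S m) (v m)))
    (fun m i => by
      show NC.ct (evNC (S m) (v m) _) = _
      rw [evNC_inl]
      rfl) h1 h2

end Crest.Agent.Ku
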