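import Crest.Agent.Ku.Defs

/-! Derivations of a division subalgebra are inner (S0270). -/

set_option autoImplicit false

namespace Crest.Agent.Ku
open Module

theorem inn3 (hA : AlgStmt) : InnStmt := by
  intro K D _ _ _ _ _ A δ hδ
  classical
  have hinv := (hA K D).1 A
  let τ : A →ₗ[K] K := LinearMap.trace K A ∘ₗ (Algebra.lmul K A).toLinearMap
  have hτ : ∀ x y : A, τ (x * y) = τ (y * x) := by
    intro x y
    simp only [τ, LinearMap.comp_apply, AlgHom.toLinearMap_apply, map_mul]
    exact LinearMap.trace_mul_comm K _ _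
  have hτ1 : τ 1 ≠ 0 := by
    simp only [τ, LinearMap.comp_apply, AlgHom.toLinearMap_apply, map_one]
    rw [LinearMap.trace_one]
    exact Nat.cast_ne_zero.2 (Module.finrank_pos (R := K) (M := A)).ne'
  let B : LinearMap.BilinForm K A := (LinearMap.mul K A).compr₂ τ
  have hB' : ∀ x y, B x y = τ (x * y) := fun _ _ => rfl
  have hl : ∀ x : A, (∀ y, τ (x * y) = 0) → x = 0 := by
    intro x hx
    by_contra h0
    have h1 : (x : D) ≠ 0 := fun h => h0 (Subtype.ext h)
    have h2 : x * ⟨(x : D)⁻¹, hinv _ x.2⟩ = 1 := Subtype.ext (mul_inv_cancel₀ h1)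
    exact hτ1 (h2 ▸ hx _)
  have hB : B.Nondegenerate :=
    ⟨fun x hx => hl x hx, fun x hx => hl x fun y => (hτ x y).trans (hx y)⟩
  let b := Module.finBasis K A
  let b' := B.dualBasis hB b
  have e1 : ∀ y : A, y = ∑ i, τ (y * b i) • b' i := by
    intro y
    conv_lhs => rw [← b'.sum_repr y]
    simp only [b', LinearMap.BilinForm.dualBasis_repr_apply, hB']
  have e0 : ∀ i j, τ (b' i * b j) = if j = i then 1 else 0 :=
    fun i j => LinearMap.BilinForm.apply_dualBasis_left hB b i j
  have e2 : ∀ x : A, x = ∑ j, τ (b' j * x) • b j := by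
    intro x
    conv_lhs => rw [← b.sum_repr x]
    apply Finset.sum_congr rfl
    intro j _
    congr 1
    conv_rhs => rw [← b.sum_repr x]
    rw [Finset.mul_sum, map_sum]
    simp only [mul_smul_comm, map_smul, e0]
    simp
  have cas : ∀ (β : A →ₗ[K] D) (a : A),
      ∑ i, β (a * b i) * (b' i : D) = ∑ i, β (b i) * ((b' i * a : A) : D) := by
    intro β a
    have h1 : ∀ i, β (a * b i) * (b' i : D)
        = ∑ j, τ (b' j * (a * b i)) • (β (b j) * (b' i : D)) := by
      intro i
      conv_lhs => rw [e2 (a * b i)]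
      simp [Finset.sum_mul]
    have h2 : ∀ j, β (b j) * ((b' j * a : A) : D)
        = ∑ i, τ (b' j * (a * b i)) • (β (b j) * (b' i : D)) := by
      intro j
      conv_lhs => rw [e1 (b' j * a)]
      simp [Finset.mul_sum, mul_assoc]
    simp only [h1, h2]
    exact Finset.sum_comm
  let c : A := ∑ i, b i * b' i
  have hc : (c : D) = ∑ i, (b i : D) * b' i := by simp [c]
  have hc0 : (c : D) ≠ 0 := by
    intro h
    have h1 : c = 0 := Subtype.ext h
    have h2 : τ c = (finrank K A : K) := by
      simp only [c, map_sum]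
      rw [Finset.sum_congr rfl (g := fun _ => 1) (fun i _ => by rw [hτ, e0]; simp)]
      simp
    rw [h1, map_zero] at h2
    exact Nat.cast_ne_zero.2 (Module.finrank_pos (R := K) (M := A)).ne' h2.symm
  refine ⟨(∑ i, δ (b i) * (b' i : D)) * (c : D)⁻¹, fun a => ?_⟩
  have h1 := cas A.val.toLinearMap a
  have h2 := cas δ a
  simp only [AlgHom.toLinearMap_apply, Subalgebra.coe_val, Subalgebra.coe_mul, mul_assoc,
    ← Finset.mul_sum] at h1
  simp only [← mul_assoc, ← Finset.sum_mul] at h1
  rw [← hc] at h1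
  simp only [hδ, add_mul, Finset.sum_add_distrib, Subalgebra.coe_mul, mul_assoc,
    ← Finset.mul_sum] at h2
  simp only [← mul_assoc, ← Finset.sum_mul] at h2
  rw [← hc] at h2
  have h3 : Commute (a : D) (c : D)⁻¹ := (show Commute (a : D) c from h1).inv_right₀
  rw [mul_assoc, ← h3.eq, ← mul_assoc, ← mul_assoc, ← sub_mul, ← h2, add_sub_cancel_right,
    mul_inv_cancel_right₀ hc0]

end Crest.Agent.Ku
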