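import Crest.Agent.Ku.Defs

/-! Isotropic nondegenerate directions. -/

set_option autoImplicit false

namespace Crest.Agent.Ku.H8
open Module Finset

section
variable {K : Type} [Field K]

lemma fr_le {A B : Type} [AddCommGroup A] [Module K A] [AddCommGroup B] [Module K B]
    [FiniteDimensional K A] (g : A →ₗ[K] B) (U : Submodule K A) :
    finrank K U ≤ finrank K (U.map g) + finrank K (LinearMap.ker g) := by
  have h1 := LinearMap.finrank_range_add_finrank_ker (g.domRestrict U)
  rw [LinearMap.range_domRestrict] at h1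
  have h2 : (LinearMap.ker (g.domRestrict U)).map U.subtype ≤ LinearMap.ker g := by
    rintro _ ⟨x, hx, rfl⟩
    exact hx
  have h3 := Submodule.finrank_mono h2
  rw [Submodule.finrank_map_subtype_eq] at h3
  omega

lemma core [CharZero K] (hAmi : AmiStmt) (hRk : RkStmt) {N Q Z : Type} [AddCommGroup N] [Module K N]
    [AddCommGroup Q] [Module K Q] [AddCommGroup Z] [Module K Z] [FiniteDimensional K N]
    [FiniteDimensional K Q] [FiniteDimensional K Z] (B : N →ₗ[K] N →ₗ[K] Q)
    (alt : ∀ x, B x x = 0) (τ : N →ₗ[K] Z) (M : ℕ)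
    (hM : ∀ c : Q →ₗ[K] K, c ≠ 0 → ∃ l l' : Fin M → N,
      (Matrix.of fun i k => c (B (l i) (l' k))).det ≠ 0) (n : ℕ) :
    2 * (n * finrank K Q) + finrank K Q + 1 ≤ M →
    n * finrank K Q + n + finrank K Q + 1 ≤ finrank K (LinearMap.range τ) →
    ∃ ξ : Fin n → N, (∀ i k, B (ξ i) (ξ k) = 0) ∧ (∀ y : Fin n → Q, ∃ ζ, ∀ i, B (ξ i) ζ = y i) ∧
      LinearIndependent K fun i => τ (ξ i) := by
  have skew : ∀ x y, B x y = -B y x := by
    intro x y
    have := alt (x + y)
    simp only [map_add, LinearMap.add_apply, alt, zero_add, add_zero] at this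
    exact eq_neg_of_add_eq_zero_right this
  induction n with
  | zero => exact fun _ _ => ⟨Fin.elim0, fun i => i.elim0, fun _ => ⟨0, fun i => i.elim0⟩,
      linearIndependent_empty_type⟩
  | succ n ih =>
    intro h1 h2
    rw [add_mul, one_mul] at h1 h2
    obtain ⟨ξ, e1, e2, e3⟩ := ih (by omega) (by omega)
    let Ψ : N →ₗ[K] (Fin n → Q) := LinearMap.pi fun i => B (ξ i)
    let N' := LinearMap.ker Ψ
    have hΨ : finrank K (Fin n → Q) = n * finrank K Q := by simp [Module.finrank_pi_fintype]
    have hN : finrank K N ≤ finrank K N' + n * finrank K Q := by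
      have a1 := LinearMap.finrank_range_add_finrank_ker Ψ
      have a2 := Submodule.finrank_le (LinearMap.range Ψ)
      change _ + finrank K N' = _ at a1
      omega
    let P : Submodule K Z := Submodule.span K (Set.range fun i => τ (ξ i))
    have hP : finrank K P ≤ n :=
      (finrank_range_le_card (R := K) fun i => τ (ξ i)).trans (by simp)
    let τ' : N →ₗ[K] Z ⧸ P := P.mkQ ∘ₗ τ
    have hτ' : finrank K Q + 1 ≤ finrank K (N'.map τ') := by
      have a1 := fr_le τ' N'
      have a2 := fr_le τ (LinearMap.ker τ')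
      have a3 : (LinearMap.ker τ').map τ ≤ P := by
        rintro _ ⟨x, hx, rfl⟩
        exact (Submodule.Quotient.mk_eq_zero P).1 hx
      have a4 := Submodule.finrank_mono a3
      have a5 := LinearMap.finrank_range_add_finrank_ker τ
      omega
    let b := Module.finBasis K (Dual K Q)
    have hb : finrank K (Dual K Q) = finrank K Q := Subspace.dual_finrank_eq
    let B' : Dual K Q → N' →ₗ[K] Dual K N' := fun c =>
      (B.compl₁₂ N'.subtype N'.subtype).compr₂ c
    let T : Fin (finrank K (Dual K Q) + 1) → N' →ₗ[K] Dual K N' × (Z ⧸ P) :=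
      Fin.cons (LinearMap.inr K _ _ ∘ₗ τ' ∘ₗ N'.subtype) fun i => LinearMap.inl K _ _ ∘ₗ B' (b i)
    have hT : ∀ (a : Fin (finrank K (Dual K Q) + 1) → K) (x : N'),
        (∑ i, a i • T i) x = (B' (∑ i, a i.succ • b i) x, a 0 • τ' x) := by
      intro a x
      rw [Fin.sum_univ_succ]
      refine Prod.ext (LinearMap.ext fun y => ?_) ?_
      · simp [T, B', Prod.fst_sum]
      · simp [T, Prod.snd_sum]
    obtain ⟨η, hη⟩ := hAmi K N' (Dual K N' × (Z ⧸ P)) _ T ⊥ (fun a ha => by
      rw [finrank_bot, zero_add]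
      refine le_trans (by omega : _ ≤ finrank K Q + 1) ?_
      by_cases h0 : a 0 = 0
      · have hc : ∑ i, a i.succ • b i ≠ 0 := by
          intro h
          apply ha
          have := Fintype.linearIndependent_iff.1 b.linearIndependent _ h
          funext i
          refine Fin.cases h0 this i
        obtain ⟨l, l', hl⟩ := hM _ hc
        obtain ⟨x', y', f1, f2, f3⟩ := hRk K N N (B.compr₂ (∑ i, a i.succ • b i)) (Fin M) l l'
          (Fin n → Q) Ψ Ψ (finrank K Q + 1) hl (by rw [hΨ, Fintype.card_fin]; omega)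
        have f4 := Matrix.linearIndependent_rows_of_det_ne_zero f3
        let ev : LinearMap.range (∑ i, a i • T i) →ₗ[K] (Fin (finrank K Q + 1) → K) :=
          (LinearMap.pi fun k => Dual.eval K N' ⟨y' k, f2 k⟩) ∘ₗ LinearMap.fst K _ _ ∘ₗ
            (LinearMap.range _).subtype
        have f5 : LinearIndependent K fun i => (⟨(∑ i, a i • T i) ⟨x' i, f1 i⟩, ⟨_, rfl⟩⟩ :
            LinearMap.range (∑ i, a i • T i)) := by
          refine LinearIndependent.of_comp ev ?_
          convert f4 using 1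
          all_goals first
            | rfl
            | (funext i k
               simp only [Function.comp, ev, hT]
               simp [B'])
        simpa using f5.fintype_card_le_finrank
      · refine hτ'.trans (le_trans (Submodule.finrank_mono ?_)
          (Submodule.finrank_map_le (LinearMap.snd K _ _) _))
        rintro _ ⟨x, hx, rfl⟩
        refine ⟨_, ⟨(a 0)⁻¹ • ⟨x, hx⟩, rfl⟩, ?_⟩
        rw [hT]
        simp [smul_smul, h0])
    have hη' : LinearIndependent K fun i => T i η := LinearIndependent.of_comp _ hη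
    have hη1 : ∀ a : Fin (finrank K (Dual K Q) + 1) → K,
        (B' (∑ i, a i.succ • b i) η, a 0 • τ' η) = 0 → ∀ i, a i = 0 := by
      intro a ha
      refine Fintype.linearIndependent_iff.1 hη' a ?_
      rw [← ha, ← hT]
      simp
    have g1 : τ η ∉ P := by
      intro h
      have h3 : τ' η = 0 := (Submodule.Quotient.mk_eq_zero P).2 h
      have := hη1 (Fin.cons 1 0) (Prod.ext (LinearMap.ext fun y => by simp [B'])
        (by simp [h3])) 0
      simp at this
    have g2 : ∀ y : Q, ∃ ζ : N', B η ζ = y := by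
      have : LinearMap.range (B η ∘ₗ N'.subtype) = ⊤ := by
        by_contra hne
        obtain ⟨c, hc0, hc⟩ := Submodule.exists_le_ker_of_lt_top _ (lt_top_iff_ne_top.2 hne)
        apply hc0
        have h3 := hη1 (Fin.cons 0 fun i => b.repr c i) (by
          simp only [Fin.cons_succ, Fin.cons_zero, zero_smul, b.sum_repr]
          refine Prod.ext (LinearMap.ext fun y => ?_) rfl
          exact hc ⟨y, rfl⟩)
        rw [← b.sum_repr c]
        exact sum_eq_zero fun i _ => by
          have := h3 i.succ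
          simp only [Fin.cons_succ] at this
          rw [this, zero_smul]
      exact fun y => LinearMap.range_eq_top.1 this y
    have g3 : ∀ (ζ : N') i, B (ξ i) ζ = 0 := fun ζ i => congrFun ζ.2 i
    refine ⟨Fin.cons η ξ, fun i k => ?_, fun y => ?_, ?_⟩
    · refine Fin.cases ?_ (fun i => ?_) i <;> refine Fin.cases ?_ (fun k => ?_) k
      · exact alt _
      · simp only [Fin.cons_zero, Fin.cons_succ]; rw [skew, g3, neg_zero]
      · simp only [Fin.cons_zero, Fin.cons_succ]; exact g3 _ _
      · simp only [Fin.cons_succ]; exact e1 _ _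
    · obtain ⟨ζ0, h0⟩ := e2 fun i => y i.succ
      obtain ⟨ζ1, h3⟩ := g2 (y 0 - B η ζ0)
      refine ⟨ζ0 + ζ1, fun i => Fin.cases ?_ (fun i => ?_) i⟩
      · simp only [Fin.cons_zero, map_add, h3]; abel
      · simp only [Fin.cons_succ, map_add, h0, g3, add_zero]
    · have : (fun i => τ ((Fin.cons η ξ : Fin (n + 1) → N) i)) =
          Fin.cons (τ η) fun i => τ (ξ i) := by
        funext i
        refine Fin.cases rfl (fun i => rfl) i
      rw [this, linearIndependent_finCons]
      exact ⟨e3, g1⟩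

end

theorem iso (hB : Base) (hR : RelStmt) (hC : CenStmt) (hA : AltStmt) : IsoStmt := by
  intro S hO hP
  obtain ⟨hG, h2, hK, hND, hroom⟩ := hO
  obtain ⟨-, hVf, hWV, -, -, -, htW, -⟩ := hC S hG
  obtain ⟨hA1, hA2⟩ := hA S hG h2 hK
  obtain ⟨-, -, -, -, -, -, -, hAlg, -, -, hAmi, -, hRk, -⟩ := hB
  have hc := (hAlg S.K S.D).2.2.1 S.a
  have hdim := hR.2.2.2.2 S hP
  have hWC : S.W ≤ Subalgebra.toSubmodule S.C := inf_le_right
  have hz : ∀ l, S.t l ∈ LinearMap.range (ad S.K S.a) → S.t l = 0 := fun l hl =>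
    (Submodule.disjoint_def.1 hc.disjoint) _ (hWC (htW l)) hl
  let tl : (S.ι → S.K) →ₗ[S.K] S.D := Fintype.linearCombination S.K fun j => S.H [j]
  have htl : ∀ l, tl l = S.t l := fun l => rfl
  let N := LinearMap.ker tl
  let W' := S.W.submoduleOf S.V
  have hQ : finrank S.K (S.V ⧸ W') = S.f - S.w := by
    have a1 := Submodule.finrank_quotient_add_finrank W'
    have a2 : finrank S.K W' = S.w := (Submodule.submoduleOfEquivOfLe hWV).finrank_eq
    omega
  let B : N →ₗ[S.K] N →ₗ[S.K] (S.V ⧸ W') := LinearMap.mk₂ S.K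
    (fun x y => W'.mkQ ⟨S.q x.1 y.1, hA2 _ _ x.2 y.2⟩)
    (fun x x' y => by
      rw [← map_add]; congr 1; apply Subtype.ext
      simp [St.q, add_mul, add_smul, sum_add_distrib])
    (fun a x y => by
      rw [← map_smul]; congr 1; apply Subtype.ext
      simp [St.q, smul_sum, smul_smul, mul_assoc])
    (fun x y y' => by
      rw [← map_add]; congr 1; apply Subtype.ext
      simp [St.q, mul_add, add_smul, sum_add_distrib])
    (fun a x y => by
      rw [← map_smul]; congr 1; apply Subtype.ext
      simp [St.q, smul_sum, smul_smul, mul_left_comm])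
  have hBB : ∀ x y : N, B x y = W'.mkQ ⟨S.q x.1 y.1, hA2 _ _ x.2 y.2⟩ := fun _ _ => rfl
  have hmk : ∀ z : S.V, W'.mkQ z = 0 ↔ z.1 ∈ S.W := fun z => Submodule.Quotient.mk_eq_zero W'
  have alt : ∀ x, B x x = 0 := fun x => (hmk _).2 (hA1 _ x.2)
  have skew : ∀ x y, B x y = -B y x := by
    intro x y
    have := alt (x + y)
    simp only [map_add, LinearMap.add_apply, alt, zero_add, add_zero] at this
    exact eq_neg_of_add_eq_zero_right this
  let ta : (S.ι → S.K) →ₗ[S.K] S.D × S.D :=
    (Fintype.linearCombination S.K fun j => S.x [j]).prod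
      (Fintype.linearCombination S.K fun j => S.y [j])
  have hta : ∀ l, ta l = S.tau l := fun l => rfl
  let tb := S.Inn.mkQ ∘ₗ ta
  have hrk : 4 * (S.c + 2) * (S.f - S.w + 1) ≤
      finrank S.K (LinearMap.range (tb ∘ₗ N.subtype)) + S.c := by
    have a1 := fr_le S.Inn.mkQ (Submodule.span S.K (Set.range S.tau) ⊔ S.Inn)
    have a2 : (Submodule.span S.K (Set.range S.tau) ⊔ S.Inn).map S.Inn.mkQ ≤ LinearMap.range tb := by
      rw [Submodule.map_sup, Submodule.mkQ_map_self, sup_bot_eq, Submodule.map_le_iff_le_comap,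
        Submodule.span_le]
      rintro _ ⟨l, rfl⟩
      exact ⟨l, rfl⟩
    have a3 := Submodule.finrank_mono a2
    have a4 : finrank S.K S.Inn ≤ finrank S.K S.D := LinearMap.finrank_range_le _
    rw [Submodule.ker_mkQ] at a1
    have a5 := fr_le tb N
    have a6 := LinearMap.finrank_range_add_finrank_ker tb
    have a7 := LinearMap.finrank_range_add_finrank_ker tl
    have a8 : LinearMap.range tl ≤ Subalgebra.toSubmodule S.C := by
      rintro _ ⟨l, rfl⟩
      exact hWC (htW l)
    have a9 : finrank S.K (LinearMap.range tl) ≤ S.c := Submodule.finrank_mono a8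
    have a10 : LinearMap.range (tb ∘ₗ N.subtype) = N.map tb := by
      rw [LinearMap.range_comp, Submodule.range_subtype]
    rw [a10]
    change _ + finrank S.K N = _ at a7
    unfold St.room at hroom
    omega
  obtain ⟨ξ, e1, e2, e3⟩ := core hAmi hRk B alt (tb ∘ₗ N.subtype) (4 * (S.c + 2) * (S.f - S.w + 1))
    (fun c hc0 => by
      obtain ⟨c1, hc1⟩ := LinearMap.exists_extend (c ∘ₗ W'.mkQ)
      have hc2 : ∀ z (hz : z ∈ S.V), c1 z = c (W'.mkQ ⟨z, hz⟩) := fun z hz =>
        LinearMap.congr_fun hc1 ⟨z, hz⟩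
      obtain ⟨c', f1, -, l, l', γ, f3, f4, f5⟩ := hND c1
        (fun z hz => by
          rw [LinearMap.mem_ker, hc2 z (hWV hz), (hmk _).2 hz, map_zero])
        (by
          by_contra hne
          push Not at hne
          apply hc0
          refine LinearMap.ext fun y => ?_
          obtain ⟨z, rfl⟩ := W'.mkQ_surjective y
          rw [← hc2 z.1 z.2, hne _ z.2]; rfl)
      have g1 : ∀ i, S.t (l i) = 0 := fun i => hz _ (f3 i)
      have g2 : ∀ i, S.t (l' i) = 0 := fun i => hz _ ⟨_, (f4 i).symm⟩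
      refine ⟨fun i => ⟨l i, g1 i⟩, fun i => ⟨l' i, g2 i⟩, ?_⟩
      convert f5 using 2
      ext i k
      simp only [Matrix.of_apply]
      rw [g1, zero_mul, add_zero, f1 _ (hA2 _ _ (g1 i) (g2 k)), hc2 _ (hA2 _ _ (g1 i) (g2 k)), hBB])
    (S.c + 1) (by rw [hQ]; nlinarith [Nat.zero_le (S.c * (S.f - S.w))])
    (by rw [hQ]; nlinarith [Nat.zero_le (S.c * (S.f - S.w))])
  refine ⟨S.c + 1, fun i => (ξ i).1, fun i => (ξ i).2, fun i k => (hmk _).1 (e1 i k),
    fun i τ hτ => ?_, ?_⟩
  · obtain ⟨ζ, hζ⟩ := e2 (Pi.single i (W'.mkQ ⟨τ, hτ⟩))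
    have a1 := hζ i
    rw [Pi.single_eq_same] at a1
    refine ⟨ζ.1, ζ.2, ?_, ?_, fun k hk => ?_⟩
    · rw [hBB, ← sub_eq_zero, ← map_sub] at a1
      exact (hmk _).1 a1
    · rw [skew, neg_eq_iff_add_eq_zero, hBB, ← map_add] at a1
      exact (hmk _).1 a1
    · have a2 := hζ k
      rw [Pi.single_eq_of_ne hk] at a2
      refine ⟨(hmk _).1 a2, ?_⟩
      rw [skew, neg_eq_zero] at a2
      exact (hmk _).1 a2
  · have a1 : LinearIndependent S.K fun i => S.tau (ξ i).1 :=
      LinearIndependent.of_comp S.Inn.mkQ e3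
    have a2 : Submodule.span S.K (Set.range fun i => S.tau (ξ i).1) ⊓ S.Inn = ⊥ := by
      rw [eq_bot_iff]
      rintro z ⟨hz1, hz2⟩
      obtain ⟨a, rfl⟩ := (Submodule.mem_span_range_iff_exists_fun S.K).1 hz1
      have a3 := Fintype.linearIndependent_iff.1 e3 a (by
        have := (Submodule.Quotient.mk_eq_zero S.Inn).2 hz2
        rw [← Submodule.mkQ_apply, map_sum] at this
        simp only [map_smul] at this
        exact this)
      simp [a3]
    have a4 := Submodule.finrank_sup_add_finrank_inf_eq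
      (Submodule.span S.K (Set.range fun i => S.tau (ξ i).1)) S.Inn
    rw [a2, finrank_bot, finrank_span_eq_card a1, Fintype.card_fin] at a4
    beta_reduce
    omega

end Crest.Agent.Ku.H8
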