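import Crest.Agent.Ku.Defs

set_option autoImplicit false

namespace Crest.Agent.Ku
open Module PowerSeries

lemma aeval_C_minpoly {K D ι : Type} [Field K] [DivisionRing D] [Algebra K D] [FiniteDimensional K D]
    (a : D) : ∃ p : Polynomial K, p ≠ 0 ∧ Polynomial.aeval (NC.C a : NC ι D) p = 0 := by
  have hi : IsIntegral K a := Algebra.IsIntegral.isIntegral a
  refine ⟨minpoly K a, minpoly.ne_zero hi, ?_⟩
  let φ : D →ₐ[K] NC ι D := { (NC.C : D →+* NC ι D) with commutes' := fun _ => rfl }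
  have := Polynomial.aeval_algHom_apply φ a (minpoly K a)
  rw [minpoly.aeval, map_zero] at this
  exact this

theorem key (_hB : Base) (hR : RelStmt) (hO : OptStmt) (hI : IsoStmt) (hS : SolStmt) : KeyStmt := by
  intro S hP hr
  obtain ⟨S', m, hrel, h⟩ := hO S hr
  have hmono : ∀ (T : St) k, 1 ≤ k → T.room k → T.room 1 := fun T k hk h => by
    unfold St.room at h ⊢; omega
  rcases h with h | h
  · refine ⟨S', hrel.1, hmono _ _ ?_ (hrel.2.2.2 1 hr), ?_⟩
    · have := hrel.2.1; nlinarith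
    · rw [h]; exact aeval_C_minpoly _
  · have hP' := hR.2.2.2.1 _ _ hrel.1 hP
    obtain ⟨n, ξ, h1, h2, h3, h4⟩ := hI S' h hP'
    obtain ⟨φ, Θ, ⟨hφ0, hΘ⟩, hφ1, hH⟩ := hS S' h.1 h.2.1 h.2.2.1 n ξ h1 h2 h3
    let T : St := { K := S'.K, D := S'.D, ι := Fin n, x := Θ S'.x, y := Θ S'.y, H := Θ S'.H }
    have e0 : ∀ f, Θ f [] = f [] := by
      intro f
      rw [hΘ f, NC.add_apply, NC.sum_apply]
      simp [hφ0]
    have e1 : ∀ f i, Θ f [i] = ∑ j, ξ i j • f [j] := by
      intro f i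
      rw [hΘ f, NC.add_apply, NC.sum_apply]
      simp [NC.mul_one_letter, hφ0, hφ1, e0, Algebra.smul_def]
    have eC : ∀ a, Θ (NC.C a) = NC.C a := by
      intro a
      rw [hΘ]
      have : ∀ j, NC.tl j (NC.C a : NC S'.ι S'.D) = 0 := fun _ => rfl
      simp [this]
    have hT : Rel0 S' T := ⟨RingHom.id _, Θ, fun k => eC _, rfl, rfl, ⟨1, by simp [T]⟩,
      fun n g hg => by simpa only [e0] using hg⟩
    refine ⟨T, hR.2.1 _ _ _ hrel.1 hT, ?_, ?_⟩
    · have hI : T.Inn = S'.Inn := by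
        simp only [St.Inn, T, e0]
      have hle : Submodule.span S'.K (Set.range fun i => S'.tau (ξ i)) ≤
          Submodule.span S'.K (Set.range T.tau) := by
        refine Submodule.span_mono ?_
        rintro _ ⟨i, rfl⟩
        refine ⟨Pi.single i 1, ?_⟩
        simp [St.tau, T, e1, Pi.single_apply]
      refine h4.trans ?_
      show _ ≤ finrank S'.K ↥(Submodule.span S'.K (Set.range T.tau) ⊔ T.Inn)
      rw [hI]
      exact Submodule.finrank_mono (sup_le_sup_right hle _)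
    · show ∃ p : Polynomial S'.K, p ≠ 0 ∧ Polynomial.aeval (Θ S'.H) p = 0
      rw [hH]; exact aeval_C_minpoly _

end Crest.Agent.Ku
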