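import Mathlib

/-! Central localisation of a finite domain over a commutative domain. -/

set_option autoImplicit false

namespace Crest.Agent.Ku
open TensorProduct nonZeroDivisors

theorem loc (P A : Type) [CommRing P] [IsDomain P] [Ring A] [IsDomain A] [Algebra P A]
    [Module.Finite P A] (hinj : Function.Injective (algebraMap P A)) :
    ∃ (D' : Type) (_ : DivisionRing D') (_ : Algebra (FractionRing P) D')
      (_ : FiniteDimensional (FractionRing P) D') (j : A →+* D'), Function.Injective j ∧
      (∀ p, j (algebraMap P A p) =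
        algebraMap (FractionRing P) D' (algebraMap P (FractionRing P) p)) ∧
      (∀ z : D', ∃ p : P, p ≠ 0 ∧ ∃ a,
        algebraMap (FractionRing P) D' (algebraMap P (FractionRing P) p) * z = j a) ∧
      ∀ (ι : Type) (b : ι → A), LinearIndependent P b →
        LinearIndependent (FractionRing P) (fun i => j (b i)) := by
  let K' := FractionRing P
  let D' := K' ⊗[P] A
  let jj : A →ₐ[P] D' := Algebra.TensorProduct.includeRight
  have hl : IsLocalizedModule P⁰ (TensorProduct.mk P K' A 1) := inferInstance
  have hj : Function.Injective jj := by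
    intro a b hab
    obtain ⟨c, hc⟩ := (IsLocalizedModule.eq_iff_exists P⁰ (TensorProduct.mk P K' A 1)).1 hab
    simp only [Submonoid.smul_def, Algebra.smul_def] at hc
    have h0 : algebraMap P A c ≠ 0 := by
      intro h
      exact nonZeroDivisors.coe_ne_zero c (hinj (by rw [h, map_zero]))
    exact mul_left_cancel₀ h0 hc
  have hc : ∀ p, jj (algebraMap P A p) = algebraMap K' D' (algebraMap P K' p) := fun p => by
    rw [jj.commutes, ← IsScalarTower.algebraMap_apply]
  have hs : ∀ z : D', ∃ p : P, p ≠ 0 ∧ ∃ a, algebraMap K' D' (algebraMap P K' p) * z = jj a := by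
    intro z
    obtain ⟨⟨a, c⟩, hc⟩ := IsLocalizedModule.surj P⁰ (TensorProduct.mk P K' A 1) z
    refine ⟨c, nonZeroDivisors.coe_ne_zero c, a, ?_⟩
    rw [← IsScalarTower.algebraMap_apply, ← Algebra.smul_def]
    exact hc
  haveI : Nontrivial D' := hj.nontrivial
  haveI : NoZeroDivisors D' := ⟨fun {z w} hzw => by
    obtain ⟨p, hp, a, ha⟩ := hs z
    obtain ⟨q, hq, b, hb⟩ := hs w
    have h1 : jj (a * b) = 0 := by
      rw [map_mul, ← ha, ← hb, ← Algebra.smul_def, ← Algebra.smul_def, smul_mul_smul_comm, hzw,
        smul_zero]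
    have h2 : a * b = 0 := hj (by rw [h1, map_zero])
    have hp' : algebraMap P K' p ≠ 0 := by simpa [K'] using hp
    have hq' : algebraMap P K' q ≠ 0 := by simpa [K'] using hq
    rcases mul_eq_zero.1 h2 with h | h
    · left
      rw [h, map_zero, ← Algebra.smul_def] at ha
      exact (smul_eq_zero.1 ha).resolve_left hp'
    · right
      rw [h, map_zero, ← Algebra.smul_def] at hb
      exact (smul_eq_zero.1 hb).resolve_left hq'⟩
  haveI : IsDomain D' := NoZeroDivisors.to_isDomain D'
  haveI hfd : FiniteDimensional K' D' := inferInstance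
  have hli : ∀ (ι : Type) (b : ι → A), LinearIndependent P b →
      LinearIndependent K' (fun i => jj (b i)) := fun ι b hb =>
    (LinearIndependent.iff_fractionRing P K').1
      (hb.map' jj.toLinearMap (LinearMap.ker_eq_bot.2 hj))
  exact ⟨D', divisionRingOfFiniteDimensional K' D', inferInstanceAs (Algebra K' D'), hfd,
    jj.toRingHom, hj, hc, hs, hli⟩

end Crest.Agent.Ku
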