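import Crest.Agent.Ku.Defs
import Crest.Agent.Ku.Loc

/-! Laurent series over a finite-dimensional division algebra. -/

set_option autoImplicit false

namespace Crest.Agent.Ku
open PowerSeries

theorem lau : LauStmt := by
  intro K D _ _ _ _ _
  classical
  letI : Algebra K⟦X⟧ D⟦X⟧ := (PowerSeries.map (algebraMap K D)).toAlgebra' (fun c x => by
    ext n
    simp only [coeff_mul, coeff_map]
    rw [← Finset.Nat.sum_antidiagonal_swap]
    refine Finset.sum_congr rfl fun p _ => ?_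
    simp only [Prod.fst_swap, Prod.snd_swap]
    exact Algebra.commutes _ _)
  have ham : ∀ c : K⟦X⟧, algebraMap K⟦X⟧ D⟦X⟧ c = PowerSeries.map (algebraMap K D) c := fun _ => rfl
  let b := Module.finBasis K D
  haveI : Module.Finite K⟦X⟧ D⟦X⟧ := by
    refine ⟨⟨Finset.univ.image fun i => (C (b i) : D⟦X⟧), ?_⟩⟩
    rw [eq_top_iff]
    intro f _
    have h1 : f = ∑ i, (PowerSeries.mk fun n => b.repr (coeff n f) i : K⟦X⟧) • (C (b i) : D⟦X⟧) := by
      ext n
      rw [map_sum]
      simp only [Algebra.smul_def, ham, coeff_mul_C, coeff_map, coeff_mk]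
      simp only [← Algebra.smul_def]
      exact (b.sum_repr _).symm
    rw [h1]
    refine Submodule.sum_mem _ fun i _ => Submodule.smul_mem _ _ (Submodule.subset_span ?_)
    simp
  have hinj : Function.Injective (algebraMap K⟦X⟧ D⟦X⟧) := by
    intro f g h
    ext n
    have := congrArg (coeff n) h
    simp only [ham, coeff_map] at this
    exact (algebraMap K D).injective this
  obtain ⟨D', i1, i2, i3, j, hj, hc, hs, -⟩ := loc K⟦X⟧ D⟦X⟧ hinj
  have hu : ∀ p : K⟦X⟧, p ≠ 0 → ∃ (n : ℕ) (q : K⟦X⟧), q * p = X ^ n := by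
    intro p hp
    have h1 : IsUnit (divXPowOrder p) := by
      rw [PowerSeries.isUnit_iff_constantCoeff, isUnit_iff_ne_zero]
      exact fun h => hp (constantCoeff_divXPowOrder_eq_zero_iff.1 h)
    obtain ⟨q, hq⟩ := h1.exists_left_inv
    refine ⟨p.order.toNat, q, ?_⟩
    conv_lhs => rw [← X_pow_order_mul_divXPowOrder (f := p)]
    rw [mul_left_comm, hq, mul_one]
  refine ⟨FractionRing K⟦X⟧, D', inferInstance, inferInstance, i1, i2, i3,
    ⟨⟨algebraMap _ _, j, hj, fun f => hc f, ?_, ?_⟩⟩⟩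
  · intro k
    obtain ⟨⟨f, p⟩, hk⟩ := IsLocalization.surj (nonZeroDivisors K⟦X⟧) k
    obtain ⟨n, q, hq⟩ := hu p (nonZeroDivisors.coe_ne_zero p)
    refine ⟨n, q * f, ?_⟩
    rw [← map_pow, ← hq, map_mul, map_mul, mul_assoc, mul_comm _ k]
    simp only at hk
    rw [hk]
  · intro z
    obtain ⟨p, hp, a, ha⟩ := hs z
    obtain ⟨n, q, hq⟩ := hu p hp
    refine ⟨n, algebraMap K⟦X⟧ D⟦X⟧ q * a, ?_⟩
    have hX : j X = algebraMap (FractionRing K⟦X⟧) D' (algebraMap K⟦X⟧ (FractionRing K⟦X⟧) X) := by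
      rw [← hc, ham, map_X]
    rw [hX, ← map_pow, ← map_pow, ← hq, map_mul, map_mul, map_mul, hc, ← ha, mul_assoc]

end Crest.Agent.Ku
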