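import Crest.Agent.Ku.Defs

set_option autoImplicit false

namespace Crest.Agent.Ku
open Module PowerSeries

namespace LeadAux
variable {K D K' D' : Type} [Field K] [DivisionRing D] [Algebra K D] [Field K']
  [DivisionRing D'] [Algebra K' D'] (L : Lau K D K' D')

local notation "mp" => PowerSeries.map (algebraMap K D)

lemma hX : L.jD X = algebraMap K' D' (L.jK X) := by
  rw [← L.compat, PowerSeries.map_X]

lemma injK : Function.Injective L.jK := by
  refine (injective_iff_map_eq_zero _).2 fun f hf => ?_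
  have h := L.compat f
  rw [hf, map_zero] at h
  have h2 : mp f = 0 := L.injD (by rw [h, map_zero])
  ext n
  have := congrArg (coeff n) h2
  simpa using this

lemma x_ne : L.jK X ≠ 0 := fun h => X_ne_zero (injK L (by rw [h, map_zero]))

lemma smul_j (f : K⟦X⟧) (s : D⟦X⟧) : L.jK f • L.jD s = L.jD (mp f * s) := by
  rw [Algebra.smul_def, map_mul, L.compat]

lemma clear {κ : Type} [Fintype κ] (k : κ → K') :
    ∃ (N : ℕ) (f : κ → K⟦X⟧), ∀ i, L.jK X ^ N * k i = L.jK (f i) := by
  choose n f h using fun i => L.surjK (k i)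
  refine ⟨∑ i, n i, fun i => X ^ (∑ j, n j - n i) * f i, fun i => ?_⟩
  have : n i ≤ ∑ j, n j := Finset.single_le_sum (fun _ _ => Nat.zero_le _) (Finset.mem_univ i)
  rw [map_mul, map_pow, ← h, ← mul_assoc, ← pow_add, Nat.sub_add_cancel this]

lemma div_rel {κ : Type} [Fintype κ] (s : κ → D⟦X⟧) (g : κ → K⟦X⟧)
    (h : ∑ i, mp (X * g i) * s i = 0) : ∑ i, mp (g i) * s i = 0 := by
  have : X * ∑ i, mp (g i) * s i = 0 := by
    rw [← h, Finset.mul_sum]
    refine Finset.sum_congr rfl fun i _ => ?_
    rw [map_mul, PowerSeries.map_X, mul_assoc]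
  exact (mul_eq_zero.1 this).resolve_left X_ne_zero

lemma cc_rel {κ : Type} [Fintype κ] (s : κ → D⟦X⟧) (f : κ → K⟦X⟧) :
    constantCoeff (∑ i, mp (f i) * s i) = ∑ i, constantCoeff (f i) • constantCoeff (s i) := by
  rw [map_sum]
  refine Finset.sum_congr rfl fun i _ => ?_
  rw [map_mul, Algebra.smul_def]
  congr 1

lemma ind2 {κ : Type} [Fintype κ] (s : κ → D⟦X⟧ × D⟦X⟧)
    (h : LinearIndependent K (fun i => (constantCoeff (s i).1, constantCoeff (s i).2))) :
    LinearIndependent K' (fun i => (L.jD (s i).1, L.jD (s i).2)) := by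
  have key : ∀ (n : ℕ) (f : κ → K⟦X⟧), ∑ i, mp (f i) * (s i).1 = 0 → ∑ i, mp (f i) * (s i).2 = 0 →
      ∀ i, coeff n (f i) = 0 := by
    have h0 : ∀ (f : κ → K⟦X⟧), ∑ i, mp (f i) * (s i).1 = 0 → ∑ i, mp (f i) * (s i).2 = 0 →
      ∀ i, constantCoeff (f i) = 0 := by
      intro f h1 h2
      refine Fintype.linearIndependent_iff.1 h _ ?_
      have e1 := cc_rel (fun i => (s i).1) f
      have e2 := cc_rel (fun i => (s i).2) f
      simp only [h1, h2, map_zero] at e1 e2
      ext
      · simp only [Prod.fst_sum, Prod.smul_mk, Prod.fst_zero]; exact e1.symm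
      · simp only [Prod.snd_sum, Prod.smul_mk, Prod.snd_zero]; exact e2.symm
    intro n
    induction n with
    | zero => intro f h1 h2 i; simpa using h0 f h1 h2 i
    | succ n ih =>
      intro f h1 h2 i
      choose g hg using fun i => X_dvd_iff.2 (h0 f h1 h2 i)
      have hf : f = fun i => X * g i := funext hg
      subst hf
      rw [coeff_succ_X_mul]
      exact ih g (div_rel _ g h1) (div_rel _ g h2) i
  refine Fintype.linearIndependent_iff.2 fun k hk i => ?_
  obtain ⟨N, f, hf⟩ := clear L k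
  have hk' : ∑ i, L.jK (f i) • (L.jD (s i).1, L.jD (s i).2) = 0 := by
    simp only [← hf, mul_smul, ← Finset.smul_sum, hk, smul_zero]
  have e1 : ∑ i, mp (f i) * (s i).1 = 0 := by
    apply L.injD
    have := congrArg Prod.fst hk'
    simp only [Prod.fst_sum, Prod.smul_mk, Prod.fst_zero, smul_j] at this
    rw [map_sum, map_zero, this]
  have e2 : ∑ i, mp (f i) * (s i).2 = 0 := by
    apply L.injD
    have := congrArg Prod.snd hk'
    simp only [Prod.snd_sum, Prod.smul_mk, Prod.snd_zero, smul_j] at this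
    rw [map_sum, map_zero, this]
  have hz : f i = 0 := by ext n; simpa using key n f e1 e2 i
  have := hf i
  rw [hz, map_zero] at this
  exact (mul_eq_zero.1 this).resolve_left (pow_ne_zero _ (x_ne L))

lemma ind1 {κ : Type} [Fintype κ] (s : κ → D⟦X⟧)
    (h : LinearIndependent K (fun i => constantCoeff (s i))) :
    LinearIndependent K' (fun i => L.jD (s i)) := by
  have h1 := ind2 L (fun i => (s i, 0)) (by
    have := h.map' (LinearMap.inl K D D) (Submodule.ker_inl ..)
    simpa [Function.comp_def] using this)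
  refine LinearIndependent.of_comp (LinearMap.inl K' D' D') ?_
  simpa [Function.comp_def] using h1

lemma unX {V : Submodule K' D'} {s : D⟦X⟧} (n : ℕ) (h : L.jD (X ^ n * s) ∈ V) : L.jD s ∈ V := by
  have : L.jD (X ^ n * s) = L.jK X ^ n • L.jD s := by
    rw [map_mul, map_pow, hX, Algebra.smul_def, map_pow]
  rw [this] at h
  exact (V.smul_mem_iff (pow_ne_zero _ (x_ne L))).1 h

lemma red {V : Submodule K' D'} {W : Submodule K' D'} (h : ∀ s, L.jD s ∈ V → L.jD s ∈ W) : V ≤ W := by
  intro v hv
  obtain ⟨n, f, hf⟩ := L.surjD v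
  have e : L.jD f = L.jK X ^ n • v := by rw [← hf, hX, Algebra.smul_def, map_pow]
  have := h f (by rw [e]; exact V.smul_mem _ hv)
  rw [e] at this
  exact (W.smul_mem_iff (pow_ne_zero _ (x_ne L))).1 this

def leadS (V : Submodule K' D') : Submodule K D where
  carrier := L.lead V
  zero_mem' := ⟨0, by simp, by simp⟩
  add_mem' := by
    rintro _ _ ⟨s, hs, rfl⟩ ⟨t, ht, rfl⟩
    exact ⟨s + t, by rw [map_add]; exact V.add_mem hs ht, by simp⟩
  smul_mem' := by
    rintro c _ ⟨s, hs, rfl⟩
    refine ⟨mp (C c) * s, by rw [← smul_j]; exact V.smul_mem _ hs, ?_⟩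
    simp [Algebra.smul_def]

lemma lead1 [FiniteDimensional K D] (V : Submodule K' D') :
    finrank K (leadS L V) = finrank K' V := by
  classical
  set U := leadS L V
  let b := Module.finBasis K U
  have hb : ∀ i, ∃ s, L.jD s ∈ V ∧ constantCoeff s = (b i : D) := fun i => (b i).2
  choose s hs hs0 using hb
  have hli : LinearIndependent K' (fun i => L.jD (s i)) := by
    refine ind1 L s ?_
    simp only [hs0]
    exact b.linearIndependent.map' U.subtype U.ker_subtype
  have step : ∀ t : {t // L.jD t ∈ V}, ∃ (c : Fin (finrank K U) → K) (t' : {t // L.jD t ∈ V}),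
      t.1 = ∑ i, mp (C (c i)) * s i + X * t'.1 := by
    intro t
    have ht : constantCoeff t.1 ∈ U := ⟨t.1, t.2, rfl⟩
    let c := b.repr ⟨_, ht⟩
    have h0 : constantCoeff (t.1 - ∑ i, mp (C (c i)) * s i) = 0 := by
      rw [map_sub, cc_rel]
      have := congrArg U.subtype (b.sum_repr ⟨_, ht⟩)
      simp only [map_sum, map_smul, Submodule.subtype_apply] at this
      simp only [constantCoeff_C, hs0]
      rw [sub_eq_zero]; exact this.symm
    obtain ⟨t', ht'⟩ := X_dvd_iff.2 h0
    refine ⟨c, ⟨t', unX L 1 ?_⟩, by rw [← ht']; abel⟩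
    rw [pow_one, ← ht', map_sub, map_sum]
    exact V.sub_mem t.2 (V.sum_mem fun i _ => by rw [← smul_j]; exact V.smul_mem _ (hs i))
  choose c nx hnx using step
  let f : {t // L.jD t ∈ V} → Fin (finrank K U) → K⟦X⟧ := fun t i => mk fun n => c (nx^[n] t) i
  have hf : ∀ t i, f t i = C (c t i) + X * f (nx t) i := by
    intro t i
    ext n
    cases n with
    | zero => simp [f]
    | succ n => simp [f, coeff_succ_X_mul]
  have key : ∀ (n : ℕ) t, coeff n (t.1 - ∑ i, mp (f t i) * s i) = 0 := by
    have e : ∀ t, t.1 - ∑ i, mp (f t i) * s i = X * ((nx t).1 - ∑ i, mp (f (nx t) i) * s i) := by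
      intro t
      conv_lhs => rw [hnx t]
      simp only [hf t, map_add, map_mul, PowerSeries.map_X, add_mul, Finset.sum_add_distrib, mul_sub,
        Finset.mul_sum, mul_assoc]
      abel
    intro n
    induction n with
    | zero => intro t; rw [e]; simp
    | succ n ih => intro t; rw [e, coeff_succ_X_mul]; exact ih _
  have hV : V = Submodule.span K' (Set.range fun i => L.jD (s i)) := by
    refine le_antisymm (red L fun t ht => ?_) (Submodule.span_le.2 ?_)
    · have : t = ∑ i, mp (f ⟨t, ht⟩ i) * s i := by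
        rw [← sub_eq_zero]; ext n; exact key n ⟨t, ht⟩
      rw [this, map_sum]
      refine Submodule.sum_mem _ fun i _ => ?_
      rw [← smul_j]
      exact Submodule.smul_mem _ _ (Submodule.subset_span ⟨i, rfl⟩)
    · rintro _ ⟨i, rfl⟩; exact hs i
  rw [hV, finrank_span_eq_card hli, Fintype.card_fin]

lemma expand {κ : Type} [Fintype κ] {U : Submodule K D} (b : Basis κ K U) (s : D⟦X⟧)
    (h : ∀ i, coeff i s ∈ U) :
    s = ∑ i, mp (mk fun n => b.repr ⟨_, h n⟩ i) * C (b i : D) := by
  ext n
  have := congrArg U.subtype (b.sum_repr ⟨_, h n⟩)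
  simp only [map_sum, map_smul, Submodule.subtype_apply] at this
  rw [← this, map_sum]
  refine Finset.sum_congr rfl fun i _ => ?_
  rw [coeff_mul_C, coeff_map, coeff_mk, Algebra.smul_def]

lemma sp_eq {κ : Type} [Fintype κ] {U : Submodule K D} (b : Basis κ K U) :
    L.sp U = Submodule.span K' (Set.range fun i => L.jD (C (b i : D))) := by
  refine le_antisymm (Submodule.span_le.2 ?_) (Submodule.span_le.2 ?_)
  · rintro _ ⟨d, hd, rfl⟩
    have h : ∀ i, coeff i (C d : D⟦X⟧) ∈ U := by
      intro i; rw [coeff_C]; split_ifs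
      exacts [hd, U.zero_mem]
    rw [expand b _ h, map_sum]
    refine Submodule.sum_mem _ fun i _ => ?_
    rw [← smul_j]
    exact Submodule.smul_mem _ _ (Submodule.subset_span ⟨i, rfl⟩)
  · rintro _ ⟨i, rfl⟩; exact Submodule.subset_span ⟨_, (b i).2, rfl⟩

lemma sp_ind {κ : Type} [Fintype κ] {U : Submodule K D} (b : Basis κ K U) :
    LinearIndependent K' fun i => L.jD (C (b i : D)) := by
  refine ind1 L _ ?_
  simp only [constantCoeff_C]
  exact b.linearIndependent.map' U.subtype U.ker_subtype

lemma sp_mem [FiniteDimensional K D] (U : Submodule K D) (s : D⟦X⟧) :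
    L.jD s ∈ L.sp U ↔ ∀ i, coeff i s ∈ U := by
  let b := Module.finBasis K U
  rw [sp_eq L b]
  constructor
  · intro h n
    obtain ⟨k, hk⟩ := (Submodule.mem_span_range_iff_exists_fun K').1 h
    obtain ⟨N, f, hf⟩ := clear L k
    have e : X ^ N * s = ∑ i, mp (f i) * C (b i : D) := by
      apply L.injD
      rw [map_mul, map_pow, hX, ← map_pow, ← Algebra.smul_def, ← hk, Finset.smul_sum, map_sum]
      refine Finset.sum_congr rfl fun i _ => ?_
      rw [← mul_smul, hf, smul_j]
    have := congrArg (coeff (n + N)) e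
    rw [coeff_X_pow_mul, map_sum] at this
    rw [this]
    refine U.sum_mem fun i _ => ?_
    rw [coeff_mul_C, coeff_map, ← Algebra.smul_def]
    exact U.smul_mem _ (b i).2
  · intro h
    rw [expand b _ h, map_sum]
    refine Submodule.sum_mem _ fun i _ => ?_
    rw [← smul_j]
    exact Submodule.smul_mem _ _ (Submodule.subset_span ⟨i, rfl⟩)

lemma tr [FiniteDimensional K D] (s : D⟦X⟧) :
    ∃ k, LinearMap.trace K' D' (LinearMap.mulLeft K' (L.jD s)) = L.jK k ∧
    constantCoeff k = LinearMap.trace K D (LinearMap.mulLeft K (constantCoeff s)) := by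
  classical
  let b0 := Module.finBasis K D
  let b : Basis (Fin (finrank K D)) K (⊤ : Submodule K D) := b0.map Submodule.topEquiv.symm
  have hb : ∀ i, (b i : D) = b0 i := fun i => by simp [b]
  have hr : ∀ (z : D) i, b.repr ⟨z, trivial⟩ i = b0.repr z i := fun z i => by simp [b]
  have htop : ⊤ ≤ Submodule.span K' (Set.range fun i => L.jD (C (b i : D))) := by
    rw [← sp_eq L b]
    exact red L fun t _ => (sp_mem L ⊤ t).2 fun _ => trivial
  let b' := Basis.mk (sp_ind L b) htop
  have hb' : ∀ i, b' i = L.jD (C (b i : D)) := fun i => by simp [b']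
  let f : Fin (finrank K D) → Fin (finrank K D) → K⟦X⟧ := fun j i =>
    mk fun n => b.repr ⟨coeff n (s * C (b j : D)), trivial⟩ i
  have hf : ∀ j, L.jD s * b' j = ∑ i, L.jK (f j i) • b' i := by
    intro j
    rw [hb', ← map_mul, expand b (s * C (b j : D)) (fun _ => trivial), map_sum]
    refine Finset.sum_congr rfl fun i _ => ?_
    rw [hb', smul_j]
  refine ⟨∑ j, f j j, ?_, ?_⟩
  · rw [LinearMap.trace_eq_matrix_trace K' b', Matrix.trace, map_sum]
    refine Finset.sum_congr rfl fun j _ => ?_
    rw [Matrix.diag_apply, LinearMap.toMatrix_apply, LinearMap.mulLeft_apply, hf]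
    simp [Finsupp.single_apply]
  · rw [LinearMap.trace_eq_matrix_trace K b0, Matrix.trace, map_sum]
    refine Finset.sum_congr rfl fun j _ => ?_
    rw [Matrix.diag_apply, LinearMap.toMatrix_apply, LinearMap.mulLeft_apply]
    simp only [f, ← coeff_zero_eq_constantCoeff_apply, coeff_mk, hr, coeff_mul_C, hb]

end LeadAux
open LeadAux

theorem lead : LeadStmt := by
  intro K D K' D' _ _ _ _ _ _ _ _ L
  refine ⟨fun V => ⟨leadS L V, rfl, lead1 L V⟩, fun κ _ s h => ind2 L s h, fun A => ?_,
    fun U => ⟨?_, sp_mem L U⟩, injK L, hX L, tr L⟩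
  · let B : Subalgebra K D :=
      { carrier := L.lead (Subalgebra.toSubmodule A)
        mul_mem' := by
          rintro _ _ ⟨s, hs, rfl⟩ ⟨t, ht, rfl⟩
          exact ⟨s * t, by rw [map_mul]; exact A.mul_mem hs ht, by simp⟩
        add_mem' := fun ha hb => (leadS L (Subalgebra.toSubmodule A)).add_mem ha hb
        algebraMap_mem' := fun c => ⟨PowerSeries.map (algebraMap K D) (C c), by
          rw [L.compat]; exact A.algebraMap_mem _, by simp⟩ }
    refine ⟨B, rfl, ?_⟩
    have : Subalgebra.toSubmodule B = leadS L (Subalgebra.toSubmodule A) := rfl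
    rw [← Subalgebra.finrank_toSubmodule, this, lead1, Subalgebra.finrank_toSubmodule]
  · let b := Module.finBasis K U
    rw [sp_eq L b, finrank_span_eq_card (sp_ind L b), Fintype.card_fin]

end Crest.Agent.Ku
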