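import Crest.Agent.Ku.Defs

set_option autoImplicit false

namespace Crest.Agent.Ku
open Module PowerSeries

lemma Ext.mem_tenR_one {r : ℕ} {K D K₁ D₁ : Type} [Field K] [DivisionRing D] [Algebra K D] [Field K₁]
    [DivisionRing D₁] [Algebra K₁ D₁] (E : Ext r K D K₁ D₁) (z : D₁) (hz : z ∈ E.tenR 1) :
    ∃ c : Fin r × Fin r → K₁, z = ∑ p, c p • (E.u ^ p.1.val * E.v ^ p.2.val) := by
  have : E.tenR 1 ≤ Submodule.span K₁ (Set.range fun p : Fin r × Fin r =>
      E.u ^ p.1.val * E.v ^ p.2.val) := by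
    refine Submodule.span_le.mpr ?_
    rintro _ ⟨d, hd, a, ha, b, hb, -, rfl⟩
    obtain ⟨k, rfl⟩ := Submodule.mem_one.mp hd
    rw [E.compat, ← Algebra.smul_def]
    exact Submodule.smul_mem _ _ (Submodule.subset_span ⟨(⟨a, ha⟩, ⟨b, hb⟩), rfl⟩)
  obtain ⟨c, hc⟩ := (Submodule.mem_span_range_iff_exists_fun _).mp (this hz)
  exact ⟨c, hc.symm⟩

lemma map_algebraMap_commute {K D : Type} [Field K] [Ring D] [Algebra K D] (k : K⟦X⟧) (z : D⟦X⟧) :
    Commute (PowerSeries.map (algebraMap K D) k) z := by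
  ext n
  rw [coeff_mul, coeff_mul, ← Finset.Nat.sum_antidiagonal_swap]
  refine Finset.sum_congr rfl fun p _ => ?_
  simp only [coeff_map, Prod.fst_swap, Prod.snd_swap]
  exact Algebra.commutes _ _

theorem tan (hB : Base) : TanStmt := by
  obtain ⟨-, -, hD, -⟩ := hB
  intro S r K₁ D₁ _ _ _ _ _ E ω e g S' P hω he l d hl hd
  classical
  choose c hc using fun j i => E.mem_tenR_one _ (hl j i)
  let k : S'.ι → K₁⟦X⟧ := fun p => mk fun i => c (P.eqv p).1 i (P.eqv p).2
  refine ⟨k, ?_⟩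
  obtain ⟨-, hu, hlin, -⟩ := hD S.ι S.D D₁ E.ψ ω e hω he
  have h1 := hlin S'.ι (fun p => PowerSeries.map (algebraMap K₁ D₁) (k p)) _ P.d
    (fun p z => map_algebraMap_commute _ _) P.hd
  have h2 : (fun j => ∑ p, PowerSeries.map (algebraMap K₁ D₁) (k p) *
      (open Classical in if j = (P.eqv p).1 then
        C (E.u ^ (P.eqv p).2.1.val * E.v ^ (P.eqv p).2.2.val) else 0)) = l := by
    funext j
    ext i
    rw [map_sum, hc j i, ← P.eqv.symm.sum_comp, Fintype.sum_prod_type, Finset.sum_eq_single j]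
    · refine Finset.sum_congr rfl fun q _ => ?_
      simp only [k, Equiv.apply_symm_apply, if_true, coeff_mul_C, coeff_map, coeff_mk, Algebra.smul_def]
    · intro j' _ hj'
      refine Finset.sum_eq_zero fun q _ => ?_
      simp [hj'.symm]
    · simp
  rw [h2] at h1
  have h3 := hu l _ _ hd h1
  rw [h3]
  simp only [St.t, P.h1, Finset.mul_sum, Finset.sum_mul, map_sum]
  refine Finset.sum_congr rfl fun p _ => ?_
  rw [Algebra.smul_def, ← P.L.compat, ← map_mul]
  congr 1
  rw [← mul_assoc, ← mul_assoc, ← mul_assoc, (map_algebraMap_commute (k p) _).eq]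

end Crest.Agent.Ku
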