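import Crest.Agent.Ku.Exp
import Crest.Agent.Ku.Tan

set_option autoImplicit false

namespace Crest.Agent.Ku
open Module PowerSeries

section
variable {r : ℕ} {K D K₁ D₁ : Type} [Field K] [DivisionRing D] [Algebra K D] [Field K₁]
  [DivisionRing D₁] [Algebra K₁ D₁] (E : Ext r K D K₁ D₁)

lemma Ext.psi_smul (k : K) (d : D) : E.ψ (k • d) = E.φ k • E.ψ d := by
  rw [Algebra.smul_def, map_mul, E.compat, Algebra.smul_def]

lemma Ext.upow (a : ℕ) : ∃ s : K₁, s ≠ 0 ∧ E.u ^ a = s • E.u ^ (a % r) := by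
  obtain ⟨s, hs, h⟩ := E.ur
  refine ⟨s ^ (a / r), pow_ne_zero _ hs, ?_⟩
  conv_lhs => rw [← Nat.div_add_mod a r, pow_add, pow_mul, h, ← map_pow, ← Algebra.smul_def]

lemma Ext.vpow (a : ℕ) : ∃ s : K₁, s ≠ 0 ∧ E.v ^ a = s • E.v ^ (a % r) := by
  obtain ⟨s, hs, h⟩ := E.vr
  refine ⟨s ^ (a / r), pow_ne_zero _ hs, ?_⟩
  conv_lhs => rw [← Nat.div_add_mod a r, pow_add, pow_mul, h, ← map_pow, ← Algebra.smul_def]

lemma Ext.mono_mem (hr : 1 ≤ r) {U : Submodule K D} {P : ℕ → ℕ → Prop} {d : D} (hd : d ∈ U) (a b : ℕ)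
    (h : P (a % r) (b % r)) : E.ψ d * (E.u ^ a * E.v ^ b) ∈ E.ten U P := by
  obtain ⟨s, -, hs⟩ := E.upow a
  obtain ⟨t, -, ht⟩ := E.vpow b
  rw [hs, ht, smul_mul_smul_comm, mul_smul_comm]
  exact Submodule.smul_mem _ _ (Submodule.subset_span
    ⟨d, hd, _, Nat.mod_lt _ hr, _, Nat.mod_lt _ hr, h, rfl⟩)

lemma Ext.mono_one (hr : 1 ≤ r) {P : ℕ → ℕ → Prop} (a b : ℕ)
    (h : P (a % r) (b % r)) : E.u ^ a * E.v ^ b ∈ E.ten 1 P := by
  have := E.mono_mem hr (U := 1) (P := P) (d := 1) (Submodule.mem_one.mpr ⟨1, by simp⟩) a b h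
  simpa using this

lemma Ext.v_upow (a : ℕ) : E.v * E.u ^ a = E.ζ ^ a • (E.u ^ a * E.v) := by
  induction a with
  | zero => simp
  | succ a ih =>
    rw [pow_succ, ← mul_assoc, ih, smul_mul_assoc, mul_assoc, E.vu, mul_smul_comm, smul_smul,
      ← pow_succ, mul_assoc]

lemma Ext.vpow_upow (k a : ℕ) : E.v ^ k * E.u ^ a = E.ζ ^ (k * a) • (E.u ^ a * E.v ^ k) := by
  induction k with
  | zero => simp
  | succ k ih =>
    rw [pow_succ', mul_assoc, ih, mul_smul_comm, ← mul_assoc, E.v_upow, smul_mul_assoc, smul_smul,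
      ← pow_add, mul_assoc, add_mul, one_mul]

lemma Ext.comm_mono (d : D) (a b : ℕ) : Commute (E.ψ d) (E.u ^ a * E.v ^ b) :=
  ((E.cu d).pow_right a).mul_right ((E.cv d).pow_right b)

lemma Ext.comm_tenR_one (d : D) {z : D₁} (hz : z ∈ E.tenR 1) : Commute (E.ψ d) z := by
  obtain ⟨c, rfl⟩ := E.mem_tenR_one z hz
  exact Commute.sum_right _ _ _ fun p _ => (E.comm_mono d _ _).smul_right _

lemma Ext.ten_mono {U U' : Submodule K D} {P P' : ℕ → ℕ → Prop} (h : U ≤ U')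
    (hP : ∀ a b, P a b → P' a b) : E.ten U P ≤ E.ten U' P' := by
  refine Submodule.span_mono ?_
  rintro _ ⟨d, hd, a, ha, b, hb, hp, rfl⟩
  exact ⟨d, h hd, a, ha, b, hb, hP a b hp, rfl⟩

lemma Ext.exists_ev {ι : Type} [Fintype ι] (ω : ι → D₁⟦X⟧) (hA : Adm E ω)
    (h0 : ∀ j, constantCoeff (ω j) = 0) : ∃ e : NC ι D →+* D₁⟦X⟧, IsEv (C.comp E.ψ) ω e := by
  obtain ⟨F, hF⟩ := filt.1 D₁
  refine ev ι D D₁⟦X⟧ F _ ω (fun j => (hF _ _).2 fun i hi => ?_) fun j a => ?_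
  · obtain rfl : i = 0 := by omega
    simpa using h0 j
  · ext i
    simp only [RingHom.comp_apply, coeff_C_mul, coeff_mul_C]
    exact (E.comm_tenR_one a (hA j i)).eq
end

lemma Ext.sum_t (S : St) {r : ℕ} {K₁ D₁ : Type} [Field K₁] [DivisionRing D₁] [Algebra K₁ D₁]
    (E : Ext r S.K S.D K₁ D₁) (δ : S.ι → S.K) {y : D₁} (hy : y ∈ E.tenR 1) :
    ∑ j, (E.φ (δ j) • y) * E.ψ (S.H [j]) = E.ψ (S.t δ) * y := by
  rw [St.t, map_sum, Finset.sum_mul]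
  refine Finset.sum_congr rfl fun j _ => ?_
  rw [E.psi_smul, smul_mul_assoc, smul_mul_assoc, (E.comm_tenR_one _ hy).eq]

lemma St.W_le_C (S : St) : S.W ≤ Subalgebra.toSubmodule S.C := inf_le_right

lemma St.mem_C (S : St) (z : S.D) : z ∈ S.C ↔ Commute z S.a := by
  rw [St.C, Subalgebra.mem_centralizer_iff]
  simp only [Set.mem_singleton_iff, forall_eq]
  exact ⟨fun h => h.symm, fun h => h.symm⟩

lemma St.inv_mem_C (S : St) {z : S.D} (h : z ∈ S.C) : z⁻¹ ∈ S.C :=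
  (S.mem_C _).2 ((S.mem_C _).1 h).inv_left₀

end Crest.Agent.Ku
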