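import Crest.Agent.Ku.Move
import Crest.Agent.Ku.Pt0

set_option autoImplicit false

namespace Crest.Agent.Ku
open Module PowerSeries

namespace MidX

variable {r : ℕ} {K D K₁ D₁ : Type} [Field K] [DivisionRing D] [Algebra K D] [Field K₁]
  [DivisionRing D₁] [Algebra K₁ D₁]

lemma mono_mul (E : Ext r K D K₁ D₁) (d d' : D) (a b a' b' : ℕ) :
    E.ψ d * (E.u ^ a * E.v ^ b) * (E.ψ d' * (E.u ^ a' * E.v ^ b')) =
      E.ζ ^ (b * a') • (E.ψ (d * d') * (E.u ^ (a + a') * E.v ^ (b + b'))) := by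
  rw [mul_assoc, ← mul_assoc (E.u ^ a * E.v ^ b), ← (E.comm_mono d' a b).eq, map_mul, pow_add,
    pow_add]
  simp only [mul_assoc]
  rw [← mul_assoc (E.v ^ b), E.vpow_upow]
  simp only [smul_mul_assoc, mul_smul_comm, mul_assoc]

lemma comm_mem (E : Ext r K D K₁ D₁) (hr : 1 ≤ r) (A : Subalgebra K D) (x y : D₁)
    (hx : x ∈ E.tenN (Subalgebra.toSubmodule A)) (hy : y ∈ E.tenL (Subalgebra.toSubmodule A)) :
    x * y - y * x ∈ E.tenN (Subalgebra.toSubmodule A) := by
  unfold Ext.tenN Ext.tenL at *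
  have key : x * y ∈ E.ten (Subalgebra.toSubmodule A) (fun _ b => b ≠ 0) ∧
      y * x ∈ E.ten (Subalgebra.toSubmodule A) (fun _ b => b ≠ 0) := by
    unfold Ext.ten at hx hy
    induction hx using Submodule.span_induction with
    | mem x hx =>
      obtain ⟨d, hd, a, -, b, hb, hb0, rfl⟩ := hx
      induction hy using Submodule.span_induction with
      | mem y hy =>
        obtain ⟨d', hd', a', -, b', -, rfl, rfl⟩ := hy
        rw [mono_mul, mono_mul]
        refine ⟨Submodule.smul_mem _ _ (E.mono_mem hr (A.mul_mem hd hd') _ _ ?_),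
          Submodule.smul_mem _ _ (E.mono_mem hr (A.mul_mem hd' hd) _ _ ?_)⟩
        · simpa [Nat.mod_eq_of_lt hb] using hb0
        · simpa [Nat.mod_eq_of_lt hb] using hb0
      | zero => simp
      | add y z _ _ hy hz =>
        rw [mul_add, add_mul]; exact ⟨add_mem hy.1 hz.1, add_mem hy.2 hz.2⟩
      | smul c y _ hy =>
        rw [mul_smul_comm, smul_mul_assoc]
        exact ⟨Submodule.smul_mem _ _ hy.1, Submodule.smul_mem _ _ hy.2⟩
    | zero => simp
    | add y z _ _ hy hz =>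
      rw [mul_add, add_mul]; exact ⟨add_mem hy.1 hz.1, add_mem hy.2 hz.2⟩
    | smul c y _ hy =>
      rw [mul_smul_comm, smul_mul_assoc]
      exact ⟨Submodule.smul_mem _ _ hy.1, Submodule.smul_mem _ _ hy.2⟩
  exact sub_mem key.1 key.2

section
variable {K' D' : Type} [Field K'] [DivisionRing D'] [Algebra K' D'] (L : Lau K₁ D₁ K' D')

lemma mem_iff (hX : L.jD X = algebraMap K' D' (L.jK X)) (V : Submodule K' D') (n : ℕ) (z : D') :
    L.jD X ^ n * z ∈ V ↔ z ∈ V := by
  have h0 : L.jK X ≠ 0 := by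
    intro h
    rw [h, map_zero] at hX
    exact X_ne_zero (L.injD (by rw [hX, map_zero]))
  rw [hX, ← map_pow, ← Algebra.smul_def]
  exact V.smul_mem_iff (pow_ne_zero _ h0)

/-- if the leading terms of `C'` commute with `p` and `p` commutes with `F` then `C'` commutes with `p` -/
lemma comm_of_lead (hX : L.jD X = algebraMap K' D' (L.jK X)) (F : D₁⟦X⟧) (p : D₁)
    (hc : Disjoint (Subalgebra.toSubmodule (Subalgebra.centralizer K₁ {p})) (LinearMap.range (ad K₁ p)))
    (hF : Commute F (C p))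
    (hl : ∀ z ∈ L.lead (Subalgebra.toSubmodule (Subalgebra.centralizer K' {L.jD F})), Commute z p)
    (y : D₁⟦X⟧) (hy : Commute (L.jD y) (L.jD F)) (i : ℕ) : Commute (coeff i y) p := by
  have h1 : L.jD (y * C p - C p * y) ∈
      Subalgebra.toSubmodule (Subalgebra.centralizer K' {L.jD F}) := by
    rw [TenX.mem_cent, map_sub, map_mul, map_mul]
    have := (hF.map L.jD).symm
    exact (hy.mul_left this).sub_left (this.mul_left hy)
  have h2 : ∀ i, coeff i (y * C p - C p * y) = ad K₁ p (coeff i y) := by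
    intro i
    rw [map_sub, coeff_mul_C, coeff_C_mul]; rfl
  have h3 : ∀ n, ∀ i < n, coeff i (y * C p - C p * y) = 0 := by
    intro n
    induction n with
    | zero => intro i hi; omega
    | succ n ih =>
      intro i hi
      rcases Nat.lt_succ_iff_lt_or_eq.1 hi with h | rfl
      · exact ih i h
      · obtain ⟨w, hw⟩ := X_pow_dvd_iff.2 ih
        have h4 : coeff i (y * C p - C p * y) = constantCoeff w := by
          rw [hw, ← coeff_zero_eq_constantCoeff_apply]
          simpa using coeff_X_pow_mul w i 0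
        rw [hw, map_mul, map_pow, mem_iff L hX] at h1
        have h5 := hl _ ⟨w, h1, rfl⟩
        rw [h4]
        exact Submodule.disjoint_def.1 hc _ ((TenX.mem_cent _ _).2 h5) ⟨_, by rw [← h2, h4]⟩
  have := h3 (i + 1) i (by omega)
  rw [h2] at this
  exact sub_eq_zero.1 this
end

end MidX

open MidX MoveX in
theorem mid (hB : Base) (hA : PtAStmt) (hM : MoveStmt) : MidStmt := by
  classical
  intro S r K₁ D₁ _ _ _ _ _ E ω e n s b ⟨hr, ⟨_, hNH, _, hN⟩, hCen, hadm, hω, he, hn, hH, hbW, hb0, hs0⟩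
  have hs := s_comm hB S r K₁ D₁ E ω e n s hN hadm hω he hH
  obtain ⟨-, -, -, -, -, hLead, -, hAlg, hTen, -, -, hNfp, -⟩ := hB
  haveI : CharZero K₁ := charZero_of_injective_algebraMap (algebraMap ℂ K₁).injective
  obtain ⟨-, hL, -, -, -, hLN, hcR, hcL, -⟩ := hTen r S.K S.D K₁ D₁ E hr
  obtain ⟨g, hg0, hg, hg', hgs⟩ := hNfp K₁ D₁ (Subalgebra.centralizer K₁ {E.ψ S.a}) s
    (fun i => (TenX.mem_cent (F := K₁) _ _).2 (hs i))
  have hgc : ∀ i, Commute (coeff i (g : D₁⟦X⟧)) (E.ψ S.a) := fun i => (TenX.mem_cent (F := K₁) _ _).1 (hg i)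
  obtain ⟨S', hRel, ⟨P⟩⟩ := hA S r K₁ D₁ E ω e g hr hadm hω he
  have hs00 : constantCoeff s ≠ 0 := by
    rw [hs0]
    exact mul_ne_zero (by simpa using hb0) (TenX.u_ne E hr)
  obtain ⟨hW', hlead⟩ := hM S r K₁ D₁ E ω e g S' P n s hr hN hadm hω he hn hH hs00 hg0 hgc
  obtain ⟨-, -, hL3, hL4, hjK, hX, -⟩ := hLead K₁ D₁ S'.K S'.D P.L
  have hT := hcL S.a b hb0 (fun z hz => hCen b hbW z ((S.mem_C z).2 hz))
  have hR := hcR S.a
  change _ = E.tenL (Subalgebra.toSubmodule S.C) at hT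
  change _ = E.tenR (Subalgebra.toSubmodule S.C) at hR
  rw [← hs0] at hT
  have hTm : ∀ z, z ∈ E.tenL (Subalgebra.toSubmodule S.C) ↔
      Commute z (E.ψ S.a) ∧ Commute z (constantCoeff s) := by
    intro z
    rw [← hT]
    simp only [Subalgebra.mem_toSubmodule, Subalgebra.mem_centralizer_iff, Set.mem_insert_iff,
      Set.mem_singleton_iff, forall_eq_or_imp, forall_eq]
    exact ⟨fun h => ⟨h.1.symm, h.2.symm⟩, fun h => ⟨h.1.eq.symm, h.2.eq.symm⟩⟩
  set A : D₁⟦X⟧ := C (E.ψ S.a) with hAdef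
  have hgA : Commute (g : D₁⟦X⟧) A := (comm_C_iff _ _).2 hgc
  have hgA' : Commute (↑g⁻¹ : D₁⟦X⟧) A := hgA.units_inv_left
  have hsA : Commute s A := (comm_C_iff _ _).2 hs
  set s' : D₁⟦X⟧ := ↑g⁻¹ * s * ↑g with hs'
  have hs'A : Commute s' A := (hgA'.mul_left hsA).mul_left hgA
  have hs'T : ∀ i, coeff i s' ∈ E.tenL (Subalgebra.toSubmodule S.C) := fun i =>
    (hTm _).2 ⟨(comm_C_iff _ _).1 hs'A i, hgs i⟩
  have hXc : ∀ (k : ℕ) (f : D₁⟦X⟧), Commute (X ^ k) f := fun k f => (commute_X_pow f k).symm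
  have ha' : S'.a = P.L.jD (A + X ^ n * s') := by
    show S'.H [] = _
    rw [P.h0, hH]
    congr 1
    rw [mul_add, add_mul, hgA'.eq, mul_assoc A, Units.inv_mul, mul_one, hs', ← mul_assoc,
      ← (hXc n _).eq]
    simp only [mul_assoc]
  set F := A + X ^ n * s' with hF
  have hFA : Commute F A := (Commute.refl A).add_left ((hXc n A).mul_left hs'A)
  have hFs : Commute F (C (constantCoeff s)) := by
    refine Commute.add_left ?_ ((hXc n _).mul_left ((comm_C_iff _ _).2 hgs))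
    have : Commute (constantCoeff s) (E.ψ S.a) := by simpa using hs 0
    exact this.symm.map (C : D₁ →+* D₁⟦X⟧)
  have hFT : ∀ i, coeff i F ∈ E.tenL (Subalgebra.toSubmodule S.C) := fun i =>
    (hTm _).2 ⟨(comm_C_iff _ _).1 hFA i, (comm_C_iff _ _).1 hFs i⟩
  obtain ⟨-, hdbl, hcompl, -⟩ := hAlg K₁ D₁
  have hC' : S'.C = Subalgebra.centralizer S'.K {P.L.jD F} := by rw [St.C, ha']
  have hleadT : ∀ z ∈ P.L.lead (Subalgebra.toSubmodule (Subalgebra.centralizer S'.K {P.L.jD F})),
      Commute z (E.ψ S.a) ∧ Commute z (constantCoeff s) := by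
    intro z hz
    rw [← hC'] at hz
    rw [← hTm, ← hT]
    exact hlead hz
  have hle : Subalgebra.toSubmodule S'.C ≤ P.L.sp (E.tenL (Subalgebra.toSubmodule S.C)) := by
    intro z hz
    obtain ⟨m, f, hf⟩ := P.L.surjD z
    rw [← mem_iff P.L hX _ m, hf] at hz ⊢
    rw [hC', TenX.mem_cent] at hz
    rw [(hL4 _).2]
    intro i
    exact (hTm _).2 ⟨comm_of_lead P.L hX F _ (hcompl _).disjoint hFA (fun z h => (hleadT z h).1) f hz i,
      comm_of_lead P.L hX F _ (hcompl _).disjoint hFs (fun z h => (hleadT z h).2) f hz i⟩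
  have hCeq : Subalgebra.toSubmodule S'.C = P.L.sp (E.tenL (Subalgebra.toSubmodule S.C)) := by
    apply Submodule.eq_of_le_of_finrank_le hle
    obtain ⟨B, hB1, hB2⟩ := hL3 S'.C
    have hBle : B ≤ Subalgebra.centralizer K₁ {E.ψ S.a, constantCoeff s} := by
      intro z hz
      apply hlead
      rw [← hB1]; exact hz
    have hdim : finrank K₁ (Subalgebra.centralizer K₁ {E.ψ S.a, constantCoeff s}) = r * S.c := by
      have := hL (Subalgebra.toSubmodule S.C)
      rw [← hT] at this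
      exact this
    have h1 := hNH S' r hRel hW'
    rw [(hL4 _).1, hL]
    change r * S.c ≤ S'.c
    change _ = S'.c at hB2
    rcases hBle.lt_or_eq with h | h
    · have := hdbl _ _ h
      omega
    · rw [← hB2, h, hdim]
  refine ⟨g, S', P, hRel, hW', hg0, fun i => ?_, fun i => ?_, hs'T, hCeq, ?_⟩
  · rw [← hR]; exact hg i
  · rw [← hR]; exact hg' i
  · set N' := P.L.sp (E.tenN (Subalgebra.toSubmodule S.C)) with hN'
    have hmap : ∀ z ∈ N', ad S'.K S'.a z ∈ N' := by
      intro z hz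
      have : N' ≤ N'.comap (ad S'.K S'.a) := by
        refine Submodule.span_le.2 ?_
        rintro _ ⟨d, hd, rfl⟩
        show P.L.jD (C d) * S'.a - S'.a * P.L.jD (C d) ∈ N'
        rw [ha', ← map_mul, ← map_mul, ← map_sub, hN', (hL4 _).2]
        intro i
        rw [map_sub, coeff_C_mul, coeff_mul_C]
        exact comm_mem E hr _ _ _ hd (hFT i)
      exact this hz
    have hinj : Function.Injective ((ad S'.K S'.a).restrict hmap) := by
      rw [← LinearMap.ker_eq_bot, eq_bot_iff]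
      rintro ⟨z, hz⟩ h0
      have h1 : ad S'.K S'.a z = 0 := congrArg Subtype.val (LinearMap.mem_ker.1 h0)
      have h2 : z ∈ P.L.sp (E.tenL (Subalgebra.toSubmodule S.C)) := by
        rw [← hCeq, St.C, ← TenX.ker_ad]; exact h1
      obtain ⟨m, f, hf⟩ := P.L.surjD z
      have h3 := hz
      rw [← mem_iff P.L hX _ m, hf] at h2 h3
      rw [(hL4 _).2] at h2
      rw [hN', (hL4 _).2] at h3
      have h4 : f = 0 := by
        ext i
        rw [Submodule.disjoint_def.1 (hLN _).1 _ (h2 i) (h3 i)]; simp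
      have h5 : z ∈ (⊥ : Submodule S'.K S'.D) := by
        rw [← mem_iff P.L hX _ m, hf, h4, map_zero]; exact Submodule.zero_mem _
      rw [Submodule.mem_bot] at h5 ⊢
      exact Subtype.ext h5
    intro z hz
    obtain ⟨γ, hγ⟩ := LinearMap.surjective_of_injective hinj ⟨z, hz⟩
    exact ⟨γ, γ.2, congrArg Subtype.val hγ⟩

end Crest.Agent.Ku
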