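import Crest.Agent.Ku.Ten

set_option autoImplicit false

namespace Crest.Agent.Ku
open Module PowerSeries

namespace MoveX

lemma comm_C_iff {B : Type} [Ring B] (f : B⟦X⟧) (a : B) :
    Commute f (C a) ↔ ∀ i, Commute (coeff i f) a := by
  constructor
  · intro h i
    have := congrArg (coeff i) h.eq
    rwa [coeff_mul_C, coeff_C_mul] at this
  · intro h
    show _ = _
    ext i
    rw [coeff_mul_C, coeff_C_mul]
    exact (h i).eq

lemma cc_inv {B : Type} [Ring B] (g : (B⟦X⟧)ˣ) (h : constantCoeff (g : B⟦X⟧) = 1) :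
    constantCoeff (↑g⁻¹ : B⟦X⟧) = 1 := by
  have := congrArg constantCoeff g.inv_mul
  rwa [map_mul, h, mul_one, map_one] at this

lemma comm_tenR_one {r : ℕ} {K D K₁ D₁ : Type} [Field K] [DivisionRing D] [Algebra K D] [Field K₁]
    [DivisionRing D₁] [Algebra K₁ D₁] (E : Ext r K D K₁ D₁) (a : D) (z : D₁) (hz : z ∈ E.tenR 1) :
    Commute z (E.ψ a) := by
  refine TenX.ten_comm E 1 _ a (fun d hd => ?_) z hz
  obtain ⟨k, rfl⟩ := Submodule.mem_one.1 hd
  exact Algebra.commutes _ _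

/-- the series `s` commutes with the constant `a` -/
lemma s_comm (hB : Base) (S : St) (r : ℕ) (K₁ D₁ : Type) [Field K₁] [DivisionRing D₁]
    [Algebra K₁ D₁] (E : Ext r S.K S.D K₁ D₁) (ω : S.ι → D₁⟦X⟧)
    (e : NC S.ι S.D →+* D₁⟦X⟧) (n : ℕ) (s : D₁⟦X⟧) (hN : S.Normal) (hadm : Adm E ω)
    (hω : ∀ j, constantCoeff (ω j) = 0) (he : IsEv (C.comp E.ψ) ω e)
    (hH : e S.H = C (E.ψ S.a) + X ^ n * s) : ∀ i, Commute (coeff i s) (E.ψ S.a) := by
  obtain ⟨-, -, -, hExp, -⟩ := hB
  have h4 := (hExp S.ι S.D D₁ E.ψ ω e 1 le_rfl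
    (fun j => by rw [pow_one, X_dvd_iff]; exact hω j) he).2.2.2.1
    (Subring.centralizer {E.ψ S.a}) (fun z => z ∈ S.C) (by
      intro z hz
      have : Commute z S.a := (TenX.mem_cent (F := S.K) S.a z).1 hz
      rw [Subring.mem_centralizer_iff]
      rintro _ rfl
      exact (this.map E.ψ).eq.symm) (by
      intro j i
      rw [Subring.mem_centralizer_iff]
      rintro _ rfl
      exact (comm_tenR_one E _ _ (hadm j i)).eq.symm) S.H hN
  intro i
  have h5 := Subring.mem_centralizer_iff.1 (h4.1 (i + n)) _ rfl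
  have h6 : Commute (coeff (i + n) (e S.H)) (E.ψ S.a) := h5.symm
  rw [hH, map_add, coeff_X_pow_mul] at h6
  have h7 : Commute (coeff (i + n) (C (E.ψ S.a))) (E.ψ S.a) :=
    (comm_C_iff _ _).1 (Commute.refl _) _
  simpa using h6.sub_left h7

end MoveX

open MoveX in
theorem move (hB : Base) (hT : TanStmt) : MoveStmt := by
  classical
  intro S r K₁ D₁ _ _ _ _ _ E ω e g S' P n s hr hN hadm hω he hn hH hs0 hg0 hg
  have hs := s_comm hB S r K₁ D₁ E ω e n s hN hadm hω he hH
  obtain ⟨-, -, hDer, -, -, hLead, -, hAlg, -⟩ := hB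
  haveI : CharZero K₁ := charZero_of_injective_algebraMap (algebraMap ℂ K₁).injective
  obtain ⟨-, -, -, -, hjK, hX, htr⟩ := hLead K₁ D₁ S'.K S'.D P.L
  set A : D₁⟦X⟧ := C (E.ψ S.a) with hA
  have hgA : Commute (g : D₁⟦X⟧) A := (comm_C_iff _ _).2 hg
  have hgA' : Commute (↑g⁻¹ : D₁⟦X⟧) A := hgA.units_inv_left
  have hsA : Commute s A := (comm_C_iff _ _).2 hs
  set s' : D₁⟦X⟧ := ↑g⁻¹ * s * ↑g with hs'
  have hs'A : Commute s' A := (hgA'.mul_left hsA).mul_left hgA
  have hs'0 : constantCoeff s' = constantCoeff s := by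
    rw [hs', map_mul, map_mul, cc_inv g hg0, hg0, one_mul, mul_one]
  have hXc : ∀ (k : ℕ) (f : D₁⟦X⟧), Commute (X ^ k) f := fun k f => (commute_X_pow f k).symm
  have ha' : S'.a = P.L.jD (A + X ^ n * s') := by
    show S'.H [] = _
    rw [P.h0, hH]
    congr 1
    rw [mul_add, add_mul, hgA'.eq, mul_assoc A, Units.inv_mul, mul_one, hs', ← mul_assoc,
      ← (hXc n _).eq]
    simp only [mul_assoc]
  constructor
  · intro hW
    obtain ⟨-, -, -, hd⟩ := hDer S.ι S.D D₁ E.ψ ω e hω he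
    obtain ⟨k, hk⟩ := hT S r K₁ D₁ E ω e g S' P hω he _ _ (by
      intro j i
      simp only [dX, coeff_mk]
      exact Submodule.smul_of_tower_mem _ _ (hadm j _)) hd
    obtain ⟨-, -, hcompl, htr0, -⟩ := hAlg S'.K S'.D
    set t' := S'.t fun p => P.L.jK (k p) with ht'
    have ht1 : t' ∈ Submodule.span S'.K (Set.range fun j => S'.H [j]) :=
      Submodule.sum_mem _ fun j _ => Submodule.smul_mem _ _ (Submodule.subset_span ⟨j, rfl⟩)
    have ht2 : t' ∈ LinearMap.range (ad S'.K S'.a) := by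
      have : t' ∈ Subalgebra.toSubmodule S'.C ⊔ LinearMap.range (ad S'.K S'.a) := by
        have := (hcompl S'.a).sup_eq_top
        unfold St.C
        rw [this]; trivial
      obtain ⟨c, hc, ρ, hρ, hcρ⟩ := Submodule.mem_sup.1 this
      have hcW : c ∈ S'.W := by
        refine ⟨?_, hc⟩
        have : c = t' - ρ := by rw [← hcρ]; simp
        rw [this]
        exact Submodule.sub_mem _ (Submodule.mem_sup_left ht1) (Submodule.mem_sup_right hρ)
      rw [hW, Submodule.mem_bot] at hcW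
      rw [← hcρ, hcW, zero_add]; exact hρ
    obtain ⟨m, rfl⟩ : ∃ m, n = m + 1 := ⟨n - 1, by omega⟩
    let w : D₁⟦X⟧ := mk fun i => (i + m + 1) • coeff i s
    have hdX : dX (e S.H) = X ^ m * w := by
      ext j
      rw [hH]
      simp only [dX, coeff_mk, map_add, hA, coeff_succ_C, zero_add, coeff_X_pow_mul', w]
      by_cases hj : m ≤ j
      · have hj' : m + 1 ≤ j + 1 := by omega
        rw [if_pos hj', if_pos hj]
        rw [show j + 1 - (m + 1) = j - m by omega, show j - m + m + 1 = j + 1 by omega]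
      · have hj' : ¬ (m + 1 ≤ j + 1) := by omega
        rw [if_neg hj', if_neg hj, smul_zero]
    let σ : D₁⟦X⟧ := invOfUnit s' (Units.mk0 _ hs0)
    have hσ : s' * σ = 1 := mul_invOfUnit _ _ hs'0
    have hσ0 : constantCoeff σ = (constantCoeff s)⁻¹ := by
      simp [σ]
    have hσ1 : P.L.jD σ = (P.L.jD s')⁻¹ := by
      apply eq_inv_of_mul_eq_one_right
      rw [← map_mul, hσ, map_one]
    have hcomm : Commute (P.L.jD σ) S'.a := by
      rw [hσ1, ha']
      refine Commute.inv_left₀ (Commute.map ?_ _)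
      exact hs'A.add_right ((hXc _ _).symm.mul_right (Commute.refl _))
    have h1 := htr0 S'.a _ t' hcomm ht2
    have h2 : P.L.jD σ * t' = (P.L.jK X) ^ m • P.L.jD (σ * (↑g⁻¹ * w * ↑g)) := by
      rw [hk, hdX, Algebra.smul_def, map_pow, ← hX, ← map_pow, ← map_mul, ← map_mul]
      congr 1
      rw [← mul_assoc (↑g⁻¹ : D₁⟦X⟧), ← (hXc m _).eq, ← mul_assoc (X ^ m), (hXc m σ).eq]
      simp only [mul_assoc]
    obtain ⟨k0, hk0, hk1⟩ := htr (σ * (↑g⁻¹ * w * ↑g))
    have h3 : LinearMap.mulLeft S'.K ((P.L.jK X) ^ m • P.L.jD (σ * (↑g⁻¹ * w * ↑g))) =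
        (P.L.jK X) ^ m • LinearMap.mulLeft S'.K (P.L.jD (σ * (↑g⁻¹ * w * ↑g))) := by
      ext; simp only [LinearMap.mulLeft_apply, LinearMap.smul_apply, smul_mul_assoc]
    rw [h2, h3, map_smul, hk0, smul_eq_mul] at h1
    have hX0 : P.L.jK X ≠ 0 := fun h => X_ne_zero (hjK (by rw [h, map_zero]))
    have h4 : k0 = 0 := hjK (by
      rw [map_zero]; exact (mul_eq_zero.1 h1).resolve_left (pow_ne_zero _ hX0))
    have h5 : constantCoeff (R := D₁) (σ * (↑g⁻¹ * w * ↑g)) = ((m + 1 : ℕ) : K₁) • (1 : D₁) := by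
      have : constantCoeff w = (m + 1) • constantCoeff s := by
        rw [← coeff_zero_eq_constantCoeff_apply]; simp [w]
      rw [map_mul, map_mul, map_mul, cc_inv g hg0, hg0, one_mul, mul_one, hσ0, this,
        mul_smul_comm, inv_mul_cancel₀ hs0, Nat.cast_smul_eq_nsmul]
    have h6 : LinearMap.mulLeft K₁ (((m + 1 : ℕ) : K₁) • (1 : D₁)) =
        ((m + 1 : ℕ) : K₁) • LinearMap.id := by
      ext; simp
    rw [h4, map_zero, h5, h6, map_smul, LinearMap.trace_id, smul_eq_mul] at hk1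
    have h7 : (finrank K₁ D₁ : K₁) ≠ 0 := Nat.cast_ne_zero.2 finrank_pos.ne'
    exact mul_ne_zero (Nat.cast_ne_zero.2 (by omega)) h7 hk1.symm
  · rintro _ ⟨y, hy, rfl⟩
    have h1 : Commute (P.L.jD y) S'.a := (TenX.mem_cent _ _).1 hy
    rw [ha'] at h1
    have h2 : y * (A + X ^ n * s') = (A + X ^ n * s') * y := by
      apply P.L.injD
      rw [map_mul, map_mul]; exact h1.eq
    have h3 : Commute (constantCoeff y) (E.ψ S.a) := by
      have := congrArg constantCoeff h2
      show _ = _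
      simpa [hA, zero_pow (show n ≠ 0 by omega)] using this
    have hs00 : Commute (constantCoeff s) (E.ψ S.a) := by
      simpa using hs 0
    have h4 : constantCoeff y * constantCoeff s - constantCoeff s * constantCoeff y =
        ad K₁ (E.ψ S.a) (-coeff n y) := by
      have := congrArg (coeff (0 + n)) h2
      rw [mul_add, add_mul, ← mul_assoc, ← (hXc n y).eq, mul_assoc, mul_assoc, map_add, map_add,
        coeff_X_pow_mul, coeff_X_pow_mul, hA, coeff_mul_C, coeff_C_mul,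
        coeff_zero_eq_constantCoeff_apply, coeff_zero_eq_constantCoeff_apply, map_mul _ y, map_mul _ s',
        hs'0, zero_add] at this
      show _ = -coeff n y * E.ψ S.a - E.ψ S.a * -coeff n y
      rw [neg_mul, mul_neg, sub_neg_eq_add]
      rw [sub_eq_iff_eq_add, add_assoc, ← this]
      abel
    obtain ⟨-, -, hcompl, -⟩ := hAlg K₁ D₁
    have h5 := Submodule.disjoint_def.1 (hcompl (E.ψ S.a)).disjoint
      (constantCoeff y * constantCoeff s - constantCoeff s * constantCoeff y)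
      ((TenX.mem_cent _ _).2 ((h3.mul_left hs00).sub_left (hs00.mul_left h3))) ⟨_, h4.symm⟩
    simp only [SetLike.mem_coe, Subalgebra.mem_centralizer_iff, Set.mem_insert_iff,
      Set.mem_singleton_iff, forall_eq_or_imp, forall_eq]
    exact ⟨h3.eq.symm, (sub_eq_zero.1 h5).symm⟩

end Crest.Agent.Ku
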