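import Crest.Agent.Ku.Nd1

/-! S0270, piece Nd. -/

set_option autoImplicit false

namespace Crest.Agent.Ku
open Module PowerSeries NdP

lemma NdP.ad_apply {K D : Type} [Field K] [Ring D] [Algebra K D] (a z : D) :
    ad K a z = z * a - a * z := by simp [ad]

lemma NdP.ker_ad {K D : Type} [Field K] [Ring D] [Algebra K D] (a : D) :
    LinearMap.ker (ad K a) = Subalgebra.toSubmodule (Subalgebra.centralizer K {a}) := by
  ext z
  simp only [LinearMap.mem_ker, NdP.ad_apply, Subalgebra.mem_toSubmodule,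
    Subalgebra.mem_centralizer_iff, Set.mem_singleton_iff, forall_eq, sub_eq_zero]
  exact eq_comm

set_option maxHeartbeats 1600000 in
theorem nd (hB : Base) (hT : TanStmt) (hC : CenStmt) : NdStmt2 := by
  classical
  obtain ⟨-, -, hDer, hExp, -, hLead, -, hAlg, hTen, -, -, -, hRk, -⟩ := hB
  intro S r K₁ D₁ _ _ _ _ _ E ω e n s b hSp g S' P hMid β hβ0 hβ1 hβ2 hβ3 hV' hlead hPw M hM c hcW hcV
  obtain ⟨hr, hGood, hCen, hAdm, hω0, hEv, hn, heH, hbW, hb0, hs0⟩ := hSp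
  obtain ⟨-, -, hg0, hg1, hg2, hs', hC', hN'⟩ := hMid
  obtain ⟨-, hVf, hWV, -, hVb, hWt, -, -⟩ := hC S hGood
  have : CharZero K₁ := charZero_of_injective_algebraMap (algebraMap ℂ K₁).injective
  obtain ⟨-, -, -, hL4, hjK, hX, -⟩ := hLead K₁ D₁ S'.K S'.D P.L
  obtain ⟨-, hT2, -, -, -, hT6, hT7, hT8, -⟩ := hTen r S.K S.D K₁ D₁ E hr
  have hx : P.L.jK X ≠ 0 := fun h => X_ne_zero (hjK (h.trans (map_zero _).symm))
  obtain ⟨Cs, hCs⟩ : ∃ Cs, Cs = Subalgebra.toSubmodule S.C := ⟨_, rfl⟩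
  have hT7' : Subalgebra.toSubmodule (Subalgebra.centralizer K₁ {E.ψ S.a}) = E.tenR Cs :=
    hCs ▸ hT7 S.a
  have hmemC : ∀ z, z ∈ Cs ↔ z ∈ S.C := fun z => by rw [hCs]; rfl
  have hmemC2 : ∀ z, z ∈ S.C ↔ Commute z S.a := fun z => by
    simp only [St.C, Subalgebra.mem_centralizer_iff, Set.mem_singleton_iff, forall_eq]
    exact eq_comm
  have hT8' : Subalgebra.toSubmodule (Subalgebra.centralizer K₁ {E.ψ S.a, E.ψ b * E.u}) =
      E.tenL Cs := hCs ▸ hT8 S.a b hb0 (fun z hz => hCen b hbW z ((hmemC2 z).2 hz))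
  have hdimC : finrank S'.K (Subalgebra.toSubmodule S'.C) = r * S.c := by
    rw [hC', (hL4 _).1, hT2]; rfl
  rw [← hCs] at hg1 hg2 hs' hC' hN' hβ1 hβ2
  have hWC : S.W ≤ Cs := hCs ▸ inf_le_right
  have hinvC : ∀ z ∈ S.C, z⁻¹ ∈ S.C := fun z hz => (hAlg S.K S.D).1 _ z hz
  have hF0C : S.F0 ≤ S.C := by
    apply Algebra.adjoin_le
    rintro z ⟨w, hw, b', hb', rfl⟩
    exact S.C.mul_mem ((hmemC _).1 (hWC hw)) (hinvC _ ((hmemC _).1 (hWC hb')))
  have hVC : S.V ≤ Cs := by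
    intro z hz
    have h1 := S.C.mul_mem (hF0C ((hVb b hbW hb0 z).1 hz)) ((hmemC _).1 (hWC hbW))
    rw [inv_mul_cancel_right₀ hb0] at h1
    exact (hmemC _).2 h1
  have h1C : (1 : Submodule S.K S.D) ≤ Cs := by
    intro z hz
    obtain ⟨k, rfl⟩ := Submodule.mem_one.1 hz
    exact (hmemC _).2 (S.C.algebraMap_mem k)
  have hcent : ∀ z, z ∈ E.tenR Cs ↔ E.ψ S.a * z = z * E.ψ S.a := fun z => by
    rw [← hT7']
    simp only [Subalgebra.mem_toSubmodule, Subalgebra.mem_centralizer_iff, Set.mem_singleton_iff,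
      forall_eq]
  have hNR : E.tenN Cs ≤ E.tenR Cs := ten_mono E le_rfl fun _ _ _ => trivial
  have hLR : E.tenL Cs ≤ E.tenR Cs := ten_mono E le_rfl fun _ _ _ => trivial
  have hLN0 : ∀ z, z ∈ E.tenL Cs → z ∈ E.tenN Cs → z = 0 :=
    fun z h1 h2 => Submodule.disjoint_def.1 (hT6 Cs).1 z h1 h2
  have hgi0 : constantCoeff (↑g⁻¹ : D₁⟦X⟧) = 1 := by
    have := congrArg constantCoeff g.inv_mul
    rwa [map_mul, hg0, mul_one, map_one] at this
  obtain ⟨s', hs'def⟩ : ∃ s' : D₁⟦X⟧, s' = ↑g⁻¹ * s * g := ⟨_, rfl⟩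
  rw [← hs'def] at hs'
  have hs'0 : constantCoeff s' = E.ψ b * E.u := by
    rw [hs'def, map_mul, map_mul, hgi0, hg0, hs0, one_mul, mul_one]
  have hTinj : ∀ z ∈ E.tenN Cs, z * constantCoeff s' = constantCoeff s' * z → z = 0 := by
    intro z hz h
    refine hLN0 z ?_ hz
    rw [← hT8']
    simp only [Subalgebra.mem_toSubmodule, Subalgebra.mem_centralizer_iff, Set.mem_insert_iff,
      Set.mem_singleton_iff, forall_eq_or_imp, forall_eq]
    exact ⟨(hcent z).1 (hNR hz), by rw [← hs'0]; exact h.symm⟩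
  have commC : ∀ f : D₁⟦X⟧, (∀ i, coeff i f ∈ E.tenR Cs) →
      C (E.ψ S.a) * f = f * C (E.ψ S.a) := by
    intro f hf
    ext i
    rw [coeff_C_mul, coeff_mul_C]
    exact (hcent _).1 (hf i)
  obtain ⟨A, hA⟩ : ∃ A : D₁⟦X⟧, A = C (E.ψ S.a) + X ^ n * s' := ⟨_, rfl⟩
  have ha' : S'.a = P.L.jD A := by
    rw [St.a, P.h0, heH, hA, hs'def]
    congr 1
    rw [mul_add, add_mul, mul_assoc, commC _ hg1, ← mul_assoc, g.inv_mul, one_mul]
    congr 1
    rw [← mul_assoc, (commute_X_pow (↑g⁻¹ : D₁⟦X⟧) n).eq]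
    simp only [mul_assoc]
  have hA0 : constantCoeff A = E.ψ S.a := by
    rw [hA, map_add, map_mul, map_pow, constantCoeff_X, zero_pow (by omega), zero_mul, add_zero,
      constantCoeff_C]
  have hcompl : IsCompl (Subalgebra.toSubmodule S'.C) (LinearMap.range (ad S'.K S'.a)) :=
    (hAlg S'.K S'.D).2.2.1 S'.a
  have hker : LinearMap.ker (ad S'.K S'.a) = Subalgebra.toSubmodule S'.C := ker_ad _
  obtain ⟨G, hG⟩ := exists_G (ad S'.K S'.a) (hker ▸ hcompl)
  rw [hker] at hG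
  have hCR0 : ∀ z, z ∈ Subalgebra.toSubmodule S'.C → z ∈ LinearMap.range (ad S'.K S'.a) → z = 0 :=
    fun z h1 h2 => Submodule.disjoint_def.1 hcompl.disjoint z h1 h2
  have hNR' : P.L.sp (E.tenN Cs) ≤ LinearMap.range (ad S'.K S'.a) := fun z hz => by
    obtain ⟨γ, -, h⟩ := hN' z hz
    exact ⟨γ, h⟩
  -- the complement `Z`
  have hVL : E.tenL S.V ≤ E.tenL Cs := ten_mono E hVC fun _ _ h => h
  obtain ⟨Q, hQ⟩ := (E.tenL S.V).exists_isCompl
  have hZ1 : E.tenL S.V ⊔ Q ⊓ E.tenL Cs = E.tenL Cs := by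
    rw [← sup_inf_assoc_of_le _ hVL, hQ.sup_eq_top, top_inf_eq]
  obtain ⟨Z, hZ⟩ : ∃ Z, Z = Q ⊓ E.tenL Cs := ⟨_, rfl⟩
  rw [← hZ] at hZ1
  have hspm : ∀ U U' : Submodule K₁ D₁, U ≤ U' → P.L.sp U ≤ P.L.sp U' := by
    intro U U' h
    apply Submodule.span_mono
    rintro z ⟨d, hd, rfl⟩
    exact ⟨d, h hd, rfl⟩
  have hβC : P.L.jD β ∈ S'.C := by
    have := ((hL4 _).2 _).2 hβ1
    rwa [← hC'] at this
  have hββ : P.L.jD (↑β⁻¹ : D₁⟦X⟧) * P.L.jD β = 1 := by rw [← map_mul, β.inv_mul, map_one]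
  have hββ' : P.L.jD β * P.L.jD (↑β⁻¹ : D₁⟦X⟧) = 1 := by rw [← map_mul, β.mul_inv, map_one]
  have hmulβ : ∀ y ∈ P.L.sp (E.tenL Cs), y * P.L.jD β ∈ Subalgebra.toSubmodule S'.C := by
    intro y hy
    rw [← hC'] at hy
    exact S'.C.mul_mem hy hβC
  let Z' : Submodule S'.K S'.D := (P.L.sp Z).map (LinearMap.mulRight S'.K (P.L.jD β))
  have hdisj : Disjoint (Z' ⊔ LinearMap.range (ad S'.K S'.a)) S'.V := by
    rw [Submodule.disjoint_def]
    intro v hv hvV
    obtain ⟨z, hz, ρ, hρ, rfl⟩ := Submodule.mem_sup.1 hv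
    obtain ⟨y, hy, rfl⟩ := hz
    have h1 := (hV' _).1 hvV
    have h2 := hmulβ _ (hspm _ _ hVL h1)
    rw [mul_assoc, hββ, mul_one] at h2
    have h3 := hmulβ _ (hspm _ _ (hZ ▸ inf_le_right) hy)
    have h4 : ρ = 0 := hCR0 ρ (by simpa using Submodule.sub_mem _ h2 h3) hρ
    subst h4
    simp only [LinearMap.mulRight_apply, add_zero] at h1 ⊢
    rw [mul_assoc, hββ', mul_one] at h1
    obtain ⟨m, f, hf, hf2⟩ := integral P.L hX _ (hL4 _).2 h1
    have hf3 : ∀ i, coeff i f ∈ Z := ((hL4 _).2 f).1 (hf ▸ Submodule.smul_mem _ _ hy)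
    have hf4 : f = 0 := by
      ext i
      exact Submodule.disjoint_def.1 hQ.disjoint _ (hf2 i) (hZ ▸ hf3 i).1
    rw [hf4, map_zero] at hf
    rw [(smul_eq_zero.1 hf).resolve_left (pow_ne_zero _ hx), zero_mul]
  obtain ⟨Q', hQ'1, hQ'2⟩ := hdisj.exists_isCompl
  let c' : S'.D →ₗ[S'.K] S'.K :=
    c ∘ₗ S'.V.subtype ∘ₗ Submodule.projectionOnto S'.V Q' hQ'2.symm
  have hc'V : ∀ z ∈ S'.V, c' z = c z := by
    intro z hz
    have := Submodule.projectionOnto_apply_left hQ'2.symm ⟨z, hz⟩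
    simp only [c', LinearMap.comp_apply]
    rw [show Submodule.projectionOnto S'.V Q' hQ'2.symm z = ⟨z, hz⟩ from this]
    rfl
  have hc'Q : ∀ z ∈ Q', c' z = 0 := by
    intro z hz
    simp only [c', LinearMap.comp_apply]
    rw [Submodule.projectionOnto_apply_of_mem_right hQ'2.symm hz]
    simp
  have hc'R : ∀ z ∈ LinearMap.range (ad S'.K S'.a), c' z = 0 :=
    fun z hz => hc'Q z (hQ'1 (Submodule.mem_sup_right hz))
  have hc'0 : c' ≠ 0 := by
    obtain ⟨z, hz, h⟩ := hcV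
    intro h0
    rw [← hc'V z hz, h0] at h
    exact h rfl
  clear_value c'
  obtain ⟨κ, cb, hκ, hcb0, hcb⟩ := red P.L hjK hX c' hc'0
  have kill : ∀ t : D₁⟦X⟧, c' (P.L.jD t) = 0 → cb (constantCoeff t) = 0 := by
    intro t ht
    obtain ⟨k, h1, h2⟩ := hcb t
    rw [ht, mul_zero] at h1
    rw [← h2, hjK (h1.symm.trans (map_zero _).symm), map_zero]
  have kZ : ∀ z ∈ Z, cb z = 0 := by
    intro z hz
    have := kill (C z * β) (hc'Q _ (hQ'1 (Submodule.mem_sup_left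
      ⟨P.L.jD (C z), Submodule.subset_span ⟨z, hz, rfl⟩, by simp⟩)))
    simpa [hβ0] using this
  have kN : ∀ z ∈ E.tenN Cs, cb z = 0 := by
    intro z hz
    have := kill (C z) (hc'R _ (hNR' (Submodule.subset_span ⟨z, hz, rfl⟩)))
    simpa using this
  have kR : ∀ z ∈ LinearMap.range (ad K₁ (E.ψ S.a)), cb z = 0 := by
    rintro z ⟨y, rfl⟩
    have := kill (C y * A - A * C y) (hc'R _ ⟨P.L.jD (C y), by simp [ad_apply, ha']⟩)
    simpa [hA0, ad_apply] using this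
  have kL : ∀ z ∈ E.tenL0 S.V, cb z = 0 := by
    intro z hz
    obtain ⟨t, ht, rfl⟩ := hlead (Submodule.mem_sup_right hz)
    apply kill
    have h1 : P.L.jD t ∈ S'.V := by
      have := Submodule.mul_mem_mul (M := Subalgebra.toSubmodule S'.F0) (S'.F0.one_mem) ht
      rwa [one_mul] at this
    rw [hc'V _ h1]
    exact hcW ht
  obtain ⟨d0, hd0, hd1⟩ : ∃ d ∈ S.V, cb (E.ψ d) ≠ 0 := by
    by_contra h
    push Not at h
    have kV : ∀ z ∈ E.tenL S.V, cb z = 0 := by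
      intro z hz
      induction hz using Submodule.span_induction with
      | mem z hz =>
        obtain ⟨d, hd, a, ha, b', hb', hp, rfl⟩ := hz
        by_cases h0 : a = 0
        · have hp' : b' = 0 := hp
          subst h0 hp'
          simpa using h d hd
        · exact kL _ (Submodule.subset_span ⟨d, hd, a, ha, b', hb', ⟨h0, hp⟩, rfl⟩)
      | zero => simp
      | add x y _ _ hx hy => simp [hx, hy]
      | smul k x _ hx => simp [hx]
    apply hcb0
    ext y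
    have hc1 := (hAlg K₁ D₁).2.2.1 (E.ψ S.a)
    obtain ⟨y1, hy1, y2, hy2, rfl⟩ :=
      Submodule.mem_sup.1 (hc1.sup_eq_top ▸ Submodule.mem_top (x := y))
    rw [hT7', ← (hT6 Cs).2] at hy1
    obtain ⟨y3, hy3, y4, hy4, rfl⟩ := Submodule.mem_sup.1 hy1
    rw [← hZ1] at hy3
    obtain ⟨y5, hy5, y6, hy6, rfl⟩ := Submodule.mem_sup.1 hy3
    simp [kV _ hy5, kZ _ hy6, kN _ hy4, kR _ hy2]
  have hcomb : ∀ w ∈ S.W, Commute w b := fun w hw => hCen b hbW w ((hmemC _).1 (hWC hw))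
  have hprodV : ∀ w ∈ S.W, ∀ w' ∈ S.W, w * (w' * b⁻¹) ∈ S.V := by
    intro w hw w' hw'
    have h1 : w * (w' * b⁻¹) = w * b⁻¹ * w' := by
      rw [((hcomb w' hw').inv_right₀).eq, mul_assoc]
    rw [h1]
    exact Submodule.mul_mem_mul (Algebra.subset_adjoin ⟨w, hw, b, hbW, rfl⟩) hw'
  obtain ⟨δ, hδ, δ', hδ', hδδ⟩ : ∃ δ ∈ S.W, ∃ δ' ∈ S.W, cb (E.ψ (δ * (δ' * b⁻¹))) ≠ 0 := by
    by_contra h
    push Not at h
    have hinj : Function.Injective (LinearMap.mulRight S.K b⁻¹) :=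
      fun x y hxy => mul_right_cancel₀ (inv_ne_zero hb0) hxy
    have h1 : (S.W * S.W).map (LinearMap.mulRight S.K b⁻¹) ≤ S.V := by
      rintro z ⟨y, hy, rfl⟩
      refine Submodule.mul_induction_on hy (fun w hw w' hw' => ?_) (fun x y hx hy => ?_)
      · simpa [mul_assoc] using hprodV w hw w' hw'
      · rw [map_add]; exact Submodule.add_mem _ hx hy
    have h2 : (S.W * S.W).map (LinearMap.mulRight S.K b⁻¹) = S.V := by
      apply Submodule.eq_of_le_of_finrank_le h1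
      rw [← (Submodule.equivMapOfInjective _ hinj _).finrank_eq, hVf, ← sq]
      exact hPw
    rw [← h2] at hd0
    obtain ⟨y, hy, rfl⟩ := hd0
    apply hd1
    refine Submodule.mul_induction_on hy (fun w hw w' hw' => ?_) (fun x y hx hy => ?_)
    · simpa [mul_assoc] using h w hw w' hw'
    · rw [map_add, map_add, map_add, hx, hy, add_zero]
  -- tangent directions
  have dir : ∀ w ∈ S.W, ∀ m ∈ E.tenR 1, ∃ (k : S'.ι → K₁⟦X⟧) (τ : D₁⟦X⟧),
      S'.t (fun p => P.L.jK (k p)) = P.L.jD τ ∧ constantCoeff τ = E.ψ w * m ∧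
      ∀ i, coeff i τ ∈ E.tenR Cs := by
    intro w hw m hm
    obtain ⟨lam, hlam⟩ := hWt w hw
    let l : S.ι → D₁⟦X⟧ := fun j => C (E.φ (lam j) • m)
    have hl : Adm E l := by
      intro j i
      simp only [l, coeff_C]
      split_ifs
      · exact Submodule.smul_mem _ _ hm
      · exact Submodule.zero_mem _
    obtain ⟨d, hd⟩ := (hDer S.ι S.D D₁ E.ψ ω e hω0 hEv).1 l
    obtain ⟨k, hk⟩ := hT S r K₁ D₁ E ω e g S' P hω0 hEv l d hl hd
    obtain ⟨-, hE2, -, hE4, -⟩ := hExp S.ι S.D D₁ E.ψ ω e 1 le_rfl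
      (fun j => by rw [pow_one]; exact X_dvd_iff.2 (hω0 j)) hEv
    refine ⟨k, _, hk, ?_, ?_⟩
    · have h1 := (hE2 l d hd S.H).1
      rw [pow_one, X_dvd_iff, map_sub, sub_eq_zero] at h1
      rw [map_mul, map_mul, hgi0, hg0, one_mul, mul_one, h1, ← hlam, St.t, map_sum, map_sum,
        Finset.sum_mul]
      refine Finset.sum_congr rfl fun j _ => ?_
      simp only [l, map_mul, constantCoeff_C]
      rw [psi_smul, smul_mul_assoc, smul_mul_assoc, (comm_tenR E _ hm).eq]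
    · let Pr : Subring D₁ := (Subalgebra.centralizer K₁ {E.ψ S.a}).toSubring
      have hPr : ∀ z, z ∈ Pr ↔ z ∈ E.tenR Cs := fun z => by rw [← hT7']; rfl
      have h1R : E.tenR 1 ≤ E.tenR Cs := ten_mono E h1C fun _ _ h => h
      have h2 := (hE4 Pr (fun z => z ∈ S.C) (fun z hz => (hPr _).2 ((hcent _).2 (by
          rw [← map_mul, ← map_mul, ((hmemC2 z).1 hz).eq])))
        (fun j i => (hPr _).2 (h1R (hAdm j i))) S.H hGood.2.2.2).2 l d hd
        (fun j i => (hPr _).2 (h1R (hl j i)))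
      have h3 : C (E.ψ S.a) * (↑g⁻¹ * d S.H * g) = (↑g⁻¹ * d S.H * g) * C (E.ψ S.a) := by
        have e1 := commC _ hg1
        have e2 := commC _ hg2
        have e3 := commC _ fun i => (hPr _).1 (h2 i)
        exact ((Commute.mul_right e2 e3).mul_right e1).eq
      intro i
      have := congrArg (coeff i) h3
      rw [coeff_C_mul, coeff_mul_C] at this
      exact (hcent _).2 this
  have hmon : ∀ a k : ℕ, E.u ^ a * E.v ^ k ∈ E.tenR 1 := fun a k => by
    have := mem_ten E hr 1 (fun _ _ => True) (Submodule.mem_one.2 ⟨1, map_one _⟩) a k trivial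
    rwa [map_one, one_mul] at this
  have hδb : δ' * b⁻¹ ∈ Cs :=
    (hmemC _).2 (S.C.mul_mem ((hmemC _).1 (hWC hδ')) (hinvC _ ((hmemC _).1 (hWC hbW))))
  -- the second family
  have dir2 : ∀ a k : ℕ, k % r ≠ 0 → ∃ (kk : S'.ι → K₁⟦X⟧) (f : D₁⟦X⟧),
      P.L.jK X ^ n • G (S'.t (fun p => P.L.jK (kk p))) = P.L.jD f ∧
      constantCoeff f = E.ψ (δ' * b⁻¹) * (E.u ^ a * E.v ^ k) := by
    intro a k hk
    have hmu : E.u ^ a * E.v ^ k * E.u = E.ζ ^ k • (E.u ^ (a + 1) * E.v ^ k) := by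
      have := vu_pow' E k 1
      rw [pow_one, mul_one] at this
      rw [mul_assoc, this, mul_smul_comm, ← mul_assoc, ← pow_succ]
    have hum : E.u * (E.u ^ a * E.v ^ k) = E.u ^ (a + 1) * E.v ^ k := by
      rw [← mul_assoc, ← pow_succ']
    obtain ⟨kk, τ, h1, h2, h3⟩ := dir δ' hδ' ((E.ζ ^ k - 1) • (E.u ^ (a + 1) * E.v ^ k))
      (Submodule.smul_mem _ _ (hmon _ _))
    have hτN : constantCoeff τ ∈ E.tenN Cs := by
      rw [h2, mul_smul_comm]
      exact Submodule.smul_mem _ _ (mem_ten E hr Cs _ (hWC hδ') _ _ hk)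
    have h4 : ∀ i, ∃ x ∈ E.tenL Cs, ∃ y ∈ E.tenN Cs, x + y = coeff i τ := fun i =>
      Submodule.mem_sup.1 ((hT6 Cs).2 ▸ h3 i)
    choose xL hxL yN hyN hxy using h4
    have hτ : τ = PowerSeries.mk xL + PowerSeries.mk yN := by ext i; simp [hxy]
    have hx0 : xL 0 = 0 := by
      refine hLN0 _ (hxL 0) ?_
      have := Submodule.sub_mem _ hτN (hyN 0)
      rw [← coeff_zero_eq_constantCoeff_apply, ← hxy 0] at this
      simpa using this
    have hN0 : constantCoeff (PowerSeries.mk yN) = constantCoeff τ := by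
      rw [← coeff_zero_eq_constantCoeff_apply, ← coeff_zero_eq_constantCoeff_apply, ← hxy 0, hx0]
      simp
    have hLs : P.L.jD (PowerSeries.mk xL) ∈ Subalgebra.toSubmodule S'.C := by
      rw [hC']; exact ((hL4 _).2 _).2 (by simpa using hxL)
    obtain ⟨γ, hγ, hγ2⟩ := hN' (P.L.jD (PowerSeries.mk yN)) (((hL4 _).2 _).2 (by simpa using hyN))
    have hGγ : G (P.L.jD τ) = γ := by
      have a1 : G (P.L.jD τ) - γ ∈ LinearMap.range (ad S'.K S'.a) :=
        Submodule.sub_mem _ (hG _).1 (hNR' hγ)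
      have a2 : ad S'.K S'.a (G (P.L.jD τ) - γ) = 0 := by
        refine hCR0 _ ?_ (LinearMap.mem_range_self _ _)
        have a3 := Submodule.sub_mem _ hLs (hG (P.L.jD τ)).2
        rw [map_sub, hγ2]
        convert a3 using 1
        conv_rhs => enter [2, 1]; rw [hτ, map_add]
        abel
      exact sub_eq_zero.1 (hCR0 _ (hker ▸ LinearMap.mem_ker.2 a2) a1)
    obtain ⟨m, f0, hf0, hf1⟩ := integral P.L hX _ (hL4 _).2 hγ
    have hrel : X ^ m * PowerSeries.mk yN = X ^ n * f0 * s' - s' * (X ^ n * f0) := by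
      apply P.L.injD
      have a1 : P.L.jD (X ^ m * PowerSeries.mk yN) = ad S'.K S'.a (P.L.jD f0) := by
        rw [map_mul, map_pow, jD_X_pow_mul P.L hX, ← hγ2, ← hf0, map_smul]
      rw [a1, ad_apply, ha', ← map_mul, ← map_mul, ← map_sub]
      congr 1
      rw [hA, mul_add, add_mul, commC f0 fun i => hNR (hf1 i), ← mul_assoc f0,
        (commute_X_pow f0 n).eq, ← mul_assoc s', (commute_X_pow s' n).eq]
      abel
    obtain ⟨f, hf2, hf3, hf4⟩ := gam P.L hjK hX (E.tenN Cs) s' (PowerSeries.mk yN) hTinj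
      (P.L.jK X ^ n • γ) m (X ^ n * f0) (fun i => by
        rw [coeff_X_pow_mul']
        split_ifs
        · exact hf1 _
        · exact Submodule.zero_mem _)
      (by rw [smul_comm, hf0, map_mul, map_pow, jD_X_pow_mul P.L hX]) hrel
    refine ⟨kk, f, by rw [h1, hGγ, hf3], ?_⟩
    have b1 := congrArg constantCoeff hf4
    rw [hN0, h2, map_sub, map_mul, map_mul] at b1
    have b2 : E.ψ (δ' * b⁻¹) * (E.u ^ a * E.v ^ k) * constantCoeff s' -
        constantCoeff s' * (E.ψ (δ' * b⁻¹) * (E.u ^ a * E.v ^ k)) =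
        E.ψ δ' * ((E.ζ ^ k - 1) • (E.u ^ (a + 1) * E.v ^ k)) := by
      have c1 : E.ψ (δ' * b⁻¹) * E.ψ b = E.ψ δ' := by
        rw [← map_mul, inv_mul_cancel_right₀ hb0]
      have c2 : E.ψ b * E.ψ (δ' * b⁻¹) = E.ψ δ' := by
        rw [← map_mul, ← mul_assoc, ← (hcomb δ' hδ').eq, mul_inv_cancel_right₀ hb0]
      have c3 : E.ψ (δ' * b⁻¹) * (E.u ^ a * E.v ^ k) * (E.ψ b * E.u) =
          E.ψ δ' * (E.u ^ a * E.v ^ k * E.u) := by
        rw [mul_assoc, ← mul_assoc (E.u ^ a * E.v ^ k), ← (comm_mon E b a k).eq, ← mul_assoc,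
          ← mul_assoc, c1, mul_assoc]
      have c4 : E.ψ b * E.u * (E.ψ (δ' * b⁻¹) * (E.u ^ a * E.v ^ k)) =
          E.ψ δ' * (E.u * (E.u ^ a * E.v ^ k)) := by
        rw [mul_assoc, ← mul_assoc E.u, ← (E.cu _).eq, mul_assoc, ← mul_assoc, c2]
      rw [hs'0, c3, c4, hmu, hum, ← mul_sub, sub_smul, one_smul]
    have b3 := hTinj (constantCoeff f - E.ψ (δ' * b⁻¹) * (E.u ^ a * E.v ^ k))
      (Submodule.sub_mem _ (by simpa using hf2 0) (mem_ten E hr Cs _ hδb _ _ hk)) (by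
        rw [sub_mul, mul_sub, sub_eq_sub_iff_sub_eq_sub, ← b1, b2])
    exact sub_eq_zero.1 b3
  -- the bilinear form
  have t_add : ∀ l l', S'.t (l + l') = S'.t l + S'.t l' := fun l l' => by
    simp [St.t, add_smul, Finset.sum_add_distrib]
  have t_smul : ∀ (k : S'.K) l, S'.t (k • l) = k • S'.t l := fun k l => by
    simp [St.t, Finset.smul_sum, mul_smul]
  let tL : (S'.ι → S'.K) →ₗ[S'.K] S'.D := ⟨⟨S'.t, t_add⟩, t_smul⟩
  let bil : (S'.ι → S'.K) →ₗ[S'.K] (S'.ι → S'.K) →ₗ[S'.K] S'.K :=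
    LinearMap.mk₂ S'.K (fun l l' => c' (S'.q l l' + S'.t l * G (S'.t l')))
      (fun l1 l2 l' => by
        rw [← map_add, t_add]; congr 1
        simp only [St.q, Pi.add_apply, add_mul, add_smul, Finset.sum_add_distrib]; abel)
      (fun k l l' => by
        rw [← map_smul, t_smul]; congr 1
        simp only [St.q, Pi.smul_apply, smul_eq_mul, smul_add, Finset.smul_sum, mul_assoc,
          mul_smul, smul_mul_assoc])
      (fun l l1 l2 => by
        rw [← map_add, t_add, map_add G]; congr 1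
        simp only [St.q, Pi.add_apply, mul_add, add_smul, Finset.sum_add_distrib]; abel)
      (fun k l l' => by
        rw [← map_smul, t_smul, map_smul G]; congr 1
        simp only [St.q, Pi.smul_apply, smul_eq_mul, smul_add, Finset.smul_sum, mul_left_comm _ k,
          mul_smul, mul_smul_comm])
  let p : (S'.ι → S'.K) →ₗ[S'.K] Subalgebra.toSubmodule S'.C :=
    LinearMap.codRestrict _ ((LinearMap.id - ad S'.K S'.a ∘ₗ G) ∘ₗ tL) fun l => (hG (S'.t l)).2
  have hp : ∀ l, p l = 0 → S'.t l = ad S'.K S'.a (G (S'.t l)) := fun l h =>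
    sub_eq_zero.1 (congrArg Subtype.val h)
  choose kx τx hx1 hx2 hx3 using fun i : Fin r × Fin (r - 1) =>
    dir δ hδ (E.u ^ i.1.val * E.v ^ (i.2.val + 1)) (hmon _ _)
  choose ky fy hy1 hy2 using fun i : Fin r × Fin (r - 1) =>
    dir2 (r - i.1.val) (r - (i.2.val + 1)) (by
      have := i.2.2
      rw [Nat.mod_eq_of_lt (by omega)]; omega)
  choose h2s hh2 using P.h2
  have hdet : (Matrix.of fun i k => bil (fun p => P.L.jK (kx i p))
      (fun p => P.L.jK (ky k p))).det ≠ 0 := by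
    refine det_ne P.L.jK hjK _ (κ * P.L.jK X ^ n) fun i k => ?_
    let Qs : D₁⟦X⟧ := ∑ p, ∑ p', PowerSeries.map (algebraMap K₁ D₁) (kx i p * ky k p') * h2s p p'
    have hQs : S'.q (fun p => P.L.jK (kx i p)) (fun p => P.L.jK (ky k p)) = P.L.jD Qs := by
      simp only [St.q, Qs, map_sum, jD_map_mul, hh2]
      simp only [map_mul]
    obtain ⟨m, hm1, hm2⟩ := hcb (X ^ n * Qs + τx i * fy k)
    have hm3 : constantCoeff m = cb (E.ψ (δ * (δ' * b⁻¹)) *
        (E.ζ ^ ((i.2.val + 1) * (r - k.1.val)) • (E.u ^ (i.1.val + (r - k.1.val)) *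
          E.v ^ (i.2.val + 1 + (r - (k.2.val + 1)))))) := by
      rw [hm2, map_add, map_mul, map_mul, map_pow, constantCoeff_X, zero_pow (by omega), zero_mul,
        zero_add, hx2, hy2]
      congr 1
      rw [mul_assoc, ← mul_assoc (E.u ^ i.1.val * _), ← (comm_mon E (δ' * b⁻¹) _ _).eq,
        map_mul E.ψ δ, mul_assoc (E.ψ δ), mul_assoc (E.ψ (δ' * b⁻¹))]
      congr 2
      rw [mul_assoc, ← mul_assoc (E.v ^ _), vu_pow', smul_mul_assoc, mul_smul_comm, pow_add E.u,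
        pow_add E.v _ (r - _)]
      simp only [mul_assoc]
    have hζ : E.ζ ≠ 0 := E.hζ.ne_zero (by omega)
    refine ⟨m, ?_, ?_, ?_⟩
    · rw [← hm1, mul_assoc, Matrix.of_apply]
      congr 1
      simp only [bil, LinearMap.mk₂_apply]
      rw [← smul_eq_mul, ← map_smul, hQs, hx1, smul_add, ← mul_smul_comm, hy1, map_add P.L.jD,
        map_mul P.L.jD, map_mul P.L.jD, map_pow P.L.jD, jD_X_pow_mul P.L hX]
    · intro hik
      subst hik
      obtain ⟨σ, hσ, h⟩ := mon_mod E (i.1.val + (r - i.1.val)) (i.2.val + 1 + (r - (i.2.val + 1)))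
      have e1 : (i.1.val + (r - i.1.val)) % r = 0 := by
        rw [Nat.add_sub_cancel' i.1.2.le, Nat.mod_self]
      have e2 : (i.2.val + 1 + (r - (i.2.val + 1))) % r = 0 := by
        have := i.2.2
        rw [Nat.add_sub_cancel' (by omega), Nat.mod_self]
      rw [e1, e2, pow_zero, pow_zero, mul_one] at h
      rw [hm3, h, mul_smul_comm, mul_smul_comm, mul_one, map_smul, map_smul, smul_eq_mul,
        smul_eq_mul]
      exact mul_ne_zero (pow_ne_zero _ hζ) (mul_ne_zero hσ hδδ)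
    · intro hik
      rw [hm3, mul_smul_comm, map_smul]
      have hmod : ∀ x y : ℕ, x < r → y < r → (x + (r - y)) % r = 0 → x = y := by
        intro x y hx hy h
        rcases lt_or_ge x y with h1 | h1
        · rw [Nat.mod_eq_of_lt (by omega)] at h; omega
        · rw [show x + (r - y) = (x - y) + r by omega, Nat.add_mod_right,
            Nat.mod_eq_of_lt (by omega)] at h
          omega
      by_cases h2 : (i.2.val + 1 + (r - (k.2.val + 1))) % r = 0
      · have a1 := i.2.2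
        have a2 := k.2.2
        have h3 : i.2.val + 1 = k.2.val + 1 := hmod _ _ (by omega) (by omega) h2
        have h4 : (i.1.val + (r - k.1.val)) % r ≠ 0 := fun h =>
          hik (Prod.ext (Fin.ext (hmod _ _ i.1.2 k.1.2 h)) (Fin.ext (by omega)))
        rw [kL _ (mem_ten E hr S.V _ (hprodV δ hδ δ' hδ') _ _ ⟨h4, h2⟩), smul_zero]
      · rw [kN _ (mem_ten E hr Cs _ (hVC (hprodV δ hδ δ' hδ')) _ _ h2), smul_zero]
  obtain ⟨x', y', h1, h2, h3⟩ := hRk S'.K _ _ bil (Fin r × Fin (r - 1)) _ _ _ p p M hdet (by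
    rw [hdimC, Fintype.card_prod, Fintype.card_fin, Fintype.card_fin]; exact hM)
  refine ⟨c', hc'V, fun z hz => hc'R z hz, x', y', fun i => G (S'.t (y' i)), fun i => ?_,
    fun i => hp _ (h2 i), h3⟩
  exact ⟨_, (hp _ (h1 i)).symm⟩

end Crest.Agent.Ku
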