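import Crest.Agent.Ku.Defs

/-! Normal form of a series under conjugation. -/

set_option autoImplicit false

namespace Crest.Agent.Ku
open Module Finset

namespace NfAux

lemma rec_len {ι X : Type} (x0 : X) (F : List ι → (List ι → X) → X) :
    ∃ T : List ι → X, ∀ α, T α = F α (fun β => if β.length < α.length then T β else x0) := by
  let wf : WellFounded (InvImage (· < ·) (List.length : List ι → ℕ)) :=
    InvImage.wf _ wellFounded_lt
  refine ⟨wf.fix fun α r => F α fun β => if h : β.length < α.length then r β h else x0,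
    fun α => ?_⟩
  rw [WellFounded.fix_eq]
  simp

variable {ι A : Type} [Ring A]

lemma mul_sum_apply (g : NC ι A) (w : List ι) : ∀ f : NC ι A,
    (f * g) w = ∑ i ∈ range (w.length + 1), f (w.take i) * g (w.drop i) := by
  induction w with
  | nil => intro f; simp
  | cons x w ih =>
    intro f
    rw [NC.mul_cons, ih, List.length_cons, sum_range_succ' _ (w.length + 1), add_comm]
    simp

lemma mul_cons' (f g : NC ι A) (x : ι) (w : List ι) :
    (f * g) (x :: w) = f [] * g (x :: w) + ∑ i ∈ range w.length,
      f ((x :: w).take (i + 1)) * g ((x :: w).drop (i + 1)) + f (x :: w) * g [] := by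
  rw [mul_sum_apply, List.length_cons, sum_range_succ, sum_range_succ']
  simp only [List.take_zero, List.drop_zero]
  have t1 : (x :: w).take (w.length + 1) = x :: w := by simp
  have t2 : (x :: w).drop (w.length + 1) = [] := by simp
  rw [t1, t2, add_comm (∑ _ ∈ _, _)]

lemma exists_right_inv (G : NC ι A) (h : G [] = 1) : ∃ G' : NC ι A, G' [] = 1 ∧ G * G' = 1 := by
  obtain ⟨T, hT⟩ := rec_len (0 : A) (fun (α : List ι) r => match α with
    | [] => 1
    | x :: w => -∑ i ∈ range (w.length + 1),
        G ((x :: w).take (i + 1)) * r ((x :: w).drop (i + 1)))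
  refine ⟨T, hT [], NC.ext fun α => ?_⟩
  cases α with
  | nil => rw [NC.mul_nil, h, one_mul]; exact hT []
  | cons x w =>
    rw [mul_sum_apply, List.length_cons, sum_range_succ']
    simp only [List.take_zero, List.drop_zero, h, one_mul]
    rw [hT (x :: w)]
    simp only
    rw [add_neg_eq_iff_eq_add]
    change _ = (0 : A) + _
    rw [zero_add]
    refine sum_congr rfl fun i _ => ?_
    rw [if_pos (by simp)]

lemma exists_unit (G : NC ι A) (h : G [] = 1) : ∃ U : (NC ι A)ˣ, (U : NC ι A) = G := by
  obtain ⟨G', h1, h2⟩ := exists_right_inv G h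
  obtain ⟨G'', -, h3⟩ := exists_right_inv G' h1
  have h4 : G'' = G := by
    calc G'' = (G * G') * G'' := by rw [h2, one_mul]
      _ = G := by rw [mul_assoc, h3, mul_one]
  exact ⟨⟨G, G', h2, h4 ▸ h3⟩, rfl⟩

lemma exists_conj (H : NC ι A) (C : A → Prop) (hC : C (H []))
    (hd : ∀ z, ∃ c γ, C c ∧ c + (γ * H [] - H [] * γ) = z) :
    ∃ G H' : NC ι A, G [] = 1 ∧ H' [] = H [] ∧ (∀ α, C (H' α)) ∧ H * G = G * H' := by
  choose pc pg h1 h2 using hd
  obtain ⟨T, hT⟩ := rec_len ((0, 0) : A × A) (fun (α : List ι) r => match α with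
    | [] => (1, H [])
    | x :: w =>
      let R := H (x :: w) + (∑ i ∈ range w.length,
        H ((x :: w).take (i + 1)) * (r ((x :: w).drop (i + 1))).1 - ∑ i ∈ range w.length,
        (r ((x :: w).take (i + 1))).1 * (r ((x :: w).drop (i + 1))).2)
      (pg R, pc R))
  have h0 := hT []
  simp only at h0
  refine ⟨fun α => (T α).1, fun α => (T α).2, by simp only [h0], by simp only [h0], fun α => ?_,
    NC.ext fun α => ?_⟩
  · cases α with
    | nil => simp only [h0]; exact hC
    | cons x w => simp only; rw [hT (x :: w)]; exact h1 _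
  · cases α with
    | nil => simp [h0]
    | cons x w =>
      rw [mul_cons', mul_cons']
      simp only [h0, one_mul, mul_one]
      have e := hT (x :: w)
      simp only at e
      have e1 : ∑ i ∈ range w.length, H ((x :: w).take (i + 1)) *
          (if ((x :: w).drop (i + 1)).length < (x :: w).length then T ((x :: w).drop (i + 1))
            else (0, 0)).1 =
          ∑ i ∈ range w.length, H ((x :: w).take (i + 1)) * (T ((x :: w).drop (i + 1))).1 :=
        sum_congr rfl fun i _ => by rw [if_pos (by simp)]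
      have e2 : ∑ i ∈ range w.length,
          (if ((x :: w).take (i + 1)).length < (x :: w).length then T ((x :: w).take (i + 1))
            else (0, 0)).1 *
          (if ((x :: w).drop (i + 1)).length < (x :: w).length then T ((x :: w).drop (i + 1))
            else (0, 0)).2 =
          ∑ i ∈ range w.length, (T ((x :: w).take (i + 1))).1 * (T ((x :: w).drop (i + 1))).2 :=
        sum_congr rfl fun i hi => by
          have := mem_range.1 hi
          rw [if_pos (by simp; omega), if_pos (by simp)]
      rw [e1, e2] at e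
      have e3 := h2 (H (x :: w) + (∑ i ∈ range w.length,
        H ((x :: w).take (i + 1)) * (T ((x :: w).drop (i + 1))).1 - ∑ i ∈ range w.length,
        (T ((x :: w).take (i + 1))).1 * (T ((x :: w).drop (i + 1))).2))
      have e4 := congrArg Prod.fst e
      have e5 := congrArg Prod.snd e
      simp only at e4 e5
      rw [← e4, ← e5] at e3
      rw [← sub_eq_zero] at e3 ⊢
      rw [← neg_eq_zero, ← e3]
      abel

end NfAux

open NfAux

lemma nf_ad (K : Type) {D : Type} [Field K] [Ring D] [Algebra K D] (a z : D) :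
    ad K a z = z * a - a * z := by simp [ad]

theorem nf (hB : Base) (_hR : RelStmt) : NfStmt := by
  intro S
  have hc := (hB.2.2.2.2.2.2.2.1 S.K S.D).2.2.1 S.a
  obtain ⟨G, H', hG, hH, hC, hm⟩ := exists_conj S.H (fun z => z ∈ S.C)
    (by
      change S.a ∈ Subalgebra.centralizer S.K {S.a}
      rw [Subalgebra.mem_centralizer_iff]
      rintro g rfl; rfl)
    (fun z => by
      have hz : z ∈ Subalgebra.toSubmodule (Subalgebra.centralizer S.K {S.a}) ⊔
          LinearMap.range (ad S.K S.a) := by rw [hc.sup_eq_top]; trivial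
      obtain ⟨c, hc', y, ⟨γ, rfl⟩, rfl⟩ := Submodule.mem_sup.1 hz
      exact ⟨c, γ, hc', by rw [nf_ad]; rfl⟩)
  obtain ⟨U, hU⟩ := exists_unit G hG
  have ha : ({ S with H := H' } : St).a = S.a := hH
  have h1 : ∀ j, H' [j] = S.H [j] - ad S.K S.a (G [j]) := by
    intro j
    have := congrFun hm [j]
    rw [NC.mul_one_letter, NC.mul_one_letter, hG, hH, one_mul, mul_one] at this
    rw [nf_ad, St.a, eq_sub_iff_add_eq, ← add_sub_assoc, ← this]
    abel
  have h2 : ∀ j k, H' [j, k] = S.H [j, k] + S.H [j] * G [k] - G [j] * H' [k] -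
      ad S.K S.a (G [j, k]) := by
    intro j k
    have := congrFun hm [j, k]
    rw [NC.mul_two_letters, NC.mul_two_letters, hG, hH, one_mul, mul_one] at this
    rw [nf_ad, St.a]
    rw [← sub_eq_zero] at this ⊢
    rw [← neg_eq_zero, ← this]
    abel
  have hCC : ({ S with H := H' } : St).C = S.C := by
    change Subalgebra.centralizer S.K {({ S with H := H' } : St).a} = _
    rw [ha]; rfl
  have hW : ({ S with H := H' } : St).W = S.W := by
    change (Submodule.span S.K (Set.range fun j => H' [j]) ⊔
      LinearMap.range (ad S.K ({ S with H := H' } : St).a)) ⊓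
      Subalgebra.toSubmodule ({ S with H := H' } : St).C = _
    rw [ha, hCC, St.W]
    congr 1
    apply le_antisymm
    · refine sup_le (Submodule.span_le.2 ?_) le_sup_right
      rintro _ ⟨j, rfl⟩
      simp only [h1]
      exact Submodule.sub_mem _ (Submodule.mem_sup_left (Submodule.subset_span ⟨j, rfl⟩))
        (Submodule.mem_sup_right ⟨_, rfl⟩)
    · refine sup_le (Submodule.span_le.2 ?_) le_sup_right
      rintro _ ⟨j, rfl⟩
      have : S.H [j] = H' [j] + ad S.K S.a (G [j]) := by rw [h1]; abel
      simp only [this]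
      exact Submodule.add_mem _ (Submodule.mem_sup_left (Submodule.subset_span ⟨j, rfl⟩))
        (Submodule.mem_sup_right ⟨_, rfl⟩)
  have hV : ({ S with H := H' } : St).V = S.V := by
    change Subalgebra.toSubmodule (Algebra.adjoin S.K {z | ∃ w ∈ ({ S with H := H' } : St).W,
      ∃ b ∈ ({ S with H := H' } : St).W, z = w * b⁻¹}) * ({ S with H := H' } : St).W = _
    rw [hW]; rfl
  refine ⟨H', ⟨⟨RingHom.id _, RingHom.id _, fun _ => rfl, rfl, rfl, ⟨U, ?_⟩, fun _ _ h => h⟩, le_rfl,
    by simp, fun k hk => by rw [one_pow, one_mul]; exact hk⟩, fun α => ?_, ha, hW, fun M hM c hc1 hc2 => ?_⟩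
  · change H' = ↑U⁻¹ * S.H * ↑U
    rw [mul_assoc, hU, hm, ← hU, Units.inv_mul_cancel_left]
  · rw [hCC]; exact hC α
  · rw [hW] at hc1
    rw [hV] at hc2
    obtain ⟨c', e1, e2, l, l', γ, e3, e4, e5⟩ := hM c hc1 hc2
    let g : (S.ι → S.K) → S.D := fun l => ∑ j, l j • G [j]
    have ht : ∀ l, ({ S with H := H' } : St).t l = S.t l - ad S.K S.a (g l) := by
      intro l
      change ∑ j, l j • H' [j] = _
      simp only [h1, smul_sub, sum_sub_distrib, g, map_sum, map_smul, St.t]
    have hq : ∀ l l', ({ S with H := H' } : St).q l l' = S.q l l' + S.t l * g l' -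
        g l * ({ S with H := H' } : St).t l' -
        ad S.K S.a (∑ j, ∑ k, (l j * l' k) • G [j, k]) := by
      intro l l'
      change ∑ j, ∑ k, (l j * l' k) • H' [j, k] = _ - _ * ∑ j, l' j • H' [j] - _
      simp only [h2, smul_sub, smul_add, sum_sub_distrib, sum_add_distrib, g, map_sum, map_smul,
        St.t, St.q, sum_mul_sum, smul_mul_smul_comm]
    refine ⟨c', by rw [hV]; exact e1, by rw [ha]; exact e2, l, l', fun k => γ k - g (l' k),
      fun i => ?_, fun i => ?_, ?_⟩
    · rw [ha, ht]
      exact Submodule.sub_mem _ (e3 i) ⟨_, rfl⟩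
    · rw [ha, ht, e4, map_sub]
    · convert e5 using 2
      ext i k
      simp only [Matrix.of_apply]
      rw [← sub_eq_zero, ← map_sub]
      refine e2 ⟨-(∑ j, ∑ m, (l i j * l' k m) • G [j, m]) - g (l i) * (γ k - g (l' k)), ?_⟩
      rw [hq, ht, ht, e4, map_sub, map_neg]
      simp only [nf_ad]
      noncomm_ring

end Crest.Agent.Ku
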