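import Crest.Agent.Ku.Defs

set_option autoImplicit false

namespace Crest.Agent.Ku
open Module

namespace OptAux

def Pre (S : St) : Prop := S.W ≠ ⊥ ∧ NoHalf S ∧ NoDbl S

lemma noHalf_inh (hR : RelStmt) {S S' : St} {m : ℕ} (h : NoHalf S) (hr : Rel S S' m)
    (hc : S'.c ≤ m * S.c) : NoHalf S' := by
  intro S'' k hk hW
  have := h S'' (m * k) (hR.2.2.1 _ _ _ _ _ hr hk) hW
  calc k * S'.c ≤ k * (m * S.c) := Nat.mul_le_mul_left _ hc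
    _ = m * k * S.c := by ring
    _ < _ := this

lemma pre_inh (hR : RelStmt) {S S' : St} {m : ℕ} (h : Pre S) (hr : Rel S S' m) (hW : S'.W ≠ ⊥)
    (hc : S'.c ≤ m * S.c) (hf : m * S.f ≤ S'.f) : Pre S' := by
  refine ⟨hW, noHalf_inh hR h.2.1 hr hc, ?_⟩
  intro S'' k hk hW' hc'
  have h1 : S''.c ≤ m * k * S.c := by
    calc S''.c ≤ k * S'.c := hc'
      _ ≤ k * (m * S.c) := Nat.mul_le_mul_left _ hc
      _ = m * k * S.c := by ring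
  have := h.2.2 S'' (m * k) (hR.2.2.1 _ _ _ _ _ hr hk) hW' h1
  calc S''.f < 2 * (m * k * S.f) := this
    _ = 2 * (k * (m * S.f)) := by ring
    _ ≤ 2 * (k * S'.f) := Nat.mul_le_mul_left _ (Nat.mul_le_mul_left _ hf)

lemma nf_ex (hN : NfStmt) (S : St) : ∃ S' : St, Rel S S' 1 ∧ S'.Normal ∧ (S.W ≠ ⊥ → S'.W ≠ ⊥) ∧
    S'.c = S.c ∧ S'.f = S.f ∧ S'.w = S.w ∧ (∀ k, S.Pw k → S'.Pw k) ∧ ∀ M, S.ND M → S'.ND M := by
  obtain ⟨H', h1, h2, h3, h4, h5⟩ := hN S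
  have hf : St.f { S with H := H' } = S.f := by
    unfold St.f St.F0; rw [h4]
  refine ⟨{ S with H := H' }, h1, h2, fun h => by rw [h4]; exact h, ?_, hf, ?_, ?_, h5⟩
  · unfold St.c St.C; rw [h3]
  · unfold St.w; rw [h4]
  · intro k hk
    unfold St.Pw at hk ⊢
    rw [hf, h4]; exact hk

lemma nf_good (hR : RelStmt) (hN : NfStmt) {S : St} (h : Pre S) : ∃ S' : St, Rel S S' 1 ∧ Good S' ∧
    S'.c = S.c ∧ S'.f = S.f ∧ S'.w = S.w ∧ (∀ k, S.Pw k → S'.Pw k) ∧ ∀ M, S.ND M → S'.ND M := by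
  obtain ⟨S', h1, h2, h3, h4, h5, h6, h7, h8⟩ := nf_ex hN S
  have := pre_inh hR h h1 (h3 h.1) (by omega) (by omega)
  exact ⟨S', h1, ⟨this.1, this.2.1, this.2.2, h2⟩, h4, h5, h6, h7, h8⟩

lemma w_le_f (hR : RelStmt) (hN : NfStmt) (hC : CenStmt) {S : St} (h : Pre S) : S.w ≤ S.f := by
  obtain ⟨S', -, hg, -, h5, h6, -⟩ := nf_good hR hN h
  obtain ⟨-, h2, h3, -⟩ := hC S' hg
  rw [← h5, ← h6, ← h2]
  exact Submodule.finrank_mono h3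

lemma f_le_c (hA : AlgStmt) (S : St) : S.f ≤ S.c := by
  have hle : S.F0 ≤ S.C := by
    unfold St.F0
    rw [Algebra.adjoin_le_iff]
    rintro z ⟨w, hw, b, hb, rfl⟩
    exact S.C.mul_mem hw.2 ((hA S.K S.D).1 S.C b hb.2)
  exact Submodule.finrank_mono (show Subalgebra.toSubmodule S.F0 ≤ Subalgebra.toSubmodule S.C from hle)

lemma f_pos (S : St) : 0 < S.f := by
  unfold St.f
  exact Module.finrank_pos

lemma m_le_c (hA : AlgStmt) {S S' : St} {m : ℕ} (hr : Rel S S' m) : m ≤ S'.c := by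
  have h1 := hr.2.2.1
  have h2 : finrank S'.K S'.D ≤ S'.c ^ 2 := (hA S'.K S'.D).2.2.2.2 S'.a
  have h3 : 0 < finrank S.K S.D := Module.finrank_pos
  have h4 : m ^ 2 ≤ S'.c ^ 2 := by
    calc m ^ 2 ≤ m ^ 2 * finrank S.K S.D := Nat.le_mul_of_pos_right _ h3
      _ ≤ _ := by rw [← h1]; exact h2
  exact (Nat.pow_le_pow_iff_left (by norm_num)).1 h4

lemma room_mono {S : St} {k l : ℕ} (h : S.room k) (hl : l ≤ k) : S.room l := by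
  unfold St.room at h ⊢; omega

lemma room_one {S S' : St} {m : ℕ} (hr : Rel S S' m) (h : S.room 1) : S'.room 1 := by
  refine room_mono (hr.2.2.2 1 h) ?_
  have := hr.2.1
  nlinarith

lemma step1 (hA : AlgStmt) (hR : RelStmt) {S S0 : St} {m0 : ℕ} (h0 : Rel S S0 m0) (hW : S0.W ≠ ⊥) :
    ∃ S' m, Rel S S' m ∧ S'.W ≠ ⊥ ∧ NoHalf S' := by
  set A : Set ℝ := {x | ∃ S' m, Rel S S' m ∧ S'.W ≠ ⊥ ∧ x = (S'.c : ℝ) / m} with hAdef
  have hne : A.Nonempty := ⟨_, S0, m0, h0, hW, rfl⟩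
  have hlb : ∀ x ∈ A, (1 : ℝ) ≤ x := by
    rintro x ⟨S', m, hr, -, rfl⟩
    have hm : (0 : ℝ) < m := by exact_mod_cast hr.2.1
    rw [le_div_iff₀ hm, one_mul]
    exact_mod_cast m_le_c hA hr
  have h1 : (1 : ℝ) ≤ sInf A := le_csInf hne hlb
  obtain ⟨x, ⟨S1, m1, hr1, hW1, rfl⟩, hx⟩ := exists_lt_of_csInf_lt hne
    (show sInf A < 2 * sInf A by linarith)
  refine ⟨S1, m1, hr1, hW1, ?_⟩
  intro S'' k hk hW''
  have h2 : sInf A ≤ (S''.c : ℝ) / ((m1 * k : ℕ) : ℝ) :=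
    csInf_le ⟨1, hlb⟩ ⟨S'', m1 * k, hR.2.2.1 _ _ _ _ _ hr1 hk, hW'', rfl⟩
  have hm : (0 : ℝ) < m1 := by exact_mod_cast hr1.2.1
  have hk' : (0 : ℝ) < k := by exact_mod_cast hk.2.1
  have h3 : (S1.c : ℝ) / m1 < 2 * ((S''.c : ℝ) / (m1 * k)) := by
    push_cast at h2; linarith
  have h4 : (k : ℝ) * S1.c < 2 * S''.c := by
    rw [← mul_div_assoc, div_lt_div_iff₀ hm (by positivity)] at h3
    have : m1 * ((k : ℝ) * S1.c) < m1 * (2 * S''.c) := by linarith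
    exact lt_of_mul_lt_mul_left this hm.le
  exact_mod_cast h4

lemma step2 (hA : AlgStmt) (hR : RelStmt) {S : St} (hW : S.W ≠ ⊥) (hH : NoHalf S) :
    ∃ S' m, Rel S S' m ∧ Pre S' := by
  set A : Set ℝ := {x | ∃ S' m, Rel S S' m ∧ S'.W ≠ ⊥ ∧ S'.c ≤ m * S.c ∧ x = (S'.f : ℝ) / m} with hAdef
  have hmem : (S.f : ℝ) / ((1 : ℕ) : ℝ) ∈ A := ⟨S, 1, hR.1 S, hW, by omega, rfl⟩
  have hne : A.Nonempty := ⟨_, hmem⟩
  have hub : ∀ x ∈ A, x ≤ (S.c : ℝ) := by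
    rintro x ⟨S', m, hr, -, hc, rfl⟩
    have hm : (0 : ℝ) < m := by exact_mod_cast hr.2.1
    rw [div_le_iff₀ hm]
    have := (f_le_c hA S').trans hc
    rw [mul_comm] at this
    exact_mod_cast this
  have h1 : (0 : ℝ) < sSup A := by
    refine lt_of_lt_of_le ?_ (le_csSup ⟨_, hub⟩ hmem)
    have : (0 : ℝ) < S.f := by exact_mod_cast f_pos S
    simpa using this
  obtain ⟨x, ⟨S1, m1, hr1, hW1, hc1, rfl⟩, hx⟩ := exists_lt_of_lt_csSup hne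
    (show sSup A / 2 < sSup A by linarith)
  refine ⟨S1, m1, hr1, hW1, noHalf_inh hR hH hr1 hc1, ?_⟩
  intro S'' k hk hW'' hc''
  have hc2 : S''.c ≤ m1 * k * S.c := by
    calc S''.c ≤ k * S1.c := hc''
      _ ≤ k * (m1 * S.c) := Nat.mul_le_mul_left _ hc1
      _ = m1 * k * S.c := by ring
  have h2 : (S''.f : ℝ) / ((m1 * k : ℕ) : ℝ) ≤ sSup A :=
    le_csSup ⟨_, hub⟩ ⟨S'', m1 * k, hR.2.2.1 _ _ _ _ _ hr1 hk, hW'', hc2, rfl⟩
  have hm : (0 : ℝ) < m1 := by exact_mod_cast hr1.2.1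
  have hk' : (0 : ℝ) < k := by exact_mod_cast hk.2.1
  have h3 : (S''.f : ℝ) / (m1 * k) < 2 * ((S1.f : ℝ) / m1) := by
    push_cast at h2; linarith
  have h4 : (S''.f : ℝ) < 2 * (k * S1.f) := by
    rw [← mul_div_assoc, div_lt_div_iff₀ (by positivity) hm] at h3
    have : m1 * (S''.f : ℝ) < m1 * (2 * (k * S1.f)) := by linarith
    exact lt_of_mul_lt_mul_left this hm.le
  exact_mod_cast h4

lemma step3 (hR : RelStmt) (hN : NfStmt) (hBst : BstStmt) : ∀ (k : ℕ) (S : St), Good S →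
    S.Pw (2 ^ (k + 1)) → ∃ S' m, Rel S S' m ∧ Good S' ∧ S'.Pw 2 := by
  intro k
  induction k with
  | zero => intro S hg hp; exact ⟨S, 1, hR.1 S, hg, by simpa using hp⟩
  | succ k ih =>
    intro S hg hp
    have h2 : 2 ≤ 2 ^ (k + 1) := by
      have := Nat.one_le_two_pow (n := k)
      rw [pow_succ]; omega
    obtain ⟨S1, r, hr, hW, hc, hf, hp1⟩ := (hBst S hg).1 (2 ^ (k + 1)) h2
      (by rw [← pow_succ']; exact hp)
    have hpre := pre_inh hR ⟨hg.1, hg.2.1, hg.2.2.1⟩ hr hW hc.le hf.ge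
    obtain ⟨S2, hr2, hg2, -, -, -, hp2, -⟩ := nf_good hR hN hpre
    obtain ⟨S3, m, hr3, hg3, hp3⟩ := ih S2 hg2 (hp2 _ hp1)
    exact ⟨S3, _, hR.2.2.1 _ _ _ _ _ (hR.2.2.1 _ _ _ _ _ hr hr2) hr3, hg3, hp3⟩

lemma kmin_inh (hR : RelStmt) {S S' : St} {m : ℕ} (h : KMin S) (hr : Rel S S' m)
    (hc : S'.c ≤ m * S.c) (hf : m * S.f ≤ S'.f) (hw : S'.f + S.w ≤ S.f + S'.w) : KMin S' := by
  intro S'' k hk hW' hc' hf' hp
  have h1 : S''.c ≤ m * k * S.c := by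
    calc S''.c ≤ k * S'.c := hc'
      _ ≤ k * (m * S.c) := Nat.mul_le_mul_left _ hc
      _ = m * k * S.c := by ring
  have h2 : m * k * S.f ≤ S''.f := by
    calc m * k * S.f = k * (m * S.f) := by ring
      _ ≤ k * S'.f := Nat.mul_le_mul_left _ hf
      _ ≤ _ := hf'
  have := h S'' (m * k) (hR.2.2.1 _ _ _ _ _ hr hk) hW' h1 h2 hp
  omega

lemma step4 (hR : RelStmt) (hN : NfStmt) (hC : CenStmt) {S : St} (hg : Good S) (hp : S.Pw 2) :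
    ∃ S' m, Rel S S' m ∧ Good S' ∧ S'.Pw 2 ∧ KMin S' := by
  classical
  have hex : ∃ n, ∃ S' m, Rel S S' m ∧ S'.W ≠ ⊥ ∧ S'.c ≤ m * S.c ∧ m * S.f ≤ S'.f ∧ S'.Pw 2 ∧
      S'.f - S'.w = n := ⟨_, S, 1, hR.1 S, hg.1, by omega, by omega, hp, rfl⟩
  obtain ⟨S1, m1, hr1, hW1, hc1, hf1, hp1, hn⟩ := Nat.find_spec hex
  have hpS : Pre S := ⟨hg.1, hg.2.1, hg.2.2.1⟩
  have hpre := pre_inh hR hpS hr1 hW1 hc1 hf1
  have hk1 : KMin S1 := by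
    intro S'' k hk hW' hc' hf' hp'
    have h1 : S''.c ≤ m1 * k * S.c := by
      calc S''.c ≤ k * S1.c := hc'
        _ ≤ k * (m1 * S.c) := Nat.mul_le_mul_left _ hc1
        _ = m1 * k * S.c := by ring
    have h2 : m1 * k * S.f ≤ S''.f := by
      calc m1 * k * S.f = k * (m1 * S.f) := by ring
        _ ≤ k * S1.f := Nat.mul_le_mul_left _ hf1
        _ ≤ _ := hf'
    have hrr := hR.2.2.1 _ _ _ _ _ hr1 hk
    have h3 : Nat.find hex ≤ S''.f - S''.w := Nat.find_min' hex ⟨S'', m1 * k, hrr, hW', h1, h2, hp', rfl⟩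
    have h4 := w_le_f hR hN hC hpre
    have h5 := w_le_f hR hN hC (pre_inh hR hpS hrr hW' h1 h2)
    omega
  obtain ⟨S2, hr2, hg2, hc2, hf2, hw2, hp2, -⟩ := nf_good hR hN hpre
  exact ⟨S2, _, hR.2.2.1 _ _ _ _ _ hr1 hr2, hg2, hp2 _ hp1,
    kmin_inh hR hk1 hr2 (by omega) (by omega) (by omega)⟩

end OptAux
open OptAux

theorem opt (hB : Base) (hR : RelStmt) (hN : NfStmt) (hRig : RigStmt) (hC : CenStmt)
    (hBst : BstStmt) : OptStmt := by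
  have hA : AlgStmt := hB.2.2.2.2.2.2.2.1
  have tr := hR.2.2.1
  intro S hroom
  by_cases hall : ∀ S' m, Rel S S' m → S'.W = ⊥
  · obtain ⟨S1, h1, h2, -⟩ := nf_ex hN S
    exact ⟨S1, 1, h1, Or.inl (hRig S1 h2 fun S' m h => hall S' _ (tr _ _ _ _ _ h1 h))⟩
  · push Not at hall
    obtain ⟨S0, m0, h0, hW0⟩ := hall
    obtain ⟨S1, m1, hr1, hW1, hH1⟩ := step1 hA hR h0 hW0
    obtain ⟨S2, m2, hr2, hp2⟩ := step2 hA hR hW1 hH1
    obtain ⟨S3, hr3, hg3, -⟩ := nf_good hR hN hp2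
    obtain ⟨k, hk⟩ := (hC S3 hg3).2.2.2.2.2.2.2
    obtain ⟨S4, m4, hr4, hg4, hp4⟩ := step3 hR hN hBst k S3 hg3 hk
    obtain ⟨S5, m5, hr5, hg5, hp5, hk5⟩ := step4 hR hN hC hg4 hp4
    obtain ⟨S6, r, hr6, hW6, hc6, hf6, hp6, hw6, hnd, hle⟩ := (hBst S5 hg5).2 hp5
    have hpre6 := pre_inh hR ⟨hg5.1, hg5.2.1, hg5.2.2.1⟩ hr6 hW6 hc6.le hf6.ge
    have hk6 := kmin_inh hR hk5 hr6 hc6.le hf6.ge hw6
    obtain ⟨S7, hr7, hg7, hc7, hf7, hw7, hp7, hnd7⟩ := nf_good hR hN hpre6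
    have hr05 := tr _ _ _ _ _ (tr _ _ _ _ _ (tr _ _ _ _ _ (tr _ _ _ _ _ hr1 hr2) hr3) hr4) hr5
    have hroom5 := room_one hr05 hroom
    have hroom7 := hr7.2.2.2 _ (hr6.2.2.2 _ hroom5)
    refine ⟨S7, _, tr _ _ _ _ _ (tr _ _ _ _ _ hr05 hr6) hr7, Or.inr ⟨hg7, hp7 _ hp6,
      kmin_inh hR hk6 hr7 (by omega) (by omega) (by omega), ?_, ?_⟩⟩
    · rw [hc7, hf7, hw7]; exact hnd7 _ hnd
    · rw [hc7, hf7, hw7]; exact room_mono hroom7 (by simpa using hle)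

end Crest.Agent.Ku
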