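import Crest.Agent.Ku.PertCore

/-! S0270: the first perturbation piece. -/

set_option autoImplicit false

namespace Crest.Agent.Ku
open PowerSeries Module

namespace Pt

lemma theta_mem (S : St) (hN : S.Normal) {κ : Type} (φ : S.ι → NC κ S.K)
    (Θ : NC S.ι S.D →+* NC κ S.D) (hΘ : IsSub S φ Θ) (w : List κ) : Θ S.H w ∈ S.C := by
  refine ev_mem S.C.toSubring (fun j => NC.map (algebraMap S.K S.D) (φ j)) Θ (fun j => ?_)
    (fun j α => ?_) hΘ.2 _ w rfl S.H hN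
  · rw [NC.map_apply, hΘ.1 j, map_zero]
  · rw [NC.map_apply]; exact S.C.algebraMap_mem _

lemma theta_nil (S : St) {κ : Type} (φ : S.ι → NC κ S.K)
    (Θ : NC S.ι S.D →+* NC κ S.D) (hΘ : IsSub S φ Θ) : Θ S.H [] = S.a := by
  rw [hΘ.2 S.H, NC.add_apply, NC.sum_apply]
  simp only [NC.mul_nil, NC.map_apply, hΘ.1, map_zero, zero_mul, Finset.sum_const_zero, add_zero,
    NC.C_nil]
  rfl

lemma core (hB : Base) (hC : CenStmt) (hP : PtBStmt) (S : St) (hG : Good S) (κ : Type) [Fintype κ]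
    (φ : S.ι → NC κ S.K) (Θ : NC S.ι S.D →+* NC κ S.D) (hΘ : IsSub S φ Θ) (m : ℕ) (hm : 2 ≤ m)
    (hz : ∀ α : List κ, 0 < α.length → α.length < m → Θ S.H α = 0)
    (K₁ D₁ : Type) [Field K₁] [Algebra ℂ K₁] [DivisionRing D₁] [Algebra K₁ D₁]
    [FiniteDimensional K₁ D₁] (E : Ext m S.K S.D K₁ D₁) (l : κ → D₁) (hl : ∀ i, l i ∈ E.tenL 1) :
    ∃ (ω : S.ι → D₁⟦X⟧) (e : NC S.ι S.D →+* D₁⟦X⟧) (s : D₁⟦X⟧) (S' : St) (Λ : Submodule K₁ D₁),
      Split S E ω e s S' Λ ∧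
      (∑ β : Fin m → κ, (List.ofFn fun k => l (β k) * E.v).prod *
        E.ψ (Θ S.H (List.ofFn β))) ∈ Λ ∧
      IsEv (C.comp E.ψ) ω e ∧ (∀ j, X ^ 2 ∣ ω j) ∧
      ∀ j, coeff 2 (ω j) = ∑ i, E.φ (φ j [i]) • (l i * E.v) := by
  obtain ⟨hEv, hFilt, hDer, hExp, -⟩ := hB
  have hr : 1 ≤ m := by omega
  haveI : CharZero K₁ := charZero_of_injective_algebraMap (algebraMap ℂ K₁).injective
  obtain ⟨F, hF⟩ := hFilt.1 D₁
  obtain ⟨hCen, -, -, -, -, hWt, -⟩ := hC S hG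
  obtain ⟨b, hbW, hb0⟩ := Submodule.exists_mem_ne_zero_of_ne_bot hG.1
  obtain ⟨δ, hδ⟩ := hWt b hbW
  obtain ⟨ρ, hρ⟩ : ∃ ρ : κ → D₁, ρ = fun i => l i * E.v := ⟨_, rfl⟩
  have hρT : ∀ i, ρ i ∈ T E 1 1 := fun i => by rw [hρ]; exact lv_mem E hr (hl i)
  have hXC : ∀ (k : ℕ) (z : D₁), z ∈ E.tenR 1 → ∀ n, coeff n (X ^ k * C z : D₁⟦X⟧) ∈ E.tenR 1 := by
    intro k z hz n
    rw [coeff_XC]
    split_ifs
    · exact hz
    · exact Submodule.zero_mem _
  have hdvd1 : ∀ g : D₁⟦X⟧, X ^ 2 ∣ g → g ∈ F.F 1 := fun g hg =>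
    (hF 1 g).2 fun i hi => X_pow_dvd_iff.1 hg i (by omega)
  -- the evaluation at `X^2 ρ`
  obtain ⟨e0, he0⟩ := hEv κ S.D D₁⟦X⟧ F (C.comp E.ψ) (fun i => X ^ 2 * C (ρ i))
    (fun i => hdvd1 _ (Dvd.intro _ rfl))
    (fun i a => comm_adm E (hXC 2 _ (T_le E 1 1 (hρT i))) a)
  obtain ⟨x1, -, -, x4, x5, x6⟩ := hExp κ S.D D₁ E.ψ _ e0 2 (by norm_num)
    (fun i => Dvd.intro _ rfl) he0
  obtain ⟨φD, hφD⟩ : ∃ φD : S.ι → NC κ S.D,
    φD = fun j => NC.map (algebraMap S.K S.D) (φ j) := ⟨_, rfl⟩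
  have hφ0 : ∀ j, φD j [] = 0 := fun j => by rw [hφD]; simp only [NC.map_apply, hΘ.1 j, map_zero]
  have hΘ2 : IsEv NC.C φD Θ := by rw [hφD]; exact hΘ.2
  have he1 := x6 S.ι φD Θ hφ0 hΘ2
  have hω0 : ∀ j n, n < 4 → coeff n (e0 (φD j)) =
      if n = 2 then ∑ i, E.φ (φ j [i]) • ρ i else 0 := by
    intro j n hn
    have h1 := X_pow_dvd_iff.1 (x1 (φD j)) n (by omega)
    rw [hφ0, map_zero, map_zero, sub_zero, map_sub, sub_eq_zero, map_sum] at h1
    rw [h1]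
    have h2 : ∀ i, coeff n (X ^ 2 * C (ρ i) * C (E.ψ (φD j [i])) : D₁⟦X⟧) =
        if n = 2 then E.φ (φ j [i]) • ρ i else 0 := by
      intro i
      rw [mul_assoc, ← map_mul, coeff_XC, hφD]
      simp only [NC.map_apply]
      rw [E.compat, ← Algebra.commutes, ← Algebra.smul_def]
    simp only [h2]
    split_ifs <;> simp
  have hω2 : ∀ j, X ^ 2 ∣ e0 (φD j) := fun j => X_pow_dvd_iff.2 fun n hn => by
    rw [hω0 j n (by omega), if_neg (by omega)]
  have hadm0 : ∀ j n, coeff n (e0 (φD j)) ∈ E.tenR 1 := by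
    intro j
    refine (x4 (RA E hr).toSubring (fun z => z ∈ (1 : Submodule S.K S.D))
      (fun z hz => T_le E 1 0 (psi_mem E hr hz))
      (fun i n => hXC 2 _ (T_le E 1 1 (hρT i)) n) (φD j) fun α => ?_).1
    rw [hφD]
    exact Submodule.mem_one.2 ⟨_, rfl⟩
  obtain ⟨N, hN⟩ : ∃ N : ℕ, N = 2 * m - 1 := ⟨_, rfl⟩
  obtain ⟨y, hy⟩ : ∃ y : S.ι → D₁, y = fun j => E.φ (δ j) • E.u := ⟨_, rfl⟩
  have hyR : ∀ j, y j ∈ E.tenR 1 := by
    intro j
    rw [hy]
    refine Submodule.smul_mem _ _ ?_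
    have := T_le E 1 0 (mono_mem E hr 1 0)
    simpa using this
  have hysum : ∑ j, y j * E.ψ (S.H [j]) = E.ψ b * E.u := by
    rw [← hδ, St.t, map_sum, Finset.sum_mul]
    refine Finset.sum_congr rfl fun j _ => ?_
    rw [hy, psi_smul, smul_mul_assoc, smul_mul_assoc, (E.cu _).eq]
  obtain ⟨ω, hω⟩ : ∃ ω : S.ι → D₁⟦X⟧, ω = fun j => e0 (φD j) + X ^ N * C (y j) := ⟨_, rfl⟩
  have hωd : ∀ j, X ^ 2 ∣ ω j := by
    intro j
    rw [hω]
    exact dvd_add (hω2 j) (Dvd.dvd.mul_right (pow_dvd_pow _ (by omega)) _)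
  have hadm : Adm E ω := by
    intro j n
    rw [hω]
    simp only [map_add]
    exact Submodule.add_mem _ (hadm0 j n) (hXC N _ (hyR j) n)
  have hω00 : ∀ j, constantCoeff (ω j) = 0 := fun j => by
    rw [← coeff_zero_eq_constantCoeff_apply]; exact X_pow_dvd_iff.1 (hωd j) 0 (by omega)
  obtain ⟨e, he⟩ := hEv S.ι S.D D₁⟦X⟧ F (C.comp E.ψ) ω (fun j => hdvd1 _ (hωd j))
    (fun j a => comm_adm E (hadm j) a)
  obtain ⟨Tm, hTm⟩ : ∃ Tm : D₁, Tm = ∑ β : Fin m → κ, (List.ofFn fun k => ρ (β k)).prod *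
        E.ψ (Θ S.H (List.ofFn β)) := ⟨_, rfl⟩
  have hTmC : Tm ∈ E.tenL (Subalgebra.toSubmodule S.C) := by
    rw [hTm, ← T_self]
    refine Submodule.sum_mem _ fun β _ => ?_
    have h1 := prod_mem E hr (List.ofFn fun k => ρ (β k)) (by
      intro z hz
      obtain ⟨k, rfl⟩ := List.mem_ofFn.1 hz
      exact hρT _)
    rw [List.length_ofFn] at h1
    exact T_mul E hr (k' := 0) h1 (psi_mem E hr (theta_mem S hG.2.2.2 φ Θ hΘ _))
  -- the coefficients of `e H`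
  have hG1 : ∀ n, n ≤ 2 * m → coeff n (e S.H) = (if n = 0 then E.ψ S.a else 0) +
      (if n = N then E.ψ b * E.u else 0) + (if n = 2 * m then Tm else 0) := by
    intro n hn
    have h5 := X_pow_dvd_iff.1 (x5 ρ m (fun _ => rfl) hr (Θ S.H) hz) n (by omega)
    have h3 := X_pow_dvd_iff.1 ((hExp S.ι S.D D₁ E.ψ _ (e0.comp Θ) 2 (by norm_num) hω2 he1).2.2.1
      (fun j => X ^ N * C (y j)) e N (by omega) (fun j => Dvd.intro _ rfl)
      (by rw [hω] at he; exact he) S.H) n (by omega)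
    have h4 : ∑ j, X ^ N * C (y j) * C (E.ψ (S.H [j])) = (X ^ N * C (E.ψ b * E.u) : D₁⟦X⟧) := by
      rw [← hysum, map_sum, Finset.mul_sum]
      exact Finset.sum_congr rfl fun j _ => by rw [map_mul, mul_assoc]
    rw [h4, map_sub, map_sub, coeff_XC, RingHom.comp_apply] at h3
    rw [← hTm, theta_nil S φ Θ hΘ, map_sub, map_sub, coeff_XC, coeff_C] at h5
    rw [sub_sub, sub_eq_zero] at h3 h5
    rw [h3, h5]
    abel
  obtain ⟨s, hs1, hs2⟩ := exists_lead N (e S.H - C (E.ψ S.a)) (by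
    intro n hn
    rw [map_sub, hG1 n (by omega), coeff_C, if_neg (show ¬ n = N by omega),
      if_neg (show ¬ n = 2 * m by omega)]
    simp)
  rw [map_sub, hG1 N (by omega), coeff_C, if_neg (show ¬ N = 0 by omega), if_pos rfl,
    if_neg (show ¬ N = 2 * m by omega), zero_add, add_zero, sub_zero] at hs2
  obtain ⟨S', Λ, hSp⟩ := hP S m K₁ D₁ E ω e N s b ⟨hr, hG, hCen, hadm, hω00, he, by omega,
    by rw [← hs1]; abel, hbW, hb0, hs2⟩
  refine ⟨ω, e, s, S', Λ, hSp, ?_, he, hωd, fun j => ?_⟩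
  · have hgoal : Tm ∈ Λ := by
      obtain ⟨d1, -, d3, d4⟩ := hDer S.ι S.D D₁ E.ψ ω e hω00 he
      obtain ⟨d0, hd0⟩ := d1 fun j => C (y j)
      have hd := d3 Bool (fun c => cond c X (-((N : D₁⟦X⟧) * X ^ N)))
        (fun c => cond c (fun j => dX (ω j)) fun j => C (y j))
        (fun c => cond c (fun f => dX (e f)) d0)
        (by
          intro c z
          cases c
          · exact ((Nat.cast_commute N z).mul_left (commute_X_pow z N).symm).neg_left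
          · exact (commute_X z).symm)
        (by
          intro c
          cases c
          · exact hd0
          · exact d4)
      simp only [Fintype.sum_bool, cond_true, cond_false] at hd
      have hco : ∀ (n : ℕ) (g g' : D₁⟦X⟧), coeff n (X * dX g + -((N : D₁⟦X⟧) * X ^ N) * g') =
          n • coeff n g - N • coeff n (X ^ N * g') := by
        intro n g g'
        rw [map_add, coeff_euler, neg_mul, mul_assoc, map_neg, ← nsmul_eq_mul, map_nsmul,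
          sub_eq_add_neg]
      have hd0c : ∀ n, n ≤ 2 * m → coeff n (X ^ N * d0 S.H) =
          if n = N then E.ψ b * E.u else 0 := by
        intro n hn
        obtain ⟨R, hR⟩ := (((hExp S.ι S.D D₁ E.ψ ω e 2 (by norm_num) hωd he).2.1 _ d0 hd0) S.H).1
        have h4 : ∑ j, C (y j) * C (E.ψ (S.H [j])) = (C (E.ψ b * E.u) : D₁⟦X⟧) := by
          rw [← hysum, map_sum]
          exact Finset.sum_congr rfl fun j _ => by rw [map_mul]
        rw [h4, sub_eq_iff_eq_add'] at hR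
        rw [hR, mul_add, map_add, coeff_XC, ← mul_assoc, ← pow_add, coeff_X_pow_mul',
          if_neg (show ¬ N + 2 ≤ n by omega), add_zero]
      obtain ⟨t, ht1, ht2⟩ := exists_lead (2 * m)
        (X * dX (e S.H) + -((N : D₁⟦X⟧) * X ^ N) * d0 S.H) (by
          intro n hn
          rw [hco, hG1 n (by omega), hd0c n (by omega), if_neg (show ¬ n = 2 * m by omega)]
          by_cases h0 : n = 0
          · rw [h0, if_neg (show ¬ 0 = N by omega)]; simp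
          · rw [if_neg h0]
            by_cases h1 : n = N
            · rw [h1]; simp
            · rw [if_neg h1]; simp)
      rw [hco, hG1 _ le_rfl, hd0c _ le_rfl, if_neg (show ¬ 2 * m = 0 by omega),
        if_neg (show ¬ 2 * m = N by omega), if_pos rfl, zero_add, zero_add, smul_zero,
        sub_zero] at ht2
      have hmem := hSp.2.2.2.2.2.2.2.2.1 _ _ (2 * m) t (by
        intro j n
        show coeff n (X * dX (ω j) + -((N : D₁⟦X⟧) * X ^ N) * C (y j)) ∈ _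
        rw [hco]
        exact Submodule.sub_mem _ (nsmul_mem (hadm j n) _) (nsmul_mem (hXC N _ (hyR j) n) _))
        hd ht1 ((2 * m) • Tm) (nsmul_mem hTmC _)
        (by rw [ht2, sub_self]; exact Submodule.zero_mem _)
      rw [← Nat.cast_smul_eq_nsmul K₁] at hmem
      exact (Submodule.smul_mem_iff _ (by exact_mod_cast (show 2 * m ≠ 0 by omega))).1 hmem
    rw [hTm, hρ] at hgoal
    exact hgoal
  · rw [hω]
    simp only [map_add]
    rw [hω0 j 2 (by omega), if_pos rfl, coeff_XC, if_neg (show ¬ 2 = N by omega), add_zero, hρ]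

lemma c1_theta {r : ℕ} {K D K₁ D₁ : Type} [Field K] [DivisionRing D] [Algebra K D] [Field K₁]
    [DivisionRing D₁] [Algebra K₁ D₁] (E : Ext r K D K₁ D₁) (hr : 1 ≤ r) (c : D →ₗ[K] K)
    (c₁ : D₁ →ₗ[K₁] D₁)
    (hc : ∀ d a b, c₁ (E.ψ d * (E.u ^ a * E.v ^ b)) = E.φ (c d) • (E.u ^ a * E.v ^ b))
    {κ : Type} [Fintype κ] (l : κ → D₁) (hl : ∀ i, l i ∈ E.tenL 1) (g : List κ → D) (m : ℕ) :
    c₁ (∑ β : Fin m → κ, (List.ofFn fun k => l (β k) * E.v).prod * E.ψ (g (List.ofFn β))) =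
      ∑ β : Fin m → κ, E.φ (c (g (List.ofFn β))) • (List.ofFn fun k => l (β k) * E.v).prod := by
  rw [map_sum]
  refine Finset.sum_congr rfl fun β _ => ?_
  refine c1_mul E c c₁ hc _ (prod_mem E hr (List.ofFn fun k => l (β k) * E.v) ?_)
  intro z hz
  obtain ⟨k, rfl⟩ := List.mem_ofFn.1 hz
  exact lv_mem E hr (hl _)

end Pt

open Pt in
theorem pertA (hB : Base) (hC : CenStmt) (hP : PtBStmt) : PertAStmt := by
  classical
  intro S hG κ _ φ Θ hΘ m hm hz α hα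
  by_contra hV
  obtain ⟨c, hc0, hcV⟩ := Submodule.exists_dual_map_eq_bot_of_notMem hV inferInstance
  have hcV' : ∀ d ∈ S.V, c d = 0 := by
    intro d hd
    have : c d ∈ S.V.map c := Submodule.mem_map_of_mem hd
    rwa [hcV, Submodule.mem_bot] at this
  have hB' := hB
  obtain ⟨-, -, -, -, -, -, hExt, -, hTen, hPif, -⟩ := hB'
  obtain ⟨K₁, D₁, _, _, _, _, _, ⟨E⟩⟩ := hExt m (by omega) S.K S.D
  obtain ⟨l, hl, hne⟩ := (hPif m S.K S.D K₁ D₁ E κ (fun β => c (Θ S.H β)) α hα (by omega)).1 hc0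
  obtain ⟨ω, e, s, S', Λ, hSp, hT, -⟩ := core hB hC hP S hG κ φ Θ hΘ m hm hz K₁ D₁ E l hl
  obtain ⟨c₁, hc₁⟩ := (hTen m S.K S.D K₁ D₁ E (by omega)).2.2.2.2.2.2.2.2 ⊥ c
  apply hne
  rw [← c1_theta E (by omega) c c₁ hc₁ l hl (fun β => Θ S.H β) m]
  exact c1_ker E c c₁ hc₁ hcV' (hSp.2.2.2.2.2.2.1 hT)

end Crest.Agent.Ku
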