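import Crest.Agent.Ku.PertA

/-! S0270: the second perturbation piece. -/

set_option autoImplicit false

namespace Crest.Agent.Ku
open PowerSeries Module

namespace Pt

lemma q_mem (S : St) (hN : S.Normal) (l l' : S.ι → S.K) : S.q l l' ∈ S.C :=
  S.C.sum_mem fun _ _ => S.C.sum_mem fun _ _ => S.C.smul_mem (hN _) _

/-- second order term of a constant tangent direction -/
lemma second (hB : Base) (S : St) {r : ℕ} {K₁ D₁ : Type} [Field K₁] [DivisionRing D₁]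
    [Algebra K₁ D₁] (E : Ext r S.K S.D K₁ D₁) (ω : S.ι → D₁⟦X⟧) (e : NC S.ι S.D →+* D₁⟦X⟧)
    (he : IsEv (C.comp E.ψ) ω e) (hω : ∀ j, X ^ 2 ∣ ω j) {κ : Type} [Fintype κ]
    (ξ : κ → S.ι → S.K) (ρ : κ → D₁) (h2 : ∀ j, coeff 2 (ω j) = ∑ i, E.φ (ξ i j) • ρ i)
    (ζ : S.ι → S.K) (hζ : S.t ζ = 0) (y : D₁) (d : NC S.ι S.D → D₁⟦X⟧)
    (hd : IsDer ω e (fun j => C (E.φ (ζ j) • y)) d) :
    ∃ t, d S.H = X ^ 2 * t ∧ constantCoeff t =
      ∑ i, (y * ρ i * E.ψ (S.q ζ (ξ i)) + ρ i * y * E.ψ (S.q (ξ i) ζ)) := by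
  obtain ⟨-, -, -, hExp, -⟩ := hB
  have h1 := (((hExp S.ι S.D D₁ E.ψ ω e 2 (by norm_num) hω he).2.1 _ d hd) S.H).2
  have h0 : ∑ j, C (E.φ (ζ j) • y) * C (E.ψ (S.H [j])) = (0 : D₁⟦X⟧) := by
    have : ∑ j, (E.φ (ζ j) • y) * E.ψ (S.H [j]) = y * E.ψ (S.t ζ) := by
      rw [St.t, map_sum, Finset.mul_sum]
      refine Finset.sum_congr rfl fun j _ => ?_
      rw [psi_smul, smul_mul_assoc, mul_smul_comm]
    rw [hζ, map_zero, mul_zero] at this
    simp only [← map_mul]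
    rw [← map_sum, this, map_zero]
  rw [h0, sub_zero] at h1
  have hc : ∀ n, n < 4 → coeff n (d S.H) = ∑ j, ∑ k,
      ((E.φ (ζ j) • y) * coeff n (ω k) + coeff n (ω j) * (E.φ (ζ k) • y)) * E.ψ (S.H [j, k]) := by
    intro n hn
    have := X_pow_dvd_iff.1 h1 n (by omega)
    rw [map_sub, sub_eq_zero] at this
    rw [this]
    simp only [map_sum, coeff_mul_C, map_add, coeff_C_mul]
  obtain ⟨t, ht1, ht2⟩ := exists_lead 2 (d S.H) (by
    intro n hn
    rw [hc n (by omega)]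
    simp only [X_pow_dvd_iff.1 (hω _) n hn, mul_zero, zero_mul, add_zero, Finset.sum_const_zero])
  refine ⟨t, ht1, ?_⟩
  rw [ht2, hc 2 (by norm_num)]
  simp only [h2, St.q, map_sum, psi_smul, map_mul, Finset.mul_sum, Finset.sum_mul, add_mul,
    Finset.sum_add_distrib, smul_mul_assoc, mul_smul_comm, smul_smul, Finset.smul_sum]
  congr 1
  · rw [Finset.sum_comm (γ := κ)]
    refine Finset.sum_congr rfl fun j _ => ?_
    rw [Finset.sum_comm]
    refine Finset.sum_congr rfl fun i _ => Finset.sum_congr rfl fun k _ => ?_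
    first | rfl | (rw [mul_comm])
  · rw [Finset.sum_comm (γ := κ)]
    refine Finset.sum_congr rfl fun j _ => ?_
    rw [Finset.sum_comm]
    refine Finset.sum_congr rfl fun i _ => Finset.sum_congr rfl fun k _ => ?_
    first | rfl | (rw [mul_comm])

lemma pw_two {r : ℕ} {K D K₁ D₁ : Type} [Field K] [DivisionRing D] [Algebra K D] [Field K₁]
    [DivisionRing D₁] [Algebra K₁ D₁] (E : Ext r K D K₁ D₁) (hr : 1 ≤ r) (W : Submodule K D)
    (Λ : Submodule K₁ D₁) (h : E.tenL W ≤ Λ) : E.tenL (W ^ 2) ≤ Λ ^ 2 := by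
  rw [pow_two, pow_two]
  refine Submodule.span_le.2 ?_
  rintro z ⟨d, hd, a, ha, b, hb, hab, rfl⟩
  refine Submodule.mul_induction_on
    (C := fun d => E.ψ d * (E.u ^ a * E.v ^ b) ∈ Λ * Λ) hd ?_ ?_
  · intro w hw w' hw'
    rw [map_mul, mul_assoc]
    refine Submodule.mul_mem_mul (h ?_) (h (Submodule.subset_span ⟨w', hw', a, ha, b, hb, hab, rfl⟩))
    rw [← T_zero]
    exact psi_mem E hr hw
  · intro x y hx hy
    rw [map_add, add_mul]
    exact Submodule.add_mem _ hx hy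

end Pt

open Pt in
theorem pertB (hB : Base) (hC : CenStmt) (hP : PtBStmt) (_hA : PertAStmt) : PertBStmt := by
  classical
  intro S hG hPw hK κ _ φ Θ hΘ hSj m hm hz α hα
  have hr : 1 ≤ m := by omega
  by_contra hW
  obtain ⟨c, hc0, hcW⟩ := Submodule.exists_dual_map_eq_bot_of_notMem hW inferInstance
  have hcW' : ∀ d ∈ S.W, c d = 0 := by
    intro d hd
    have : c d ∈ S.W.map c := Submodule.mem_map_of_mem hd
    rwa [hcW, Submodule.mem_bot] at this
  have hB' := hB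
  obtain ⟨-, -, hDer, -, -, -, hExt, hAlg, hTen, hPif, -⟩ := hB'
  obtain ⟨K₁, D₁, _, _, _, _, _, ⟨E⟩⟩ := hExt m hr S.K S.D
  have : CharZero K₁ := charZero_of_injective_algebraMap (algebraMap ℂ K₁).injective
  rw [map_sum] at hc0
  obtain ⟨l, hl, hne⟩ := (hPif m S.K S.D K₁ D₁ E κ (fun β => c (Θ S.H β)) α hα hr).2 hc0
  obtain ⟨ω, e, s, S', Λ, hSp, hT, he, hω, h2⟩ :=
    core hB hC hP S hG κ φ Θ hΘ m hm hz K₁ D₁ E l hl
  obtain ⟨-, tL, -, t4, -, -, -, -, tc⟩ := hTen m S.K S.D K₁ D₁ E hr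
  obtain ⟨c₁, hc₁⟩ := tc ⊥ c
  obtain ⟨-, hVf, hWV, -⟩ := hC S hG
  obtain ⟨hRel, hW', hc', hf', hw', hWΛ, -, hpow, htan, -⟩ := hSp
  -- some `l i` is nonzero
  obtain ⟨i, hi⟩ : ∃ i, l i ≠ 0 := by
    by_contra hcon
    push Not at hcon
    apply hne
    obtain ⟨m', rfl⟩ : ∃ m', m = m' + 1 := ⟨m - 1, by omega⟩
    simp only [List.ofFn_succ, List.prod_cons, hcon, zero_mul, smul_zero, Finset.sum_const_zero]
    exact Submodule.zero_mem _
  have hv0 : E.v ≠ 0 := by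
    obtain ⟨s, hs, hs'⟩ := E.vr
    intro h
    rw [h, zero_pow (by omega), eq_comm, _root_.map_eq_zero] at hs'
    exact hs hs'
  have hvinv : E.v⁻¹ ∈ T E 1 (m - 1) := by
    obtain ⟨s, hs, hs'⟩ := E.vr
    have h1 : E.v⁻¹ = s⁻¹ • (E.u ^ 0 * E.v ^ (m - 1)) := by
      rw [pow_zero, one_mul]
      refine (eq_inv_of_mul_eq_one_left ?_).symm
      rw [smul_mul_assoc, ← pow_succ, show m - 1 + 1 = m by omega, hs', Algebra.smul_def,
        ← map_mul, inv_mul_cancel₀ hs, map_one]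
    rw [h1]
    exact Submodule.smul_mem _ _ (mono_mem E hr 0 _)
  have hlinv : (l i)⁻¹ ∈ T E 1 0 :=
    (hAlg K₁ D₁).1 (LA E hr) (l i) (by have := hl i; rw [← T_zero] at this; exact this)
  have hω0 : ∀ j, constantCoeff (ω j) = 0 := fun j => by
    rw [← coeff_zero_eq_constantCoeff_apply]; exact X_pow_dvd_iff.1 (hω j) 0 (by omega)
  have hL0 : E.tenL0 S.V ≤ Λ := by
    refine Submodule.span_le.2 ?_
    rintro z ⟨τ, hτ, a, ha, b, -, ⟨ha0, rfl⟩, rfl⟩
    obtain ⟨ζ, hζ0, hζ1, hζ2, hζ3⟩ := hSj i τ hτ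
    obtain ⟨y, hy⟩ : ∃ y : D₁, y = E.u ^ a * (E.v⁻¹ * (l i)⁻¹) := ⟨_, rfl⟩
    have hyT : y ∈ T E 1 (m - 1) := by
      have h1 := mono_mem E hr a 0
      rw [pow_zero, mul_one] at h1
      have := T_mul E hr h1 (T_mul E hr hvinv hlinv)
      rw [zero_add, add_zero] at this
      rw [hy]; exact this
    have hyρ : ∀ k, y * (l k * E.v) ∈ T E 1 0 := by
      intro k
      have := T_mul E hr hyT (lv_mem E hr (hl k))
      rw [show m - 1 + 1 = m by omega, T_self, ← T_zero] at this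
      exact this
    have hρy : ∀ k, l k * E.v * y ∈ T E 1 0 := by
      intro k
      have := T_mul E hr (lv_mem E hr (hl k)) hyT
      rw [show 1 + (m - 1) = m by omega, T_self, ← T_zero] at this
      exact this
    have hy1 : y * (l i * E.v) = E.u ^ a := by
      rw [hy, mul_assoc, mul_assoc, inv_mul_cancel_left₀ hi, inv_mul_cancel₀ hv0, mul_one]
    have hy2 : l i * E.v * y = E.ζ ^ a • E.u ^ a := by
      rw [hy, mul_assoc, ← mul_assoc E.v, vu_pow1, smul_mul_assoc, mul_assoc,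
        mul_inv_cancel_left₀ hv0, mul_smul_comm, ← mul_assoc,
        ← ((comm_u E (hl i)).pow_left a).eq, mul_assoc, mul_inv_cancel₀ hi, mul_one]
    obtain ⟨d, hd⟩ := (hDer S.ι S.D D₁ E.ψ ω e hω0 he).1 fun j => C (E.φ (ζ j) • y)
    obtain ⟨t, ht1, ht2⟩ := second hB S E ω e he hω (fun i j => φ j [i]) (fun i => l i * E.v) h2
      ζ hζ0 y d hd
    have hmulU : ∀ (U : Submodule S.K S.D) (p : D₁) (x : S.D), p ∈ T E 1 0 → x ∈ U →
        p * E.ψ x ∈ E.tenL U := by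
      intro U p x hp hx
      rw [← T_zero]
      exact T_mul E hr (k := 0) (k' := 0) hp (psi_mem E hr hx)
    have hz := htan _ d 2 t (by
      intro j n
      rw [coeff_C]
      split_ifs
      · exact Submodule.smul_mem _ _ (T_le E 1 _ hyT)
      · exact Submodule.zero_mem _) hd ht1 (constantCoeff t) (by
      rw [ht2]
      exact Submodule.sum_mem _ fun k _ => Submodule.add_mem _
        (hmulU _ _ _ (hyρ k) (q_mem S hG.2.2.2 _ _)) (hmulU _ _ _ (hρy k) (q_mem S hG.2.2.2 _ _)))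
      (by rw [sub_self]; exact Submodule.zero_mem _)
    rw [ht2, ← Finset.add_sum_erase _ _ (Finset.mem_univ i)] at hz
    have hrest : ∑ k ∈ Finset.univ.erase i,
        (y * (l k * E.v) * E.ψ (S.q ζ fun j => φ j [k]) +
          l k * E.v * y * E.ψ (S.q (fun j => φ j [k]) ζ)) ∈ Λ :=
      Submodule.sum_mem _ fun k hk => Submodule.add_mem _
        (hWΛ (hmulU _ _ _ (hyρ k) (hζ3 k (Finset.ne_of_mem_erase hk)).2))
        (hWΛ (hmulU _ _ _ (hρy k) (hζ3 k (Finset.ne_of_mem_erase hk)).1))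
    have h3 := (Submodule.add_mem_iff_left _ hrest).1 hz
    have h4 := hWΛ (hmulU _ _ _ (hyρ i) hζ2)
    have h5 := hWΛ (hmulU _ _ _ (hρy i) hζ1)
    have h6 := Submodule.sub_mem _ (Submodule.sub_mem _ h3 h4) h5
    have h7 : (E.ζ ^ a - 1) • (E.ψ τ * (E.u ^ a * E.v ^ 0)) ∈ Λ := by
      convert h6 using 1
      rw [pow_zero, mul_one, ((E.cu τ).pow_right a).eq, map_add, map_sub, mul_add, mul_sub, hy1, hy2,
        sub_smul, one_smul, smul_mul_assoc, smul_mul_assoc]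
      abel
    exact (Submodule.smul_mem_iff _ (sub_ne_zero.2 (E.hζ.pow_ne_one_of_pos_of_lt ha0 ha))).1 h7
  -- dimension count
  have hlt : E.tenL S.W ⊔ E.tenL0 S.V < Λ := by
    refine lt_of_le_of_ne (sup_le hWΛ hL0) fun h => hne ?_
    rw [← h] at hT
    rw [← c1_theta E hr c c₁ hc₁ l hl (fun β => Θ S.H β) m]
    obtain ⟨z₁, hz₁, z₂, hz₂, hz⟩ := Submodule.mem_sup.1 hT
    rw [← hz, map_add, c1_ker E c c₁ hc₁ hcW' hz₁, zero_add]
    exact c1_mem E c c₁ hc₁ hz₂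
  have hdim := Submodule.finrank_lt_finrank_of_lt hlt
  rw [t4 _ _ hWV, hVf, hw'] at hdim
  have hPw' : S'.Pw 2 := by
    unfold St.Pw
    rw [hf']
    refine le_trans ?_ (hpow 2)
    refine le_trans ?_ (Submodule.finrank_mono (pw_two E hr S.W Λ hWΛ))
    rw [tL]
    exact Nat.mul_le_mul_left _ hPw
  have hk := hK S' m hRel hW' hc'.le hf'.ge hPw'
  rw [hf'] at hk
  obtain ⟨m', rfl⟩ : ∃ m', m = m' + 1 := ⟨m - 1, by omega⟩
  rw [Nat.add_sub_cancel] at hdim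
  rw [add_mul, one_mul] at hk
  have : finrank S.K S.W = S.w := rfl
  omega

end Crest.Agent.Ku
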