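import Crest.Agent.Ku.Defs

set_option autoImplicit false

namespace Crest.Agent.Ku
open Module PowerSeries

namespace PtAx

lemma ev_uniq {ι A B : Type} [Fintype ι] [Ring A] [Ring B] (ψ : A → B⟦X⟧) (ω : ι → B⟦X⟧)
    (hω : ∀ j, constantCoeff (ω j) = 0) (e₁ e₂ : NC ι A → B⟦X⟧)
    (h₁ : ∀ f, e₁ f = ψ (f []) + ∑ j, ω j * e₁ (NC.tl j f))
    (h₂ : ∀ f, e₂ f = ψ (f []) + ∑ j, ω j * e₂ (NC.tl j f)) (f : NC ι A) : e₁ f = e₂ f := by
  have key : ∀ n : ℕ, ∀ f, ∀ i < n, coeff i (e₁ f - e₂ f) = 0 := by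
    intro n
    induction n with
    | zero => intro f i hi; omega
    | succ n ih =>
      intro f i hi
      have : e₁ f - e₂ f = ∑ j, ω j * (e₁ (NC.tl j f) - e₂ (NC.tl j f)) := by
        rw [h₁ f, h₂ f]; simp only [mul_sub, Finset.sum_sub_distrib]; abel
      rw [this, map_sum]
      refine Finset.sum_eq_zero fun j _ => ?_
      rw [coeff_mul]
      refine Finset.sum_eq_zero fun p hp => ?_
      have hp' : p.1 + p.2 = i := by simpa using hp
      rcases Nat.eq_zero_or_pos p.1 with h0 | h0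
      · rw [h0, coeff_zero_eq_constantCoeff_apply, hω, zero_mul]
      · rw [ih _ p.2 (by omega), mul_zero]
  rw [← sub_eq_zero]
  ext i
  rw [key (i + 1) f i (by omega)]; simp

variable {r : ℕ} {K D K₁ D₁ : Type} [Field K] [DivisionRing D] [Algebra K D] [Field K₁]
  [DivisionRing D₁] [Algebra K₁ D₁]

lemma comm_uv (E : Ext r K D K₁ D₁) (d : D) (a b : ℕ) : Commute (E.ψ d) (E.u ^ a * E.v ^ b) :=
  ((E.cu d).pow_right a).mul_right ((E.cv d).pow_right b)

lemma comm_ten (E : Ext r K D K₁ D₁) (d : D) (z : D₁) (hz : z ∈ E.tenR 1) : Commute (E.ψ d) z := by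
  unfold Ext.tenR Ext.ten at hz
  induction hz using Submodule.span_induction with
  | mem x hx =>
    obtain ⟨d', hd', a, -, b, -, -, rfl⟩ := hx
    obtain ⟨k, rfl⟩ := Submodule.mem_one.1 hd'
    refine Commute.mul_right ?_ (comm_uv E d a b)
    rw [E.compat]
    exact (Algebra.commutes _ _).symm
  | zero => exact Commute.zero_right _
  | add x y _ _ hx hy => exact hx.add_right hy
  | smul c x _ hx => exact hx.smul_right c

lemma ind_uv (E : Ext r K D K₁ D₁) :
    LinearIndependent K₁ fun p : Fin r × Fin r => E.u ^ p.1.val * E.v ^ p.2.val := by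
  have h := E.ind Unit (fun _ => 1) (by
    rw [linearIndependent_unique_iff]; exact one_ne_zero)
  have h2 := h.comp (fun p : Fin r × Fin r => (((), p) : Unit × Fin r × Fin r))
    (fun p q hpq => by simpa using hpq)
  convert h2 using 1
  ext p; simp

lemma ind_pair [FiniteDimensional K D] [FiniteDimensional K₁ D₁] (hT : TenStmt)
    (E : Ext r K D K₁ D₁) (hr : 1 ≤ r) (κ : Type) [Fintype κ] (z : κ → D × D)
    (hz : LinearIndependent K z) :
    LinearIndependent K₁ fun p : κ × Fin r × Fin r =>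
      (E.ψ (z p.1).1 * (E.u ^ p.2.1.val * E.v ^ p.2.2.val),
        E.ψ (z p.1).2 * (E.u ^ p.2.1.val * E.v ^ p.2.2.val)) := by
  classical
  have hlast := (hT r K D K₁ D₁ E hr).2.2.2.2.2.2.2.2 ⊤
  rw [Fintype.linearIndependent_iff]
  intro c hc p
  obtain ⟨lam, hlam⟩ : ∃ lam : (D × D) →ₗ[K] K, ∀ i, lam (z i) = if i = p.1 then 1 else 0 := by
    obtain ⟨g, hg⟩ := LinearMap.exists_extend
      ((Basis.span hz).constr K (fun i => if i = p.1 then (1 : K) else 0))
    refine ⟨g, fun i => ?_⟩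
    have := LinearMap.congr_fun hg (Basis.span hz i)
    rw [Basis.constr_basis] at this
    simp only [LinearMap.comp_apply, Submodule.subtype_apply, Basis.span_apply] at this
    exact this
  obtain ⟨c₁, hc₁⟩ := hlast (lam.comp (LinearMap.inl K D D))
  obtain ⟨c₂, hc₂⟩ := hlast (lam.comp (LinearMap.inr K D D))
  have h1 := congrArg (c₁.coprod c₂) hc
  rw [map_zero, map_sum] at h1
  have h2 : ∀ q : κ × Fin r × Fin r, (c₁.coprod c₂) (c q •
      (E.ψ (z q.1).1 * (E.u ^ q.2.1.val * E.v ^ q.2.2.val),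
        E.ψ (z q.1).2 * (E.u ^ q.2.1.val * E.v ^ q.2.2.val))) =
      if q.1 = p.1 then c q • (E.u ^ q.2.1.val * E.v ^ q.2.2.val) else 0 := by
    intro q
    rw [map_smul, LinearMap.coprod_apply, hc₁, hc₂, ← add_smul, ← map_add]
    have : (lam.comp (LinearMap.inl K D D)) (z q.1).1 + (lam.comp (LinearMap.inr K D D)) (z q.1).2
        = lam (z q.1) := by
      simp only [LinearMap.comp_apply, ← map_add]; simp
    rw [this, hlam]
    split_ifs <;> simp
  simp only [h2] at h1
  rw [Fintype.sum_prod_type] at h1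
  rw [Finset.sum_eq_single p.1 (fun i _ hi => by simp [hi]) (by simp)] at h1
  simp only [if_true] at h1
  exact Fintype.linearIndependent_iff.1 (ind_uv E) (fun q => c (p.1, q)) h1 p.2

lemma X_comm_C {ι A : Type} [Ring A] (i : ι) (a : A) :
    Commute (NC.C a : NC ι A) (NC.X i) := by
  show _ = _
  ext w
  rw [NC.C_mul, NC.mul_C]
  unfold NC.X
  split_ifs <;> simp

end PtAx

open PtAx in
theorem ptA (hB : Base) : PtAStmt := by
  classical
  obtain ⟨hEv, hFilt, -, -, hLau, hLead, -, -, hTen, -⟩ := hB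
  intro S r K₁ D₁ _ _ _ _ _ E ω e g hr hadm hω he
  obtain ⟨K', D', iK, iK2, iD, iD2, iD3, ⟨L⟩⟩ := hLau K₁ D₁
  let ι' := S.ι × Fin r × Fin r
  obtain ⟨F, hF⟩ := hFilt.2.2 ι' D₁
  let U : Fin r × Fin r → D₁ := fun q => E.u ^ q.1.val * E.v ^ q.2.val
  let ω' : S.ι → NC ι' D₁⟦X⟧ := fun j =>
    NC.C (ω j) + ∑ q : Fin r × Fin r, NC.C (C (U q)) * NC.X ((j, q) : ι')
  let ψ' : S.D →+* NC ι' D₁⟦X⟧ := NC.C.comp (C.comp E.ψ)
  have hω0 : ∀ j, ω' j [] = ω j := by
    intro j
    simp only [ω', NC.add_apply, NC.sum_apply, NC.C_nil, NC.C_mul]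
    simp [NC.X]
  have hω1 : ∀ j (p : ι'), ω' j [p] = if j = p.1 then C (U p.2) else 0 := by
    intro j p
    simp only [ω', NC.add_apply, NC.sum_apply, NC.C_cons, NC.C_mul, zero_add]
    split_ifs with h
    · rw [Finset.sum_eq_single p.2]
      · simp [NC.X, h]
      · intro q _ hq
        have : p ≠ (j, q) := fun h' => hq (by rw [h'])
        simp [NC.X, this]
      · simp
    · refine Finset.sum_eq_zero fun q _ => ?_
      have : p ≠ (j, q) := fun h' => h (by rw [h'])
      simp [NC.X, this]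
  obtain ⟨Φ0, hΦ0⟩ := hEv S.ι S.D (NC ι' D₁⟦X⟧) F ψ' ω' (by
      intro j
      rw [hF]
      intro w i hi
      have hw : w = [] := List.length_eq_zero_iff.1 (by omega)
      have hi0 : i = 0 := by omega
      subst hw hi0
      rw [hω0, coeff_zero_eq_constantCoeff_apply, hω]) (by
      intro j a
      refine Commute.add_right ?_ (Commute.sum_right _ _ _ fun q _ => Commute.mul_right ?_ ?_)
      · refine Commute.map (f := (NC.C : D₁⟦X⟧ →+* NC ι' D₁⟦X⟧)) ?_
        show _ = _
        ext i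
        simp only [RingHom.comp_apply, coeff_C_mul, coeff_mul_C]
        exact (comm_ten E a _ (hadm j i)).eq
      · refine Commute.map (f := (NC.C : D₁⟦X⟧ →+* NC ι' D₁⟦X⟧)) ?_
        exact (comm_uv E a _ _).map (C : D₁ →+* D₁⟦X⟧)
      · exact X_comm_C _ _)
  have h0 : ∀ f, Φ0 f [] = e f := by
    refine ev_uniq (fun a => C (E.ψ a)) ω hω (fun f => Φ0 f []) e (fun f => ?_) he
    conv_lhs => rw [hΦ0 f]
    simp only [NC.add_apply, NC.sum_apply, NC.mul_nil, hω0]
    rfl
  have h1 : ∀ p : ι', IsDer ω e (fun j => if j = p.1 then C (U p.2) else 0) (fun f => Φ0 f [p]) := by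
    intro p f
    show Φ0 f [p] = _
    conv_lhs => rw [hΦ0 f]
    simp only [NC.add_apply, NC.sum_apply, NC.mul_one_letter, hω0, hω1, h0,
      Finset.sum_add_distrib]
    have : ψ' (f []) [p] = 0 := rfl
    rw [this, zero_add, add_comm]
  have hce : ∀ f, constantCoeff (e f) = E.ψ (f []) := by
    intro f
    rw [he f]; simp [hω]
  have hcd : ∀ (p : ι') f, constantCoeff (Φ0 f [p]) = E.ψ (f [p.1]) * U p.2 := by
    intro p f
    have := h1 p f
    simp only at this
    rw [this]
    simp only [map_add, map_sum, map_mul, hω, zero_mul, Finset.sum_const_zero, add_zero, hce]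
    rw [Finset.sum_eq_single p.1]
    · simp only [if_true, constantCoeff_C, NC.tl_apply]
      exact (comm_uv E _ _ _).eq.symm
    · intro j _ hj; simp [hj]
    · simp
  let Φ : NC S.ι S.D →+* NC ι' D' := (NC.map L.jD).comp Φ0
  let G : (NC ι' D')ˣ := Units.map (NC.C.comp L.jD : D₁⟦X⟧ →+* NC ι' D').toMonoidHom g
  let S' : St := { K := K', D := D', ι := ι', x := Φ S.x, y := Φ S.y, H := ↑G⁻¹ * Φ S.H * ↑G }
  have hH : ∀ w, S'.H w = L.jD (↑g⁻¹ * Φ0 S.H w * g) := by
    intro w
    show ((NC.C (L.jD ↑g⁻¹) * Φ S.H * NC.C (L.jD ↑g) : NC ι' D')) w = _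
    rw [NC.mul_C, NC.C_mul, map_mul, map_mul]; rfl
  have hsm : ∀ (k : K₁) (s : D₁⟦X⟧), L.jD (C (algebraMap K₁ D₁ k) * s) = L.jK (C k) • L.jD s := by
    intro k s
    rw [map_mul, Algebra.smul_def, ← L.compat, PowerSeries.map_C]
  obtain ⟨hL1, hL2, -⟩ := hLead K₁ D₁ K' D' L
  have hdim : finrank K' D' = r ^ 2 * finrank S.K S.D := by
    obtain ⟨U0, hU0, hU1⟩ := hL1 ⊤
    have : U0 = ⊤ := by
      rw [eq_top_iff]
      intro z _
      show z ∈ (U0 : Set D₁)
      rw [hU0]
      exact ⟨C z, trivial, by simp⟩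
    rw [this, finrank_top, finrank_top] at hU1
    rw [← hU1]
    exact (hTen r S.K S.D K₁ D₁ E hr).2.2.2.2.1
  refine ⟨S', ⟨⟨L.jK.comp (C.comp E.φ), Φ, ?_, rfl, rfl, ⟨G, rfl⟩, ?_⟩, hr, hdim, ?_⟩, ⟨⟨L,
    Equiv.refl _, fun p f => Φ0 f [p], fun p => ?_, ?_, ?_, ?_, fun p => hH _,
    fun p p' => ⟨_, hH _⟩⟩⟩⟩
  · intro k
    have : Φ0 (algebraMap _ _ k) = ψ' (algebraMap _ _ k) := by
      rw [hΦ0, NC.algebraMap_eq]
      have : ∀ j, NC.tl j (NC.C (algebraMap S.K S.D k) : NC S.ι S.D) = 0 := fun j => rfl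
      simp [this]
    show NC.map L.jD (Φ0 _) = _
    rw [this]
    ext w
    cases w with
    | nil =>
      show L.jD (C (E.ψ (algebraMap _ _ k))) = algebraMap K' D' (L.jK (C (E.φ k)))
      rw [E.compat, ← L.compat, PowerSeries.map_C]
    | cons i w => exact L.jD.map_zero
  · intro n f hf
    have a1 := (E.ind (Fin n) _ hf).comp
      (fun i : Fin n => ((i, (⟨0, hr⟩, ⟨0, hr⟩)) : Fin n × Fin r × Fin r))
      (fun p q hpq => by simpa using hpq)
    have a2 := hL2 (Fin n) (fun i => (e (f i), 0)) (by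
      refine LinearIndependent.of_comp (LinearMap.fst K₁ D₁ D₁) ?_
      convert a1 using 1
      ext i; simp [hce])
    refine LinearIndependent.of_comp (LinearMap.inl K' D' D') ?_
    convert a2 using 1
    ext i
    · show L.jD (Φ0 (f i) []) = _
      rw [h0]
    · exact L.jD.map_zero.symm
  · intro k hk
    unfold St.room at hk ⊢
    set T := Submodule.span S.K (Set.range S.tau) ⊔ S.Inn with hT
    set T' := Submodule.span S'.K (Set.range S'.tau) ⊔ S'.Inn with hT'
    let P : Submodule S.K (S.D × S.D) :=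
      { carrier := {z | ∀ q : Fin r × Fin r, ∃ s : D₁⟦X⟧ × D₁⟦X⟧, (L.jD s.1, L.jD s.2) ∈ T' ∧
          constantCoeff s.1 = E.ψ z.1 * U q ∧ constantCoeff s.2 = E.ψ z.2 * U q}
        add_mem' := by
          intro a b ha hb q
          obtain ⟨s, hs, hs1, hs2⟩ := ha q
          obtain ⟨t, ht, ht1, ht2⟩ := hb q
          refine ⟨s + t, ?_, ?_, ?_⟩
          · have := T'.add_mem hs ht
            simpa using this
          · simp [hs1, ht1, add_mul]
          · simp [hs2, ht2, add_mul]
        zero_mem' := fun q => ⟨0, by simp only [Prod.fst_zero, Prod.snd_zero, map_zero]; exact T'.zero_mem, by simp, by simp⟩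
        smul_mem' := by
          intro c a ha q
          obtain ⟨s, hs, hs1, hs2⟩ := ha q
          refine ⟨(C (algebraMap K₁ D₁ (E.φ c)) * s.1, C (algebraMap K₁ D₁ (E.φ c)) * s.2), ?_, ?_, ?_⟩
          · have := T'.smul_mem (L.jK (C (E.φ c))) hs
            simp only [hsm]
            exact this
          · simp [hs1, Algebra.smul_def, E.compat, mul_assoc]
          · simp [hs2, Algebra.smul_def, E.compat, mul_assoc] }
    have hTP : T ≤ P := by
      refine sup_le (Submodule.span_le.2 ?_) ?_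
      · rintro _ ⟨l, rfl⟩
        have : S.tau l = ∑ j, l j • (S.x [j], S.y [j]) := by
          unfold St.tau
          ext <;> simp [Prod.fst_sum, Prod.snd_sum]
        rw [this]
        refine P.sum_mem fun j _ => P.smul_mem _ fun q => ⟨(Φ0 S.x [(j, q)], Φ0 S.y [(j, q)]), ?_,
          hcd _ _, hcd _ _⟩
        refine Submodule.mem_sup_left (Submodule.subset_span ⟨Pi.single (j, q) 1, ?_⟩)
        unfold St.tau
        ext
        · simp only [Pi.single_apply, ite_smul, one_smul, zero_smul]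
          rw [Finset.sum_eq_single (j, q) (fun b _ hb => if_neg hb) (fun h => absurd (Finset.mem_univ _) h), if_pos rfl]
          rfl
        · simp only [Pi.single_apply, ite_smul, one_smul, zero_smul]
          rw [Finset.sum_eq_single (j, q) (fun b _ hb => if_neg hb) (fun h => absurd (Finset.mem_univ _) h), if_pos rfl]
          rfl
      · rintro _ ⟨γ, rfl⟩ q
        refine ⟨(C (E.ψ γ * U q) * e S.x - e S.x * C (E.ψ γ * U q),
          C (E.ψ γ * U q) * e S.y - e S.y * C (E.ψ γ * U q)), ?_, ?_, ?_⟩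
        · refine Submodule.mem_sup_right ⟨L.jD (C (E.ψ γ * U q)), ?_⟩
          have hx : S'.x [] = L.jD (e S.x) := by rw [← h0]; rfl
          have hy : S'.y [] = L.jD (e S.y) := by rw [← h0]; rfl
          rw [hx, hy]
          simp only [LinearMap.prod_apply, ad, map_sub L.jD, map_mul L.jD]
          rfl
        · show _ = E.ψ (γ * S.x [] - S.x [] * γ) * U q
          simp only [map_sub, map_mul, constantCoeff_C, hce, sub_mul, mul_assoc]
          rw [(comm_uv E (S.x []) q.1.val q.2.val).eq]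
        · show _ = E.ψ (γ * S.y [] - S.y [] * γ) * U q
          simp only [map_sub, map_mul, constantCoeff_C, hce, sub_mul, mul_assoc]
          rw [(comm_uv E (S.y []) q.1.val q.2.val).eq]
    let b := Module.finBasis S.K T
    have hb : LinearIndependent S.K (fun i => (b i : S.D × S.D)) :=
      b.linearIndependent.map' T.subtype T.ker_subtype
    choose s hs hs1 hs2 using fun p : Fin (finrank S.K T) × Fin r × Fin r => hTP (b p.1).2 p.2
    have a1 := hL2 _ s (by
      have := ind_pair hTen E hr _ _ hb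
      convert this using 1
      ext p
      · exact hs1 p
      · exact hs2 p)
    have a2 : LinearIndependent K' (fun p => (⟨_, hs p⟩ : T')) :=
      LinearIndependent.of_comp T'.subtype a1
    have a3 := a2.fintype_card_le_finrank
    simp only [Fintype.card_prod, Fintype.card_fin] at a3
    have a4 : finrank S'.K S'.D = r ^ 2 * finrank S.K S.D := hdim
    rw [a4]
    calc r ^ 2 * finrank S.K S.D + r ^ 2 * k = r ^ 2 * (finrank S.K S.D + k) := by ring
      _ ≤ r ^ 2 * finrank S.K T := Nat.mul_le_mul_left _ hk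
      _ = finrank S.K T * (r * r) := by ring
      _ ≤ _ := a3
  · have := h1 p
    convert this <;> rfl
  · rw [← h0]; rfl
  · rw [← h0]; rfl
  · rw [hH, h0]

end Crest.Agent.Ku
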