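import Crest.Agent.Ku.PtB1

/-! The splitting point (S0270). -/

set_option autoImplicit false

namespace Crest.Agent.Ku
open Module PowerSeries PB

theorem ptB (hB : Base) (hT : TanStmt) (hM : MidStmt) (hN : NdStmt2) (hC : CenStmt)
    (hR : RelStmt) (hNf : NfStmt) : PtBStmt := by
  intro S r K₁ D₁ _ _ _ _ _ E ω e n s b hsp
  obtain ⟨g, S', P, hmid⟩ := hM S r K₁ D₁ E ω e n s b hsp
  have hN' := hN S r K₁ D₁ E ω e n s b hsp g S' P hmid
  obtain ⟨hr, hgood, hcen, hadm, hω, hev, hn, heH, hbW, hb0, hs0⟩ := hsp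
  obtain ⟨hrel, hW', hg0, hgC, hgC', hsC, hC', hadN⟩ := hmid
  obtain ⟨-, -, hDer, hExp, -, hLead, -, hAlg, hTen, -⟩ := hB
  have : CharZero K₁ := charZero_of_injective_algebraMap (algebraMap ℂ K₁).injective
  obtain ⟨l1, -, l3, l4, lK, lX, -⟩ := hLead K₁ D₁ S'.K S'.D P.L
  obtain ⟨-, t2, -, -, -, t6, t7, t8, -⟩ := hTen r S.K S.D K₁ D₁ E hr
  obtain ⟨-, cV, cWV, -, -, cW, -, -⟩ := hC S hgood
  obtain ⟨Λ, hΛ, hΛd⟩ := l1 S'.W
  have memΛ : ∀ t : D₁⟦X⟧, P.L.jD t ∈ S'.W → constantCoeff t ∈ Λ := by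
    intro t ht
    have : constantCoeff t ∈ (Λ : Set D₁) := by rw [hΛ]; exact ⟨t, ht, rfl⟩
    exact this
  have ofΛ : ∀ z ∈ Λ, ∃ t, P.L.jD t ∈ S'.W ∧ constantCoeff t = z := by
    intro z hz
    have : z ∈ P.L.lead S'.W := by rw [← hΛ]; exact hz
    exact this
  set CC := Subalgebra.toSubmodule S.C with hCC
  set A1 := Subalgebra.centralizer K₁ {E.ψ S.a} with hA1
  have hRA : ∀ z, z ∈ E.tenR CC ↔ z ∈ A1 := by
    intro z
    have := t7 S.a
    rw [← Subalgebra.mem_toSubmodule, this]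
    rfl
  have hWC : ∀ w ∈ S.W, w ∈ S.C := fun w hw => hw.2
  have hdis := (t6 CC).1
  have hsup := (t6 CC).2
  have hmulC : ∀ d ∈ CC, ∀ d' ∈ CC, d * d' ∈ CC := fun d hd d' hd' => S.C.mul_mem hd hd'
  have h1C : E.tenR 1 ≤ E.tenR CC := ten_mono E (by
    rw [Submodule.one_le]; exact S.C.one_mem) _
  have hX1 : ∀ j, X ^ 1 ∣ ω j := fun j => by rw [pow_one]; exact X_dvd_iff.2 (hω j)
  obtain ⟨-, x2, -, x4, -, -⟩ := hExp S.ι S.D D₁ E.ψ ω e 1 le_rfl hX1 hev
  have hdC : ∀ l d, Adm E l → IsDer ω e l d → ∀ i, coeff i (d S.H) ∈ A1 := by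
    intro l d hl hd i
    refine (x4 A1.toSubring (fun z => z ∈ S.C) ?_ ?_ S.H hgood.2.2.2).2 l d hd ?_ i
    · intro z hz
      have h1 := psi_mem E hr (U := CC) hz 0
      rw [pow_zero, mul_one] at h1
      exact (hRA _).1 (hsup ▸ Submodule.mem_sup_left h1)
    · intro j n
      exact (hRA _).1 (h1C (hadm j n))
    · intro j n
      exact (hRA _).1 (h1C (hl j n))
  have hgi : constantCoeff (↑g⁻¹ : D₁⟦X⟧) = 1 := by rw [const_inv, hg0, inv_one]
  -- the `L`-part of a tangent vector lies in `W'`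
  have key : ∀ l d i t, Adm E l → IsDer ω e l d → d S.H = X ^ i * t →
      ∃ x y : D₁⟦X⟧, (↑g⁻¹ : D₁⟦X⟧) * t * (g : D₁⟦X⟧) = x + y ∧ (∀ i, coeff i x ∈ E.tenL CC) ∧
        (∀ i, coeff i y ∈ E.tenN CC) ∧ P.L.jD x ∈ S'.W := by
    intro l d i t hl hd ht
    have htC : ∀ j, coeff j t ∈ A1 := by
      intro j
      have := hdC l d hl hd (j + i)
      rwa [ht, coeff_X_pow_mul] at this
    obtain ⟨x, y, hxy, hx, hy⟩ := split_series (A := E.tenL CC) (B := E.tenN CC)
      ((↑g⁻¹ : D₁⟦X⟧) * t * (g : D₁⟦X⟧)) (by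
        intro j
        rw [hsup, hRA]
        exact coeff_mul_mem A1 (coeff_mul_mem A1 (fun j => (hRA _).1 (hgC' j)) htC)
          (fun j => (hRA _).1 (hgC j)) j)
    refine ⟨x, y, hxy, hx, hy, ?_, ?_⟩
    · obtain ⟨k, hk⟩ := hT S r K₁ D₁ E ω e g S' P hω hev l d hl hd
      have h1 : P.L.jD ((↑g⁻¹ : D₁⟦X⟧) * t * (g : D₁⟦X⟧)) ∈ Submodule.span S'.K (Set.range fun j => S'.H [j]) := by
        apply div_X P.L lK lX _ i
        have : X ^ i * ((↑g⁻¹ : D₁⟦X⟧) * t * (g : D₁⟦X⟧)) = (↑g⁻¹ : D₁⟦X⟧) * d S.H * (g : D₁⟦X⟧) := by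
          rw [ht, ← mul_assoc, ← mul_assoc, ← mul_assoc, (commute_X_pow _ i).eq]
        rw [this, ← hk]
        exact Submodule.sum_mem _ fun j _ =>
          Submodule.smul_mem _ _ (Submodule.subset_span ⟨j, rfl⟩)
      obtain ⟨γ, -, hγ⟩ := hadN (P.L.jD y) (((l4 _).2 y).2 hy)
      have h2 : P.L.jD x = P.L.jD ((↑g⁻¹ : D₁⟦X⟧) * t * (g : D₁⟦X⟧)) - P.L.jD y := by rw [hxy, map_add]; abel
      rw [h2]
      exact Submodule.sub_mem _ (Submodule.mem_sup_left h1) (Submodule.mem_sup_right ⟨γ, hγ⟩)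
    · rw [hC']
      exact ((l4 _).2 x).2 hx
  have uniq : ∀ z z' : D₁, z ∈ E.tenL CC → z' ∈ E.tenL CC → z - z' ∈ E.tenN CC → z = z' := by
    intro z z' h1 h2 h3
    exact sub_eq_zero.1 ((Submodule.disjoint_def.1 hdis) _ (Submodule.sub_mem _ h1 h2) h3)
  have cl1 : ∀ l d i t, Adm E l → IsDer ω e l d → d S.H = X ^ i * t →
      ∀ z ∈ E.tenL CC, constantCoeff t - z ∈ E.tenN CC → z ∈ Λ := by
    intro l d i t hl hd ht z hz hz'
    obtain ⟨x, y, hxy, hx, hy, hW⟩ := key l d i t hl hd ht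
    have h1 := congrArg constantCoeff hxy
    simp only [map_mul, map_add, hg0, hgi, one_mul, mul_one] at h1
    have hx0 := hx 0
    have hy0 := hy 0
    rw [coeff_zero_eq_constantCoeff] at hx0 hy0
    have : constantCoeff x = z := by
      apply uniq _ _ hx0 hz
      have h2 := Submodule.sub_mem _ hz' hy0
      rw [h1] at h2
      convert h2 using 1
      abel
    exact this ▸ memΛ x hW
  have hLW : E.tenL S.W ≤ Λ := by
    unfold Ext.tenL Ext.ten
    rw [Submodule.span_le]
    rintro _ ⟨w, hw, a, ha, b', hb', rfl, rfl⟩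
    obtain ⟨lam, rfl⟩ := cW w hw
    let l : S.ι → D₁⟦X⟧ := fun j => C (E.φ (lam j) • E.u ^ a)
    have hl : Adm E l := by
      intro j i
      simp only [l, coeff_C]
      split_ifs
      · apply Submodule.smul_mem
        have := mem_ten E hr (1 : Submodule S.K S.D) (fun _ => True) (d := 1)
          (Submodule.one_le.1 le_rfl) a (b := 0) hr trivial
        simpa [Ext.tenR] using this
      · exact Submodule.zero_mem _
    obtain ⟨d, hd⟩ := (hDer S.ι S.D D₁ E.ψ ω e hω hev).1 l
    have h1 := (x2 l d hd S.H).1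
    rw [pow_one, X_dvd_iff] at h1
    simp only [map_sub, map_sum, map_mul, l, constantCoeff_C, sub_eq_zero] at h1
    have h2 : constantCoeff (d S.H) = E.ψ (S.t lam) * (E.u ^ a * E.v ^ 0) := by
      rw [h1, St.t, map_sum, Finset.sum_mul]
      apply Finset.sum_congr rfl
      intro j _
      rw [pow_zero, mul_one, Algebra.smul_def (lam j), map_mul, E.compat, ← Algebra.smul_def,
        smul_mul_assoc, smul_mul_assoc, ((E.cu _).pow_right a).eq]
    refine cl1 l d 0 (d S.H) hl hd (by simp) _ ?_ (by rw [h2, sub_self]; exact Submodule.zero_mem _)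
    rw [pow_zero E.v, mul_one]
    exact psi_mem E hr (U := CC) (hWC _ hw) a
  have hc' : S'.c = r * S.c := by
    have h1 : finrank S'.K (Subalgebra.toSubmodule S'.C) = r * finrank S.K CC := by
      rw [hC', (l4 _).1, t2]
    exact h1
  obtain ⟨B, hBl, hBd⟩ := l3 S'.F0
  have memB : ∀ t : D₁⟦X⟧, P.L.jD t ∈ S'.F0 → constantCoeff t ∈ B := by
    intro t ht
    have : constantCoeff t ∈ (B : Set D₁) := by rw [hBl]; exact ⟨t, ht, rfl⟩
    exact this
  have hquot : ∀ x ∈ Λ, ∀ y ∈ Λ, x * y⁻¹ ∈ B := by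
    intro x hx y hy
    by_cases hy0 : y = 0
    · rw [hy0, inv_zero, mul_zero]; exact B.zero_mem
    obtain ⟨t1, h1, rfl⟩ := ofΛ x hx
    obtain ⟨t2, h2, rfl⟩ := ofΛ y hy
    obtain ⟨w, rfl⟩ := isUnit_of_const hy0
    rw [← const_inv, ← map_mul]
    apply memB
    rw [map_mul, jD_inv]
    exact Algebra.subset_adjoin ⟨_, h1, _, h2, rfl⟩
  have hψW : ∀ w ∈ S.W, E.ψ w ∈ Λ := by
    intro w hw
    have := hLW (psi_mem E hr hw 0)
    rwa [pow_zero, mul_one] at this
  have hψb : E.ψ b ≠ 0 := (map_ne_zero E.ψ).2 hb0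
  have hAB : subL E hr S.F0 ≤ B := by
    intro z hz
    rw [mem_subL] at hz
    refine (?_ : E.tenL (Subalgebra.toSubmodule S.F0) ≤ Subalgebra.toSubmodule B) hz
    unfold Ext.tenL Ext.ten
    rw [Submodule.span_le]
    rintro _ ⟨w, hw, a, ha, b', hb', rfl, rfl⟩
    have hu : E.u ∈ B := by
      have h1 := hquot _ (hLW (psi_mem E hr hbW 1)) _ (hψW b hbW)
      rwa [pow_one, (E.cu b).eq, mul_inv_cancel_right₀ hψb] at h1
    have hw' : E.ψ w ∈ B := by
      have hw2 : w ∈ S.F0 := hw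
      unfold St.F0 at hw2
      induction hw2 using Algebra.adjoin_induction with
      | mem x hx =>
        obtain ⟨w1, h1, w2, h2, rfl⟩ := hx
        rw [map_mul, map_inv₀]
        exact hquot _ (hψW _ h1) _ (hψW _ h2)
      | algebraMap k => rw [E.compat]; exact B.algebraMap_mem _
      | add x y hx hy ihx ihy => rw [map_add]; exact B.add_mem (ihx hx) (ihy hy)
      | mul x y hx hy ihx ihy => rw [map_mul]; exact B.mul_mem (ihx hx) (ihy hy)
    exact B.mul_mem hw' (B.mul_mem (B.pow_mem hu _) (by rw [pow_zero]; exact B.one_mem))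
  have hAd : finrank K₁ (subL E hr S.F0) = r * S.f := t2 (Subalgebra.toSubmodule S.F0)
  have hAB' : subL E hr S.F0 = B := by
    by_contra hne
    have h1 := (hAlg K₁ D₁).2.1 _ _ (lt_of_le_of_ne hAB hne)
    have h2 := hgood.2.2.1 S' r hrel hW' hc'.le
    rw [hAd, hBd] at h1
    exact absurd h2 (not_lt.2 h1)
  have hf' : S'.f = r * S.f := by
    rw [← hAd, hAB', hBd]; rfl
  have hΛV : Λ ≤ E.tenL S.V := by
    intro x hx
    have h1 := hquot x hx _ (hψW b hbW)
    rw [← hAB', mem_subL] at h1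
    have h2 := psi_mem E hr hbW 0
    rw [pow_zero, mul_one] at h2
    have h3 := L_mul E hr (U'' := S.V) (fun d hd d' hd' => Submodule.mul_mem_mul hd hd')
      (fun b => b = 0) h1 h2
    rwa [inv_mul_cancel_right₀ hψb] at h3
  refine ⟨S', Λ, hrel, hW', hc', hf', hΛd, hLW, hΛV, ?_, cl1, ?_, ?_⟩
  · intro k
    obtain ⟨U, hU, hUd⟩ := l1 (S'.W ^ k)
    rw [← hUd]
    apply Submodule.finrank_mono
    have gen : ∀ k, ∀ x ∈ Λ ^ k, x ∈ P.L.lead (S'.W ^ k) := by
      intro k
      induction k with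
      | zero =>
        intro x hx
        rw [pow_zero, Submodule.mem_one] at hx
        obtain ⟨c, rfl⟩ := hx
        refine ⟨PowerSeries.map (algebraMap K₁ D₁) (C c), ?_, by simp⟩
        rw [P.L.compat, pow_zero, Submodule.mem_one]
        exact ⟨_, rfl⟩
      | succ k ih =>
        obtain ⟨U', hU', -⟩ := l1 (S'.W ^ (k + 1))
        intro x hx
        rw [← hU']
        refine (?_ : Λ ^ (k + 1) ≤ U') hx
        rw [pow_succ, Submodule.mul_le]
        intro y hy z hz
        obtain ⟨t1, h1, rfl⟩ := ih y hy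
        obtain ⟨t2, h2, rfl⟩ := ofΛ z hz
        have : constantCoeff t1 * constantCoeff t2 ∈ (U' : Set D₁) := by
          rw [hU']
          refine ⟨t1 * t2, ?_, map_mul _ _ _⟩
          rw [map_mul, pow_succ]
          exact Submodule.mul_mem_mul h1 h2
        exact this
    intro x hx
    have := gen k x hx
    rw [← hU] at this
    exact this
  · intro l d hl hd h0 h1 γ hγ hγs z hz hz'
    obtain ⟨x, y, hxy, hx, hy, hW⟩ := key l d 0 (d S.H) hl hd (by simp)
    have c1 : ∀ p q : D₁⟦X⟧, coeff 1 (p * q)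
        = constantCoeff p * coeff 1 q + coeff 1 p * constantCoeff q := by
      intro p q
      rw [coeff_mul, Finset.Nat.antidiagonal_succ]
      simp
    have hg1 : coeff 1 (↑g⁻¹ : D₁⟦X⟧) = -coeff 1 (g : D₁⟦X⟧) := by
      have := c1 (↑g⁻¹) g
      rw [Units.inv_mul, hgi, hg0, one_mul, mul_one, coeff_one] at this
      simp only [one_ne_zero, if_false] at this
      exact eq_neg_of_add_eq_zero_right this.symm
    have cj : ∀ t : D₁⟦X⟧, coeff 1 ((↑g⁻¹ : D₁⟦X⟧) * t * (g : D₁⟦X⟧)) = coeff 1 t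
        + (constantCoeff t * coeff 1 (g : D₁⟦X⟧) - coeff 1 (g : D₁⟦X⟧) * constantCoeff t) := by
      intro t
      rw [c1, c1, map_mul, hgi, hg0, hg1]
      noncomm_ring
    set g1 := coeff 1 (g : D₁⟦X⟧) with hg1d
    set t0 := constantCoeff (d S.H) with ht0
    have hs0L : constantCoeff s ∈ E.tenL CC := by
      rw [hs0]
      simpa using psi_mem E hr (U := CC) (hWC b hbW) 1
    have hcent : ∀ z, z ∈ E.tenL CC ↔ Commute (E.ψ S.a) z ∧ Commute (constantCoeff s) z := by
      intro z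
      have := t8 S.a b hb0 (fun z hz => hcen b hbW z (by
        rw [St.C, Subalgebra.mem_centralizer_iff]
        intro _ h; rw [Set.mem_singleton_iff.1 h]; exact hz.eq.symm))
      rw [hCC, St.C, ← this, Subalgebra.mem_toSubmodule, Subalgebra.mem_centralizer_iff, hs0]
      simp [Commute, SemiconjBy]
    have hδ : g1 - γ ∈ E.tenL CC := by
      have h2 : g1 - γ ∈ E.tenL CC ⊔ E.tenN CC := by
        rw [hsup]; exact Submodule.sub_mem _ (hgC 1) hγ
      obtain ⟨p, hp, q, hq, hpq⟩ := Submodule.mem_sup.1 h2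
      have h3 := Submodule.sub_mem _ hγs (hsC 1)
      rw [cj] at h3
      have h4 : q * constantCoeff s - constantCoeff s * q ∈ E.tenL CC := by
        have h5 := ((hcent p).1 hp).2.eq
        convert h3 using 1
        simp only [ad, LinearMap.sub_apply, LinearMap.mulRight_apply, LinearMap.mulLeft_apply]
        have h6 : q = g1 - γ - p := by rw [← hpq]; abel
        rw [h6, sub_mul, sub_mul, mul_sub, mul_sub, h5]
        abel
      have h5 : q * constantCoeff s - constantCoeff s * q ∈ E.tenN CC :=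
        Submodule.sub_mem _ (mul_L E hr hmulC (fun b => b ≠ 0) hq hs0L)
          (L_mul E hr hmulC (fun b => b ≠ 0) hs0L hq)
      have h6 := (Submodule.disjoint_def.1 hdis) _ h4 h5
      have h7 : q ∈ A1 := (hRA _).1 (hsup ▸ Submodule.mem_sup_right hq)
      have h8 : q ∈ E.tenL CC := (hcent q).2
        ⟨(Subalgebra.mem_centralizer_iff _).1 h7 _ rfl, (sub_eq_zero.1 h6).symm⟩
      rw [← hpq]
      exact Submodule.add_mem _ hp h8
    have hx0 : constantCoeff x = 0 := by
      have h2 := congrArg constantCoeff hxy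
      simp only [map_mul, map_add, hg0, hgi, one_mul, mul_one] at h2
      have hx0 := hx 0
      have hy0 := hy 0
      rw [coeff_zero_eq_constantCoeff] at hx0 hy0
      apply uniq _ _ hx0 (Submodule.zero_mem _)
      have h3 := Submodule.sub_mem _ h0 hy0
      rw [ht0, h2] at h3
      simpa using h3
    obtain ⟨x', rfl⟩ := X_dvd_iff.2 hx0
    have hW2 : P.L.jD x' ∈ S'.W := div_X P.L lK lX _ 1 x' (by rwa [pow_one])
    have hx1 : constantCoeff x' = z := by
      have h2 := congrArg (coeff 1) hxy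
      rw [cj, h1, zero_add, map_add, coeff_succ_X_mul, coeff_zero_eq_constantCoeff] at h2
      have h3 := hx 1
      rw [coeff_succ_X_mul, coeff_zero_eq_constantCoeff] at h3
      apply uniq _ _ h3 hz
      have h4 := Submodule.sub_mem _ (mul_L E hr hmulC (fun b => b ≠ 0) h0 hδ)
          (L_mul E hr hmulC (fun b => b ≠ 0) hδ h0)
      have h5 := Submodule.sub_mem _ (Submodule.add_mem _ hz' h4) (hy 1)
      convert h5 using 1
      simp only [ad, LinearMap.sub_apply, LinearMap.mulRight_apply, LinearMap.mulLeft_apply]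
      rw [eq_sub_of_add_eq h2.symm, sub_mul, mul_sub]
      abel
    exact hx1 ▸ memΛ x' hW2
  · intro hPw hL0 M hM'
    obtain ⟨H'', r1, r2, r3, r4, -⟩ := hNf S'
    have hC2 : ({ S' with H := H'' } : St).C = S'.C := by unfold St.C; rw [r3]
    have hF2 : ({ S' with H := H'' } : St).F0 = S'.F0 := by unfold St.F0; rw [r4]
    have hV2 : ({ S' with H := H'' } : St).V = S'.V := by unfold St.V; rw [r4, hF2]
    have hc2 : ({ S' with H := H'' } : St).c = r * S.c := by unfold St.c; rw [hC2]; exact hc'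
    have hf2 : ({ S' with H := H'' } : St).f = r * S.f := by unfold St.f; rw [hF2]; exact hf'
    have hrel2 := hR.2.2.1 _ _ _ _ _ hrel r1
    have hgood2 : Good { S' with H := H'' } := by
      refine ⟨by rw [r4]; exact hW', ?_, ?_, r2⟩
      · intro S3 m h1 h2
        have := hgood.2.1 S3 _ (hR.2.2.1 _ _ _ _ _ hrel2 h1) h2
        rw [hc2]
        calc m * (r * S.c) = r * 1 * m * S.c := by ring
          _ < _ := this
      · intro S3 m h1 h2 h3
        have := hgood.2.2.1 S3 _ (hR.2.2.1 _ _ _ _ _ hrel2 h1) h2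
          (by rw [hc2] at h3; exact h3.trans (le_of_eq (by ring)))
        rw [hf2]
        calc S3.f < _ := this
          _ = _ := by ring
    obtain ⟨cen2, -, -, -, cv2, -⟩ := hC _ hgood2
    have cen' : ∀ w ∈ S'.W, ∀ z ∈ S'.C, Commute z w := by
      intro w hw z hz
      exact cen2 w (by rw [r4]; exact hw) z (by rw [hC2]; exact hz)
    have cv' : ∀ w ∈ S'.W, w ≠ 0 → ∀ z, z ∈ S'.V ↔ z * w⁻¹ ∈ S'.F0 := by
      intro w hw hw0 z
      have := cv2 w (by rw [r4]; exact hw) hw0 z
      rwa [hV2, hF2] at this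
    have memC' : ∀ t : D₁⟦X⟧, P.L.jD t ∈ S'.C ↔ ∀ i, coeff i t ∈ E.tenL CC := by
      intro t
      rw [← (l4 _).2 t, ← hC']
      rfl
    have invC' := (hAlg S'.K S'.D).1
    have F0c : ∀ w ∈ S'.F0, w ∈ S'.C ∧ ∀ z ∈ S'.C, Commute z w := by
      intro w hw
      unfold St.F0 at hw
      induction hw using Algebra.adjoin_induction with
      | mem x hx =>
        obtain ⟨w1, h1, w2, h2, rfl⟩ := hx
        exact ⟨S'.C.mul_mem h1.2 (invC' _ _ h2.2),
          fun z hz => (cen' _ h1 z hz).mul_right (cen' _ h2 z hz).inv_right₀⟩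
      | algebraMap k => exact ⟨S'.C.algebraMap_mem _, fun z _ => (Algebra.commutes k z).symm⟩
      | add x y hx hy ihx ihy =>
        exact ⟨S'.C.add_mem ihx.1 ihy.1, fun z hz => (ihx.2 z hz).add_right (ihy.2 z hz)⟩
      | mul x y hx hy ihx ihy =>
        exact ⟨S'.C.mul_mem ihx.1 ihy.1, fun z hz => (ihx.2 z hz).mul_right (ihy.2 z hz)⟩
    have hdX : ∀ t : D₁⟦X⟧, P.L.jD t ∈ S'.F0 → P.L.jD (dX t) ∈ S'.F0 := by
      intro t ht
      apply dX_mem P.L lK _ (invC' _) t ht
      have h1 : P.L.jD (dX t) ∈ S'.C := by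
        rw [memC']
        intro i
        simp only [dX, coeff_mk]
        exact Submodule.smul_of_tower_mem _ _ ((memC' t).1 (F0c _ ht).1 _)
      have h2 := ((F0c _ ht).2 _ h1).eq
      rw [← map_mul, ← map_mul] at h2
      exact (P.L.injD h2).symm
    have hco : ∀ i, ∀ t : D₁⟦X⟧, P.L.jD t ∈ S'.F0 → coeff i t ∈ B := by
      intro i
      induction i with
      | zero => intro t ht; simpa using memB t ht
      | succ i ih =>
        intro t ht
        have h1 := ih _ (hdX t ht)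
        simp only [dX, coeff_mk] at h1
        have h2 := B.smul_mem h1 ((i + 1 : ℕ) : K₁)⁻¹
        rwa [← Nat.cast_smul_eq_nsmul K₁, smul_smul, inv_mul_cancel₀ (Nat.cast_ne_zero.2
          (Nat.succ_ne_zero i)), one_smul] at h2
    have hF0 : Subalgebra.toSubmodule S'.F0 = P.L.sp (E.tenL (Subalgebra.toSubmodule S.F0)) := by
      apply Submodule.eq_of_le_of_finrank_eq
      · intro z hz
        obtain ⟨N, t, ht⟩ := P.L.surjD z
        have h0 : P.L.jK X ≠ 0 := fun h0 => X_ne_zero (lK (h0.trans (map_zero _).symm))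
        rw [lX, ← map_pow, ← Algebra.smul_def] at ht
        have h1 : P.L.jD t ∈ S'.F0 := ht ▸ S'.F0.smul_mem hz _
        have h2 : P.L.jD t ∈ P.L.sp (E.tenL (Subalgebra.toSubmodule S.F0)) := by
          rw [(l4 _).2]
          intro i
          have := hco i t h1
          rwa [← hAB'] at this
        have h3 := Submodule.smul_mem _ (P.L.jK X ^ N)⁻¹ h2
        rwa [← ht, smul_smul, inv_mul_cancel₀ (pow_ne_zero _ h0), one_smul] at h3
      · rw [(l4 _).1, t2]
        exact hf'
    obtain ⟨sb, hsb, hsb0⟩ := ofΛ _ (hψW b hbW)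
    have hbC : E.ψ b ∈ subL E hr S.C := by
      simpa [mem_subL] using psi_mem E hr (U := CC) (hWC b hbW) 0
    have hbC' : (E.ψ b)⁻¹ ∈ subL E hr S.C := (hAlg K₁ D₁).1 _ _ hbC
    obtain ⟨β, hβ⟩ := isUnit_of_const (s := C (E.ψ b)⁻¹ * sb) (by simp [hsb0, hψb])
    have hCb : P.L.jD (C (E.ψ b)) * P.L.jD (C (E.ψ b)⁻¹) = 1 := by
      rw [← map_mul, ← map_mul, mul_inv_cancel₀ hψb, map_one, map_one]
    have hCb0 : P.L.jD (C (E.ψ b)) ≠ 0 := left_ne_zero_of_mul_eq_one hCb
    have hCbi : P.L.jD (C (E.ψ b)⁻¹) = (P.L.jD (C (E.ψ b)))⁻¹ := eq_inv_of_mul_eq_one_right hCb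
    have hCbC : P.L.jD (C (E.ψ b)) ∈ S'.C := by
      rw [memC']
      intro i
      rw [coeff_C]
      split_ifs
      · exact hbC
      · exact Submodule.zero_mem _
    have hβC : P.L.jD β ∈ S'.C := by
      rw [hβ, map_mul, hCbi]
      exact S'.C.mul_mem (invC' _ _ hCbC) hsb.2
    have hbcen : ∀ z ∈ S'.C, Commute z (P.L.jD (C (E.ψ b))) := by
      intro z hz
      have hz2 : z ∈ P.L.sp (E.tenL CC) := by rw [← hC']; exact hz
      unfold Lau.sp at hz2
      clear hz
      induction hz2 using Submodule.span_induction with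
      | mem x hx =>
        obtain ⟨d, hd, rfl⟩ := hx
        apply Commute.map
        apply Commute.map
        unfold Ext.tenL Ext.ten at hd
        induction hd using Submodule.span_induction with
        | mem y hy =>
          obtain ⟨d', hd', a, -, b', -, -, rfl⟩ := hy
          exact ((hcen b hbW d' hd').map E.ψ).mul_left
            ((((E.cu b).pow_right a).mul_right ((E.cv b).pow_right b')).symm)
        | zero => exact Commute.zero_left _
        | add y y' _ _ h1 h2 => exact h1.add_left h2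
        | smul c y _ h1 => exact h1.smul_left c
      | zero => exact Commute.zero_left _
      | add y y' _ _ h1 h2 => exact h1.add_left h2
      | smul c y _ h1 => exact h1.smul_left c
    have hsb1 : P.L.jD sb ≠ 0 := by
      intro h
      have := P.L.injD (h.trans (map_zero _).symm)
      rw [this, map_zero] at hsb0
      exact hψb hsb0.symm
    have spmul : ∀ (U U' : Submodule K₁ D₁) (c : D₁), (∀ d ∈ U, d * c ∈ U') →
        ∀ y ∈ P.L.sp U, y * P.L.jD (C c) ∈ P.L.sp U' := by
      intro U U' c h y hy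
      unfold Lau.sp at hy
      induction hy using Submodule.span_induction with
      | mem x hx =>
        obtain ⟨d, hd, rfl⟩ := hx
        rw [← map_mul, ← map_mul]
        exact Submodule.subset_span ⟨_, h d hd, rfl⟩
      | zero => rw [zero_mul]; exact Submodule.zero_mem _
      | add y y' _ _ h1 h2 => rw [add_mul]; exact Submodule.add_mem _ h1 h2
      | smul c y _ h1 => rw [smul_mul_assoc]; exact Submodule.smul_mem _ _ h1
    obtain ⟨-, -, -, -, cv, -⟩ := hC S hgood
    refine hN' β (by rw [hβ]; simp [hsb0, hψb]) ((memC' _).1 hβC) ((memC' _).1 ?_) ?_ ?_ ?_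
      hPw M hM'
    · rw [jD_inv]; exact invC' _ _ hβC
    · intro z hz
      rw [hβ, map_mul, hCbi]
      exact (hbcen z hz).inv_right₀.mul_right (cen' _ hsb z hz)
    · intro z
      rw [cv' _ hsb hsb1, jD_inv, hβ, map_mul, hCbi, mul_inv_rev, inv_inv, ← mul_assoc,
        ← Subalgebra.mem_toSubmodule, hF0]
      constructor
      · apply spmul
        intro d hd
        have h2 := psi_mem E hr hbW 0
        rw [pow_zero, mul_one] at h2
        exact L_mul E hr (U'' := S.V) (fun d hd d' hd' => Submodule.mul_mem_mul hd hd')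
          (fun b => b = 0) hd h2
      · intro h
        have h2 := psi_mem E hr (U := Submodule.span S.K {b⁻¹}) (Submodule.mem_span_singleton_self _) 0
        rw [pow_zero, mul_one, map_inv₀] at h2
        have h3 := spmul (E.tenL S.V) (E.tenL (Subalgebra.toSubmodule S.F0)) (E.ψ b)⁻¹
          (fun d hd => L_mul E hr (U'' := Subalgebra.toSubmodule S.F0) (by
            intro d hd d' hd'
            obtain ⟨c, rfl⟩ := Submodule.mem_span_singleton.1 hd'
            rw [mul_smul_comm]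
            exact Submodule.smul_mem _ _ ((cv b hbW hb0 d).1 hd)) (fun b => b = 0) hd h2) _ h
        rwa [hCbi, mul_inv_cancel_right₀ hCb0] at h3
    · rw [← hΛ]
      exact sup_le hLW hL0

end Crest.Agent.Ku
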