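import Crest.Agent.Ku.Defs

set_option autoImplicit false

namespace Crest.Agent.Ku
open Module PowerSeries

lemma rel0_trans (S S' S'' : St) (h : Rel0 S S') (h' : Rel0 S' S'') : Rel0 S S'' := by
  obtain ⟨φ, Φ, h1, hx, hy, ⟨G, hG⟩, hi⟩ := h
  obtain ⟨φ', Φ', h1', hx', hy', ⟨G', hG'⟩, hi'⟩ := h'
  refine ⟨φ'.comp φ, Φ'.comp Φ, fun k => by simp [h1, h1'], by simp [hx, hx'], by simp [hy, hy'],
    ⟨Units.map (Φ' : NC S'.ι S'.D →* NC S''.ι S''.D) G * G', ?_⟩, fun n g hg => hi' n _ (hi n g hg)⟩
  rw [hG', hG]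
  simp [mul_assoc]

theorem rel (_hB : Base) : RelStmt := by
  refine ⟨fun S => ⟨⟨RingHom.id _, RingHom.id _, fun _ => rfl, rfl, rfl, ⟨1, by simp⟩,
    fun _ _ h => h⟩, le_rfl, by simp, fun k hk => by simpa using hk⟩, rel0_trans, ?_, ?_, ?_⟩
  · rintro S S' S'' m m' ⟨h0, h1, h2, h3⟩ ⟨h0', h1', h2', h3'⟩
    refine ⟨rel0_trans _ _ _ h0 h0', Nat.mul_pos h1 h1', by rw [h2', h2]; ring, fun k hk => ?_⟩
    have := h3' _ (h3 k hk)
    convert this using 1; ring
  · rintro S S' ⟨φ, Φ, h1, hx, hy, ⟨G', hG'⟩, -⟩ ⟨h, G, hG⟩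
    have : ∃ h' : FreeAlgebra S'.K Bool, FreeAlgebra.lift S'.K (fun b => cond b S'.x S'.y) h' =
        Φ (FreeAlgebra.lift S.K (fun b => cond b S.x S.y) h) := by
      clear hG
      induction h using FreeAlgebra.induction with
      | grade0 r => exact ⟨algebraMap _ _ (φ r), by rw [AlgHom.commutes, AlgHom.commutes, h1]⟩
      | grade1 b => exact ⟨FreeAlgebra.ι _ b, by cases b <;> simp [hx, hy]⟩
      | mul a b ha hb =>
        obtain ⟨a', ha⟩ := ha
        obtain ⟨b', hb⟩ := hb
        exact ⟨a' * b', by rw [map_mul, map_mul, map_mul, ha, hb]⟩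
      | add a b ha hb =>
        obtain ⟨a', ha⟩ := ha
        obtain ⟨b', hb⟩ := hb
        exact ⟨a' + b', by rw [map_add, map_add, map_add, ha, hb]⟩
    obtain ⟨h', hh'⟩ := this
    refine ⟨h', Units.map (Φ : NC S.ι S.D →* NC S'.ι S'.D) G * G', ?_⟩
    rw [hG', hG, hh']
    simp [mul_assoc]
  · rintro S ⟨h, G, hG⟩
    set T := (ad S.K (S.x [])).prod (ad S.K (S.y [])) with hT
    have hr := LinearMap.finrank_range_add_finrank_ker T
    let g0 : S.Dˣ := Units.map (NC.ct : NC S.ι S.D →+* S.D).toMonoidHom G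
    have ha : S.a = ↑g0⁻¹ * NC.ct (FreeAlgebra.lift S.K (fun b => cond b S.x S.y) h) * g0 := by
      show NC.ct S.H = _
      rw [hG, map_mul, map_mul]; rfl
    have hc : ∀ γ ∈ LinearMap.ker T,
        Commute γ (NC.ct (FreeAlgebra.lift S.K (fun b => cond b S.x S.y) h)) := by
      intro γ hγ
      rw [LinearMap.mem_ker, hT, LinearMap.prod_apply, Prod.ext_iff] at hγ
      obtain ⟨hx, hy⟩ := hγ
      have hx' : Commute γ (S.x []) := sub_eq_zero.mp hx
      have hy' : Commute γ (S.y []) := sub_eq_zero.mp hy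
      clear hG ha
      induction h using FreeAlgebra.induction with
      | grade0 r =>
        rw [AlgHom.commutes]
        exact (Algebra.commutes r γ).symm
      | grade1 b => cases b <;> simpa
      | mul a b ha hb => rw [map_mul, map_mul]; exact ha.mul_right hb
      | add a b ha hb => rw [map_add, map_add]; exact ha.add_right hb
    let L : LinearMap.ker T →ₗ[S.K] S.C :=
      { toFun := fun γ => ⟨↑g0⁻¹ * γ.1 * g0, by
          rw [St.C, Subalgebra.mem_centralizer_iff]
          rintro _ rfl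
          rw [ha]
          have := (hc γ.1 γ.2).eq
          simp only [mul_assoc, Units.mul_inv_cancel_left]
          rw [← mul_assoc γ.1, this, mul_assoc]⟩
        map_add' := fun a b => by ext; simp [mul_add, add_mul]
        map_smul' := fun k a => by ext; simp }
    have hL : Function.Injective L := by
      intro a b hab
      have := congrArg Subtype.val hab
      simp only [L, LinearMap.coe_mk, AddHom.coe_mk] at this
      ext
      simpa using this
    have := LinearMap.finrank_le_finrank_of_injective hL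
    show _ ≤ finrank S.K (LinearMap.range T) + finrank S.K S.C
    omega

end Crest.Agent.Ku
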