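import Crest.Agent.Ku.Pt0

set_option autoImplicit false

namespace Crest.Agent.Ku
open Module PowerSeries

lemma Ext.tenL_mul_v {r : ℕ} {K D K₁ D₁ : Type} [Field K] [DivisionRing D] [Algebra K D] [Field K₁]
    [DivisionRing D₁] [Algebra K₁ D₁] (E : Ext r K D K₁ D₁) (hr : 1 ≤ r) {U : Submodule K D} {z : D₁}
    (hz : z ∈ E.tenL U) (k : ℕ) : z * E.v ^ k ∈ E.tenR U := by
  refine Submodule.span_induction (p := fun z _ => z * E.v ^ k ∈ E.tenR U) ?_ ?_ ?_ ?_ hz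
  · rintro _ ⟨d, hd, a, -, b, -, -, rfl⟩
    rw [mul_assoc, mul_assoc, ← pow_add]
    exact E.mono_mem hr hd _ _ trivial
  · simp
  · intro x y _ _ hx hy; rw [add_mul]; exact Submodule.add_mem _ hx hy
  · intro c x _ hx; rw [smul_mul_assoc]; exact Submodule.smul_mem _ _ hx

lemma Ext.tenR_one_mul {r : ℕ} {K D K₁ D₁ : Type} [Field K] [DivisionRing D] [Algebra K D] [Field K₁]
    [DivisionRing D₁] [Algebra K₁ D₁] (E : Ext r K D K₁ D₁) (hr : 1 ≤ r) {x y : D₁}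
    (hx : x ∈ E.tenR 1) (hy : y ∈ E.tenR 1) : x * y ∈ E.tenR 1 := by
  obtain ⟨c, rfl⟩ := E.mem_tenR_one x hx
  obtain ⟨c', rfl⟩ := E.mem_tenR_one y hy
  rw [Finset.sum_mul_sum]
  refine Submodule.sum_mem _ fun p _ => Submodule.sum_mem _ fun q _ => ?_
  rw [smul_mul_smul_comm, mul_assoc, ← mul_assoc (E.v ^ _), E.vpow_upow, smul_mul_assoc,
    mul_smul_comm, mul_assoc, ← pow_add, ← mul_assoc, ← pow_add]
  exact Submodule.smul_mem _ _ (Submodule.smul_mem _ _ (E.mono_one hr _ _ trivial))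

lemma Ext.prod_tenR_one {r : ℕ} {K D K₁ D₁ : Type} [Field K] [DivisionRing D] [Algebra K D] [Field K₁]
    [DivisionRing D₁] [Algebra K₁ D₁] (E : Ext r K D K₁ D₁) (hr : 1 ≤ r) (L : List D₁)
    (hL : ∀ x ∈ L, x ∈ E.tenR 1) : L.prod ∈ E.tenR 1 := by
  induction L with
  | nil => simpa [Ext.tenR] using E.mono_one hr (P := fun _ _ => True) 0 0 trivial
  | cons x L ih =>
    rw [List.prod_cons]
    exact E.tenR_one_mul hr (hL x (by simp)) (ih fun y hy => hL y (by simp [hy]))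

/-- applying a functional on the first factor -/
lemma Ext.c1_apply {r : ℕ} {K D K₁ D₁ : Type} [Field K] [DivisionRing D] [Algebra K D] [Field K₁]
    [DivisionRing D₁] [Algebra K₁ D₁] (E : Ext r K D K₁ D₁) (c : D →ₗ[K] K) (c₁ : D₁ →ₗ[K₁] D₁)
    (hc : ∀ d a b, c₁ (E.ψ d * (E.u ^ a * E.v ^ b)) = E.φ (c d) • (E.u ^ a * E.v ^ b))
    {y : D₁} (hy : y ∈ E.tenR 1) (d : D) : c₁ (y * E.ψ d) = E.φ (c d) • y := by
  rw [← (E.comm_tenR_one d hy).eq]
  obtain ⟨k, rfl⟩ := E.mem_tenR_one y hy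
  simp only [Finset.mul_sum, mul_smul_comm, map_sum, map_smul, hc, Finset.smul_sum]
  exact Finset.sum_congr rfl fun p _ => smul_comm _ _ _

theorem rig (hB : Base) (hA : PtAStmt) (hM : MoveStmt) : RigStmt := by
  obtain ⟨-, -, -, hExp, -, -, hExt, -, hTen, hPif, -⟩ := hB
  intro S hN hW
  by_contra hne
  classical
  have hex : ∃ m, ∃ α : List S.ι, α.length = m ∧ 0 < m ∧ S.H α ≠ 0 := by
    by_contra h
    push Not at h
    apply hne
    ext w
    cases w with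
    | nil => rfl
    | cons i w => rw [NC.C_cons]; exact h _ _ rfl (by simp)
  obtain ⟨α, hα, hm, hHα⟩ := Nat.find_spec hex
  set m := Nat.find hex with hmdef
  have hmin : ∀ β : List S.ι, 0 < β.length → β.length < m → S.H β = 0 := by
    intro β h0 h1
    by_contra h
    exact Nat.find_min hex h1 ⟨β, rfl, h0, h⟩
  obtain ⟨c, hc⟩ := Module.Projective.exists_dual_ne_zero S.K hHα
  obtain ⟨K₁, D₁, _, _, _, _, _, ⟨E⟩⟩ := hExt m hm S.K S.D
  obtain ⟨l, hl, hne0⟩ := (hPif m S.K S.D K₁ D₁ E S.ι (fun β => c (S.H β)) α hα hm).1 hc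
  let ρ : S.ι → D₁ := fun j => l j * E.v
  have hρ : ∀ j, ρ j ∈ E.tenR 1 := fun j => by simpa [ρ] using E.tenL_mul_v hm (hl j) 1
  let ω : S.ι → D₁⟦X⟧ := fun j => X ^ 1 * C (ρ j)
  have hAdm : Adm E ω := by
    intro j i
    cases i with
    | zero => simp [ω]
    | succ i =>
      simp only [ω, pow_one, coeff_succ_X_mul, coeff_C]
      split_ifs
      · exact hρ j
      · exact Submodule.zero_mem _
  have h0 : ∀ j, constantCoeff (ω j) = 0 := fun j => by simp [ω]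
  obtain ⟨e, he⟩ := E.exists_ev ω hAdm h0
  obtain ⟨t, ht⟩ := (hExp S.ι S.D D₁ E.ψ ω e 1 le_rfl (fun j => by simp [ω]) he).2.2.2.2.1 ρ m
    (fun _ => rfl) hm S.H hmin
  set z := ∑ β : Fin m → S.ι, (List.ofFn fun k => ρ (β k)).prod * E.ψ (S.H (List.ofFn β)) with hz
  have hz0 : z ≠ 0 := by
    intro h
    obtain ⟨c₁, hc₁⟩ := (hTen m S.K S.D K₁ D₁ E hm).2.2.2.2.2.2.2.2 ⊤ c
    apply hne0
    have := congrArg c₁ h
    rw [hz, map_sum, map_zero] at this
    rw [← this]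
    refine Finset.sum_congr rfl fun β _ => ?_
    rw [E.c1_apply c c₁ hc₁ (E.prod_tenR_one hm _ ?_)]
    intro x hx
    obtain ⟨k, rfl⟩ := (List.mem_ofFn' _ _).mp hx
    exact hρ _
  have heH : e S.H = C (E.ψ S.a) + X ^ m * (C z + X * t) := by
    rw [one_mul, one_mul, sub_sub, sub_eq_iff_eq_add] at ht
    rw [ht, St.a, mul_add, ← mul_assoc, ← pow_succ]; abel
  obtain ⟨S', hrel, ⟨P⟩⟩ := hA S m K₁ D₁ E ω e 1 hm hAdm h0 he
  have hc' : constantCoeff (C z + X * t) = z := by simp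
  exact (hM S m K₁ D₁ E ω e 1 S' P m _ hm hN hAdm h0 he hm heH
      (by rw [hc']; exact hz0) (by simp) (fun i => by
        simp only [Units.val_one, coeff_one]; split_ifs
        · exact Commute.one_left _
        · exact Commute.zero_left _)).1 (hW S' m hrel)

end Crest.Agent.Ku
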