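import Crest.Agent.Ku.Defs

/-! Solving the series order by order. -/

set_option autoImplicit false

namespace Crest.Agent.Ku
open Module Finset

namespace SolAux

section
variable {ι κ A : Type} [Ring A]

lemma mul_sum_apply (g : NC κ A) (w : List κ) : ∀ f : NC κ A,
    (f * g) w = ∑ i ∈ range (w.length + 1), f (w.take i) * g (w.drop i) := by
  induction w with
  | nil => intro f; simp
  | cons x w ih =>
    intro f
    rw [NC.mul_cons, ih, List.length_cons, sum_range_succ' _ (w.length + 1), add_comm]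
    simp

variable [Fintype ι] {Φ Φ' : ι → NC κ A} {Θ Θ' : NC ι A →+* NC κ A}

lemma ev_nil (h : IsEv NC.C Φ Θ) (h0 : ∀ j, Φ j [] = 0) (f : NC ι A) : Θ f [] = f [] := by
  rw [h f, NC.add_apply, NC.sum_apply]; simp [h0]

lemma ev_one (h : IsEv NC.C Φ Θ) (h0 : ∀ j, Φ j [] = 0) (f : NC ι A) (x : κ) :
    Θ f [x] = ∑ j, Φ j [x] * f [j] := by
  rw [h f, NC.add_apply, NC.sum_apply]
  simp [NC.mul_one_letter, h0, ev_nil h h0]

lemma ev_two (h : IsEv NC.C Φ Θ) (h0 : ∀ j, Φ j [] = 0) (f : NC ι A) (x y : κ) :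
    Θ f [x, y] = ∑ j, ∑ l, Φ j [x] * (Φ l [y] * f [j, l]) + ∑ j, Φ j [x, y] * f [j] := by
  rw [h f, NC.add_apply, NC.sum_apply, ← sum_add_distrib]
  simp [NC.mul_two_letters, h0, ev_nil h h0, ev_one h h0, mul_sum]

lemma diff_eq (h : IsEv NC.C Φ Θ) (h' : IsEv NC.C Φ' Θ') (f : NC ι A) (w : List κ) :
    Θ' f w - Θ f w = ∑ j, (∑ i ∈ range (w.length + 1),
        (Φ' j (w.take i) - Φ j (w.take i)) * Θ' (NC.tl j f) (w.drop i) +
      ∑ i ∈ range (w.length + 1),
        Φ j (w.take i) * (Θ' (NC.tl j f) (w.drop i) - Θ (NC.tl j f) (w.drop i))) := by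
  conv_lhs => rw [h f, h' f]
  rw [NC.add_apply, NC.add_apply, NC.sum_apply, NC.sum_apply, add_sub_add_left_eq_sub,
    ← sum_sub_distrib]
  refine sum_congr rfl fun j _ => ?_
  rw [mul_sum_apply, mul_sum_apply, ← sum_sub_distrib, ← sum_add_distrib]
  refine sum_congr rfl fun i _ => ?_
  noncomm_ring

lemma pert_lt (h : IsEv NC.C Φ Θ) (h' : IsEv NC.C Φ' Θ') (h0 : ∀ j, Φ j [] = 0) {k : ℕ}
    (hk : ∀ j (w : List κ), w.length < k → Φ' j w = Φ j w) :
    ∀ (n : ℕ) (w : List κ), w.length = n → n < k → ∀ f, Θ' f w = Θ f w := by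
  intro n
  induction n using Nat.strong_induction_on with
  | _ n ih =>
    intro w hw hn f
    rw [← sub_eq_zero, diff_eq h h']
    refine sum_eq_zero fun j _ => ?_
    rw [sum_eq_zero, sum_eq_zero, add_zero]
    · intro i hi
      rcases Nat.eq_zero_or_pos i with rfl | hi0
      · simp [h0]
      · have := mem_range.1 hi
        rw [ih (w.drop i).length (by simp; omega) _ rfl (by simp; omega), sub_self, mul_zero]
    · intro i _
      rw [hk j _ (by simp; omega), sub_self, zero_mul]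

lemma pert_eq (h : IsEv NC.C Φ Θ) (h' : IsEv NC.C Φ' Θ') (h0 : ∀ j, Φ j [] = 0)
    (h0' : ∀ j, Φ' j [] = 0) {k : ℕ}
    (hk : ∀ j (w : List κ), w.length < k → Φ' j w = Φ j w) (w : List κ) (hw : w.length = k)
    (f : NC ι A) : Θ' f w - Θ f w = ∑ j, (Φ' j w - Φ j w) * f [j] := by
  rw [diff_eq h h']
  refine sum_congr rfl fun j _ => ?_
  rw [sum_range_succ, sum_eq_zero, sum_eq_zero (s := range (w.length + 1))]
  · simp [ev_nil h' h0']
  · intro i hi
    rcases Nat.eq_zero_or_pos i with rfl | hi0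
    · simp [h0]
    · have := mem_range.1 hi
      rw [pert_lt h h' h0 hk _ _ rfl (by simp; omega), sub_self, mul_zero]
  · intro i hi
    have := mem_range.1 hi
    rw [hk j _ (by simp; omega), sub_self, zero_mul]

lemma pert_succ (h : IsEv NC.C Φ Θ) (h' : IsEv NC.C Φ' Θ') (h0 : ∀ j, Φ j [] = 0)
    (h0' : ∀ j, Φ' j [] = 0) {k : ℕ} (hk2 : 2 ≤ k)
    (hk : ∀ j (w : List κ), w.length < k → Φ' j w = Φ j w) (w β β' : List κ) (x y : κ)
    (hβ : β.length = k) (hw : w = x :: β) (hw' : w = β' ++ [y]) (f : NC ι A) :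
    Θ' f w - Θ f w = ∑ j, (Φ' j w - Φ j w) * f [j] +
      (∑ j, ∑ l, (Φ' j β' - Φ j β') * (Φ l [y] * f [j, l]) +
        ∑ j, ∑ l, Φ j [x] * ((Φ' l β - Φ l β) * f [j, l])) := by
  have hl : w.length = k + 1 := by rw [hw, List.length_cons, hβ]
  have hβ' : β'.length = k := by
    have := congrArg List.length hw'
    simp only [List.length_append, List.length_singleton] at this
    omega
  rw [diff_eq h h', ← sum_add_distrib, ← sum_add_distrib]
  refine sum_congr rfl fun j _ => ?_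
  have e1 : ∑ i ∈ range (w.length + 1),
      (Φ' j (w.take i) - Φ j (w.take i)) * Θ' (NC.tl j f) (w.drop i) =
      (Φ' j w - Φ j w) * f [j] + ∑ l, (Φ' j β' - Φ j β') * (Φ l [y] * f [j, l]) := by
    rw [sum_range_succ, hl, sum_range_succ, sum_eq_zero, zero_add, add_comm]
    · have t1 : w.take (k + 1) = w := by rw [← hl]; simp
      have t2 : w.drop (k + 1) = [] := by rw [← hl]; simp
      have t3 : w.take k = β' := by rw [hw', ← hβ']; simp
      have t4 : w.drop k = [y] := by rw [hw', ← hβ']; simp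
      rw [t1, t2, t3, t4, ev_nil h' h0', ev_one h' h0', mul_sum]
      congr 1
      refine sum_congr rfl fun l _ => ?_
      rw [hk l [y] (by simp; omega)]
      rfl
    · intro i hi
      have := mem_range.1 hi
      rw [hk j _ (by simp; omega), sub_self, zero_mul]
  have e2 : ∑ i ∈ range (w.length + 1),
      Φ j (w.take i) * (Θ' (NC.tl j f) (w.drop i) - Θ (NC.tl j f) (w.drop i)) =
      ∑ l, Φ j [x] * ((Φ' l β - Φ l β) * f [j, l]) := by
    rw [sum_eq_single 1]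
    · have t1 : w.take 1 = [x] := by rw [hw]; simp
      have t2 : w.drop 1 = β := by rw [hw]; simp
      rw [t1, t2, pert_eq h h' h0 h0' hk β hβ, mul_sum]
      rfl
    · intro i hi hi1
      rcases Nat.eq_zero_or_pos i with rfl | hi0
      · simp [h0]
      · have := mem_range.1 hi
        rw [pert_lt h h' h0 hk _ _ rfl (by simp; omega), sub_self, mul_zero]
    · intro h1
      exact absurd (mem_range.2 (by omega)) h1
  rw [e1, e2, add_assoc]

end

variable (S : St)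

lemma t_sum {μ : Type} (s : Finset μ) (z : μ → S.ι → S.K) :
    S.t (fun j => ∑ i ∈ s, z i j) = ∑ i ∈ s, S.t (z i) := by
  simp only [St.t, sum_smul]; exact sum_comm

lemma q_sum_right {μ : Type} (s : Finset μ) (l : S.ι → S.K) (z : μ → S.ι → S.K) :
    S.q l (fun j => ∑ i ∈ s, z i j) = ∑ i ∈ s, S.q l (z i) := by
  simp only [St.q, mul_sum, sum_smul]
  rw [sum_comm]
  refine (sum_congr rfl fun j _ => sum_comm).trans ?_
  rw [sum_comm]
  exact sum_congr rfl fun i _ => sum_comm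

lemma q_sum_left {μ : Type} (s : Finset μ) (l : S.ι → S.K) (z : μ → S.ι → S.K) :
    S.q (fun j => ∑ i ∈ s, z i j) l = ∑ i ∈ s, S.q (z i) l := by
  simp only [St.q, sum_mul, sum_smul]
  refine (sum_congr rfl fun j _ => sum_comm).trans ?_
  exact sum_comm

/-- modification in one degree -/
noncomputable def upd {κ : Type} (φ : S.ι → NC κ S.K) (k : ℕ) (ψ : List κ → S.ι → S.K) :
    S.ι → NC κ S.K := fun j w => φ j w + if w.length = k then ψ w j else 0

lemma upd_ne {κ : Type} (φ : S.ι → NC κ S.K) (k : ℕ) (ψ : List κ → S.ι → S.K) (j : S.ι)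
    (w : List κ) (h : w.length ≠ k) : upd S φ k ψ j w = φ j w := by simp [upd, h]

lemma upd_eq {κ : Type} (φ : S.ι → NC κ S.K) (k : ℕ) (ψ : List κ → S.ι → S.K) (j : S.ι)
    (w : List κ) (h : w.length = k) : upd S φ k ψ j w = φ j w + ψ w j := by simp [upd, h]

lemma exists_sub (hB : Base) {κ : Type} (φ : S.ι → NC κ S.K) (h0 : ∀ j, φ j [] = 0) :
    ∃ Θ, IsSub S φ Θ := by
  obtain ⟨F, hF⟩ := hB.2.1.2.1 κ S.D
  obtain ⟨Θ, hΘ⟩ := hB.1 S.ι S.D (NC κ S.D) F NC.C (fun j => NC.map (algebraMap S.K S.D) (φ j))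
    (fun j => (hF 1 _).2 fun w hw => by
      obtain rfl : w = [] := List.length_eq_zero_iff.1 (by omega)
      simp [h0])
    (fun j a => by
      refine NC.ext fun w => ?_
      rw [NC.C_mul, NC.mul_C, NC.map_apply, Algebra.commutes])
  exact ⟨Θ, h0, hΘ⟩

/-- the invariant -/
def P {n : ℕ} (ξ : Fin n → S.ι → S.K) (m : ℕ) (φ : S.ι → NC (Fin n) S.K) : Prop :=
  (∀ j, φ j [] = 0) ∧ (∀ i j, φ j [i] = ξ i j) ∧
    ∀ Θ, IsSub S φ Θ → ∀ α : List (Fin n), 0 < α.length → α.length < m → Θ S.H α = 0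

lemma sub0 {κ : Type} {φ : S.ι → NC κ S.K} {Θ : NC S.ι S.D →+* NC κ S.D} (h : IsSub S φ Θ)
    (j : S.ι) : NC.map (algebraMap S.K S.D) (φ j) [] = 0 := by simp [h.1 j]

lemma upd_deg {κ : Type} {φ : S.ι → NC κ S.K} {Θ Θ' : NC S.ι S.D →+* NC κ S.D} (k : ℕ)
    (ψ : List κ → S.ι → S.K) (h : IsSub S φ Θ) (h' : IsSub S (upd S φ k ψ) Θ') :
    (∀ w : List κ, w.length < k → Θ' S.H w = Θ S.H w) ∧
    (∀ w : List κ, w.length = k → Θ' S.H w = Θ S.H w + S.t (ψ w)) ∧
    (2 ≤ k → ∀ (w β β' : List κ) (x y : κ), β.length = k → w = x :: β → w = β' ++ [y] →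
      Θ' S.H w = Θ S.H w + (S.q (ψ β') (fun j => φ j [y]) + S.q (fun j => φ j [x]) (ψ β))) := by
  have hk : ∀ j (w : List κ), w.length < k →
      NC.map (algebraMap S.K S.D) (upd S φ k ψ j) w = NC.map (algebraMap S.K S.D) (φ j) w :=
    fun j w hw => by rw [NC.map_apply, NC.map_apply, upd_ne S φ k ψ j w hw.ne]
  refine ⟨fun w hw => pert_lt h.2 h'.2 (sub0 S h) hk _ w rfl hw _, fun w hw => ?_,
    fun hk2 w β β' x y hβ hw hw' => ?_⟩
  · rw [← sub_eq_iff_eq_add', pert_eq h.2 h'.2 (sub0 S h) (sub0 S h') hk w hw]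
    refine sum_congr rfl fun j _ => ?_
    rw [NC.map_apply, NC.map_apply, upd_eq S φ k ψ j w hw, map_add, add_sub_cancel_left,
      Algebra.smul_def]
  · have hβ' : β'.length = k := by
      have h1 := congrArg List.length (hw.symm.trans hw')
      simp only [List.length_append, List.length_nil, List.length_cons] at h1
      omega
    rw [← sub_eq_iff_eq_add',
      pert_succ h.2 h'.2 (sub0 S h) (sub0 S h') hk2 hk w β β' x y hβ hw hw', sum_eq_zero, zero_add]
    · congr 1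
      · refine sum_congr rfl fun j _ => sum_congr rfl fun l _ => ?_
        simp only [NC.map_apply]
        rw [upd_eq S φ k ψ j β' hβ', map_add, add_sub_cancel_left, Algebra.smul_def, map_mul,
          mul_assoc]
      · refine sum_congr rfl fun j _ => sum_congr rfl fun l _ => ?_
        simp only [NC.map_apply]
        rw [upd_eq S φ k ψ l β hβ, map_add, add_sub_cancel_left, Algebra.smul_def, map_mul,
          mul_assoc]
    · intro j _
      rw [NC.map_apply, NC.map_apply, upd_ne S φ k ψ j w (by rw [hw, List.length_cons]; omega),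
        sub_self, zero_mul]

lemma step2 (hB : Base) (ht : ∀ b ∈ S.W, ∃ l, S.t l = b) {n : ℕ} (ξ : Fin n → S.ι → S.K) (m : ℕ)
    (hm : 2 ≤ m) (φ : S.ι → NC (Fin n) S.K) (hP : P S ξ m φ)
    (hW : ∀ Θ, IsSub S φ Θ → ∀ α : List (Fin n), α.length = m → Θ S.H α ∈ S.W) :
    ∃ φ', P S ξ (m + 1) φ' ∧ ∀ j (w : List (Fin n)), w.length < m → φ' j w = φ j w := by
  obtain ⟨Θ, hΘ⟩ := exists_sub S hB φ hP.1
  have h1 : ∀ α : List (Fin n), ∃ l, α.length = m → S.t l = -Θ S.H α := by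
    intro α
    by_cases h : α.length = m
    · obtain ⟨l, hl⟩ := ht _ (S.W.neg_mem (hW Θ hΘ α h))
      exact ⟨l, fun _ => hl⟩
    · exact ⟨0, fun h' => absurd h' h⟩
  choose δ hδ using h1
  refine ⟨upd S φ m δ, ⟨fun j => ?_, fun i j => ?_, fun Θ' hΘ' α h0 hα => ?_⟩,
    fun j w hw => upd_ne S φ m δ j w hw.ne⟩
  · rw [upd_ne S φ m δ j [] (by simp; omega), hP.1]
  · rw [upd_ne S φ m δ j [i] (by simp; omega), hP.2.1]
  · obtain ⟨e1, e2, -⟩ := upd_deg S m δ hΘ hΘ'
    rcases (Nat.lt_succ_iff.1 hα).lt_or_eq with h | h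
    · rw [e1 α h, hP.2.2 Θ hΘ α h0 h]
    · rw [e2 α h, hδ α h, add_neg_cancel]

lemma cyc {κ M K : Type} [Field K] [AddCommGroup M] [Module K M] (θ : List κ → M) (α : List κ)
    (m : ℕ) (hα : α.length = m) :
    ∑ k ∈ range m, (k : K) • θ ((α.rotate 1).rotate k) - ∑ k ∈ range m, (k : K) • θ (α.rotate k) =
      (m : K) • θ α - ∑ k ∈ range m, θ (α.rotate k) := by
  have h1 := sum_range_succ' (fun k => (k : K) • θ (α.rotate k)) m
  have h2 := sum_range_succ (fun k => (k : K) • θ (α.rotate k)) m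
  have h3 := sum_range_succ' (fun k => θ (α.rotate k)) m
  have h4 := sum_range_succ (fun k => θ (α.rotate k)) m
  have h5 : α.rotate m = α := by rw [← hα, List.rotate_length]
  simp only [h5, List.rotate_zero, Nat.cast_zero, zero_smul, add_zero, Nat.cast_add, Nat.cast_one,
    add_smul, one_smul, sum_add_distrib] at h1 h2 h3 h4
  simp only [List.rotate_rotate, add_comm 1]
  have h6 : ∑ k ∈ range m, θ (α.rotate (k + 1)) = ∑ k ∈ range m, θ (α.rotate k) :=
    add_right_cancel (h3.symm.trans h4)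
  rw [h6, h2] at h1
  rw [sub_eq_sub_iff_add_eq_add, ← h1, add_comm]

lemma step1 (hB : Base) (hA : PertAStmt) (hPB : PertBStmt) (hG : Good S) (h2 : S.Pw 2)
    (hK : KMin S) {n : ℕ} (ξ : Fin n → S.ι → S.K) (hS : Surj S ξ) (k : ℕ) (hk : 2 ≤ k)
    (φ : S.ι → NC (Fin n) S.K) (hP : P S ξ (k + 1) φ) :
    ∃ φ', P S ξ (k + 1) φ' ∧ (∀ j (w : List (Fin n)), w.length < k → φ' j w = φ j w) ∧
      ∀ Θ, IsSub S φ' Θ → ∀ α : List (Fin n), α.length = k + 1 → Θ S.H α ∈ S.W := by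
  obtain ⟨Θ, hΘ⟩ := exists_sub S hB φ hP.1
  have hξ : (fun i j => φ j [i]) = ξ := by funext i j; exact hP.2.1 i j
  have hV := hA S hG (Fin n) φ Θ hΘ (k + 1) (by omega) (hP.2.2 Θ hΘ)
  have hC := hPB S hG h2 hK (Fin n) φ Θ hΘ (by rw [hξ]; exact hS) (k + 1) (by omega) (hP.2.2 Θ hΘ)
  let σ : List (Fin n) → S.D := fun w => ∑ i ∈ range (k + 1), (i : S.K) • Θ S.H (w.rotate i)
  let τ : List (Fin n) → S.D := fun w => -(((k + 1 : ℕ) : S.K)⁻¹ • σ (w.rotate 1))
  have hτ : ∀ w : List (Fin n), w.length = k + 1 → τ w ∈ S.V := fun w hw =>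
    S.V.neg_mem (S.V.smul_mem _ (S.V.sum_mem fun i _ => S.V.smul_mem _ (hV _ (by simp [hw]))))
  have h1 : ∀ (β : List (Fin n)) (i : Fin n), ∃ ζ, β.length = k → S.t ζ = 0 ∧
      S.q (ξ i) ζ - τ (i :: β) ∈ S.W ∧ S.q ζ (ξ i) + τ (i :: β) ∈ S.W ∧
      ∀ l ≠ i, S.q (ξ l) ζ ∈ S.W ∧ S.q ζ (ξ l) ∈ S.W := by
    intro β i
    by_cases h : β.length = k
    · obtain ⟨ζ, hζ⟩ := hS i _ (hτ (i :: β) (by simp [h]))
      exact ⟨ζ, fun _ => hζ⟩
    · exact ⟨0, fun h' => absurd h' h⟩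
  choose ζ hζ using h1
  let ψ : List (Fin n) → S.ι → S.K := fun β j => ∑ i, ζ β i j
  have hψ0 : ∀ β : List (Fin n), β.length = k → S.t (ψ β) = 0 := fun β hβ => by
    rw [t_sum]; exact sum_eq_zero fun i _ => (hζ β i hβ).1
  have hψ1 : ∀ (β : List (Fin n)) (x : Fin n), β.length = k →
      S.q (ξ x) (ψ β) - τ (x :: β) ∈ S.W := fun β x hβ => by
    rw [q_sum_right, ← add_sum_erase _ _ (mem_univ x), add_sub_right_comm]
    exact S.W.add_mem (hζ β x hβ).2.1 (S.W.sum_mem fun i hi =>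
      ((hζ β i hβ).2.2.2 x (ne_of_mem_erase hi).symm).1)
  have hψ2 : ∀ (β : List (Fin n)) (x : Fin n), β.length = k →
      S.q (ψ β) (ξ x) + τ (x :: β) ∈ S.W := fun β x hβ => by
    rw [q_sum_left, ← add_sum_erase _ _ (mem_univ x), add_right_comm]
    exact S.W.add_mem (hζ β x hβ).2.2.1 (S.W.sum_mem fun i hi =>
      ((hζ β i hβ).2.2.2 x (ne_of_mem_erase hi).symm).2)
  refine ⟨upd S φ k ψ, ⟨fun j => ?_, fun i j => ?_, fun Θ' hΘ' α h0 hα => ?_⟩,
    fun j w hw => upd_ne S φ k ψ j w hw.ne, fun Θ' hΘ' α hα => ?_⟩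
  · rw [upd_ne S φ k ψ j [] (by simp; omega), hP.1]
  · rw [upd_ne S φ k ψ j [i] (by simp; omega), hP.2.1]
  · obtain ⟨e1, e2, -⟩ := upd_deg S k ψ hΘ hΘ'
    rcases (Nat.lt_succ_iff.1 hα).lt_or_eq with h | h
    · rw [e1 α h, hP.2.2 Θ hΘ α h0 hα]
    · rw [e2 α h, hψ0 α h, hP.2.2 Θ hΘ α h0 hα, add_zero]
  · obtain ⟨-, -, e3⟩ := upd_deg S k ψ hΘ hΘ'
    obtain ⟨x, β, hx⟩ := List.exists_cons_of_length_eq_add_one hα
    have hne : α ≠ [] := by rw [hx]; simp
    have hy := (List.dropLast_append_getLast hne).symm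
    set β' := α.dropLast
    set y := α.getLast hne
    have hβ : β.length = k := by rw [hx] at hα; simpa using hα
    have hβ' : β'.length = k := by simp [β', hα]
    rw [e3 hk α β β' x y hβ hx hy]
    have a1 := hψ1 β x hβ
    have a2 := hψ2 β' y hβ'
    have a3 := S.W.smul_mem ((k + 1 : ℕ) : S.K)⁻¹ (hC α hα)
    have e4 : (y :: β').rotate 1 = α := by rw [hy]; simp
    have e5 := cyc (K := S.K) (Θ S.H) α (k + 1) hα
    have hk0 : ((k + 1 : ℕ) : S.K) ≠ 0 := Nat.cast_ne_zero.2 (by omega)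
    have e6 : τ α - τ (y :: β') = -Θ S.H α +
        ((k + 1 : ℕ) : S.K)⁻¹ • ∑ i ∈ range (k + 1), Θ S.H (α.rotate i) := by
      simp only [τ, e4]
      change -(_ • σ (α.rotate 1)) - -(_ • σ α) = _
      have e7 : σ (α.rotate 1) - σ α = _ := e5
      rw [neg_sub_neg, ← smul_sub, ← neg_sub, e7, neg_sub, smul_sub, smul_smul,
        inv_mul_cancel₀ hk0, one_smul]
      abel
    have e8 : (fun j => φ j [y]) = ξ y := congrFun hξ y
    have e9 : (fun j => φ j [x]) = ξ x := congrFun hξ x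
    rw [e8, e9]
    rw [← hx] at a1
    have := S.W.add_mem (S.W.add_mem a1 a2) a3
    convert this using 1
    have e10 : τ α = τ (y :: β') + (-Θ S.H α +
        ((k + 1 : ℕ) : S.K)⁻¹ • ∑ i ∈ range (k + 1), Θ S.H (α.rotate i)) := by
      rw [← e6]; abel
    rw [e10]; abel

end SolAux

open SolAux

theorem sol (hB : Base) (hC : CenStmt) (hA : PertAStmt) (hP : PertBStmt) : SolStmt := by
  intro S hG h2 hK n ξ ht0 hq hS
  obtain ⟨-, -, -, -, -, ht, htW, -⟩ := hC S hG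
  have step : ∀ (m : ℕ) (φ : S.ι → NC (Fin n) S.K), P S ξ (m + 2) φ →
      ∃ φ', P S ξ (m + 3) φ' ∧ ∀ j (w : List (Fin n)), w.length < m + 1 → φ' j w = φ j w := by
    intro m φ hφ
    rcases Nat.eq_zero_or_pos m with rfl | hm
    · obtain ⟨φ', h1, h3⟩ := step2 S hB ht ξ 2 le_rfl φ hφ (fun Θ hΘ α hα => by
        obtain ⟨x, y, rfl⟩ := List.length_eq_two.1 hα
        rw [ev_two hΘ.2 (sub0 S hΘ)]
        refine S.W.add_mem ?_ ?_
        · convert hq x y using 1
          refine sum_congr rfl fun j _ => sum_congr rfl fun l _ => ?_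
          simp only [NC.map_apply]
          rw [hφ.2.1, hφ.2.1, Algebra.smul_def, map_mul, mul_assoc]
        · convert htW (fun j => φ j [x, y]) using 1
          refine sum_congr rfl fun j _ => ?_
          rw [NC.map_apply, Algebra.smul_def])
      exact ⟨φ', h1, fun j w hw => h3 j w (by omega)⟩
    · obtain ⟨φ₁, h1, h3, h4⟩ := step1 S hB hA hP hG h2 hK ξ hS (m + 1) (by omega) φ hφ
      obtain ⟨φ₂, h5, h6⟩ := step2 S hB ht ξ (m + 2) (by omega) φ₁ h1 h4
      exact ⟨φ₂, h5, fun j w hw => (h6 j w (by omega)).trans (h3 j w hw)⟩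
  choose nxt hn1 hn2 using step
  let φ₀ : S.ι → NC (Fin n) S.K := fun j w => match w with
    | [i] => ξ i j
    | _ => 0
  have h0 : P S ξ 2 φ₀ := ⟨fun _ => rfl, fun _ _ => rfl, fun Θ hΘ α h1 h3 => by
    obtain ⟨x, rfl⟩ := List.length_eq_one_iff.1 (show α.length = 1 by omega)
    rw [ev_one hΘ.2 (sub0 S hΘ), ← ht0 x]
    refine sum_congr rfl fun j _ => ?_
    rw [NC.map_apply, Algebra.smul_def]⟩
  let sq : ∀ m : ℕ, {φ : S.ι → NC (Fin n) S.K // P S ξ (m + 2) φ} := fun m =>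
    Nat.rec ⟨φ₀, h0⟩ (fun m p => ⟨nxt m p.1 p.2, hn1 m p.1 p.2⟩) m
  have hsq : ∀ m j (w : List (Fin n)), w.length < m + 1 → (sq (m + 1)).1 j w = (sq m).1 j w :=
    fun m j w hw => hn2 m (sq m).1 (sq m).2 j w hw
  have hst : ∀ j (w : List (Fin n)) m, w.length ≤ m → (sq m).1 j w = (sq w.length).1 j w := by
    intro j w m hm
    induction m, hm using Nat.le_induction with
    | base => rfl
    | succ m hm ih => rw [hsq m j w (by omega), ih]
  let φ : S.ι → NC (Fin n) S.K := fun j w => (sq w.length).1 j w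
  have hφ0 : ∀ j, φ j [] = 0 := fun j => (sq 0).2.1 j
  obtain ⟨Θ, hΘ⟩ := exists_sub S hB φ hφ0
  refine ⟨φ, Θ, hΘ, fun i j => (sq 1).2.2.1 i j, NC.ext fun w => ?_⟩
  cases w with
  | nil => rw [ev_nil hΘ.2 (sub0 S hΘ)]; rfl
  | cons x w =>
    obtain ⟨Θ', hΘ'⟩ := exists_sub S hB (sq (x :: w).length).1 (sq (x :: w).length).2.1
    rw [NC.C_cons, ← (sq (x :: w).length).2.2.2 Θ' hΘ' (x :: w) (by simp) (by omega)]
    refine (pert_lt hΘ.2 hΘ'.2 (sub0 S hΘ) (k := (x :: w).length + 1) (fun j v hv => ?_) _ _ rfl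
      (by omega) _).symm
    rw [NC.map_apply, NC.map_apply, hst j v _ (by omega)]

end Crest.Agent.Ku
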