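import Crest.Agent.Ku.Defs

set_option autoImplicit false

namespace Crest.Agent.Ku
open Module PowerSeries

namespace TenX

variable {r : ℕ} {K D K₁ D₁ : Type} [Field K] [DivisionRing D] [Algebra K D] [Field K₁]
  [DivisionRing D₁] [Algebra K₁ D₁]

lemma comm_uv (E : Ext r K D K₁ D₁) (d : D) (a b : ℕ) : Commute (E.ψ d) (E.u ^ a * E.v ^ b) :=
  ((E.cu d).pow_right a).mul_right ((E.cv d).pow_right b)

lemma psi_smul (E : Ext r K D K₁ D₁) (k : K) (d : D) : E.ψ (k • d) = E.φ k • E.ψ d := by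
  rw [Algebra.smul_def, map_mul, E.compat, Algebra.smul_def]

lemma ind_uv (E : Ext r K D K₁ D₁) :
    LinearIndependent K₁ fun p : Fin r × Fin r => E.u ^ p.1.val * E.v ^ p.2.val := by
  have h := E.ind Unit (fun _ => 1) (by
    rw [linearIndependent_unique_iff]; exact one_ne_zero)
  have h2 := h.comp (fun p : Fin r × Fin r => (((), p) : Unit × Fin r × Fin r))
    (fun p q hpq => by simpa using hpq)
  convert h2 using 1
  ext p; simp

lemma pow_red {x : D₁} {s : K₁} (h : x ^ r = algebraMap K₁ D₁ s) (a : ℕ) :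
    x ^ a = s ^ (a / r) • x ^ (a % r) := by
  conv_lhs => rw [← Nat.div_add_mod a r, pow_add, pow_mul, h, ← map_pow, ← Algebra.smul_def]

lemma cfun [FiniteDimensional K D] (E : Ext r K D K₁ D₁) (hr : 1 ≤ r) (c : D →ₗ[K] K) :
    ∃ c₁ : D₁ →ₗ[K₁] D₁, ∀ d a b,
      c₁ (E.ψ d * (E.u ^ a * E.v ^ b)) = E.φ (c d) • (E.u ^ a * E.v ^ b) := by
  classical
  let β := Module.finBasis K D
  have hexp : ∀ (d : D) (z : D₁), E.ψ d * z = ∑ i, E.φ (β.repr d i) • (E.ψ (β i) * z) := by
    intro d z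
    conv_lhs => rw [← β.sum_repr d, map_sum, Finset.sum_mul]
    simp only [psi_smul, smul_mul_assoc]
  have hli := E.ind _ β β.linearIndependent
  have hsp : ⊤ ≤ Submodule.span K₁ (Set.range fun p : Fin (finrank K D) × Fin r × Fin r =>
      E.ψ (β p.1) * (E.u ^ p.2.1.val * E.v ^ p.2.2.val)) := by
    intro z _
    refine Submodule.span_le.2 ?_ (E.span z)
    rintro _ ⟨d, a, ha, b, hb, rfl⟩
    rw [hexp]
    exact Submodule.sum_mem _ fun i _ => Submodule.smul_mem _ _
      (Submodule.subset_span ⟨(i, ⟨a, ha⟩, ⟨b, hb⟩), rfl⟩)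
  let B := Basis.mk hli hsp
  let c₁ : D₁ →ₗ[K₁] D₁ := B.constr K₁ fun p => E.φ (c (β p.1)) • (E.u ^ p.2.1.val * E.v ^ p.2.2.val)
  have h1 : ∀ d a b, a < r → b < r →
      c₁ (E.ψ d * (E.u ^ a * E.v ^ b)) = E.φ (c d) • (E.u ^ a * E.v ^ b) := by
    intro d a b ha hb
    rw [hexp, map_sum]
    have : ∀ i, c₁ (E.ψ (β i) * (E.u ^ a * E.v ^ b)) = E.φ (c (β i)) • (E.u ^ a * E.v ^ b) := by
      intro i
      have h := B.constr_basis K₁
        (fun p => E.φ (c (β p.1)) • (E.u ^ p.2.1.val * E.v ^ p.2.2.val)) (i, ⟨a, ha⟩, ⟨b, hb⟩)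
      rw [Basis.mk_apply] at h
      exact h
    simp only [map_smul, this, smul_smul, ← map_mul, ← Finset.sum_smul, ← map_sum]
    congr 2
    conv_rhs => rw [← β.sum_repr d, map_sum]
    simp
  refine ⟨c₁, fun d a b => ?_⟩
  obtain ⟨s, -, hs⟩ := E.ur
  obtain ⟨t, -, ht⟩ := E.vr
  rw [pow_red hs a, pow_red ht b]
  simp only [smul_mul_assoc, mul_smul_comm, map_smul]
  rw [h1 _ _ _ (Nat.mod_lt _ hr) (Nat.mod_lt _ hr)]
  simp only [smul_smul]
  congr 1; ring

def gen (E : Ext r K D K₁ D₁) (𝒰 : Fin r × Fin r → Submodule K D) : Submodule K₁ D₁ :=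
  Submodule.span K₁ {z | ∃ q, ∃ d ∈ 𝒰 q, z = E.ψ d * (E.u ^ q.1.val * E.v ^ q.2.val)}

lemma dim_gen [FiniteDimensional K D] (E : Ext r K D K₁ D₁) (hr : 1 ≤ r)
    (𝒰 : Fin r × Fin r → Submodule K D) :
    finrank K₁ (gen E 𝒰) = ∑ q, finrank K (𝒰 q) := by
  classical
  let b := fun q => Module.finBasis K (𝒰 q)
  let w : (Σ q : Fin r × Fin r, Fin (finrank K (𝒰 q))) → D₁ :=
    fun p => E.ψ (b p.1 p.2) * (E.u ^ p.1.1.val * E.v ^ p.1.2.val)
  have hli : LinearIndependent K₁ w := by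
    rw [Fintype.linearIndependent_iff]
    intro c hc p
    obtain ⟨q0, i0⟩ := p
    obtain ⟨g, hg⟩ := LinearMap.exists_extend ((b q0).coord i0)
    obtain ⟨c₁, hc₁⟩ := cfun E hr g
    have h1 := congrArg c₁ hc
    rw [map_zero, map_sum, Fintype.sum_sigma] at h1
    simp only [w, map_smul, hc₁, smul_smul, ← Finset.sum_smul] at h1
    have h2 := Fintype.linearIndependent_iff.1 (ind_uv E) _ h1 q0
    have h3 : ∀ i, g (b q0 i) = if i = i0 then 1 else 0 := by
      intro i
      have := LinearMap.congr_fun hg (b q0 i)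
      simp only [LinearMap.comp_apply, Submodule.subtype_apply] at this
      rw [this]; simp [Finsupp.single_apply]
    simp only [h3] at h2
    rw [Finset.sum_eq_single i0 (fun i _ hi => by simp [hi]) (by simp)] at h2
    simpa using h2
  have hsp : gen E 𝒰 = Submodule.span K₁ (Set.range w) := by
    apply le_antisymm
    · refine Submodule.span_le.2 ?_
      rintro _ ⟨q, d, hd, rfl⟩
      have : d = ∑ i, (b q).repr ⟨d, hd⟩ i • (b q i : D) := by
        have := congrArg (𝒰 q).subtype ((b q).sum_repr ⟨d, hd⟩)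
        rw [map_sum] at this
        simpa using this.symm
      rw [this, map_sum, Finset.sum_mul]
      refine Submodule.sum_mem _ fun i _ => ?_
      rw [psi_smul, smul_mul_assoc]
      exact Submodule.smul_mem _ _ (Submodule.subset_span ⟨⟨q, i⟩, rfl⟩)
    · refine Submodule.span_le.2 ?_
      rintro _ ⟨p, rfl⟩
      exact Submodule.subset_span ⟨p.1, _, (b p.1 p.2).2, rfl⟩
  rw [hsp, finrank_span_eq_card hli]
  simp

lemma ten_eq (E : Ext r K D K₁ D₁) (U : Submodule K D) (P : ℕ → ℕ → Prop)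
    [∀ a b, Decidable (P a b)] :
    E.ten U P = gen E fun q => if P q.1.val q.2.val then U else ⊥ := by
  apply le_antisymm
  · refine Submodule.span_le.2 ?_
    rintro _ ⟨d, hd, a, ha, b, hb, hP, rfl⟩
    exact Submodule.subset_span ⟨(⟨a, ha⟩, ⟨b, hb⟩), d, by simpa [hP] using hd, rfl⟩
  · refine Submodule.span_le.2 ?_
    rintro _ ⟨q, d, hd, rfl⟩
    by_cases hP : P q.1.val q.2.val
    · simp only [hP, if_true] at hd
      exact Submodule.subset_span ⟨d, hd, _, q.1.2, _, q.2.2, hP, rfl⟩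
    · simp only [hP, if_false, Submodule.mem_bot] at hd
      subst hd; simp

lemma gen_sup (E : Ext r K D K₁ D₁) (𝒰 𝒱 : Fin r × Fin r → Submodule K D) :
    gen E 𝒰 ⊔ gen E 𝒱 = gen E fun q => 𝒰 q ⊔ 𝒱 q := by
  apply le_antisymm
  · refine sup_le (Submodule.span_mono ?_) (Submodule.span_mono ?_)
    · rintro _ ⟨q, d, hd, rfl⟩
      exact ⟨q, d, Submodule.mem_sup_left hd, rfl⟩
    · rintro _ ⟨q, d, hd, rfl⟩
      exact ⟨q, d, Submodule.mem_sup_right hd, rfl⟩
  · refine Submodule.span_le.2 ?_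
    rintro _ ⟨q, d, hd, rfl⟩
    obtain ⟨x, hx, y, hy, rfl⟩ := Submodule.mem_sup.1 hd
    rw [map_add, add_mul]
    exact Submodule.add_mem_sup (Submodule.subset_span ⟨q, x, hx, rfl⟩)
      (Submodule.subset_span ⟨q, y, hy, rfl⟩)

lemma u_ne (E : Ext r K D K₁ D₁) (hr : 1 ≤ r) : E.u ≠ 0 := by
  obtain ⟨s, hs0, hs⟩ := E.ur
  intro h
  rw [h, zero_pow (by omega)] at hs
  exact hs0 ((algebraMap K₁ D₁).injective (by rw [← hs, map_zero]))

lemma vpow_u (E : Ext r K D K₁ D₁) (b : ℕ) : E.v ^ b * E.u = E.ζ ^ b • (E.u * E.v ^ b) := by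
  induction b with
  | zero => simp
  | succ b ih =>
    rw [pow_succ', mul_assoc, ih, mul_smul_comm, ← mul_assoc, E.vu, smul_mul_assoc, smul_smul,
      mul_assoc, ← pow_succ, ← pow_succ']

lemma gen_u (E : Ext r K D K₁ D₁) (d : D) (a b : ℕ) :
    E.ψ d * (E.u ^ a * E.v ^ b) * E.u = E.ζ ^ b • (E.u * (E.ψ d * (E.u ^ a * E.v ^ b))) := by
  rw [mul_assoc, mul_assoc, vpow_u, mul_smul_comm, mul_smul_comm, ← mul_assoc (E.u ^ a),
    ← pow_succ, pow_succ', ← mul_assoc E.u (E.ψ d), ← (E.cu d).eq]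
  simp only [mul_assoc]

lemma gen_upow (E : Ext r K D K₁ D₁) (d : D) (a b k : ℕ) :
    E.ψ d * (E.u ^ a * E.v ^ b) * E.u ^ k =
      (E.ζ ^ b) ^ k • (E.u ^ k * (E.ψ d * (E.u ^ a * E.v ^ b))) := by
  induction k with
  | zero => simp
  | succ k ih =>
    rw [pow_succ E.u k, ← mul_assoc, ih, smul_mul_assoc, mul_assoc, gen_u, mul_smul_comm, smul_smul,
      ← pow_succ, ← mul_assoc]

lemma tenN_comm (E : Ext r K D K₁ D₁) (hr : 1 ≤ r) (U : Submodule K D) (z : D₁)
    (hz : z ∈ E.tenN U) (hc : Commute z E.u) : z = 0 := by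
  have hu := u_ne E hr
  have h1 : ∀ z ∈ E.tenN U, ∑ k ∈ Finset.range r, (E.u ^ k)⁻¹ * (z * E.u ^ k) = 0 := by
    intro z hz
    unfold Ext.tenN Ext.ten at hz
    induction hz using Submodule.span_induction with
    | mem x hx =>
      obtain ⟨d, -, a, -, b, hb, hb0, rfl⟩ := hx
      have : ∀ k, (E.u ^ k)⁻¹ * (E.ψ d * (E.u ^ a * E.v ^ b) * E.u ^ k) =
          (E.ζ ^ b) ^ k • (E.ψ d * (E.u ^ a * E.v ^ b)) := by
        intro k
        rw [gen_upow, mul_smul_comm, inv_mul_cancel_left₀ (pow_ne_zero _ hu)]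
      simp only [this, ← Finset.sum_smul]
      have hne : E.ζ ^ b ≠ 1 := E.hζ.pow_ne_one_of_pos_of_lt hb0 hb
      have h0 : ∑ k ∈ Finset.range r, (E.ζ ^ b) ^ k = 0 := by
        rw [geom_sum_eq hne, ← pow_mul, mul_comm, pow_mul, E.hζ.pow_eq_one]; simp
      rw [h0, zero_smul]
    | zero => simp
    | add x y _ _ hx hy => simp only [add_mul, mul_add, Finset.sum_add_distrib, hx, hy, add_zero]
    | smul c x _ hx => simp only [smul_mul_assoc, mul_smul_comm, ← Finset.smul_sum, hx, smul_zero]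
  have h2 := h1 z hz
  have h3 : ∀ k, (E.u ^ k)⁻¹ * (z * E.u ^ k) = z := by
    intro k
    rw [(hc.pow_right k).eq, inv_mul_cancel_left₀ (pow_ne_zero _ hu)]
  simp only [h3, Finset.sum_const, Finset.card_range] at h2
  haveI : NeZero r := ⟨by omega⟩
  have h4 : (r : K₁) ≠ 0 := (E.hζ.neZero').out
  rw [← Nat.cast_smul_eq_nsmul K₁] at h2
  exact (smul_eq_zero.1 h2).resolve_left h4

lemma tenL_comm (E : Ext r K D K₁ D₁) (U : Submodule K D) (z : D₁) (hz : z ∈ E.tenL U) :
    Commute z E.u := by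
  unfold Ext.tenL Ext.ten at hz
  induction hz using Submodule.span_induction with
  | mem x hx =>
    obtain ⟨d, -, a, -, b, -, rfl, rfl⟩ := hx
    simp only [pow_zero, mul_one]
    exact (E.cu d).mul_left ((Commute.refl _).pow_left a)
  | zero => exact Commute.zero_left _
  | add x y _ _ hx hy => exact hx.add_left hy
  | smul c x _ hx => exact hx.smul_left c

lemma ten_comm (E : Ext r K D K₁ D₁) (U : Submodule K D) (P : ℕ → ℕ → Prop) (a : D)
    (ha : ∀ d ∈ U, Commute d a) (z : D₁) (hz : z ∈ E.ten U P) : Commute z (E.ψ a) := by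
  unfold Ext.ten at hz
  induction hz using Submodule.span_induction with
  | mem x hx =>
    obtain ⟨d, hd, i, -, j, -, -, rfl⟩ := hx
    exact ((ha d hd).map E.ψ).mul_left (comm_uv E a i j).symm
  | zero => exact Commute.zero_left _
  | add x y _ _ hx hy => exact hx.add_left hy
  | smul c x _ hx => exact hx.smul_left c

lemma sup_LN (E : Ext r K D K₁ D₁) (U : Submodule K D) : E.tenL U ⊔ E.tenN U = E.tenR U := by
  classical
  unfold Ext.tenL Ext.tenN Ext.tenR
  rw [ten_eq, ten_eq, ten_eq, gen_sup]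
  congr 1
  funext q
  by_cases h : q.2.val = 0 <;> simp [h]

lemma sum_b0 (hr : 1 ≤ r) (f : Fin r → ℕ) :
    ∑ q : Fin r × Fin r, (if q.2.val = 0 then f q.1 else 0) = ∑ a, f a := by
  rw [Fintype.sum_prod_type]
  refine Finset.sum_congr rfl fun a _ => ?_
  rw [Finset.sum_eq_single ⟨0, hr⟩]
  · simp
  · intro b _ hb
    rw [if_neg]; intro h; exact hb (Fin.ext h)
  · simp

lemma sum_a0 (hr : 1 ≤ r) (m n : ℕ) :
    ∑ a : Fin r, (if a.val = 0 then m else n) = m + (r - 1) * n := by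
  obtain ⟨k, rfl⟩ : ∃ k, r = k + 1 := ⟨r - 1, by omega⟩
  rw [Fin.sum_univ_succ]; simp

lemma mem_cent {F A : Type} [Field F] [Ring A] [Algebra F A] (a z : A) :
    z ∈ Subalgebra.toSubmodule (Subalgebra.centralizer F {a}) ↔ Commute z a := by
  simp only [Subalgebra.mem_toSubmodule, Subalgebra.mem_centralizer_iff, Set.mem_singleton_iff,
    forall_eq]
  exact eq_comm

lemma ker_ad {F A : Type} [Field F] [Ring A] [Algebra F A] (a : A) :
    LinearMap.ker (ad F a) = Subalgebra.toSubmodule (Subalgebra.centralizer F {a}) := by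
  ext z
  rw [mem_cent, LinearMap.mem_ker]
  exact sub_eq_zero

end TenX

open TenX in
theorem ten : TenStmt := by
  classical
  intro r K D K₁ D₁ _ _ _ _ _ _ _ _ E hr
  have hR : ∀ U, finrank K₁ (E.tenR U) = r ^ 2 * finrank K U := by
    intro U
    unfold Ext.tenR
    rw [ten_eq, dim_gen E hr]; simp [sq]
  have htop : finrank K₁ D₁ = r ^ 2 * finrank K D := by
    have := hR ⊤
    have h2 : E.tenR ⊤ = ⊤ := by
      rw [eq_top_iff]
      intro z _
      refine Submodule.span_mono ?_ (E.span z)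
      rintro _ ⟨d, a, ha, b, hb, rfl⟩
      exact ⟨d, trivial, a, ha, b, hb, trivial, rfl⟩
    rwa [h2, finrank_top, finrank_top] at this
  have hcen : ∀ a, Subalgebra.toSubmodule (Subalgebra.centralizer K₁ {E.ψ a}) =
      E.tenR (Subalgebra.toSubmodule (Subalgebra.centralizer K {a})) := by
    intro a
    symm
    apply Submodule.eq_of_le_of_finrank_le
    · intro z hz
      rw [mem_cent]
      exact ten_comm E _ _ a (fun d hd => (mem_cent a d).1 hd) z hz
    · have h1 : E.tenR (LinearMap.range (ad K a)) ≤ LinearMap.range (ad K₁ (E.ψ a)) := by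
        refine Submodule.span_le.2 ?_
        rintro _ ⟨_, ⟨d, rfl⟩, i, -, j, -, -, rfl⟩
        refine ⟨E.ψ d * (E.u ^ i * E.v ^ j), ?_⟩
        show E.ψ d * (E.u ^ i * E.v ^ j) * E.ψ a - E.ψ a * (E.ψ d * (E.u ^ i * E.v ^ j)) =
          E.ψ (d * a - a * d) * _
        rw [map_sub, map_mul, map_mul, sub_mul, mul_assoc, ← (comm_uv E a i j).eq]
        simp only [mul_assoc]
      have h2 := Submodule.finrank_mono h1
      have h3 := (ad K a).finrank_range_add_finrank_ker
      have h4 := (ad K₁ (E.ψ a)).finrank_range_add_finrank_ker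
      rw [ker_ad] at h3 h4
      rw [hR] at h2 ⊢
      rw [htop, ← h3, mul_add] at h4
      omega
  refine ⟨hR, fun U => ?_, fun U => ?_, fun U U' hU => ?_, htop, fun U => ⟨?_, sup_LN E U⟩, hcen,
    fun a b hb hab => ?_, fun _ c => cfun E hr c⟩
  · unfold Ext.tenL
    rw [ten_eq, dim_gen E hr]
    have := sum_b0 hr (fun _ => finrank K U)
    simp only [Finset.sum_const, Finset.card_univ, Fintype.card_fin, smul_eq_mul] at this
    rw [← this]
    refine Finset.sum_congr rfl fun q _ => ?_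
    by_cases h : q.2.val = 0
    · rw [if_pos h, if_pos h]
    · rw [if_neg h, if_neg h]; simp
  · unfold Ext.tenL0
    rw [ten_eq, dim_gen E hr]
    have := sum_b0 hr (fun a => if a.val = 0 then 0 else finrank K U)
    rw [sum_a0 hr, zero_add] at this
    rw [← this]
    refine Finset.sum_congr rfl fun q _ => ?_
    by_cases h : q.1.val ≠ 0 ∧ q.2.val = 0
    · rw [if_pos h, if_pos h.2, if_neg h.1]
    · rw [if_neg h]
      by_cases h1 : q.1.val = 0 <;> by_cases h2 : q.2.val = 0 <;> simp_all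
  · unfold Ext.tenL Ext.tenL0
    rw [ten_eq, ten_eq, gen_sup, dim_gen E hr]
    have := sum_b0 hr (fun a => if a.val = 0 then finrank K U else finrank K U')
    rw [sum_a0 hr] at this
    rw [← this]
    refine Finset.sum_congr rfl fun q _ => ?_
    by_cases h1 : q.1.val = 0 <;> by_cases h2 : q.2.val = 0
    · have : ((if q.2.val = 0 then U else ⊥) ⊔ if q.1.val ≠ 0 ∧ q.2.val = 0 then U' else ⊥) = U := by
        simp [h1, h2]
      rw [this]; simp [h1, h2]
    · have : ((if q.2.val = 0 then U else ⊥) ⊔ if q.1.val ≠ 0 ∧ q.2.val = 0 then U' else ⊥) = ⊥ := by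
        simp [h1, h2]
      rw [this]; simp [h1, h2]
    · have : ((if q.2.val = 0 then U else ⊥) ⊔ if q.1.val ≠ 0 ∧ q.2.val = 0 then U' else ⊥) = U' := by
        simp [h1, h2, hU]
      rw [this]; simp [h1, h2]
    · have : ((if q.2.val = 0 then U else ⊥) ⊔ if q.1.val ≠ 0 ∧ q.2.val = 0 then U' else ⊥) = ⊥ := by
        simp [h1, h2]
      rw [this]; simp [h1, h2]
  · rw [Submodule.disjoint_def]
    intro z h1 h2
    exact tenN_comm E hr U z h2 (tenL_comm E U z h1)
  · ext z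
    simp only [Subalgebra.mem_toSubmodule, Subalgebra.mem_centralizer_iff, Set.mem_insert_iff,
      Set.mem_singleton_iff, forall_eq_or_imp, forall_eq]
    have hb' : ∀ P, ∀ z ∈ E.ten (Subalgebra.toSubmodule (Subalgebra.centralizer K {a})) P,
        Commute z (E.ψ b) := fun P z hz =>
      ten_comm E _ _ b (fun d hd => hab d ((mem_cent a d).1 hd)) z hz
    constructor
    · rintro ⟨h1, h2⟩
      have h3 : z ∈ E.tenR (Subalgebra.toSubmodule (Subalgebra.centralizer K {a})) := by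
        rw [← hcen, mem_cent]; exact h1.symm
      have h4 : Commute z E.u := by
        have h5 := (hb' _ z h3).eq
        have hψ : E.ψ b ≠ 0 := by simpa using hb
        apply mul_left_cancel₀ hψ
        rw [← mul_assoc, ← h5, mul_assoc, ← h2, mul_assoc]
      rw [← sup_LN] at h3
      obtain ⟨x, hx, y, hy, rfl⟩ := Submodule.mem_sup.1 h3
      have h6 : Commute y E.u := by
        have := h4.sub_left (tenL_comm E _ x hx)
        simpa using this
      rw [tenN_comm E hr _ y hy h6, add_zero]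
      exact hx
    · intro hz
      exact ⟨(ten_comm E _ _ a (fun d hd => (mem_cent a d).1 hd) z hz).eq.symm,
        ((hb' _ z hz).mul_right (tenL_comm E _ z hz)).eq.symm⟩

end Crest.Agent.Ku
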