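import Crest.Agent.Ku.Alg3
import Crest.Agent.Ku.Alt
import Crest.Agent.Ku.Ami9
import Crest.Agent.Ku.Bst
import Crest.Agent.Ku.Cen
import Crest.Agent.Ku.Fin
import Crest.Agent.Ku.Inn3
import Crest.Agent.Ku.Iso8
import Crest.Agent.Ku.Key
import Crest.Agent.Ku.Lau
import Crest.Agent.Ku.Lead
import Crest.Agent.Ku.Mid
import Crest.Agent.Ku.Move
import Crest.Agent.Ku.Nd
import Crest.Agent.Ku.Nf
import Crest.Agent.Ku.Opt
import Crest.Agent.Ku.PertA
import Crest.Agent.Ku.PertB
import Crest.Agent.Ku.Pif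
import Crest.Agent.Ku.PtA
import Crest.Agent.Ku.PtB
import Crest.Agent.Ku.Rel
import Crest.Agent.Ku.Rig
import Crest.Agent.Ku.Sol
import Crest.Agent.Ku.Tan
import Crest.Agent.Ku.Ten

set_option autoImplicit false

namespace Crest.Agent.Ku

theorem base_of (hE : ExtStmt) (hN : NfpStmt) (hRk : RkStmt) : Base :=
  ⟨ev, filt, der, expn, lau, lead, hE, alg3, ten, pif, A9.ami9, hN, hRk, inn3 alg3⟩

theorem goal_of (hB : Base) (hG : GrowStmt) : Goal := by
  have hR := rel hB
  have hA := ptA hB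
  have hT := tan hB
  have hM := move hB hT
  have hC := cen hB hR hA hM
  have hNf := nf hB hR
  have hP := ptB hB hT (mid hB hA hM) (nd hB hT hC) hC hR hNf
  have hPA := pertA hB hC hP
  have hPB := pertB hB hC hP hPA
  have hO := opt hB hR hNf (rig hB hA hM) hC (bst hB hC hP)
  exact fin hB hR (key hB hR hO (H8.iso hB hR hC (alt hB hC hP hPA)) (sol hB hC hPA hPB)) hG

end Crest.Agent.Ku
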