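import Crest.Agent.Ku.NC

/-! Definitions and piece statements for S0270 (Kurosh problem for division rings). -/

set_option autoImplicit false

namespace Crest.Agent.Ku
open Module PowerSeries

/-- complete multiplicative filtration -/
structure Filt (B : Type) [Ring B] where
  F : ℕ → AddSubgroup B
  top : ∀ x, x ∈ F 0
  anti : ∀ n, F (n + 1) ≤ F n
  mul_mem : ∀ {m n x y}, x ∈ F m → y ∈ F n → x * y ∈ F (m + n)
  sep : ∀ x, (∀ n, x ∈ F n) → x = 0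
  complete : ∀ s : ℕ → B, (∀ n, s (n + 1) - s n ∈ F n) → ∃ x, ∀ n, x - s n ∈ F n

/-- `Φ` is the substitution `X j ↦ ω j` over `ψ` -/
def IsEv {ι A B : Type} [Fintype ι] [Ring A] [Ring B] (ψ : A →+* B) (ω : ι → B)
    (Φ : NC ι A →+* B) : Prop :=
  ∀ f, Φ f = ψ (f []) + ∑ j, ω j * Φ (NC.tl j f)

/-- `d` is the derivative of the substitution `e` at `ω` in the direction `l` -/
def IsDer {ι A B : Type} [Fintype ι] [Ring A] [Ring B] (ω : ι → B) (e : NC ι A →+* B)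
    (l : ι → B) (d : NC ι A → B) : Prop :=
  ∀ f, d f = ∑ j, l j * e (NC.tl j f) + ∑ j, ω j * d (NC.tl j f)

def EvStmt : Prop := ∀ (ι A B : Type) [Fintype ι] [Ring A] [Ring B] (F : Filt B) (ψ : A →+* B)
  (ω : ι → B), (∀ j, ω j ∈ F.F 1) → (∀ j a, Commute (ψ a) (ω j)) →
  ∃ Φ : NC ι A →+* B, IsEv ψ ω Φ

/-- the three filtrations: `X`-adic, word length, total degree -/
def FiltStmt : Prop :=
  (∀ (A : Type) [Ring A], ∃ F : Filt A⟦X⟧, ∀ n f, f ∈ F.F n ↔ ∀ i < n, coeff i f = 0) ∧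
  (∀ (ι A : Type) [Ring A], ∃ F : Filt (NC ι A), ∀ n f, f ∈ F.F n ↔ ∀ w : List ι, w.length < n → f w = 0) ∧
  (∀ (ι A : Type) [Ring A], ∃ F : Filt (NC ι A⟦X⟧), ∀ n f, f ∈ F.F n ↔
    ∀ (w : List ι) i, w.length + i < n → coeff i (f w) = 0)

/-- formal derivative (noncommutative coefficients) -/
noncomputable def dX {B : Type} [Ring B] (f : B⟦X⟧) : B⟦X⟧ := mk fun n => (n + 1) • coeff (n + 1) f

/-- existence, uniqueness, linearity, chain rule for derivatives of substitutions into power series -/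
def DerStmt : Prop := ∀ (ι A B : Type) [Fintype ι] [Ring A] [Ring B] (ψ : A →+* B) (ω : ι → B⟦X⟧)
  (e : NC ι A →+* B⟦X⟧), (∀ j, constantCoeff (ω j) = 0) → IsEv (C.comp ψ) ω e →
  (∀ l, ∃ d, IsDer ω e l d) ∧ (∀ l d d', IsDer ω e l d → IsDer ω e l d' → d = d') ∧
  (∀ (κ : Type) [Fintype κ] (s : κ → B⟦X⟧) (l : κ → ι → B⟦X⟧) (d : κ → NC ι A → B⟦X⟧),
    (∀ k z, Commute (s k) z) → (∀ k, IsDer ω e (l k) (d k)) →
    IsDer ω e (fun j => ∑ k, s k * l k j) (fun f => ∑ k, s k * d k f)) ∧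
  IsDer ω e (fun j => dX (ω j)) (fun f => dX (e f))

/-- expansions -/
def ExpStmt : Prop := ∀ (ι A B : Type) [Fintype ι] [Ring A] [Ring B] (ψ : A →+* B) (ω : ι → B⟦X⟧)
  (e : NC ι A →+* B⟦X⟧) (i : ℕ), 1 ≤ i → (∀ j, X ^ i ∣ ω j) → IsEv (C.comp ψ) ω e →
  (∀ f, X ^ (2 * i) ∣ e f - C (ψ (f [])) - ∑ j, ω j * C (ψ (f [j]))) ∧
  (∀ l d, IsDer ω e l d → ∀ f, X ^ i ∣ d f - ∑ j, l j * C (ψ (f [j])) ∧
    X ^ (2 * i) ∣ d f - ∑ j, l j * C (ψ (f [j])) -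
      ∑ j, ∑ k, (l j * ω k + ω j * l k) * C (ψ (f [j, k]))) ∧
  (∀ (ω₁ : ι → B⟦X⟧) (e₁ : NC ι A →+* B⟦X⟧) (k : ℕ), i ≤ k → (∀ j, X ^ k ∣ ω₁ j) →
    IsEv (C.comp ψ) (fun j => ω j + ω₁ j) e₁ →
    ∀ f, X ^ (k + i) ∣ e₁ f - e f - ∑ j, ω₁ j * C (ψ (f [j]))) ∧
  (∀ (P : Subring B) (Q : A → Prop), (∀ z, Q z → ψ z ∈ P) → (∀ j n, coeff n (ω j) ∈ P) →
    ∀ f : NC ι A, (∀ α, Q (f α)) → (∀ n, coeff n (e f) ∈ P) ∧
      ∀ l d, IsDer ω e l d → (∀ j n, coeff n (l j) ∈ P) → ∀ n, coeff n (d f) ∈ P) ∧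
  (∀ (ρ : ι → B) (m : ℕ), (∀ j, ω j = X ^ i * C (ρ j)) → 1 ≤ m →
    ∀ f : NC ι A, (∀ α : List ι, 0 < α.length → α.length < m → f α = 0) →
    X ^ (i * (m + 1)) ∣ e f - C (ψ (f [])) -
      X ^ (i * m) * C (∑ β : Fin m → ι, (List.ofFn fun k => ρ (β k)).prod * ψ (f (List.ofFn β)))) ∧
  (∀ (κ : Type) [Fintype κ] (φ : κ → NC ι A) (Θ : NC κ A →+* NC ι A), (∀ j, φ j [] = 0) →
    IsEv NC.C φ Θ → IsEv (C.comp ψ) (fun j => e (φ j)) (e.comp Θ))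

/-- Laurent series extension -/
structure Lau (K D K' D' : Type) [Field K] [DivisionRing D] [Algebra K D] [Field K']
    [DivisionRing D'] [Algebra K' D'] where
  jK : K⟦X⟧ →+* K'
  jD : D⟦X⟧ →+* D'
  injD : Function.Injective jD
  compat : ∀ f, jD (PowerSeries.map (algebraMap K D) f) = algebraMap K' D' (jK f)
  surjK : ∀ k, ∃ n f, jK X ^ n * k = jK f
  surjD : ∀ d, ∃ n f, jD X ^ n * d = jD f

def LauStmt : Prop := ∀ (K D : Type) [Field K] [Algebra ℂ K] [DivisionRing D] [Algebra K D]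
  [FiniteDimensional K D], ∃ (K' D' : Type) (_ : Field K') (_ : Algebra ℂ K') (_ : DivisionRing D')
  (_ : Algebra K' D') (_ : FiniteDimensional K' D'), Nonempty (Lau K D K' D')

/-- leading terms -/
def Lau.lead {K D K' D' : Type} [Field K] [DivisionRing D] [Algebra K D] [Field K']
    [DivisionRing D'] [Algebra K' D'] (L : Lau K D K' D') (V : Submodule K' D') : Set D :=
  {z | ∃ s, L.jD s ∈ V ∧ constantCoeff s = z}

/-- the span of the constants in `U` -/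
def Lau.sp {K D K' D' : Type} [Field K] [DivisionRing D] [Algebra K D] [Field K']
    [DivisionRing D'] [Algebra K' D'] (L : Lau K D K' D') (U : Submodule K D) : Submodule K' D' :=
  Submodule.span K' {z | ∃ d ∈ U, z = L.jD (C d)}

def LeadStmt : Prop := ∀ (K D K' D' : Type) [Field K] [DivisionRing D] [Algebra K D] [Field K']
  [DivisionRing D'] [Algebra K' D'] [FiniteDimensional K D] [FiniteDimensional K' D']
  (L : Lau K D K' D'),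
  (∀ V : Submodule K' D', ∃ U : Submodule K D, (U : Set D) = L.lead V ∧ finrank K U = finrank K' V) ∧
  (∀ (κ : Type) [Fintype κ] (s : κ → D⟦X⟧ × D⟦X⟧),
    LinearIndependent K (fun i => (constantCoeff (s i).1, constantCoeff (s i).2)) →
    LinearIndependent K' (fun i => (L.jD (s i).1, L.jD (s i).2))) ∧
  (∀ A : Subalgebra K' D', ∃ B : Subalgebra K D,
    (B : Set D) = L.lead (Subalgebra.toSubmodule A) ∧ finrank K B = finrank K' A) ∧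
  (∀ U : Submodule K D, finrank K' (L.sp U) = finrank K U ∧
    ∀ s, L.jD s ∈ L.sp U ↔ ∀ i, coeff i s ∈ U) ∧
  Function.Injective L.jK ∧ L.jD X = algebraMap K' D' (L.jK X) ∧
  (∀ s, ∃ k, LinearMap.trace K' D' (LinearMap.mulLeft K' (L.jD s)) = L.jK k ∧
    constantCoeff k = LinearMap.trace K D (LinearMap.mulLeft K (constantCoeff s)))

/-- extension by a symbol algebra of degree `r` -/
structure Ext (r : ℕ) (K D K₁ D₁ : Type) [Field K] [DivisionRing D] [Algebra K D] [Field K₁]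
    [DivisionRing D₁] [Algebra K₁ D₁] where
  φ : K →+* K₁
  ψ : D →+* D₁
  compat : ∀ k, ψ (algebraMap K D k) = algebraMap K₁ D₁ (φ k)
  u : D₁
  v : D₁
  ζ : K₁
  hζ : IsPrimitiveRoot ζ r
  cu : ∀ d, Commute (ψ d) u
  cv : ∀ d, Commute (ψ d) v
  vu : v * u = ζ • (u * v)
  ur : ∃ s : K₁, s ≠ 0 ∧ u ^ r = algebraMap K₁ D₁ s
  vr : ∃ s : K₁, s ≠ 0 ∧ v ^ r = algebraMap K₁ D₁ s
  ind : ∀ (κ : Type) [Fintype κ] (d : κ → D), LinearIndependent K d →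
    LinearIndependent K₁ fun p : κ × Fin r × Fin r => ψ (d p.1) * (u ^ p.2.1.val * v ^ p.2.2.val)
  span : ∀ z : D₁, z ∈ Submodule.span K₁ {z | ∃ d, ∃ a < r, ∃ b < r, z = ψ d * (u ^ a * v ^ b)}

def ExtStmt : Prop := ∀ (r : ℕ), 1 ≤ r → ∀ (K D : Type) [Field K] [Algebra ℂ K] [DivisionRing D]
  [Algebra K D] [FiniteDimensional K D], ∃ (K₁ D₁ : Type) (_ : Field K₁) (_ : Algebra ℂ K₁)
  (_ : DivisionRing D₁) (_ : Algebra K₁ D₁) (_ : FiniteDimensional K₁ D₁), Nonempty (Ext r K D K₁ D₁)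

section
variable {r : ℕ} {K D K₁ D₁ : Type} [Field K] [DivisionRing D] [Algebra K D] [Field K₁]
  [DivisionRing D₁] [Algebra K₁ D₁]

/-- `U ⊗ span {u^a v^b | P a b}` -/
def Ext.ten (E : Ext r K D K₁ D₁) (U : Submodule K D) (P : ℕ → ℕ → Prop) : Submodule K₁ D₁ :=
  Submodule.span K₁ {z | ∃ d ∈ U, ∃ a < r, ∃ b < r, P a b ∧ z = E.ψ d * (E.u ^ a * E.v ^ b)}
def Ext.tenR (E : Ext r K D K₁ D₁) (U : Submodule K D) := E.ten U fun _ _ => True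
def Ext.tenL (E : Ext r K D K₁ D₁) (U : Submodule K D) := E.ten U fun _ b => b = 0
def Ext.tenL0 (E : Ext r K D K₁ D₁) (U : Submodule K D) := E.ten U fun a b => a ≠ 0 ∧ b = 0
def Ext.tenN (E : Ext r K D K₁ D₁) (U : Submodule K D) := E.ten U fun _ b => b ≠ 0
end

/-- `z ↦ z a - a z` -/
def ad (K : Type) {D : Type} [Field K] [Ring D] [Algebra K D] (a : D) : D →ₗ[K] D :=
  LinearMap.mulRight K a - LinearMap.mulLeft K a

/-- basic facts on finite-dimensional division algebras in characteristic zero -/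
def AlgStmt : Prop := ∀ (K D : Type) [Field K] [CharZero K] [DivisionRing D] [Algebra K D]
  [FiniteDimensional K D],
  (∀ (A : Subalgebra K D) z, z ∈ A → z⁻¹ ∈ A) ∧
  (∀ A B : Subalgebra K D, A < B → 2 * finrank K A ≤ finrank K B) ∧
  (∀ a : D, IsCompl (Subalgebra.toSubmodule (Subalgebra.centralizer K {a})) (LinearMap.range (ad K a))) ∧
  (∀ (a c z : D), Commute c a → z ∈ LinearMap.range (ad K a) →
    LinearMap.trace K D (LinearMap.mulLeft K (c * z)) = 0) ∧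
  (∀ a : D, finrank K D ≤ finrank K (Subalgebra.centralizer K {a}) ^ 2)

/-- linear algebra in the extension -/
def TenStmt : Prop := ∀ (r : ℕ) (K D K₁ D₁ : Type) [Field K] [DivisionRing D] [Algebra K D] [Field K₁]
  [DivisionRing D₁] [Algebra K₁ D₁] [FiniteDimensional K D] [FiniteDimensional K₁ D₁]
  (E : Ext r K D K₁ D₁), 1 ≤ r →
  (∀ U, finrank K₁ (E.tenR U) = r ^ 2 * finrank K U) ∧ (∀ U, finrank K₁ (E.tenL U) = r * finrank K U) ∧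
  (∀ U, finrank K₁ (E.tenL0 U) = (r - 1) * finrank K U) ∧
  (∀ U U', U ≤ U' → finrank K₁ ↥(E.tenL U ⊔ E.tenL0 U') = finrank K U + (r - 1) * finrank K U') ∧
  finrank K₁ D₁ = r ^ 2 * finrank K D ∧
  (∀ U, Disjoint (E.tenL U) (E.tenN U) ∧ E.tenL U ⊔ E.tenN U = E.tenR U) ∧
  (∀ a, Subalgebra.toSubmodule (Subalgebra.centralizer K₁ {E.ψ a}) =
    E.tenR (Subalgebra.toSubmodule (Subalgebra.centralizer K {a}))) ∧
  (∀ a b, b ≠ 0 → (∀ z, Commute z a → Commute z b) →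
    Subalgebra.toSubmodule (Subalgebra.centralizer K₁ {E.ψ a, E.ψ b * E.u}) =
      E.tenL (Subalgebra.toSubmodule (Subalgebra.centralizer K {a}))) ∧
  (∀ (U : Submodule K D) (c : D →ₗ[K] K), ∃ c₁ : D₁ →ₗ[K₁] D₁, ∀ d a b,
    c₁ (E.ψ d * (E.u ^ a * E.v ^ b)) = E.φ (c d) • (E.u ^ a * E.v ^ b))

/-- no polynomial identities -/
def PifStmt : Prop := ∀ (m : ℕ) (K D K₁ D₁ : Type) [Field K] [CharZero K] [DivisionRing D] [Algebra K D]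
  [Field K₁] [DivisionRing D₁] [Algebra K₁ D₁] (E : Ext m K D K₁ D₁) (κ : Type) [Fintype κ]
  [DecidableEq κ] (θ : List κ → K) (α : List κ), α.length = m → 1 ≤ m →
  (θ α ≠ 0 → ∃ l : κ → D₁, (∀ i, l i ∈ E.tenL 1) ∧
    ∑ β : Fin m → κ, E.φ (θ (List.ofFn β)) • (List.ofFn fun k => l (β k) * E.v).prod ≠ 0) ∧
  (∑ k ∈ Finset.range m, θ (α.rotate k) ≠ 0 → ∃ l : κ → D₁, (∀ i, l i ∈ E.tenL 1) ∧
    ∑ β : Fin m → κ, E.φ (θ (List.ofFn β)) • (List.ofFn fun k => l (β k) * E.v).prod ∉ E.tenL0 1)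

/-- locally independent operators (Amitsur) -/
def AmiStmt : Prop := ∀ (K U Y : Type) [Field K] [CharZero K] [AddCommGroup U] [Module K U]
  [AddCommGroup Y] [Module K Y] [FiniteDimensional K Y] (n : ℕ) (T : Fin n → U →ₗ[K] Y)
  (Y₀ : Submodule K Y), (∀ c : Fin n → K, c ≠ 0 →
    finrank K Y₀ + n ≤ finrank K (LinearMap.range (∑ i, c i • T i))) →
  ∃ ξ : U, LinearIndependent K fun i => Y₀.mkQ (T i ξ)

/-- a family of pairs in a division algebra, and a series -/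
structure St where
  K : Type
  D : Type
  ι : Type
  [fK : Field K]
  [aK : Algebra ℂ K]
  [rD : DivisionRing D]
  [aD : Algebra K D]
  [fd : FiniteDimensional K D]
  [fι : Fintype ι]
  x : NC ι D
  y : NC ι D
  H : NC ι D

attribute [instance] St.fK St.aK St.rD St.aD St.fd St.fι

namespace St
variable (S : St)

instance : CharZero S.K := charZero_of_injective_algebraMap (algebraMap ℂ S.K).injective

def a : S.D := S.H []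
def C : Subalgebra S.K S.D := Subalgebra.centralizer S.K {S.a}
def t (l : S.ι → S.K) : S.D := ∑ j, l j • S.H [j]
def q (l l' : S.ι → S.K) : S.D := ∑ j, ∑ k, (l j * l' k) • S.H [j, k]
def W : Submodule S.K S.D :=
  (Submodule.span S.K (Set.range fun j => S.H [j]) ⊔ LinearMap.range (ad S.K S.a)) ⊓
    Subalgebra.toSubmodule S.C
def F0 : Subalgebra S.K S.D := Algebra.adjoin S.K {z | ∃ w ∈ S.W, ∃ b ∈ S.W, z = w * b⁻¹}
def V : Submodule S.K S.D := Subalgebra.toSubmodule S.F0 * S.W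
noncomputable def c : ℕ := finrank S.K S.C
noncomputable def f : ℕ := finrank S.K S.F0
noncomputable def w : ℕ := finrank S.K S.W
def Pw (k : ℕ) : Prop := S.f ≤ finrank S.K ↥(S.W ^ k)
def Normal : Prop := ∀ α, S.H α ∈ S.C
def Cen : Prop := ∀ b ∈ S.W, ∀ z ∈ S.C, Commute z b
def Inn : Submodule S.K (S.D × S.D) := LinearMap.range ((ad S.K (S.x [])).prod (ad S.K (S.y [])))
def tau (l : S.ι → S.K) : S.D × S.D := (∑ j, l j • S.x [j], ∑ j, l j • S.y [j])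
def room (k : ℕ) : Prop :=
  finrank S.K S.D + k ≤ finrank S.K ↥(Submodule.span S.K (Set.range S.tau) ⊔ S.Inn)
def IsPoly : Prop := ∃ (h : FreeAlgebra S.K Bool) (G : (NC S.ι S.D)ˣ),
  S.H = ↑G⁻¹ * FreeAlgebra.lift S.K (fun b => cond b S.x S.y) h * G
def ND (M : ℕ) : Prop := ∀ c : S.D →ₗ[S.K] S.K, S.W ≤ LinearMap.ker c → (∃ z ∈ S.V, c z ≠ 0) →
  ∃ c' : S.D →ₗ[S.K] S.K, (∀ z ∈ S.V, c' z = c z) ∧ LinearMap.range (ad S.K S.a) ≤ LinearMap.ker c' ∧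
    ∃ (l l' : Fin M → S.ι → S.K) (γ : Fin M → S.D), (∀ i, S.t (l i) ∈ LinearMap.range (ad S.K S.a)) ∧
      (∀ i, S.t (l' i) = ad S.K S.a (γ i)) ∧
      (Matrix.of fun i k => c' (S.q (l i) (l' k) + S.t (l i) * γ k)).det ≠ 0

end St

/-- substitution between families -/
def Rel0 (S S' : St) : Prop := ∃ (φ : S.K →+* S'.K) (Φ : NC S.ι S.D →+* NC S'.ι S'.D),
  (∀ k, Φ (algebraMap _ _ k) = algebraMap _ _ (φ k)) ∧ Φ S.x = S'.x ∧ Φ S.y = S'.y ∧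
  (∃ G : (NC S'.ι S'.D)ˣ, S'.H = ↑G⁻¹ * Φ S.H * G) ∧
  ∀ (n : ℕ) (g : Fin n → NC S.ι S.D), LinearIndependent S.K (fun i => g i []) →
    LinearIndependent S'.K (fun i => Φ (g i) [])

/-- substitution multiplying the degree by `m` -/
def Rel (S S' : St) (m : ℕ) : Prop := Rel0 S S' ∧ 1 ≤ m ∧
  finrank S'.K S'.D = m ^ 2 * finrank S.K S.D ∧ ∀ k, S.room k → S'.room (m ^ 2 * k)

def RelStmt : Prop := (∀ S, Rel S S 1) ∧ (∀ S S' S'', Rel0 S S' → Rel0 S' S'' → Rel0 S S'') ∧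
  (∀ S S' S'' m m', Rel S S' m → Rel S' S'' m' → Rel S S'' (m * m')) ∧
  (∀ S S', Rel0 S S' → S.IsPoly → S'.IsPoly) ∧
  (∀ S : St, S.IsPoly → finrank S.K S.D ≤ finrank S.K S.Inn + S.c)

def NoHalf (S : St) : Prop := ∀ S' m, Rel S S' m → S'.W ≠ ⊥ → m * S.c < 2 * S'.c
def NoDbl (S : St) : Prop := ∀ S' m, Rel S S' m → S'.W ≠ ⊥ → S'.c ≤ m * S.c → S'.f < 2 * (m * S.f)
def Good (S : St) : Prop := S.W ≠ ⊥ ∧ NoHalf S ∧ NoDbl S ∧ S.Normal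
def KMin (S : St) : Prop := ∀ S' m, Rel S S' m → S'.W ≠ ⊥ → S'.c ≤ m * S.c → m * S.f ≤ S'.f →
  S'.Pw 2 → S.f + S'.w ≤ S'.f + S.w

/-- normal form -/
def NfStmt : Prop := ∀ S : St, ∃ H', let S' : St := { S with H := H' }
  Rel S S' 1 ∧ S'.Normal ∧ S'.a = S.a ∧ S'.W = S.W ∧ ∀ M, S.ND M → S'.ND M

def NfpStmt : Prop := ∀ (K D : Type) [Field K] [CharZero K] [DivisionRing D] [Algebra K D]
  [FiniteDimensional K D] (A : Subalgebra K D) (s : D⟦X⟧), (∀ i, coeff i s ∈ A) →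
  ∃ g : (D⟦X⟧)ˣ, constantCoeff (g : D⟦X⟧) = 1 ∧ (∀ i, coeff i (g : D⟦X⟧) ∈ A) ∧
    (∀ i, coeff i (↑g⁻¹ : D⟦X⟧) ∈ A) ∧
    ∀ i, Commute (coeff i (↑g⁻¹ * s * g : D⟦X⟧)) (constantCoeff s)

/-- the state at the point `ω`, conjugated by `g` -/
structure PtData (S : St) {r : ℕ} {K₁ D₁ : Type} [Field K₁] [DivisionRing D₁] [Algebra K₁ D₁]
    (E : Ext r S.K S.D K₁ D₁) (ω : S.ι → D₁⟦X⟧) (e : NC S.ι S.D →+* D₁⟦X⟧) (g : (D₁⟦X⟧)ˣ)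
    (S' : St) where
  L : Lau K₁ D₁ S'.K S'.D
  eqv : S'.ι ≃ S.ι × Fin r × Fin r
  d : S'.ι → NC S.ι S.D → D₁⟦X⟧
  hd : ∀ p, IsDer ω e (fun j => open Classical in if j = (eqv p).1 then
    C (E.u ^ (eqv p).2.1.val * E.v ^ (eqv p).2.2.val) else 0) (d p)
  x0 : S'.x [] = L.jD (e S.x)
  y0 : S'.y [] = L.jD (e S.y)
  h0 : S'.H [] = L.jD (↑g⁻¹ * e S.H * g)
  h1 : ∀ p, S'.H [p] = L.jD (↑g⁻¹ * d p S.H * g)
  h2 : ∀ p p', ∃ s, S'.H [p, p'] = L.jD s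

/-- an admissible point: coefficients in the symbol algebra, no constant term -/
def Adm {r : ℕ} {K D K₁ D₁ ι : Type} [Field K] [DivisionRing D] [Algebra K D] [Field K₁]
    [DivisionRing D₁] [Algebra K₁ D₁] (E : Ext r K D K₁ D₁) (l : ι → D₁⟦X⟧) : Prop :=
  ∀ j i, coeff i (l j) ∈ E.tenR 1

def PtAStmt : Prop := ∀ (S : St) (r : ℕ) (K₁ D₁ : Type) [Field K₁] [Algebra ℂ K₁] [DivisionRing D₁]
  [Algebra K₁ D₁] [FiniteDimensional K₁ D₁] (E : Ext r S.K S.D K₁ D₁) (ω : S.ι → D₁⟦X⟧)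
  (e : NC S.ι S.D →+* D₁⟦X⟧) (g : (D₁⟦X⟧)ˣ), 1 ≤ r → Adm E ω → (∀ j, constantCoeff (ω j) = 0) →
  IsEv (C.comp E.ψ) ω e → ∃ S', Rel S S' r ∧ Nonempty (PtData S E ω e g S')

/-- if the series moves at a point then `W ≠ ⊥` there, and the centraliser shrinks -/
def MoveStmt : Prop := ∀ (S : St) (r : ℕ) (K₁ D₁ : Type) [Field K₁] [Algebra ℂ K₁] [DivisionRing D₁]
  [Algebra K₁ D₁] [FiniteDimensional K₁ D₁] (E : Ext r S.K S.D K₁ D₁) (ω : S.ι → D₁⟦X⟧)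
  (e : NC S.ι S.D →+* D₁⟦X⟧) (g : (D₁⟦X⟧)ˣ) (S' : St) (P : PtData S E ω e g S') (n : ℕ) (s : D₁⟦X⟧),
  1 ≤ r → S.Normal → Adm E ω → (∀ j, constantCoeff (ω j) = 0) → IsEv (C.comp E.ψ) ω e → 1 ≤ n →
  e S.H = C (E.ψ S.a) + X ^ n * s → constantCoeff s ≠ 0 → constantCoeff (g : D₁⟦X⟧) = 1 →
  (∀ i, Commute (coeff i (g : D₁⟦X⟧)) (E.ψ S.a)) →
  S'.W ≠ ⊥ ∧ P.L.lead (Subalgebra.toSubmodule S'.C) ⊆
    Subalgebra.centralizer K₁ {E.ψ S.a, constantCoeff s}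

/-- what is known at a splitting point -/
def Split (S : St) {r : ℕ} {K₁ D₁ : Type} [Field K₁] [DivisionRing D₁] [Algebra K₁ D₁]
    (E : Ext r S.K S.D K₁ D₁) (ω : S.ι → D₁⟦X⟧) (e : NC S.ι S.D →+* D₁⟦X⟧) (s : D₁⟦X⟧)
    (S' : St) (Λ : Submodule K₁ D₁) : Prop :=
  Rel S S' r ∧ S'.W ≠ ⊥ ∧ S'.c = r * S.c ∧ S'.f = r * S.f ∧ finrank K₁ Λ = S'.w ∧
  E.tenL S.W ≤ Λ ∧ Λ ≤ E.tenL S.V ∧ (∀ k, finrank K₁ ↥(Λ ^ k) ≤ finrank S'.K ↥(S'.W ^ k)) ∧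
  (∀ l d i t, Adm E l → IsDer ω e l d → d S.H = X ^ i * t →
    ∀ z ∈ E.tenL (Subalgebra.toSubmodule S.C),
      constantCoeff t - z ∈ E.tenN (Subalgebra.toSubmodule S.C) → z ∈ Λ) ∧
  (∀ l d, Adm E l → IsDer ω e l d → constantCoeff (d S.H) ∈ E.tenN (Subalgebra.toSubmodule S.C) →
    coeff 1 (d S.H) = 0 → ∀ γ ∈ E.tenR (Subalgebra.toSubmodule S.C),
      coeff 1 s - ad K₁ (constantCoeff s) γ ∈ E.tenL (Subalgebra.toSubmodule S.C) →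
      ∀ z ∈ E.tenL (Subalgebra.toSubmodule S.C),
        ad K₁ γ (constantCoeff (d S.H)) - z ∈ E.tenN (Subalgebra.toSubmodule S.C) → z ∈ Λ) ∧
  (S.Pw 2 → E.tenL0 S.V ≤ Λ → ∀ M, M + 2 * (r * S.c) ≤ r * (r - 1) → S'.ND M)

/-- tangent vectors at a point -/
def TanStmt : Prop := ∀ (S : St) (r : ℕ) (K₁ D₁ : Type) [Field K₁] [Algebra ℂ K₁] [DivisionRing D₁]
  [Algebra K₁ D₁] [FiniteDimensional K₁ D₁] (E : Ext r S.K S.D K₁ D₁) (ω : S.ι → D₁⟦X⟧)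
  (e : NC S.ι S.D →+* D₁⟦X⟧) (g : (D₁⟦X⟧)ˣ) (S' : St) (P : PtData S E ω e g S'),
  (∀ j, constantCoeff (ω j) = 0) → IsEv (C.comp E.ψ) ω e → ∀ l d, Adm E l → IsDer ω e l d →
  ∃ k : S'.ι → K₁⟦X⟧, S'.t (fun p => P.L.jK (k p)) = P.L.jD (↑g⁻¹ * d S.H * g)

/-- structure of the centraliser at a splitting point -/
def Mid (S : St) {r : ℕ} {K₁ D₁ : Type} [Field K₁] [DivisionRing D₁] [Algebra K₁ D₁]
    (E : Ext r S.K S.D K₁ D₁) (ω : S.ι → D₁⟦X⟧) (e : NC S.ι S.D →+* D₁⟦X⟧) (s : D₁⟦X⟧)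
    (g : (D₁⟦X⟧)ˣ) (S' : St) (P : PtData S E ω e g S') : Prop :=
  Rel S S' r ∧ S'.W ≠ ⊥ ∧ constantCoeff (g : D₁⟦X⟧) = 1 ∧
  (∀ i, coeff i (g : D₁⟦X⟧) ∈ E.tenR (Subalgebra.toSubmodule S.C)) ∧
  (∀ i, coeff i (↑g⁻¹ : D₁⟦X⟧) ∈ E.tenR (Subalgebra.toSubmodule S.C)) ∧
  (∀ i, coeff i (↑g⁻¹ * s * g : D₁⟦X⟧) ∈ E.tenL (Subalgebra.toSubmodule S.C)) ∧
  Subalgebra.toSubmodule S'.C = P.L.sp (E.tenL (Subalgebra.toSubmodule S.C)) ∧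
  (∀ z ∈ P.L.sp (E.tenN (Subalgebra.toSubmodule S.C)),
    ∃ γ ∈ P.L.sp (E.tenN (Subalgebra.toSubmodule S.C)), ad S'.K S'.a γ = z)

/-- the hypotheses at a splitting point -/
def SpH (S : St) {r : ℕ} {K₁ D₁ : Type} [Field K₁] [DivisionRing D₁] [Algebra K₁ D₁]
    (E : Ext r S.K S.D K₁ D₁) (ω : S.ι → D₁⟦X⟧) (e : NC S.ι S.D →+* D₁⟦X⟧) (n : ℕ) (s : D₁⟦X⟧)
    (b : S.D) : Prop :=
  1 ≤ r ∧ Good S ∧ S.Cen ∧ Adm E ω ∧ (∀ j, constantCoeff (ω j) = 0) ∧ IsEv (C.comp E.ψ) ω e ∧ 1 ≤ n ∧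
  e S.H = C (E.ψ S.a) + X ^ n * s ∧ b ∈ S.W ∧ b ≠ 0 ∧ constantCoeff s = E.ψ b * E.u

def MidStmt : Prop := ∀ (S : St) (r : ℕ) (K₁ D₁ : Type) [Field K₁] [Algebra ℂ K₁] [DivisionRing D₁]
  [Algebra K₁ D₁] [FiniteDimensional K₁ D₁] (E : Ext r S.K S.D K₁ D₁) ω e n s b, SpH S E ω e n s b →
  ∃ (g : (D₁⟦X⟧)ˣ) (S' : St) (P : PtData S E ω e g S'), Mid S E ω e s g S' P

/-- the nondegeneracy part of `Split` -/
def NdStmt : Prop := ∀ (S : St) (r : ℕ) (K₁ D₁ : Type) [Field K₁] [Algebra ℂ K₁] [DivisionRing D₁]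
  [Algebra K₁ D₁] [FiniteDimensional K₁ D₁] (E : Ext r S.K S.D K₁ D₁) ω e n s b, SpH S E ω e n s b →
  ∀ (g : (D₁⟦X⟧)ˣ) (S' : St) (P : PtData S E ω e g S'), Mid S E ω e s g S' P →
  S'.V = P.L.sp (E.tenL S.V) → ((E.tenL S.W ⊔ E.tenL0 S.V : Submodule K₁ D₁) : Set D₁) ⊆ P.L.lead S'.W →
  S.Pw 2 → ∀ M, M + 2 * (r * S.c) ≤ r * (r - 1) → S'.ND M

/-- restricting a nondegenerate form -/
def RkStmt : Prop := ∀ (K A B : Type) [Field K] [AddCommGroup A] [Module K A] [AddCommGroup B]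
  [Module K B] (β : A →ₗ[K] B →ₗ[K] K) (κ : Type) [Fintype κ] [DecidableEq κ] (x : κ → A) (y : κ → B)
  (Y : Type) [AddCommGroup Y] [Module K Y] [FiniteDimensional K Y] (p : A →ₗ[K] Y) (p' : B →ₗ[K] Y)
  (M : ℕ), (Matrix.of fun i k => β (x i) (y k)).det ≠ 0 → M + 2 * finrank K Y ≤ Fintype.card κ →
  ∃ (x' : Fin M → A) (y' : Fin M → B), (∀ i, p (x' i) = 0) ∧ (∀ i, p' (y' i) = 0) ∧
    (Matrix.of fun i k => β (x' i) (y' k)).det ≠ 0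

def PtBStmt : Prop := ∀ (S : St) (r : ℕ) (K₁ D₁ : Type) [Field K₁] [Algebra ℂ K₁] [DivisionRing D₁]
  [Algebra K₁ D₁] [FiniteDimensional K₁ D₁] (E : Ext r S.K S.D K₁ D₁) (ω : S.ι → D₁⟦X⟧)
  (e : NC S.ι S.D →+* D₁⟦X⟧) (n : ℕ) (s : D₁⟦X⟧) (b : S.D), SpH S E ω e n s b →
  ∃ S' Λ, Split S E ω e s S' Λ

def CenStmt : Prop := ∀ S, Good S → S.Cen ∧ finrank S.K S.V = S.f ∧ S.W ≤ S.V ∧ S.f ≤ S.c ∧
  (∀ b ∈ S.W, b ≠ 0 → ∀ z, z ∈ S.V ↔ z * b⁻¹ ∈ S.F0) ∧ (∀ b ∈ S.W, ∃ l, S.t l = b) ∧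
  (∀ l, S.t l ∈ S.W) ∧ ∃ k, S.Pw (2 ^ (k + 1))

/-- rigid case -/
def RigStmt : Prop := ∀ S : St, S.Normal → (∀ S' m, Rel S S' m → S'.W = ⊥) → S.H = NC.C S.a

/-- the splitting step -/
def BstStmt : Prop := ∀ S, Good S →
  (∀ j, 2 ≤ j → S.Pw (2 * j) → ∃ S' r, Rel S S' r ∧ S'.W ≠ ⊥ ∧ S'.c = r * S.c ∧ S'.f = r * S.f ∧ S'.Pw j) ∧
  (S.Pw 2 → ∃ S' r, Rel S S' r ∧ S'.W ≠ ⊥ ∧ S'.c = r * S.c ∧ S'.f = r * S.f ∧ S'.Pw 2 ∧
    S'.f + S.w ≤ S.f + S'.w ∧ S'.ND (4 * (S'.c + 2) * (S'.f - S'.w + 1)) ∧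
    4 * (S'.c + 2) * (S'.f - S'.w + 1) ≤ r ^ 2)

def Opt (S : St) : Prop := Good S ∧ S.Pw 2 ∧ KMin S ∧ S.ND (4 * (S.c + 2) * (S.f - S.w + 1)) ∧
  S.room (4 * (S.c + 2) * (S.f - S.w + 1))

def OptStmt : Prop := ∀ S : St, S.room 1 →
  ∃ S' m, Rel S S' m ∧ (S'.H = NC.C S'.a ∨ Opt S')

/-- substitution of scalar series -/
def IsSub (S : St) {κ : Type} (φ : S.ι → NC κ S.K) (Θ : NC S.ι S.D →+* NC κ S.D) : Prop :=
  (∀ j, φ j [] = 0) ∧ IsEv NC.C (fun j => NC.map (algebraMap S.K S.D) (φ j)) Θ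

/-- the directions `ξ` are nondegenerate -/
def Surj (S : St) {κ : Type} (ξ : κ → S.ι → S.K) : Prop := ∀ i, ∀ τ ∈ S.V, ∃ ζ, S.t ζ = 0 ∧
  S.q (ξ i) ζ - τ ∈ S.W ∧ S.q ζ (ξ i) + τ ∈ S.W ∧ ∀ k ≠ i, S.q (ξ k) ζ ∈ S.W ∧ S.q ζ (ξ k) ∈ S.W

def PertAStmt : Prop := ∀ S, Good S → ∀ (κ : Type) [Fintype κ] (φ : S.ι → NC κ S.K) Θ, IsSub S φ Θ →
  ∀ m, 2 ≤ m → (∀ α : List κ, 0 < α.length → α.length < m → Θ S.H α = 0) →
  ∀ α : List κ, α.length = m → Θ S.H α ∈ S.V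

def PertBStmt : Prop := ∀ S, Good S → S.Pw 2 → KMin S → ∀ (κ : Type) [Fintype κ]
  (φ : S.ι → NC κ S.K) Θ, IsSub S φ Θ → Surj S (fun i j => φ j [i]) →
  ∀ m, 2 ≤ m → (∀ α : List κ, 0 < α.length → α.length < m → Θ S.H α = 0) →
  ∀ α : List κ, α.length = m → ∑ k ∈ Finset.range m, Θ S.H (α.rotate k) ∈ S.W

def AltStmt : Prop := ∀ S, Good S → S.Pw 2 → KMin S →
  (∀ l, S.t l = 0 → S.q l l ∈ S.W) ∧ ∀ l l', S.t l = 0 → S.t l' = 0 → S.q l l' ∈ S.V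

def IsoStmt : Prop := ∀ S, Opt S → S.IsPoly → ∃ (n : ℕ) (ξ : Fin n → S.ι → S.K),
  (∀ i, S.t (ξ i) = 0) ∧ (∀ i k, S.q (ξ i) (ξ k) ∈ S.W) ∧ Surj S ξ ∧
  finrank S.K S.D + 1 ≤ finrank S.K ↥(Submodule.span S.K (Set.range fun i => S.tau (ξ i)) ⊔ S.Inn)

def SolStmt : Prop := ∀ S, Good S → S.Pw 2 → KMin S → ∀ (n : ℕ) (ξ : Fin n → S.ι → S.K),
  (∀ i, S.t (ξ i) = 0) → (∀ i k, S.q (ξ i) (ξ k) ∈ S.W) → Surj S ξ →
  ∃ (φ : S.ι → NC (Fin n) S.K) (Θ : NC S.ι S.D →+* NC (Fin n) S.D), IsSub S φ Θ ∧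
    (∀ i j, φ j [i] = ξ i j) ∧ Θ S.H = NC.C S.a

def KeyStmt : Prop := ∀ S : St, S.IsPoly → S.room 1 → ∃ S', Rel0 S S' ∧ S'.room 1 ∧
  ∃ p : Polynomial S'.K, p ≠ 0 ∧ Polynomial.aeval S'.H p = 0

def GrowStmt : Prop := ∀ S : St, S.room 1 → ∃ S', Rel0 S S' ∧ S'.room 1 ∧
  finrank S.K (Algebra.adjoin S.K {S.x [], S.y []}) < finrank S'.K (Algebra.adjoin S'.K {S'.x [], S'.y []})

/-- derivations of a division subalgebra are inner -/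
def InnStmt : Prop := ∀ (K D : Type) [Field K] [CharZero K] [DivisionRing D] [Algebra K D]
  [FiniteDimensional K D] (A : Subalgebra K D) (δ : A →ₗ[K] D),
  (∀ a b : A, δ (a * b) = δ a * b + a * δ b) → ∃ γ : D, ∀ a : A, δ a = γ * a - a * γ

/-- everything that does not mention states -/
def Base : Prop := EvStmt ∧ FiltStmt ∧ DerStmt ∧ ExpStmt ∧ LauStmt ∧ LeadStmt ∧ ExtStmt ∧ AlgStmt ∧
  TenStmt ∧ PifStmt ∧ AmiStmt ∧ NfpStmt ∧ RkStmt ∧ InnStmt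

def Goal : Prop := ∃ (D : Type) (_ : DivisionRing D), Countable D ∧ CharZero D ∧
  Algebra.IsAlgebraic (Subring.center D) D ∧
  (∃ x y : D, Algebra.adjoin (Subring.center D) ({x, y} : Set D) = ⊤) ∧
  ¬ FiniteDimensional (Subring.center D) D

end Crest.Agent.Ku
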