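import Crest.Agent.Ku.Defs

/-! Corrected nondegeneracy statement (S0270). -/

set_option autoImplicit false

namespace Crest.Agent.Ku
open Module PowerSeries

/-- the nondegeneracy part of `Split`, with `V' = sp (tenL V) * β` -/
def NdStmt2 : Prop := ∀ (S : St) (r : ℕ) (K₁ D₁ : Type) [Field K₁] [Algebra ℂ K₁] [DivisionRing D₁]
  [Algebra K₁ D₁] [FiniteDimensional K₁ D₁] (E : Ext r S.K S.D K₁ D₁) ω e n s b, SpH S E ω e n s b →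
  ∀ (g : (D₁⟦X⟧)ˣ) (S' : St) (P : PtData S E ω e g S'), Mid S E ω e s g S' P →
  ∀ β : (D₁⟦X⟧)ˣ, constantCoeff (β : D₁⟦X⟧) = 1 →
  (∀ i, coeff i (β : D₁⟦X⟧) ∈ E.tenL (Subalgebra.toSubmodule S.C)) →
  (∀ i, coeff i (↑β⁻¹ : D₁⟦X⟧) ∈ E.tenL (Subalgebra.toSubmodule S.C)) →
  (∀ z ∈ S'.C, Commute z (P.L.jD β)) →
  (∀ z, z ∈ S'.V ↔ z * P.L.jD (↑β⁻¹) ∈ P.L.sp (E.tenL S.V)) →
  ((E.tenL S.W ⊔ E.tenL0 S.V : Submodule K₁ D₁) : Set D₁) ⊆ P.L.lead S'.W →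
  S.Pw 2 → ∀ M, M + 2 * (r * S.c) ≤ r * (r - 1) → S'.ND M

end Crest.Agent.Ku
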