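import Crest.Agent.Ku.Defs

set_option autoImplicit false

namespace Crest.Agent.Ku
open Module PowerSeries

lemma Filt.uniq {ι B T : Type} [Fintype ι] [Ring B] (F : Filt B) (ω : ι → B) (hω : ∀ j, ω j ∈ F.F 1)
    (step : ι → T → T) (g : T → B) (hg : ∀ t, g t = ∑ j, ω j * g (step j t)) (t : T) : g t = 0 := by
  apply F.sep
  intro n
  induction n generalizing t with
  | zero => exact F.top _
  | succ n ih =>
    rw [hg, add_comm n 1]
    exact AddSubgroup.sum_mem _ fun j _ => F.mul_mem (hω j) (ih _)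

/-- approximations -/
noncomputable def evN {ι A B : Type} [Fintype ι] [Ring A] [Ring B] (ψ : A →+* B) (ω : ι → B) :
    ℕ → NC ι A → B
  | 0, _ => 0
  | n + 1, f => ψ (f []) + ∑ j, ω j * evN ψ ω n (NC.tl j f)

theorem ev : EvStmt := by
  intro ι A B _ _ _ F ψ ω hω hc
  have h1 : ∀ n f, evN ψ ω (n + 1) f - evN ψ ω n f ∈ F.F n := by
    intro n
    induction n with
    | zero => intro f; exact F.top _
    | succ n ih =>
      intro f
      have : evN ψ ω (n + 1 + 1) f - evN ψ ω (n + 1) f =
          ∑ j, ω j * (evN ψ ω (n + 1) (NC.tl j f) - evN ψ ω n (NC.tl j f)) := by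
        rw [evN, evN.eq_2 ψ ω f n]; simp only [mul_sub, Finset.sum_sub_distrib]; abel
      rw [this, add_comm n 1]
      exact AddSubgroup.sum_mem _ fun j _ => F.mul_mem (hω j) (by rw [add_comm 1 n]; exact ih _)
  choose Φ hΦ using fun f => F.complete (fun n => evN ψ ω n f) (fun n => h1 n f)
  have hrec : ∀ f, Φ f = ψ (f []) + ∑ j, ω j * Φ (NC.tl j f) := by
    intro f
    rw [← sub_eq_zero]
    apply F.sep
    intro n
    apply F.anti
    have : Φ f - (ψ (f []) + ∑ j, ω j * Φ (NC.tl j f)) = (Φ f - evN ψ ω (n + 1) f) -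
        ∑ j, ω j * (Φ (NC.tl j f) - evN ψ ω n (NC.tl j f)) := by
      rw [evN]; simp only [mul_sub, Finset.sum_sub_distrib]; abel
    rw [this]
    refine AddSubgroup.sub_mem _ (hΦ f (n + 1)) ?_
    rw [add_comm n 1]
    exact AddSubgroup.sum_mem _ fun j _ => F.mul_mem (hω j) (hΦ _ n)
  have hadd : ∀ f f', Φ (f + f') = Φ f + Φ f' := by
    intro f f'
    have := F.uniq ω hω (fun j (t : NC ι A × NC ι A) => (NC.tl j t.1, NC.tl j t.2))
      (fun t => Φ (t.1 + t.2) - Φ t.1 - Φ t.2) (by
        rintro ⟨f, f'⟩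
        have e : ∀ j, NC.tl j (f + f') = NC.tl j f + NC.tl j f' := fun _ => rfl
        simp only
        rw [hrec (f + f'), hrec f, hrec f']
        simp only [e, mul_sub, Finset.sum_sub_distrib, NC.add_apply, map_add]; abel) (f, f')
    simp only at this
    rw [sub_sub, sub_eq_zero] at this; exact this
  have h0 : Φ 0 = 0 := by
    have := hadd 0 0
    rw [add_zero] at this
    exact left_eq_add.mp this
  have hC : ∀ a f, Φ (NC.cst a * f) = ψ a * Φ f := by
    intro a f
    have := F.uniq ω hω (fun j (t : NC ι A) => NC.tl j t)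
      (fun t => Φ (NC.cst a * t) - ψ a * Φ t) (by
        intro f
        have e : ∀ j, NC.tl j (NC.cst a * f) = NC.cst a * NC.tl j f := fun j => by
          ext w; rw [NC.tl_apply, NC.cst_mul, NC.cst_mul, NC.tl_apply]
        rw [hrec (NC.cst a * f), hrec f]
        simp only [e, mul_sub, Finset.sum_sub_distrib, NC.mul_nil, NC.cst_nil, map_mul, mul_add,
          Finset.mul_sum, ← mul_assoc, (hc _ a).eq]; abel) f
    exact sub_eq_zero.mp this
  have hmul : ∀ f g, Φ (f * g) = Φ f * Φ g := by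
    intro f g
    have := F.uniq ω hω (fun j (t : NC ι A) => NC.tl j t)
      (fun t => Φ (t * g) - Φ t * Φ g) (by
        intro f
        have e : ψ (f []) * Φ g = ψ (f []) * ψ (g []) + ∑ j, ω j * (ψ (f []) * Φ (NC.tl j g)) := by
          rw [hrec g]; simp only [mul_add, Finset.mul_sum, ← mul_assoc, (hc _ _).eq]
        rw [hrec (f * g), hrec f, add_mul, e]
        simp only [NC.tl_mul, hadd, hC, mul_sub, Finset.sum_sub_distrib, NC.mul_nil, map_mul, mul_add,
          Finset.sum_add_distrib, Finset.sum_mul, mul_assoc]; abel) f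
    exact sub_eq_zero.mp this
  have h1 : Φ 1 = 1 := by
    rw [hrec]
    have e : ∀ j, NC.tl j (1 : NC ι A) = 0 := fun _ => rfl
    have e' : (1 : NC ι A) [] = 1 := rfl
    simp [e, e', h0]
  exact ⟨{ toFun := Φ, map_one' := h1, map_mul' := hmul, map_zero' := h0, map_add' := hadd }, hrec⟩

end Crest.Agent.Ku
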