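import Crest.Agent.Ku.Defs

set_option autoImplicit false

namespace Crest.Agent.Ku
open Module PowerSeries

lemma Filt.telescope {G : Type} [AddCommGroup G] (s : ℕ → G) (k : ℕ)
    (h : ∀ n, k < n → s (n + 1) - s n = 0) : ∀ n, k < n → s (k + 1) - s n = 0 := by
  intro n hn
  induction n, hn using Nat.le_induction with
  | base => simp
  | succ n hn ih =>
    have := h n hn
    rw [sub_eq_zero] at this ih ⊢
    rw [this, ih]

lemma ps_mul_vanish {A : Type} [Ring A] {m n : ℕ} {x y : A⟦X⟧} (hx : ∀ i < m, coeff i x = 0)
    (hy : ∀ i < n, coeff i y = 0) : ∀ i < m + n, coeff i (x * y) = 0 := by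
  intro i hi
  rw [coeff_mul]
  refine Finset.sum_eq_zero fun p hp => ?_
  have := Finset.HasAntidiagonal.mem_antidiagonal.mp hp
  by_cases h : p.1 < m
  · rw [hx _ h, zero_mul]
  · rw [hy p.2 (by omega), mul_zero]

lemma nc_mul_vanish {ι A : Type} [Ring A] (y : NC ι A⟦X⟧) (n : ℕ)
    (hy : ∀ (w : List ι) i, w.length + i < n → coeff i (y w) = 0) (w : List ι) :
    ∀ (m : ℕ) (x : NC ι A⟦X⟧), (∀ (w : List ι) i, w.length + i < m → coeff i (x w) = 0) →
      ∀ i, w.length + i < m + n → coeff i ((x * y) w) = 0 := by
  induction w with
  | nil =>
    intro m x hx i hi
    rw [NC.mul_nil]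
    exact ps_mul_vanish (m := m) (n := n) (fun i hi => hx [] i (by simpa using hi))
      (fun i hi => hy [] i (by simpa using hi)) i (by simpa using hi)
  | cons j w ih =>
    intro m x hx i hi
    simp only [List.length_cons] at hi
    rw [NC.mul_cons, map_add]
    have h1 : coeff i (x [] * y (j :: w)) = 0 := by
      rw [coeff_mul]
      refine Finset.sum_eq_zero fun p hp => ?_
      have := Finset.HasAntidiagonal.mem_antidiagonal.mp hp
      by_cases h : p.1 < m
      · rw [hx [] _ (by simpa using h), zero_mul]
      · rw [hy (j :: w) p.2 (by simp only [List.length_cons]; omega), mul_zero]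
    rw [h1, zero_add]
    by_cases hm : m = 0
    · subst hm
      exact ih 0 _ (fun _ _ h => absurd h (by omega)) i (by omega)
    · exact ih (m - 1) _ (fun w i h => hx (j :: w) i (by simp only [List.length_cons]; omega)) i
        (by omega)

lemma nc_mul_vanish' {ι A : Type} [Ring A] (y : NC ι A) (n : ℕ)
    (hy : ∀ (w : List ι), w.length < n → y w = 0) (w : List ι) :
    ∀ (m : ℕ) (x : NC ι A), (∀ (w : List ι), w.length < m → x w = 0) →
      w.length < m + n → (x * y) w = 0 := by
  induction w with
  | nil =>
    intro m x hx hi
    rw [NC.mul_nil]
    by_cases h : 0 < m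
    · rw [hx [] h, zero_mul]
    · rw [hy [] (by simp at hi ⊢; omega), mul_zero]
  | cons j w ih =>
    intro m x hx hi
    simp only [List.length_cons] at hi
    rw [NC.mul_cons]
    have h1 : x [] * y (j :: w) = 0 := by
      by_cases h : 0 < m
      · rw [hx [] h, zero_mul]
      · rw [hy (j :: w) (by simp only [List.length_cons]; omega), mul_zero]
    rw [h1, zero_add]
    by_cases hm : m = 0
    · subst hm
      exact ih 0 _ (fun _ h => absurd h (by omega)) (by omega)
    · exact ih (m - 1) _ (fun w h => hx (j :: w) (by simp only [List.length_cons]; omega))
        (by omega)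

theorem filt : FiltStmt := by
  refine ⟨fun A _ => ?_, fun ι A _ => ?_, fun ι A _ => ?_⟩
  · refine ⟨{ F := fun n =>
                { carrier := {f | ∀ i < n, coeff i f = 0}
                  add_mem' := fun {a b} ha hb i hi => by rw [map_add, ha i hi, hb i hi, add_zero]
                  zero_mem' := fun i _ => by simp
                  neg_mem' := fun {a} ha i hi => by rw [map_neg, ha i hi, neg_zero] }
              top := fun x i hi => absurd hi (by omega)
              anti := fun n x hx i hi => hx i (by omega)
              mul_mem := fun hx hy => ps_mul_vanish hx hy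
              sep := fun x hx => by ext i; simpa using hx (i + 1) i (by omega)
              complete := fun s hs => ⟨mk fun i => coeff i (s (i + 1)), fun n i hi => ?_⟩ },
      fun _ _ => Iff.rfl⟩
    rw [map_sub, coeff_mk]
    exact Filt.telescope (fun n => coeff i (s n)) i
      (fun n hn => by simpa only [map_sub] using hs n i hn) n hi
  · refine ⟨{ F := fun n =>
                { carrier := {f | ∀ w : List ι, w.length < n → f w = 0}
                  add_mem' := fun {a b} ha hb i hi => by
                    rw [NC.add_apply, ha i hi, hb i hi, add_zero]
                  zero_mem' := fun i _ => by simp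
                  neg_mem' := fun {a} ha i hi => by rw [NC.neg_apply, ha i hi, neg_zero] }
              top := fun x i hi => absurd hi (by omega)
              anti := fun n x hx i hi => hx i (by omega)
              mul_mem := fun {m n x y} hx hy w hw => nc_mul_vanish' y n hy w m x hx hw
              sep := fun x hx => by ext w; simpa using hx (w.length + 1) w (by omega)
              complete := fun s hs => ⟨fun w => s (w.length + 1) w, fun n w hw => ?_⟩ },
      fun _ _ => Iff.rfl⟩
    rw [NC.sub_apply]
    exact Filt.telescope (fun n => s n w) w.length
      (fun n hn => by simpa only [NC.sub_apply] using hs n w hn) n hw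
  · refine ⟨{ F := fun n =>
                { carrier := {f | ∀ (w : List ι) i, w.length + i < n → coeff i (f w) = 0}
                  add_mem' := fun {a b} ha hb w i hi => by
                    rw [NC.add_apply, map_add, ha w i hi, hb w i hi, add_zero]
                  zero_mem' := fun w i _ => by simp
                  neg_mem' := fun {a} ha w i hi => by
                    rw [NC.neg_apply, map_neg, ha w i hi, neg_zero] }
              top := fun x w i hi => absurd hi (by omega)
              anti := fun n x hx w i hi => hx w i (by omega)
              mul_mem := fun {m n x y} hx hy w i hw => nc_mul_vanish y n hy w m x hx i hw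
              sep := fun x hx => by
                ext w i; simpa using hx (w.length + i + 1) w i (by omega)
              complete := fun s hs => ⟨fun w => mk fun i => coeff i (s (w.length + i + 1) w),
                fun n w i hw => ?_⟩ },
      fun _ _ => Iff.rfl⟩
    rw [NC.sub_apply, map_sub, coeff_mk]
    exact Filt.telescope (fun n => coeff i (s n w)) (w.length + i)
      (fun n hn => by simpa only [NC.sub_apply, map_sub] using hs n w i hn) n hw

end Crest.Agent.Ku
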