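import Crest.Agent.Ku.Defs
import Crest.Agent.Ku.Ev
import Crest.Agent.Ku.Filt

set_option autoImplicit false

namespace Crest.Agent.Ku
open Module PowerSeries

/-- approximations -/
noncomputable def derN {ι A B : Type} [Fintype ι] [Ring A] [Ring B] (c : NC ι A → B) (ω : ι → B) :
    ℕ → NC ι A → B
  | 0, _ => 0
  | n + 1, f => c f + ∑ j, ω j * derN c ω n (NC.tl j f)

lemma Filt.exists_rec {ι A B : Type} [Fintype ι] [Ring A] [Ring B] (F : Filt B) (ω : ι → B)
    (hω : ∀ j, ω j ∈ F.F 1) (c : NC ι A → B) :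
    ∃ Φ : NC ι A → B, ∀ f, Φ f = c f + ∑ j, ω j * Φ (NC.tl j f) := by
  have h1 : ∀ n f, derN c ω (n + 1) f - derN c ω n f ∈ F.F n := by
    intro n
    induction n with
    | zero => intro f; exact F.top _
    | succ n ih =>
      intro f
      have : derN c ω (n + 1 + 1) f - derN c ω (n + 1) f =
          ∑ j, ω j * (derN c ω (n + 1) (NC.tl j f) - derN c ω n (NC.tl j f)) := by
        rw [derN, derN.eq_2 c ω f n]; simp only [mul_sub, Finset.sum_sub_distrib]; abel
      rw [this, add_comm n 1]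
      exact AddSubgroup.sum_mem _ fun j _ => F.mul_mem (hω j) (by rw [add_comm 1 n]; exact ih _)
  choose Φ hΦ using fun f => F.complete (fun n => derN c ω n f) (fun n => h1 n f)
  refine ⟨Φ, fun f => ?_⟩
  rw [← sub_eq_zero]
  apply F.sep
  intro n
  apply F.anti
  have : Φ f - (c f + ∑ j, ω j * Φ (NC.tl j f)) = (Φ f - derN c ω (n + 1) f) -
      ∑ j, ω j * (Φ (NC.tl j f) - derN c ω n (NC.tl j f)) := by
    rw [derN]; simp only [mul_sub, Finset.sum_sub_distrib]; abel
  rw [this]
  refine AddSubgroup.sub_mem _ (hΦ f (n + 1)) ?_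
  rw [add_comm n 1]
  exact AddSubgroup.sum_mem _ fun j _ => F.mul_mem (hω j) (hΦ _ n)

lemma dX_add {B : Type} [Ring B] (f g : B⟦X⟧) : dX (f + g) = dX f + dX g := by
  ext n; simp [dX, smul_add]

lemma dX_C {B : Type} [Ring B] (b : B) : dX (C b : B⟦X⟧) = 0 := by
  ext n; simp [dX, coeff_C]

lemma dX_sum {B κ : Type} [Ring B] (s : Finset κ) (f : κ → B⟦X⟧) :
    dX (∑ k ∈ s, f k) = ∑ k ∈ s, dX (f k) := by
  ext n; simp [dX, Finset.smul_sum]

lemma dX_mul {B : Type} [Ring B] (f g : B⟦X⟧) : dX (f * g) = dX f * g + f * dX g := by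
  ext n
  simp only [dX, coeff_mk, map_add, coeff_mul]
  rw [Finset.smul_sum]
  have h1 := Finset.Nat.sum_antidiagonal_succ (n := n)
    (f := fun p => p.1 • (coeff p.1 f * coeff p.2 g))
  have h2 := Finset.Nat.sum_antidiagonal_succ' (n := n)
    (f := fun p => p.2 • (coeff p.1 f * coeff p.2 g))
  simp only [zero_smul, zero_add] at h1 h2
  simp only [smul_mul_assoc, mul_smul_comm]
  rw [← h1, ← h2, ← Finset.sum_add_distrib]
  refine Finset.sum_congr rfl fun p hp => ?_
  rw [← add_smul, Finset.HasAntidiagonal.mem_antidiagonal.mp hp]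

theorem der : DerStmt := by
  intro ι A B _ _ _ ψ ω e hω he
  obtain ⟨F, hF⟩ := filt.1 B
  have hω1 : ∀ j, ω j ∈ F.F 1 := fun j => (hF _ _).2 fun i hi => by
    obtain rfl : i = 0 := by omega
    simpa using hω j
  have huniq : ∀ l d d', IsDer ω e l d → IsDer ω e l d' → d = d' := by
    intro l d d' hd hd'
    funext f
    have := F.uniq ω hω1 (fun j (t : NC ι A) => NC.tl j t) (fun t => d t - d' t) (by
      intro f
      rw [hd f, hd' f]; simp only [mul_sub, Finset.sum_sub_distrib]; abel) f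
    exact sub_eq_zero.mp this
  refine ⟨fun l => F.exists_rec ω hω1 _, huniq, ?_, ?_⟩
  · intro κ _ s l d hs hd f
    simp only
    have : ∀ k, s k * d k f = ∑ j, s k * l k j * e (NC.tl j f) + ∑ j, ω j * (s k * d k (NC.tl j f)) := by
      intro k
      rw [hd k f, mul_add, Finset.mul_sum, Finset.mul_sum]
      simp only [← mul_assoc, (hs k (ω _)).eq]
    simp only [this, Finset.sum_add_distrib, Finset.sum_mul, Finset.mul_sum]
    rw [Finset.sum_comm, Finset.sum_comm (f := fun k j => ω j * (s k * d k (NC.tl j f)))]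
  · intro f
    simp only
    rw [he f, dX_add, dX_sum]
    simp only [RingHom.comp_apply, dX_C, zero_add, dX_mul, Finset.sum_add_distrib]

end Crest.Agent.Ku
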