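import Crest.Agent.Ku.Der

set_option autoImplicit false

namespace Crest.Agent.Ku
open Module PowerSeries

section
variable {B : Type} [Ring B]

lemma xdvd_mul {m n : ℕ} {x y : B⟦X⟧} (hx : X ^ m ∣ x) (hy : X ^ n ∣ y) : X ^ (m + n) ∣ x * y := by
  rw [X_pow_dvd_iff] at hx hy ⊢
  exact ps_mul_vanish hx hy

lemma xdvd_mul_left {n : ℕ} (x : B⟦X⟧) {y : B⟦X⟧} (hy : X ^ n ∣ y) : X ^ n ∣ x * y := by
  have := xdvd_mul (m := 0) (x := x) (by simp) hy
  rwa [zero_add] at this

lemma xdvd_mono {m n : ℕ} {x : B⟦X⟧} (h : m ≤ n) (hx : X ^ n ∣ x) : X ^ m ∣ x :=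
  (pow_dvd_pow X h).trans hx

lemma xdvd_sum {κ : Type} (s : Finset κ) {n : ℕ} {f : κ → B⟦X⟧} (h : ∀ k ∈ s, X ^ n ∣ f k) :
    X ^ n ∣ ∑ k ∈ s, f k := by
  rw [X_pow_dvd_iff]
  intro i hi
  rw [map_sum]
  exact Finset.sum_eq_zero fun k hk => X_pow_dvd_iff.mp (h k hk) i hi

lemma xdvd_add {n : ℕ} {x y : B⟦X⟧} (hx : X ^ n ∣ x) (hy : X ^ n ∣ y) : X ^ n ∣ x + y := by
  rw [X_pow_dvd_iff] at hx hy ⊢
  intro i hi
  rw [map_add, hx i hi, hy i hi, add_zero]

lemma coeff_mul_mem (P : Subring B) {x y : B⟦X⟧} (n : ℕ) (hx0 : coeff 0 x = 0)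
    (hx : ∀ i, coeff i x ∈ P) (hy : ∀ i < n, coeff i y ∈ P) : coeff n (x * y) ∈ P := by
  rw [coeff_mul]
  refine P.sum_mem fun p hp => ?_
  have := Finset.HasAntidiagonal.mem_antidiagonal.mp hp
  by_cases h : p.1 = 0
  · rw [h, hx0, zero_mul]; exact P.zero_mem
  · exact P.mul_mem (hx _) (hy _ (by omega))

lemma coeff_mul_mem' (P : Subring B) {x y : B⟦X⟧} (n : ℕ)
    (hx : ∀ i, coeff i x ∈ P) (hy : ∀ i, coeff i y ∈ P) : coeff n (x * y) ∈ P := by
  rw [coeff_mul]
  exact P.sum_mem fun p _ => P.mul_mem (hx _) (hy _)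
end

theorem expn : ExpStmt := by
  intro ι A B _ _ _ ψ ω e i hi hω he
  have he' : ∀ f, e f = C (ψ (f [])) + ∑ j, ω j * e (NC.tl j f) := he
  have h0 : ∀ f, X ^ i ∣ e f - C (ψ (f [])) := by
    intro f
    rw [he' f, add_sub_cancel_left]
    exact xdvd_sum _ fun j _ => (hω j).mul_right _
  have h1 : ∀ f, X ^ (2 * i) ∣ e f - C (ψ (f [])) - ∑ j, ω j * C (ψ (f [j])) := by
    intro f
    rw [he' f, add_sub_cancel_left, ← Finset.sum_sub_distrib, two_mul]
    refine xdvd_sum _ fun j _ => ?_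
    rw [← mul_sub]
    exact xdvd_mul (hω j) (h0 (NC.tl j f))
  have hω0 : ∀ j, coeff 0 (ω j) = 0 := fun j => X_pow_dvd_iff.mp (hω j) 0 (by omega)
  refine ⟨h1, ?_, ?_, ?_, ?_, ?_⟩
  · intro l d hd
    have hd0 : ∀ f, X ^ i ∣ d f - ∑ j, l j * C (ψ (f [j])) := by
      intro f
      rw [hd f, add_sub_right_comm, ← Finset.sum_sub_distrib]
      refine xdvd_add (xdvd_sum _ fun j _ => ?_) (xdvd_sum _ fun j _ => (hω j).mul_right _)
      rw [← mul_sub]
      exact xdvd_mul_left _ (h0 (NC.tl j f))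
    intro f
    refine ⟨hd0 f, ?_⟩
    have : d f - ∑ j, l j * C (ψ (f [j])) -
        ∑ j, ∑ k, (l j * ω k + ω j * l k) * C (ψ (f [j, k])) =
        ∑ j, l j * (e (NC.tl j f) - C (ψ (NC.tl j f [])) - ∑ k, ω k * C (ψ (NC.tl j f [k]))) +
        ∑ j, ω j * (d (NC.tl j f) - ∑ k, l k * C (ψ (NC.tl j f [k]))) := by
      rw [hd f]
      simp only [NC.tl_apply, mul_sub, add_mul, Finset.sum_sub_distrib, Finset.sum_add_distrib,
        Finset.mul_sum, mul_assoc]
      abel
    rw [this]
    refine xdvd_add (xdvd_sum _ fun j _ => xdvd_mul_left _ (h1 _)) (xdvd_sum _ fun j _ => ?_)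
    rw [two_mul]
    exact xdvd_mul (hω j) (hd0 _)
  · intro ω₁ e₁ k hik hω₁ he₁
    have he₁' : ∀ f, e₁ f = C (ψ (f [])) + ∑ j, (ω j + ω₁ j) * e₁ (NC.tl j f) := he₁
    have h01 : ∀ f, X ^ i ∣ e₁ f - C (ψ (f [])) := by
      intro f
      rw [he₁' f, add_sub_cancel_left]
      exact xdvd_sum _ fun j _ => (xdvd_add (hω j) (xdvd_mono hik (hω₁ j))).mul_right _
    have hk : ∀ n ≤ k, ∀ f, X ^ n ∣ e₁ f - e f := by
      intro n
      induction n with
      | zero => intro _ f; simp
      | succ n ih =>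
        intro hn f
        have : e₁ f - e f = ∑ j, ω j * (e₁ (NC.tl j f) - e (NC.tl j f)) +
            ∑ j, ω₁ j * e₁ (NC.tl j f) := by
          rw [he₁' f, he' f]
          simp only [mul_sub, add_mul, Finset.sum_sub_distrib, Finset.sum_add_distrib]
          abel
        rw [this]
        refine xdvd_add (xdvd_sum _ fun j _ => ?_)
          (xdvd_sum _ fun j _ => (xdvd_mono hn (hω₁ j)).mul_right _)
        exact xdvd_mono (by omega) (xdvd_mul (hω j) (ih (by omega) _))
    intro f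
    have : e₁ f - e f - ∑ j, ω₁ j * C (ψ (f [j])) = ∑ j, ω j * (e₁ (NC.tl j f) - e (NC.tl j f)) +
        ∑ j, ω₁ j * (e₁ (NC.tl j f) - C (ψ (NC.tl j f []))) := by
      rw [he₁' f, he' f]
      simp only [NC.tl_apply, mul_sub, add_mul, Finset.sum_sub_distrib, Finset.sum_add_distrib]
      abel
    rw [this]
    refine xdvd_add (xdvd_sum _ fun j _ => ?_) (xdvd_sum _ fun j _ => xdvd_mul (hω₁ j) (h01 _))
    rw [add_comm k i]
    exact xdvd_mul (hω j) (hk k le_rfl _)
  · intro P Q hQ hP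
    have hE : ∀ n, ∀ f : NC ι A, (∀ α, Q (f α)) → coeff n (e f) ∈ P := by
      intro n
      induction n using Nat.strong_induction_on with
      | _ n ih =>
        intro f hf
        rw [he' f, map_add, map_sum]
        refine P.add_mem ?_ (P.sum_mem fun j _ =>
          coeff_mul_mem P n (hω0 j) (hP j) fun m hm => ih m hm _ fun α => hf _)
        rw [coeff_C]
        split_ifs
        · exact hQ _ (hf _)
        · exact P.zero_mem
    intro f hf
    refine ⟨fun n => hE n f hf, fun l d hd hl n => ?_⟩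
    induction n using Nat.strong_induction_on generalizing f with
    | _ n ih =>
      rw [hd f, map_add, map_sum, map_sum]
      refine P.add_mem (P.sum_mem fun j _ => coeff_mul_mem' P n (hl j) fun m => hE m _ fun α => hf _)
        (P.sum_mem fun j _ =>
          coeff_mul_mem P n (hω0 j) (hP j) fun m hm => ih m hm _ fun α => hf _)
  · intro ρ m hρ hm
    have key : ∀ m : ℕ, ∀ f : NC ι A, (∀ α : List ι, α.length < m → f α = 0) →
        X ^ (i * (m + 1)) ∣ e f - X ^ (i * m) *
          C (∑ β : Fin m → ι, (List.ofFn fun k => ρ (β k)).prod * ψ (f (List.ofFn β))) := by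
      intro m
      induction m with
      | zero =>
        intro f _
        simpa using h0 f
      | succ m ih =>
        intro f hf
        have e1 : ∑ β : Fin (m + 1) → ι, (List.ofFn fun k => ρ (β k)).prod * ψ (f (List.ofFn β)) =
            ∑ j, ρ j * ∑ β : Fin m → ι, (List.ofFn fun k => ρ (β k)).prod *
              ψ (NC.tl j f (List.ofFn β)) := by
          rw [← (Fin.consEquiv fun _ : Fin (m + 1) => ι).sum_comp, Fintype.sum_prod_type]
          refine Finset.sum_congr rfl fun j _ => ?_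
          rw [Finset.mul_sum]
          refine Finset.sum_congr rfl fun β _ => ?_
          simp [Fin.consEquiv, List.ofFn_succ, mul_assoc]
        have e2 : e f - X ^ (i * (m + 1)) * C (∑ β : Fin (m + 1) → ι,
            (List.ofFn fun k => ρ (β k)).prod * ψ (f (List.ofFn β))) =
            ∑ j, ω j * (e (NC.tl j f) - X ^ (i * m) * C (∑ β : Fin m → ι,
              (List.ofFn fun k => ρ (β k)).prod * ψ (NC.tl j f (List.ofFn β)))) := by
          rw [e1, he' f, hf [] (by simp), map_zero, map_zero, zero_add, map_sum, Finset.mul_sum,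
            ← Finset.sum_sub_distrib]
          refine Finset.sum_congr rfl fun j _ => ?_
          rw [mul_sub, hρ j, map_mul, mul_add, mul_one, add_comm (i * m) i, pow_add]
          congr 1
          rw [mul_assoc, mul_assoc, ← mul_assoc (C (ρ j)), ← mul_assoc (X ^ (i * m)),
            (commute_X_pow (C (ρ j)) (i * m)).eq]
        rw [e2]
        refine xdvd_sum _ fun j _ => ?_
        have := xdvd_mul (hω j) (ih (NC.tl j f) fun α hα => hf (j :: α) (by simpa using hα))
        exact xdvd_mono (by ring_nf; omega) this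
    intro f hf
    have := key m (f - NC.C (f [])) (by
      intro α hα
      cases α with
      | nil => simp
      | cons j α => simp [hf (j :: α) (by simp) hα])
    have eC : e (NC.C (f [])) = C (ψ (f [])) := by
      rw [he']
      have : ∀ j, NC.tl j (NC.C (f []) : NC ι A) = 0 := fun _ => rfl
      simp [this]
    rw [map_sub, eC] at this
    convert this using 5 with β
    obtain ⟨m, rfl⟩ : ∃ k, m = k + 1 := ⟨m - 1, by omega⟩
    simp [List.ofFn_succ]
  · intro κ _ φ Θ hφ hΘ f
    have eC : ∀ a, e (NC.C a) = C (ψ a) := by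
      intro a
      rw [he']
      have : ∀ j, NC.tl j (NC.C a : NC ι A) = 0 := fun _ => rfl
      simp [this]
    simp only [RingHom.comp_apply]
    rw [hΘ f, map_add, map_sum, eC]
    simp only [map_mul]

end Crest.Agent.Ku
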