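import Crest.Agent.Ku.Defs
import Crest.Agent.Ku.Loc

set_option autoImplicit false

namespace Crest.Agent.Ku.H2
open Finsupp

/-- the quantum plane over `D` -/
def QP {K : Type} (_ζ : K) (D : Type) [Zero D] : Type := ℕ × ℕ →₀ D

variable {K D : Type} [Field K] [DivisionRing D] [Algebra K D] (ζ : K)

noncomputable instance : AddCommGroup (QP ζ D) := inferInstanceAs (AddCommGroup (ℕ × ℕ →₀ D))
noncomputable instance : Module K (QP ζ D) := inferInstanceAs (Module K (ℕ × ℕ →₀ D))

noncomputable def sg (a : ℕ × ℕ) (x : D) : QP ζ D := Finsupp.single a x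

noncomputable def mulB : (ℕ × ℕ →₀ D) →ₗ[K] (ℕ × ℕ →₀ D) →ₗ[K] (ℕ × ℕ →₀ D) :=
  Finsupp.lsum K fun a => LinearMap.flip (Finsupp.lsum K fun b =>
    ζ ^ (a.2 * b.1) • ((LinearMap.mul K D).flip.compr₂ (Finsupp.lsingle (a + b))))

lemma mulB_single (a b : ℕ × ℕ) (x y : D) :
    mulB ζ (single a x) (single b y) = ζ ^ (a.2 * b.1) • single (a + b) (x * y) := by
  simp [mulB]

lemma mulB_assoc (f g h : ℕ × ℕ →₀ D) : mulB ζ (mulB ζ f g) h = mulB ζ f (mulB ζ g h) := by
  induction f using Finsupp.induction_linear with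
  | zero => simp
  | add f f' h1 h2 => simp only [map_add, LinearMap.add_apply, h1, h2]
  | single a x =>
    induction g using Finsupp.induction_linear with
    | zero => simp
    | add f f' h1 h2 => simp only [map_add, LinearMap.add_apply, h1, h2]
    | single b y =>
      induction h using Finsupp.induction_linear with
      | zero => simp
      | add f f' h1 h2 => simp only [map_add, h1, h2]
      | single c z =>
        simp only [mulB_single, map_smul, LinearMap.smul_apply, smul_smul, ← pow_add, add_assoc,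
          mul_assoc, Prod.snd_add, Prod.fst_add]
        congr 2; ring

noncomputable instance : Ring (QP ζ D) :=
  { (inferInstance : AddCommGroup (QP ζ D)) with
    mul := fun f g => mulB ζ f g
    one := sg ζ 0 1
    mul_assoc := mulB_assoc ζ
    one_mul := fun f => by
      show mulB ζ (single 0 1) f = f
      induction f using Finsupp.induction_linear with
      | zero => exact map_zero _
      | add f f' h1 h2 => rw [map_add, h1, h2]
      | single a x => rw [mulB_single]; simp
    mul_one := fun f => by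
      show mulB ζ f (single 0 1) = f
      induction f using Finsupp.induction_linear with
      | zero => simp
      | add f f' h1 h2 => rw [map_add, LinearMap.add_apply, h1, h2]
      | single a x => rw [mulB_single]; simp
    left_distrib := fun f g h => map_add (mulB ζ f) g h
    right_distrib := fun f g h => LinearMap.congr_fun (map_add (mulB (D := D) ζ) f g) h
    zero_mul := fun g => LinearMap.congr_fun (map_zero (mulB (D := D) ζ)) g
    mul_zero := fun f => map_zero (mulB ζ f) }

noncomputable instance : Algebra K (QP ζ D) :=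
  Algebra.ofModule (fun c f g => LinearMap.congr_fun (map_smul (mulB (D := D) ζ) c f) g)
    (fun c f g => map_smul (mulB ζ f) c g)

lemma sg_mul (a b : ℕ × ℕ) (x y : D) :
    sg ζ a x * sg ζ b y = ζ ^ (a.2 * b.1) • sg ζ (a + b) (x * y) := mulB_single ζ a b x y

lemma one_eq : (1 : QP ζ D) = sg ζ 0 1 := rfl

lemma sg_add (a : ℕ × ℕ) (x y : D) : sg ζ a (x + y) = sg ζ a x + sg ζ a y := Finsupp.single_add a x y
lemma sg_zero (a : ℕ × ℕ) : sg ζ a (0 : D) = 0 := Finsupp.single_zero a
lemma sg_smul (a : ℕ × ℕ) (c : K) (x : D) : sg ζ a (c • x) = c • sg ζ a x :=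
  (Finsupp.smul_single c a x).symm

lemma ind {p : QP ζ D → Prop} (f : QP ζ D) (h0 : p 0) (ha : ∀ f g, p f → p g → p (f + g))
    (hs : ∀ a x, p (sg ζ a x)) : p f := Finsupp.induction_linear f h0 ha hs

lemma dom (hζ : ζ ≠ 0) : IsDomain (QP ζ D) := by
  classical
  haveI : Nontrivial (QP ζ D) := inferInstanceAs (Nontrivial (ℕ × ℕ →₀ D))
  haveI : NoZeroDivisors (QP ζ D) := ⟨fun {f g} h => by
    by_contra hne
    rw [not_or] at hne
    let f' : ℕ × ℕ →₀ D := f
    let g' : ℕ × ℕ →₀ D := g
    have hf : f'.support.Nonempty := Finsupp.support_nonempty_iff.2 hne.1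
    have hg : g'.support.Nonempty := Finsupp.support_nonempty_iff.2 hne.2
    obtain ⟨a, ha, b, hb, hu⟩ := UniqueSums.uniqueAdd_of_nonempty hf hg
    have h1 : mulB ζ f' g' = 0 := h
    have h2 : mulB ζ f' g' = ∑ x ∈ f'.support, ∑ y ∈ g'.support,
        ζ ^ (x.2 * y.1) • single (x + y) (f' x * g' y) := by
      conv_lhs => rw [← f'.sum_single, ← g'.sum_single]
      simp only [Finsupp.sum, map_sum, LinearMap.sum_apply, mulB_single]
      rw [Finset.sum_comm]
    have h3 := congrArg (fun w : ℕ × ℕ →₀ D => w (a + b)) (h2.symm.trans h1)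
    simp only [Finsupp.finset_sum_apply, Finsupp.smul_apply, Finsupp.zero_apply] at h3
    rw [Finset.sum_eq_single a, Finset.sum_eq_single b] at h3
    · rw [single_eq_same, smul_eq_zero] at h3
      rcases h3 with h3 | h3
      · exact pow_ne_zero _ hζ h3
      · exact mul_ne_zero (Finsupp.mem_support_iff.1 ha) (Finsupp.mem_support_iff.1 hb) h3
    · intro y hy hyb
      rw [single_eq_of_ne, smul_zero]
      intro he
      exact hyb (hu ha hy he.symm).2
    · intro h; exact absurd hb h
    · intro x hx hxa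
      refine Finset.sum_eq_zero fun y hy => ?_
      rw [single_eq_of_ne, smul_zero]
      intro he
      exact hxa (hu hx hy he.symm).1
    · intro h; exact absurd ha h⟩
  exact NoZeroDivisors.to_isDomain _

noncomputable def cst : D →+* QP ζ D where
  toFun := sg ζ 0
  map_one' := rfl
  map_mul' x y := by rw [sg_mul]; simp
  map_zero' := sg_zero ζ 0
  map_add' := sg_add ζ 0

lemma upow (a : ℕ) : (sg ζ (1, 0) 1 : QP ζ D) ^ a = sg ζ (a, 0) 1 := by
  induction a with
  | zero => rfl
  | succ a ih => rw [pow_succ, ih, sg_mul]; simp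

lemma vpow (a : ℕ) : (sg ζ (0, 1) 1 : QP ζ D) ^ a = sg ζ (0, a) 1 := by
  induction a with
  | zero => rfl
  | succ a ih => rw [pow_succ, ih, sg_mul]; simp

lemma mono (d : D) (a b : ℕ) :
    cst ζ d * ((sg ζ (1, 0) 1 : QP ζ D) ^ a * sg ζ (0, 1) 1 ^ b) = sg ζ (a, b) d := by
  rw [upow, vpow, sg_mul]
  show sg ζ 0 d * _ = _
  simp [sg_mul]

variable {ζ}

noncomputable def pw {r : ℕ} (hζ : ζ ^ r = 1) : Multiplicative (ℕ × ℕ) →* QP ζ D where
  toFun m := sg ζ (r * m.toAdd.1, r * m.toAdd.2) 1
  map_one' := by simp [one_eq, Prod.mk_zero_zero]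
  map_mul' m n := by
    rw [sg_mul]
    simp [mul_assoc, pow_mul, hζ, mul_add]

noncomputable def io {r : ℕ} (hζ : ζ ^ r = 1) : AddMonoidAlgebra K (ℕ × ℕ) →ₐ[K] QP ζ D :=
  AddMonoidAlgebra.lift K (QP ζ D) (ℕ × ℕ) (pw hζ)

lemma io_single {r : ℕ} (hζ : ζ ^ r = 1) (m : ℕ × ℕ) (c : K) :
    io (D := D) hζ (AddMonoidAlgebra.single m c) = c • sg ζ (r * m.1, r * m.2) 1 := by
  rw [io, AddMonoidAlgebra.lift_single]; rfl

lemma io_mul {r : ℕ} (hζ : ζ ^ r = 1) (m : ℕ × ℕ) (c : K) (a : ℕ × ℕ) (x : D) :
    io (D := D) hζ (AddMonoidAlgebra.single m c) * sg ζ a x =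
      sg ζ (r * m.1 + a.1, r * m.2 + a.2) (c • x) := by
  rw [io_single, smul_mul_assoc, sg_mul, sg_smul]
  simp only [mul_assoc, pow_mul, hζ, one_pow, one_smul, one_mul]
  rfl

lemma io_comm {r : ℕ} (hζ : ζ ^ r = 1) (p : AddMonoidAlgebra K (ℕ × ℕ)) (f : QP ζ D) :
    io hζ p * f = f * io hζ p := by
  induction p using AddMonoidAlgebra.induction_linear with
  | zero => simp
  | add p q h1 h2 => rw [map_add, add_mul, mul_add, h1, h2]
  | single m c =>
    induction f using ind with
    | h0 => simp
    | ha f g h1 h2 => rw [add_mul, mul_add, h1, h2]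
    | hs a x =>
      rw [io_mul, io_single, mul_smul_comm, sg_mul, sg_smul]
      simp only [mul_left_comm a.2, pow_mul, hζ, one_pow, one_smul, mul_one]
      congr 2
      ext <;> simp [add_comm]

/-- coefficient -/
def cf (a : ℕ × ℕ) : QP ζ D →+ D := Finsupp.applyAddHom a

lemma cf_sg (a b : ℕ × ℕ) (x : D) : cf b (sg ζ a x) = if a = b then x else 0 := by
  show (Finsupp.single a x : ℕ × ℕ →₀ D) b = _
  rw [Finsupp.single_apply]

lemma io_apply {r : ℕ} (hζ : ζ ^ r = 1) (p : AddMonoidAlgebra K (ℕ × ℕ)) (a a' : Fin r × Fin r)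
    (x : D) (m : ℕ × ℕ) :
    cf (r * m.1 + a'.1.val, r * m.2 + a'.2.val) (io hζ p * sg ζ (a.1.val, a.2.val) x)
      = if a = a' then p.coeff m • x else 0 := by
  classical
  induction p using AddMonoidAlgebra.induction_linear with
  | zero =>
    rw [map_zero, zero_mul]; simp
  | add p q h1 h2 =>
    rw [map_add, add_mul, map_add, h1, h2]
    split_ifs <;> simp [add_smul]
  | single n c =>
    rw [io_mul]
    have key : ∀ (i j : ℕ) (s t : Fin r), r * i + s.val = r * j + t.val ↔ i = j ∧ s = t := by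
      intro i j s t
      constructor
      · intro h
        have hr : 0 < r := s.pos
        have h1 := congrArg (· / r) h
        have h2 := congrArg (· % r) h
        simp only [Nat.mul_add_div hr, Nat.div_eq_of_lt s.2, Nat.div_eq_of_lt t.2, add_zero,
          Nat.mul_add_mod, Nat.mod_eq_of_lt s.2, Nat.mod_eq_of_lt t.2] at h1 h2
        exact ⟨h1, Fin.ext h2⟩
      · rintro ⟨rfl, rfl⟩; rfl
    rw [cf_sg]
    simp only [Prod.mk.injEq, key, AddMonoidAlgebra.coeff_single, Finsupp.single_apply,
      Prod.ext_iff]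
    by_cases h1 : n.1 = m.1 <;> by_cases h2 : n.2 = m.2 <;> by_cases h3 : a.1 = a'.1 <;>
      by_cases h4 : a.2 = a'.2 <;> simp [h1, h2, h3, h4]

theorem ext : ExtStmt := by
  classical
  intro r hr K D _ _ _ _ _
  have hζ : IsPrimitiveRoot (algebraMap ℂ K (Complex.exp (2 * Real.pi * Complex.I / r))) r :=
    (Complex.isPrimitiveRoot_exp r (by omega)).map_of_injective (algebraMap ℂ K).injective
  generalize algebraMap ℂ K (Complex.exp (2 * Real.pi * Complex.I / r)) = ζ at hζ
  have h1 := hζ.pow_eq_one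
  let P := AddMonoidAlgebra K (ℕ × ℕ)
  haveI := dom (D := D) ζ (hζ.ne_zero (by omega))
  letI : Algebra P (QP ζ D) := (io h1).toRingHom.toAlgebra' (io_comm h1)
  have ham : ∀ p : P, algebraMap P (QP ζ D) p = io h1 p := fun _ => rfl
  have hred : ∀ (a : ℕ × ℕ) (x : D), sg ζ a x = algebraMap P (QP ζ D)
      (AddMonoidAlgebra.single (a.1 / r, a.2 / r) 1) * sg ζ (a.1 % r, a.2 % r) x := by
    intro a x
    rw [ham, io_mul]; simp [Nat.div_add_mod]
  have hind : ∀ (κ : Type) [Fintype κ] (d : κ → D), LinearIndependent K d →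
      LinearIndependent P fun p : κ × Fin r × Fin r => sg ζ (p.2.1.val, p.2.2.val) (d p.1) := by
    intro κ _ d hd
    rw [Fintype.linearIndependent_iff]
    intro c hc p
    ext m
    have h2 := congrArg (cf (r * m.1 + p.2.1.val, r * m.2 + p.2.2.val)) hc
    rw [map_zero, map_sum] at h2
    have h3 : ∑ q : κ × Fin r × Fin r, (if q.2 = p.2 then (c q).coeff m • d q.1 else 0) = 0 := by
      refine Eq.trans ?_ h2
      refine Finset.sum_congr rfl fun q _ => ?_
      exact (io_apply h1 (c q) q.2 p.2 (d q.1) m).symm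
    rw [Fintype.sum_prod_type] at h3
    simp only [Finset.sum_ite_eq', Finset.mem_univ, if_true] at h3
    simpa using Fintype.linearIndependent_iff.1 hd (fun k => (c (k, p.2)).coeff m) h3 p.1
  let b := Module.finBasis K D
  haveI : Module.Finite P (QP ζ D) := by
    refine ⟨⟨Finset.univ.image fun p : Fin (Module.finrank K D) × Fin r × Fin r =>
      sg ζ (p.2.1.val, p.2.2.val) (b p.1), ?_⟩⟩
    rw [eq_top_iff]
    intro f hf
    clear hf
    induction f using ind with
    | h0 => exact Submodule.zero_mem _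
    | ha f g h1 h2 => exact Submodule.add_mem _ h1 h2
    | hs a x =>
      have : sg ζ a x = ∑ i, (AddMonoidAlgebra.single (a.1 / r, a.2 / r) (b.repr x i) : P) •
          sg ζ (a.1 % r, a.2 % r) (b i) := by
        conv_lhs => rw [← b.sum_repr x]
        refine (Finsupp.single_finset_sum _ _ _).trans (Finset.sum_congr rfl fun i _ => ?_)
        show _ = io h1 _ * _
        rw [io_mul]
        simp only [Nat.div_add_mod]
        rfl
      rw [this]
      refine Submodule.sum_mem _ fun i _ => Submodule.smul_mem _ _ (Submodule.subset_span ?_)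
      simp only [Finset.coe_image, Finset.coe_univ, Set.image_univ]
      exact ⟨(i, ⟨_, Nat.mod_lt _ hr⟩, ⟨_, Nat.mod_lt _ hr⟩), rfl⟩
  have hinj : Function.Injective (algebraMap P (QP ζ D)) := by
    rw [injective_iff_map_eq_zero]
    intro p hp
    have := Fintype.linearIndependent_iff.1 (hind Unit (fun _ => 1) (by
      rw [linearIndependent_unique_iff]; exact one_ne_zero))
      (fun q => if q.2 = (⟨0, hr⟩, ⟨0, hr⟩) then p else 0) (by
        refine Finset.sum_eq_zero fun q _ => ?_
        split_ifs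
        · rw [Algebra.smul_def, hp, zero_mul]
        · exact zero_smul _ _) ((), ⟨0, hr⟩, ⟨0, hr⟩)
    simpa using this
  obtain ⟨D', i1, i2, i3, j, hj, hc, hs, hli⟩ := loc P (QP ζ D) hinj
  let φ : K →+* FractionRing P := (algebraMap P (FractionRing P)).comp (algebraMap K P)
  have hK : ∀ k : K, j (algebraMap K (QP ζ D) k) = algebraMap (FractionRing P) D' (φ k) := by
    intro k
    rw [← (io h1).commutes k, ← ham, hc]; rfl
  have hne : ∀ m : ℕ × ℕ, algebraMap P (FractionRing P) (AddMonoidAlgebra.single m 1) ≠ 0 := by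
    intro m h
    have := IsFractionRing.injective P (FractionRing P) (h.trans (map_zero _).symm)
    exact one_ne_zero (AddMonoidAlgebra.single_eq_zero.1 this)
  have hmono : ∀ d a b, j (cst ζ d) * (j (sg ζ (1, 0) 1) ^ a * j (sg ζ (0, 1) 1) ^ b) =
      j (sg ζ (a, b) d) := by
    intro d a b
    rw [← mono ζ d a b, map_mul, map_mul, map_pow, map_pow]
  refine ⟨FractionRing P, D', inferInstance, inferInstance, i1, i2, i3, ⟨⟨φ, j.comp (cst ζ), ?_,
    j (sg ζ (1, 0) 1), j (sg ζ (0, 1) 1), φ ζ, hζ.map_of_injective φ.injective, ?_, ?_, ?_,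
    ⟨_, hne (1, 0), ?_⟩, ⟨_, hne (0, 1), ?_⟩, ?_, ?_⟩⟩⟩
  · intro k
    rw [← hK, RingHom.comp_apply]
    congr 1
    rw [Algebra.algebraMap_eq_smul_one, Algebra.algebraMap_eq_smul_one, one_eq, ← sg_smul]
    rfl
  · intro d
    refine Commute.map (f := j) ?_
    show sg ζ 0 d * _ = _ * sg ζ 0 d
    simp [sg_mul]
  · intro d
    refine Commute.map (f := j) ?_
    show sg ζ 0 d * _ = _ * sg ζ 0 d
    simp [sg_mul]
  · rw [Algebra.smul_def, ← hK, ← map_mul, ← map_mul, ← map_mul, ← Algebra.smul_def]
    simp [sg_mul]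
  · rw [← map_pow, upow, ← hc, ham, io_single]; simp
  · rw [← map_pow, vpow, ← hc, ham, io_single]; simp
  · intro κ _ d hd
    have := hli _ _ (hind κ d hd)
    simpa only [RingHom.comp_apply, hmono] using this
  · intro z
    obtain ⟨p, hp, a, ha⟩ := hs z
    have hp' : algebraMap P (FractionRing P) p ≠ 0 := fun h =>
      hp (IsFractionRing.injective P (FractionRing P) (h.trans (map_zero _).symm))
    rw [← Submodule.smul_mem_iff _ hp', Algebra.smul_def, ha]
    clear ha
    induction a using ind with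
    | h0 => rw [map_zero]; exact Submodule.zero_mem _
    | ha f g h1 h2 => rw [map_add]; exact Submodule.add_mem _ h1 h2
    | hs a x =>
      rw [hred a x, map_mul, hc, ← Algebra.smul_def]
      apply Submodule.smul_mem
      apply Submodule.subset_span
      refine ⟨x, _, Nat.mod_lt a.1 hr, _, Nat.mod_lt a.2 hr, ?_⟩
      rw [RingHom.comp_apply, hmono]

end Crest.Agent.Ku.H2
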