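import Crest.Agent.Ku.Defs

set_option autoImplicit false
set_option linter.style.haveILetI false

namespace Crest.Agent.Ku
open Module

theorem fin_abs (F P : Type) [Field F] [DivisionRing P] [Algebra F P] [CharZero P] (x y : P)
    (halg : ∀ a ∈ Algebra.adjoin F ({x, y} : Set P), IsAlgebraic F a)
    (hc : (Algebra.adjoin F ({x, y} : Set P) : Set P).Countable)
    (hind : ∀ n, ∃ g : Fin n → P, (∀ i, g i ∈ Algebra.adjoin F ({x, y} : Set P)) ∧
      LinearIndependent F g) : Goal := by
  classical
  set A := Algebra.adjoin F ({x, y} : Set P) with hA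
  let Ds : Subfield P := { A.toSubring with
    inv_mem' := fun a ha => Algebra.adjoin_le (Set.singleton_subset_iff.2 ha)
      (IsIntegral.inv_mem_adjoin (halg a ha).isIntegral) }
  have hmem : ∀ a, a ∈ Ds ↔ a ∈ A := fun a => Iff.rfl
  let ι : F →+* Ds := (algebraMap F P).codRestrict Ds fun f => A.algebraMap_mem f
  have hιc : ∀ f (a : Ds), ι f * a = a * ι f := fun f a => Subtype.ext (Algebra.commutes f a.1)
  let ιZ : F →+* Subring.center Ds := ι.codRestrict _ fun f =>
    Subring.mem_center_iff.2 fun a => (hιc f a).symm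
  letI : Algebra F Ds := ι.toAlgebra' hιc
  letI : Algebra F (Subring.center Ds) := ιZ.toAlgebra
  haveI : IsScalarTower F (Subring.center Ds) Ds := IsScalarTower.of_algebraMap_eq fun f => rfl
  let j : Ds →ₐ[F] P := { Ds.subtype with commutes' := fun f => rfl }
  have hj : Function.Injective j := Subtype.val_injective
  haveI hFD : Algebra.IsAlgebraic F Ds := ⟨fun a =>
    (isAlgebraic_algHom_iff j hj).1 (halg a.1 a.2)⟩
  have hx : x ∈ A := Algebra.subset_adjoin (by simp)
  have hy : y ∈ A := Algebra.subset_adjoin (by simp)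
  let x' : Ds := ⟨x, hx⟩
  let y' : Ds := ⟨y, hy⟩
  have hgen : ∀ (Q : Ds → Prop), Q x' → Q y' → (∀ f, Q (ι f)) → (∀ a b, Q a → Q b → Q (a + b)) →
      (∀ a b, Q a → Q b → Q (a * b)) → ∀ a, Q a := by
    intro Q h1 h2 h3 h4 h5 a
    obtain ⟨a, ha⟩ := a
    have ha' : a ∈ Algebra.adjoin F ({x, y} : Set P) := ha
    induction ha' using Algebra.adjoin_induction with
    | mem z hz =>
      rcases hz with rfl | rfl
      · exact h1
      · exact h2
    | algebraMap f => exact h3 f
    | add a b ha1 hb1 iha ihb => exact h4 ⟨a, ha1⟩ ⟨b, hb1⟩ (iha ha1) (ihb hb1)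
    | mul a b ha1 hb1 iha ihb => exact h5 ⟨a, ha1⟩ ⟨b, hb1⟩ (iha ha1) (ihb hb1)
  refine ⟨Ds, inferInstance, hc.to_subtype, ?_, ?_, ⟨x', y', ?_⟩, ?_⟩
  · exact ⟨fun a b h => Nat.cast_injective (R := P) (by simpa using congrArg Subtype.val h)⟩
  · exact Algebra.IsAlgebraic.tower_top (K := F) _
  · rw [eq_top_iff]
    intro a _
    refine hgen (fun a => a ∈ Algebra.adjoin (Subring.center Ds) ({x', y'} : Set Ds)) ?_ ?_ ?_ ?_ ?_ a
    · exact Algebra.subset_adjoin (by simp)
    · exact Algebra.subset_adjoin (by simp)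
    · intro f
      exact Subalgebra.algebraMap_mem _ (ιZ f)
    · exact fun a b => Subalgebra.add_mem _
    · exact fun a b => Subalgebra.mul_mem _
  · intro hfin
    haveI hZ : Algebra.IsAlgebraic F (Subring.center Ds) := ⟨fun z =>
      (isAlgebraic_algHom_iff (IsScalarTower.toAlgHom F (Subring.center Ds) Ds)
        Subtype.val_injective).1 (hFD.isAlgebraic _)⟩
    let e := Module.finBasis (Subring.center Ds) Ds
    set n := finrank (Subring.center Ds) Ds
    let s : Set (Subring.center Ds) :=
      Set.range (fun q : (Fin n × Fin n ⊕ Fin n × Fin n) ⊕ Fin n => match q with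
        | .inl (.inl q) => e.repr (x' * e q.1) q.2
        | .inl (.inr q) => e.repr (y' * e q.1) q.2
        | .inr q => e.repr 1 q)
    let B := Algebra.adjoin F s
    haveI : Module.Finite F B := Algebra.finite_adjoin_of_finite_of_isIntegral (Set.finite_range _)
      fun z _ => (hZ.isAlgebraic z).isIntegral
    let M : Submodule B Ds := Submodule.span B (Set.range e)
    have hrep : ∀ a : Ds, (∀ i, e.repr a i ∈ B) → a ∈ M := by
      intro a ha
      rw [← e.sum_repr a]
      refine Submodule.sum_mem _ fun i _ => ?_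
      exact M.smul_mem (⟨_, ha i⟩ : B) (Submodule.subset_span ⟨i, rfl⟩)
    have hmul : ∀ a : Ds, (∀ i, a * e i ∈ M) → ∀ m ∈ M, a * m ∈ M := by
      intro a ha m hm
      induction hm using Submodule.span_induction with
      | mem z hz =>
        obtain ⟨i, rfl⟩ := hz
        exact ha i
      | zero => simp
      | add u v _ _ ihu ihv => rw [mul_add]; exact M.add_mem ihu ihv
      | smul b u _ ihu =>
        have : a * (b • u) = b • (a * u) := by
          show a * ((b : Subring.center Ds) • u) = (b : Subring.center Ds) • (a * u)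
          exact mul_smul_comm _ _ _
        rw [this]
        exact M.smul_mem b ihu
    have hall : ∀ a : Ds, ∀ m ∈ M, a * m ∈ M := by
      refine hgen (fun a => ∀ m ∈ M, a * m ∈ M) ?_ ?_ ?_ ?_ ?_
      · exact hmul _ fun i => hrep _ fun k => Algebra.subset_adjoin ⟨.inl (.inl (i, k)), rfl⟩
      · exact hmul _ fun i => hrep _ fun k => Algebra.subset_adjoin ⟨.inl (.inr (i, k)), rfl⟩
      · intro f m hm
        exact M.smul_mem (algebraMap F B f) hm
      · intro a b ha hb m hm
        rw [add_mul]; exact M.add_mem (ha m hm) (hb m hm)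
      · intro a b ha hb m hm
        rw [mul_assoc]; exact ha _ (hb m hm)
    have h1 : (1 : Ds) ∈ M := hrep _ fun k => Algebra.subset_adjoin ⟨.inr k, rfl⟩
    have htop : M = ⊤ := by
      rw [eq_top_iff]
      intro a _
      simpa using hall a 1 h1
    haveI : Module.Finite B Ds := ⟨by
      rw [← htop]
      exact Submodule.fg_span (Set.finite_range _)⟩
    haveI : Module.Finite F Ds := Module.Finite.trans B Ds
    obtain ⟨g, hg, hli⟩ := hind (finrank F Ds + 1)
    have hli' : LinearIndependent F (fun i => (⟨g i, hg i⟩ : Ds)) :=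
      LinearIndependent.of_comp j.toLinearMap hli
    have := hli'.fintype_card_le_finrank
    simp at this

end Crest.Agent.Ku
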