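import Crest.Agent.Ku.FinA

set_option autoImplicit false
set_option linter.style.haveILetI false

namespace Crest.Agent.Ku
open Module Filter

abbrev FW := FreeAlgebra ℤ (ℕ ⊕ Bool)

instance : Countable FW := by
  rw [← Cardinal.mk_le_aleph0_iff]
  refine le_trans (FreeAlgebra.cardinalMk_le_max ℤ (ℕ ⊕ Bool)) ?_
  simp

/-- ultraproduct step: from a sequence of evaluations to the goal -/
theorem fin_ultra (K D : ℕ → Type) [∀ m, Field (K m)] [∀ m, CharZero (K m)]
    [∀ m, DivisionRing (D m)] [∀ m, Algebra (K m) (D m)] (v : ∀ m, ℕ → K m)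
    (ev : ∀ m, FW →+* D m)
    (hv : ∀ m i, ev m (FreeAlgebra.ι ℤ (Sum.inl i)) = algebraMap (K m) (D m) (v m i))
    (halg : ∀ w : FW, ∃ N d : ℕ, ∀ᶠ m in atTop, v m (N + d) ≠ 0 ∧
      ∑ j ∈ Finset.range (d + 1), algebraMap (K m) (D m) (v m (N + j)) * ev m w ^ j = 0)
    (hind : ∀ n, ∃ g : Fin n → FW,
      (∀ i, g i ∈ Submonoid.closure (Set.range fun b => FreeAlgebra.ι ℤ (Sum.inr b : ℕ ⊕ Bool))) ∧
      ∀ᶠ m in atTop, LinearIndependent (K m) fun i => ev m (g i)) : Goal := by
  classical
  let U : Ultrafilter ℕ := hyperfilter ℕ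
  have hU : ∀ {p : ℕ → Prop}, (∀ᶠ m in atTop, p m) → ∀ᶠ m in (U : Filter ℕ), p m := fun h => by
    rw [← Nat.cofinite_eq_atTop] at h
    exact hyperfilter_le_cofinite h
  let J : Ideal (∀ m, D m) :=
    { carrier := {f | ∀ᶠ m in (U : Filter ℕ), f m = 0}
      add_mem' := fun {a b} ha hb => (ha.and hb).mono fun m h => by simp [h.1, h.2]
      zero_mem' := Eventually.of_forall fun m => rfl
      smul_mem' := fun c a ha => Eventually.mono ha fun m h => by simp [h] }
  haveI : J.IsTwoSided := ⟨fun {a} b ha => Eventually.mono ha fun m h => by simp [h]⟩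
  let P := (∀ m, D m) ⧸ J
  let mk : (∀ m, D m) →+* P := Ideal.Quotient.mk J
  have hmk0 : ∀ f, mk f = 0 ↔ ∀ᶠ m in (U : Filter ℕ), f m = 0 := fun f =>
    Ideal.Quotient.eq_zero_iff_mem
  have hmkeq : ∀ f g, (∀ᶠ m in (U : Filter ℕ), f m = g m) → mk f = mk g := fun f g h => by
    rw [← sub_eq_zero, ← map_sub, hmk0]
    exact h.mono fun m hm => by simp [hm]
  haveI : Nontrivial P := ⟨1, 0, fun h => by
    rw [← map_one mk, hmk0] at h
    obtain ⟨m, hm⟩ := h.exists
    simp at hm⟩
  have hinv : ∀ f, mk f ≠ 0 → mk f * mk (fun m => (f m)⁻¹) = 1 ∧ mk (fun m => (f m)⁻¹) * mk f = 1 := by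
    intro f hf
    rw [Ne, hmk0, ← Ultrafilter.eventually_not] at hf
    rw [← map_mul, ← map_mul, ← map_one mk]
    exact ⟨hmkeq _ _ (hf.mono fun m hm => by simp [hm]), hmkeq _ _ (hf.mono fun m hm => by simp [hm])⟩
  letI : DivisionRing P := DivisionRing.ofIsUnitOrEqZero fun a => by
    obtain ⟨f, rfl⟩ := Ideal.Quotient.mk_surjective a
    by_cases hf : mk f = 0
    · exact Or.inr hf
    · exact Or.inl ⟨⟨mk f, _, (hinv f hf).1, (hinv f hf).2⟩, rfl⟩
  haveI : CharZero P := ⟨fun a b h => by
    rw [← sub_eq_zero, ← map_natCast mk, ← map_natCast mk, ← map_sub, hmk0] at h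
    obtain ⟨m, hm⟩ := h.exists
    haveI : CharZero (D m) := charZero_of_injective_algebraMap (algebraMap (K m) (D m)).injective
    have : (a : D m) = b := by simpa [sub_eq_zero] using hm
    exact_mod_cast this⟩
  let E : FW →+* P := mk.comp (RingHom.pi ev)
  have hE : ∀ w, E w = mk fun m => ev m w := fun w => rfl
  let sc : (∀ m, K m) → Subring.center P := fun k =>
    ⟨mk fun m => algebraMap (K m) (D m) (k m), Subring.mem_center_iff.2 fun a => by
      obtain ⟨f, rfl⟩ := Ideal.Quotient.mk_surjective a
      show mk f * mk _ = mk _ * mk f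
      rw [← map_mul, ← map_mul]
      congr 1
      ext m
      exact (Algebra.commutes _ _).symm⟩
  let c' : ℕ → Subring.center P := fun i => sc fun m => v m i
  have hc' : ∀ i, (c' i : P) = E (FreeAlgebra.ι ℤ (Sum.inl i)) := fun i => by
    rw [hE]
    show mk _ = mk _
    congr 1
    ext m
    exact (hv m i).symm
  let F : Subfield (Subring.center P) := Subfield.closure (Set.range c')
  let ι : F →+* P := (Subring.center P).subtype.comp F.subtype
  letI : Algebra F P := ι.toAlgebra' fun f a => (Subring.mem_center_iff.1 f.1.2 a).symm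
  have hι : ∀ f : F, algebraMap F P f = (f.1 : P) := fun f => rfl
  let cF : ℕ → F := fun i => ⟨c' i, Subfield.subset_closure ⟨i, rfl⟩⟩
  have hsub : ∀ z ∈ Subring.closure (Set.range c'), ∃ w, (z : P) = E w := by
    intro z hz
    induction hz using Subring.closure_induction with
    | mem z hz =>
      obtain ⟨i, rfl⟩ := hz
      exact ⟨_, hc' i⟩
    | zero => exact ⟨0, by simp⟩
    | one => exact ⟨1, by simp⟩
    | add a b _ _ ha hb =>
      obtain ⟨u, hu⟩ := ha
      obtain ⟨w, hw⟩ := hb
      exact ⟨u + w, by simp [hu, hw]⟩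
    | neg a _ ha =>
      obtain ⟨u, hu⟩ := ha
      exact ⟨-u, by simp [hu]⟩
    | mul a b _ _ ha hb =>
      obtain ⟨u, hu⟩ := ha
      obtain ⟨w, hw⟩ := hb
      exact ⟨u * w, by simp [hu, hw]⟩
  set x := E (FreeAlgebra.ι ℤ (Sum.inr true)) with hx
  set y := E (FreeAlgebra.ι ℤ (Sum.inr false)) with hy
  have hrep : ∀ a ∈ Algebra.adjoin F ({x, y} : Set P), ∃ (d : F) (u w : FW), d ≠ 0 ∧
      algebraMap F P d = E u ∧ algebraMap F P d * a = E w := by
    intro a ha
    induction ha using Algebra.adjoin_induction with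
    | mem z hz =>
      rcases hz with rfl | rfl
      · exact ⟨1, 1, _, one_ne_zero, by simp, by rw [map_one, one_mul]⟩
      · exact ⟨1, 1, _, one_ne_zero, by simp, by rw [map_one, one_mul]⟩
    | algebraMap f =>
      obtain ⟨a, ha, b, hb, hab⟩ := Subfield.mem_closure_iff.1 f.2
      obtain ⟨u, hu⟩ := hsub a ha
      obtain ⟨w, hw⟩ := hsub b hb
      by_cases hb0 : b = 0
      · refine ⟨1, 1, 0, one_ne_zero, by simp, ?_⟩
        have : f = 0 := Subtype.ext (by rw [← hab, hb0]; simp)
        simp [this]
      · have hbF : b ∈ F := Subfield.subring_closure_le _ hb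
        refine ⟨⟨b, hbF⟩, w, u, fun h => hb0 (congrArg Subtype.val h), hw, ?_⟩
        rw [← map_mul, hι, ← hu]
        congr 1
        show b * f.1 = a
        rw [← hab]
        field_simp
    | add a b _ _ ha hb =>
      obtain ⟨d, u, w, h0, h1, h2⟩ := ha
      obtain ⟨d', u', w', h0', h1', h2'⟩ := hb
      refine ⟨d * d', u * u', u' * w + u * w', mul_ne_zero h0 h0', by simp [h1, h1'], ?_⟩
      rw [map_add, map_mul E, map_mul E, ← h1, ← h1', ← h2, ← h2', mul_add, ← mul_assoc,
        ← mul_assoc, ← map_mul, ← map_mul, mul_comm d' d]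
    | mul a b _ _ ha hb =>
      obtain ⟨d, u, w, h0, h1, h2⟩ := ha
      obtain ⟨d', u', w', h0', h1', h2'⟩ := hb
      refine ⟨d * d', u * u', w * w', mul_ne_zero h0 h0', by simp [h1, h1'], ?_⟩
      rw [map_mul E, ← h2, ← h2', map_mul, mul_assoc, mul_assoc, ← mul_assoc a,
        ← Algebra.commutes d' a, mul_assoc]
  have hEalg : ∀ w, IsAlgebraic F (E w) := by
    intro w
    obtain ⟨N, d, h⟩ := halg w
    have h := hU h
    refine ⟨∑ j ∈ Finset.range (d + 1), Polynomial.monomial j (cF (N + j)), ?_, ?_⟩
    · intro h0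
      have h1 := congrArg (fun p => Polynomial.coeff p d) h0
      simp only [Polynomial.finsetSum_coeff, Polynomial.coeff_monomial, Polynomial.coeff_zero] at h1
      rw [Finset.sum_ite_eq'] at h1
      simp only [Finset.mem_range, lt_add_iff_pos_right, zero_lt_one, if_true] at h1
      have h2 : mk (fun m => algebraMap (K m) (D m) (v m (N + d))) = 0 :=
        congrArg (fun f : F => (f.1 : P)) h1
      rw [hmk0] at h2
      obtain ⟨m, hm1, hm2⟩ := (h.and h2).exists
      exact hm1.1 ((map_eq_zero _).1 hm2)
    · rw [map_sum]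
      simp only [Polynomial.aeval_monomial]
      have : ∀ j, algebraMap F P (cF (N + j)) * E w ^ j =
          mk fun m => algebraMap (K m) (D m) (v m (N + j)) * ev m w ^ j := fun j => by
        rw [hE, ← map_pow]
        exact (map_mul mk _ _).symm
      simp only [this]
      rw [← map_sum, hmk0]
      exact h.mono fun m hm => by rw [Finset.sum_apply]; exact hm.2
  refine fin_abs F P x y ?_ ?_ ?_
  · intro a ha
    obtain ⟨d, u, w, h0, -, h2⟩ := hrep a ha
    have : a = algebraMap F P d⁻¹ * E w := by
      rw [← h2, ← mul_assoc, ← map_mul, inv_mul_cancel₀ h0, map_one, one_mul]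
    rw [this]
    have h3 := (hEalg w).smul d⁻¹
    rwa [Algebra.smul_def] at h3
  · refine Set.Countable.mono ?_ (Set.countable_range fun q : FW × FW => (E q.1)⁻¹ * E q.2)
    intro a ha
    obtain ⟨d, u, w, h0, h1, h2⟩ := hrep a ha
    refine ⟨(u, w), ?_⟩
    have : algebraMap F P d ≠ 0 := (map_ne_zero _).2 h0
    simp only
    rw [← h1, ← h2, ← mul_assoc, inv_mul_cancel₀ this, one_mul]
  · intro n
    obtain ⟨g, hg, hli⟩ := hind n
    have hli := hU hli
    refine ⟨fun i => E (g i), fun i => ?_, ?_⟩
    · have := hg i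
      show E (g i) ∈ _
      generalize g i = w at this
      induction this using Submonoid.closure_induction with
      | mem z hz =>
        obtain ⟨b, rfl⟩ := hz
        cases b
        · exact Algebra.subset_adjoin (by simp [hy])
        · exact Algebra.subset_adjoin (by simp [hx])
      | one => simp
      | mul a b _ _ ha hb => rw [map_mul]; exact Subalgebra.mul_mem _ ha hb
    · have hF : ∀ z ∈ F, ∃ k, z = sc k := by
        intro z hz
        induction hz using Subfield.closure_induction with
        | mem z hz =>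
          obtain ⟨i, rfl⟩ := hz
          exact ⟨_, rfl⟩
        | one => exact ⟨1, Subtype.ext (by
            show (1 : P) = mk _
            rw [← map_one mk]; congr 1; ext m; simp)⟩
        | add a b _ _ ha hb =>
          obtain ⟨k, rfl⟩ := ha
          obtain ⟨k', rfl⟩ := hb
          exact ⟨k + k', Subtype.ext (by
            show mk _ + mk _ = mk _
            rw [← map_add]; congr 1; ext m; simp)⟩
        | neg a _ ha =>
          obtain ⟨k, rfl⟩ := ha
          exact ⟨-k, Subtype.ext (by
            show - mk _ = mk _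
            rw [← map_neg]; congr 1; ext m; simp)⟩
        | inv a _ ha =>
          obtain ⟨k, rfl⟩ := ha
          by_cases h0 : sc k = 0
          · exact ⟨k, by rw [h0, inv_zero]⟩
          · refine ⟨fun m => (k m)⁻¹, ?_⟩
            refine inv_eq_of_mul_eq_one_right (Subtype.ext ?_)
            have h1 := (hinv (fun m => algebraMap (K m) (D m) (k m))
              (fun h => h0 (Subtype.ext h))).1
            show mk _ * mk _ = 1
            rw [← h1]
            congr 2
            ext m
            simp
        | mul a b _ _ ha hb =>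
          obtain ⟨k, rfl⟩ := ha
          obtain ⟨k', rfl⟩ := hb
          exact ⟨k * k', Subtype.ext (by
            show mk _ * mk _ = mk _
            rw [← map_mul]; congr 1; ext m; simp)⟩
      rw [Fintype.linearIndependent_iff]
      intro f hf i
      choose k hk using fun i => hF (f i).1 (f i).2
      simp only [Algebra.smul_def] at hf
      have : ∀ i, algebraMap F P (f i) * E (g i) = mk fun m => k i m • ev m (g i) := fun i => by
        rw [hι, hk i, hE]
        show mk _ * mk _ = _
        rw [← map_mul]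
        congr 1
        ext m
        simp [Algebra.smul_def]
      simp only [this] at hf
      rw [← map_sum, hmk0] at hf
      refine Subtype.ext ?_
      rw [hk i]
      refine Subtype.ext ((hmk0 _).2 ?_)
      refine (hf.and hli).mono fun m hm => ?_
      have h1 := hm.1
      rw [Finset.sum_apply] at h1
      rw [Fintype.linearIndependent_iff.1 hm.2 (fun i => k i m) h1 i, map_zero]

end Crest.Agent.Ku
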