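import Crest.Agent.Ku.Pt0

/-! S0270, piece Grow. -/

set_option autoImplicit false

namespace Crest.Agent.Ku
open Module PowerSeries

set_option maxHeartbeats 800000 in
theorem grow7 (hB : Base) (hA : PtAStmt) : GrowStmt := by
  classical
  obtain ⟨-, -, -, hExp, -, hLead, hExt, -, hTen, -, -, -, -, hInn⟩ := hB
  intro S hroom
  obtain ⟨ξ, hξ⟩ : ∃ ξ, S.tau ξ ∉ S.Inn := by
    by_contra h
    push Not at h
    have h1 : Submodule.span S.K (Set.range S.tau) ⊔ S.Inn = S.Inn := by
      apply sup_eq_right.2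
      rw [Submodule.span_le]
      rintro _ ⟨l, rfl⟩
      exact h l
    have h2 : finrank S.K S.Inn ≤ finrank S.K S.D := LinearMap.finrank_range_le _
    unfold St.room at hroom
    rw [h1] at hroom
    omega
  obtain ⟨K₁, D₁, _, _, _, _, _, ⟨E⟩⟩ := hExt 2 (by norm_num) S.K S.D
  have hu1 : E.u ∈ E.tenR 1 := by
    have := E.mono_one (by norm_num) (P := fun _ _ => True) 1 0 trivial
    rwa [pow_one, pow_zero, mul_one] at this
  let ω : S.ι → D₁⟦X⟧ := fun j => X * C (E.φ (ξ j) • E.u)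
  have hAdm : Adm E ω := by
    intro j i
    cases i with
    | zero => simp [ω]
    | succ i =>
      simp only [ω, coeff_succ_X_mul, coeff_C]
      split_ifs
      · exact Submodule.smul_mem _ _ hu1
      · exact Submodule.zero_mem _
  have hω0 : ∀ j, constantCoeff (ω j) = 0 := fun j => by simp [ω]
  obtain ⟨e, hEv⟩ := E.exists_ev ω hAdm hω0
  obtain ⟨S', hRel, ⟨P⟩⟩ := hA S 2 K₁ D₁ E ω e 1 (by norm_num) hAdm hω0 hEv
  refine ⟨S', hRel.1, ?_, ?_⟩
  · have := hRel.2.2.2 1 hroom
    unfold St.room at this ⊢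
    omega
  obtain ⟨-, -, hL3, -, hjK, hX, -⟩ := hLead K₁ D₁ S'.K S'.D P.L
  have hx : P.L.jK X ≠ 0 := fun h => X_ne_zero (hjK (h.trans (map_zero _).symm))
  obtain ⟨B, hB1, hB2⟩ := hL3 (Algebra.adjoin S'.K {S'.x [], S'.y []})
  rw [← hB2]
  by_contra hlt
  apply hξ
  obtain ⟨A, hAdef⟩ : ∃ A, A = Algebra.adjoin S.K {S.x [], S.y []} := ⟨_, rfl⟩
  rw [← hAdef] at hlt
  let 𝒜 : Subalgebra S.K (NC S.ι S.D) := Algebra.adjoin S.K {S.x, S.y}
  let dt : NC S.ι S.D → S.D := fun f => ∑ j, ξ j • f [j]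
  obtain ⟨hE1, -⟩ := hExp S.ι S.D D₁ E.ψ ω e 1 le_rfl
    (fun j => by rw [pow_one]; exact Dvd.intro _ rfl) hEv
  have hexp : ∀ f, ∃ w, e f = C (E.ψ (f [])) + X * (C (E.ψ (dt f) * E.u) + X * w) := by
    intro f
    obtain ⟨w, hw⟩ := hE1 f
    refine ⟨w, ?_⟩
    have h1 : ∑ j, ω j * C (E.ψ (f [j])) = X * C (E.ψ (dt f) * E.u) := by
      simp only [ω, dt, map_sum, Finset.sum_mul, Finset.mul_sum]
      refine Finset.sum_congr rfl fun j _ => ?_
      rw [mul_assoc, ← map_mul, E.psi_smul, smul_mul_assoc, smul_mul_assoc, (E.cu _).eq]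
    rw [h1] at hw
    rw [mul_add, ← mul_assoc, ← sq, ← hw]
    abel
  have hmem : ∀ f ∈ 𝒜, P.L.jD (e f) ∈ Algebra.adjoin S'.K {S'.x [], S'.y []} := by
    intro f hf
    induction hf using Algebra.adjoin_induction with
    | mem f hf =>
      rcases hf with rfl | rfl
      · rw [← P.x0]; exact Algebra.subset_adjoin (Or.inl rfl)
      · rw [← P.y0]; exact Algebra.subset_adjoin (Or.inr rfl)
    | algebraMap k =>
      have h1 : e (algebraMap S.K (NC S.ι S.D) k) =
          PowerSeries.map (algebraMap K₁ D₁) (C (E.φ k)) := by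
        rw [hEv, NC.algebraMap_eq]
        have : ∀ j, NC.tl j (NC.C (algebraMap S.K S.D k) : NC S.ι S.D) = 0 := fun j => rfl
        simp [this, E.compat]
      rw [h1, P.L.compat]
      exact Subalgebra.algebraMap_mem _ _
    | add f g _ _ hf hg => rw [map_add, map_add]; exact Subalgebra.add_mem _ hf hg
    | mul f g _ _ hf hg => rw [map_mul, map_mul]; exact Subalgebra.mul_mem _ hf hg
  have hct : ∀ f ∈ 𝒜, f [] ∈ A := by
    intro f hf
    rw [hAdef]
    induction hf using Algebra.adjoin_induction with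
    | mem f hf =>
      rcases hf with rfl | rfl
      · exact Algebra.subset_adjoin (Or.inl rfl)
      · exact Algebra.subset_adjoin (Or.inr rfl)
    | algebraMap k => exact Subalgebra.algebraMap_mem _ k
    | add f g _ _ hf hg => exact Subalgebra.add_mem _ hf hg
    | mul f g _ _ hf hg => exact Subalgebra.mul_mem _ hf hg
  have hsurj : ∀ a ∈ A, ∃ f ∈ 𝒜, f [] = a := by
    intro a ha
    rw [hAdef] at ha
    induction ha using Algebra.adjoin_induction with
    | mem a ha =>
      rcases ha with rfl | rfl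
      · exact ⟨S.x, Algebra.subset_adjoin (Or.inl rfl), rfl⟩
      · exact ⟨S.y, Algebra.subset_adjoin (Or.inr rfl), rfl⟩
    | algebraMap k => exact ⟨_, Subalgebra.algebraMap_mem _ k, rfl⟩
    | add a b _ _ ha hb =>
      obtain ⟨f, hf, rfl⟩ := ha
      obtain ⟨g, hg, rfl⟩ := hb
      exact ⟨f + g, Subalgebra.add_mem _ hf hg, rfl⟩
    | mul a b _ _ ha hb =>
      obtain ⟨f, hf, rfl⟩ := ha
      obtain ⟨g, hg, rfl⟩ := hb
      exact ⟨f * g, Subalgebra.mul_mem _ hf hg, rfl⟩
  have hAB : ∀ a ∈ A, E.ψ a ∈ B := by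
    intro a ha
    obtain ⟨f, hf, rfl⟩ := hsurj a ha
    obtain ⟨w, hw⟩ := hexp f
    have : E.ψ (f []) ∈ (B : Set D₁) := by
      rw [hB1]
      exact ⟨e f, hmem f hf, by rw [hw]; simp⟩
    exact this
  have hker : ∀ f ∈ 𝒜, f [] = 0 → dt f = 0 := by
    intro f hf h0
    by_contra hne
    apply hlt
    obtain ⟨w, hw⟩ := hexp f
    rw [h0, map_zero, map_zero, zero_add] at hw
    have h1 : E.ψ (dt f) * E.u ∈ (B : Set D₁) := by
      rw [hB1]
      refine ⟨C (E.ψ (dt f) * E.u) + X * w, ?_, by simp⟩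
      have h2 := hmem f hf
      rw [hw, map_mul, hX, ← Algebra.smul_def] at h2
      have h3 := Subalgebra.smul_mem _ h2 (P.L.jK X)⁻¹
      rwa [inv_smul_smul₀ hx] at h3
    let bA := Module.finBasis S.K A
    have hli : LinearIndependent S.K fun i => (bA i : S.D) :=
      bA.linearIndependent.map' A.val.toLinearMap (LinearMap.ker_eq_bot.2 Subtype.val_injective)
    have hli2 := (E.ind _ _ hli).comp
      (fun i => (i, (0 : Fin 2), (0 : Fin 2))) (fun i j h => congrArg Prod.fst h)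
    have hli3 : LinearIndependent K₁ fun i => E.ψ (bA i : S.D) := by
      convert hli2 using 1
      ext i
      simp
    let T := Submodule.span K₁ (Set.range fun i => E.ψ (bA i : S.D))
    have hT1 : finrank K₁ T = finrank S.K A := by
      rw [finrank_span_eq_card hli3, Fintype.card_fin]
    have hT2 : T ≤ Subalgebra.toSubmodule B := by
      rw [Submodule.span_le]
      rintro _ ⟨i, rfl⟩
      exact hAB _ (bA i).2
    have hT3 : E.ψ (dt f) * E.u ∉ T := by
      intro hT
      have hcm : ∀ z ∈ T, Commute z E.v := by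
        intro z hz
        induction hz using Submodule.span_induction with
        | mem z hz => obtain ⟨i, rfl⟩ := hz; exact E.cv _
        | zero => exact Commute.zero_left _
        | add x y _ _ hx hy => exact hx.add_left hy
        | smul k x _ hx => exact hx.smul_left k
      have h2 := (hcm _ hT).eq
      rw [← mul_assoc, ← (E.cv _).eq, mul_assoc, mul_assoc, E.vu] at h2
      have h3 : E.ψ (dt f) ≠ 0 := (map_ne_zero E.ψ).2 hne
      have h4 := mul_left_cancel₀ h3 h2
      have hu : E.u ≠ 0 := by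
        obtain ⟨s, hs, h⟩ := E.ur
        intro h0
        rw [h0, zero_pow (by norm_num)] at h
        exact hs ((_root_.map_eq_zero (algebraMap K₁ D₁)).1 h.symm)
      have hv : E.v ≠ 0 := by
        obtain ⟨s, hs, h⟩ := E.vr
        intro h0
        rw [h0, zero_pow (by norm_num)] at h
        exact hs ((_root_.map_eq_zero (algebraMap K₁ D₁)).1 h.symm)
      have h5 : (1 - E.ζ) • (E.u * E.v) = 0 := by rw [sub_smul, one_smul, ← h4, sub_self]
      rcases smul_eq_zero.1 h5 with h6 | h6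
      · exact E.hζ.ne_one (by norm_num) (sub_eq_zero.1 h6).symm
      · exact mul_ne_zero hu hv h6
    have hT4 : T < Subalgebra.toSubmodule B :=
      lt_of_le_of_ne hT2 fun h => hT3 (h ▸ h1)
    rw [← hT1]
    exact Submodule.finrank_lt_finrank_of_lt hT4
  have hsm : ∀ (k : S.K) (f : NC S.ι S.D) (w : List S.ι), (k • f) w = k • f w := by
    intro k f w
    rw [Algebra.smul_def, NC.algebraMap_eq, NC.C_mul, Algebra.smul_def]
  let f1 : 𝒜 →ₗ[S.K] A :=
    { toFun := fun f => ⟨f.1 [], hct _ f.2⟩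
      map_add' := fun f g => rfl
      map_smul' := fun k f => Subtype.ext (hsm k f.1 []) }
  let f2 : 𝒜 →ₗ[S.K] S.D :=
    { toFun := fun f => dt f.1
      map_add' := fun f g => by simp [dt, Finset.sum_add_distrib]
      map_smul' := fun k f => by
        simp only [dt, Subalgebra.coe_smul, hsm, RingHom.id_apply, Finset.smul_sum]
        exact Finset.sum_congr rfl fun j _ => smul_comm _ _ _ }
  have hf1 : LinearMap.range f1 = ⊤ := by
    rw [eq_top_iff]
    rintro ⟨a, ha⟩ -
    obtain ⟨f, hf, rfl⟩ := hsurj a ha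
    exact ⟨⟨f, hf⟩, rfl⟩
  obtain ⟨g, hg⟩ := f1.exists_rightInverse_of_surjective hf1
  have hδ : ∀ f : 𝒜, (f2 ∘ₗ g) (f1 f) = f2 f := by
    intro f
    have h1 : f1 (g (f1 f) - f) = 0 := by
      rw [map_sub, show f1 (g (f1 f)) = f1 f from LinearMap.congr_fun hg _, sub_self]
    have h2 : f2 (g (f1 f) - f) = 0 := hker _ (g (f1 f) - f).2 (congrArg Subtype.val h1)
    rw [map_sub, sub_eq_zero] at h2
    exact h2
  obtain ⟨γ, hγ⟩ := hInn S.K S.D A (f2 ∘ₗ g) (by
    intro a b
    obtain ⟨fa, rfl⟩ := (hf1 ▸ Submodule.mem_top : a ∈ LinearMap.range f1)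
    obtain ⟨fb, rfl⟩ := (hf1 ▸ Submodule.mem_top : b ∈ LinearMap.range f1)
    have h1 : f1 fa * f1 fb = f1 (fa * fb) := rfl
    rw [h1, hδ, hδ, hδ]
    show dt (fa.1 * fb.1) = dt fa.1 * fb.1 [] + fa.1 [] * dt fb.1
    simp only [dt, NC.mul_one_letter, smul_add, Finset.sum_add_distrib, Finset.sum_mul,
      Finset.mul_sum, smul_mul_assoc, mul_smul_comm]
    rw [add_comm])
  refine ⟨γ, Prod.ext ?_ ?_⟩
  · have := hγ (f1 ⟨S.x, Algebra.subset_adjoin (Or.inl rfl)⟩)
    rw [hδ] at this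
    exact this.symm
  · have := hγ (f1 ⟨S.y, Algebra.subset_adjoin (Or.inr rfl)⟩)
    rw [hδ] at this
    exact this.symm

end Crest.Agent.Ku
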