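import Mathlib

/-! Noncommutative power series, filtered rings (S0270). -/

set_option autoImplicit false

namespace Crest.Agent.Ku

/-- noncommutative power series in the variables `ι` (commuting with the coefficients `A`) -/
def NC (ι A : Type) : Type := List ι → A

namespace NC
variable {ι A : Type} [Ring A]

instance : AddCommGroup (NC ι A) := inferInstanceAs (AddCommGroup (List ι → A))

@[ext] lemma ext {f g : NC ι A} (h : ∀ w, f w = g w) : f = g := funext h

@[simp] lemma add_apply (f g : NC ι A) (w : List ι) : (f + g) w = f w + g w := rfl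
@[simp] lemma sub_apply (f g : NC ι A) (w : List ι) : (f - g) w = f w - g w := rfl
@[simp] lemma neg_apply (f : NC ι A) (w : List ι) : (-f) w = -f w := rfl
@[simp] lemma zero_apply (w : List ι) : (0 : NC ι A) w = 0 := rfl
lemma sum_apply {κ : Type} (s : Finset κ) (f : κ → NC ι A) (w : List ι) :
    (∑ i ∈ s, f i) w = ∑ i ∈ s, f i w := Finset.sum_apply w s f

/-- the constant series -/
def cst (a : A) : NC ι A := fun w => match w with
  | [] => a
  | _ :: _ => 0

/-- left derivative -/
def tl (i : ι) (f : NC ι A) : NC ι A := fun w => f (i :: w)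

/-- convolution -/
def mulF (f g : NC ι A) : List ι → A
  | [] => f [] * g []
  | i :: w => f [] * g (i :: w) + mulF (tl i f) g w

instance : Mul (NC ι A) := ⟨mulF⟩
instance : One (NC ι A) := ⟨cst 1⟩

@[simp] lemma mul_nil (f g : NC ι A) : (f * g) [] = f [] * g [] := rfl
lemma mul_cons (f g : NC ι A) (i : ι) (w : List ι) :
    (f * g) (i :: w) = f [] * g (i :: w) + (tl i f * g) w := rfl
@[simp] lemma cst_nil (a : A) : (cst a : NC ι A) [] = a := rfl
@[simp] lemma cst_cons (a : A) (i : ι) (w : List ι) : (cst a : NC ι A) (i :: w) = 0 := rfl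
@[simp] lemma tl_apply (i : ι) (f : NC ι A) (w : List ι) : tl i f w = f (i :: w) := rfl

lemma zero_mul' (g : NC ι A) (w : List ι) : ((0 : NC ι A) * g) w = 0 := by
  induction w with
  | nil => simp
  | cons i w ih =>
    have : tl i (0 : NC ι A) = 0 := rfl
    rw [mul_cons, this, ih]; simp

lemma mul_zero' (w : List ι) : ∀ f : NC ι A, (f * (0 : NC ι A)) w = 0 := by
  induction w with
  | nil => simp
  | cons i w ih => intro f; rw [mul_cons, ih]; simp

lemma cst_mul (a : A) (g : NC ι A) (w : List ι) : ((cst a : NC ι A) * g) w = a * g w := by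
  cases w with
  | nil => simp
  | cons i w =>
    rw [mul_cons]
    have : tl i (cst a : NC ι A) = 0 := rfl
    rw [this, zero_mul']; simp

lemma mul_cst (a : A) (w : List ι) : ∀ f : NC ι A, (f * (cst a : NC ι A)) w = f w * a := by
  induction w with
  | nil => simp
  | cons i w ih => intro f; rw [mul_cons, ih]; simp

lemma add_mul' (g : NC ι A) (w : List ι) : ∀ f f' : NC ι A,
    ((f + f') * g) w = (f * g) w + (f' * g) w := by
  induction w with
  | nil => simp [add_mul]
  | cons i w ih =>
    intro f f'
    have : tl i (f + f') = tl i f + tl i f' := rfl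
    rw [mul_cons, mul_cons, mul_cons, this, ih]; simp [add_mul]; abel

lemma mul_add' (g g' : NC ι A) (w : List ι) : ∀ f : NC ι A,
    (f * (g + g')) w = (f * g) w + (f * g') w := by
  induction w with
  | nil => simp [mul_add]
  | cons i w ih => intro f; rw [mul_cons, mul_cons, mul_cons, ih]; simp [mul_add]; abel

lemma tl_mul (i : ι) (f g : NC ι A) : tl i (f * g) = (cst (f []) : NC ι A) * tl i g + tl i f * g := by
  ext w; rw [tl_apply, mul_cons, add_apply, cst_mul, tl_apply]

lemma cst_mul_assoc (a : A) (h : NC ι A) (w : List ι) : ∀ g : NC ι A,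
    (((cst a : NC ι A) * g) * h) w = a * (g * h) w := by
  induction w with
  | nil => simp [mul_assoc]
  | cons i w ih =>
    intro g
    have : tl i ((cst a : NC ι A) * g) = (cst a : NC ι A) * tl i g := by
      ext w; rw [tl_apply, cst_mul, cst_mul, tl_apply]
    rw [mul_cons, mul_cons, this, ih]; simp [mul_add, mul_assoc]

lemma mul_assoc' (h : NC ι A) (w : List ι) : ∀ f g : NC ι A,
    ((f * g) * h) w = (f * (g * h)) w := by
  induction w with
  | nil => simp [mul_assoc]
  | cons i w ih =>
    intro f g
    rw [mul_cons (f * g), mul_cons f (g * h), tl_mul, add_mul', cst_mul_assoc, ih, mul_cons g h]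
    simp [mul_add, mul_assoc, add_assoc]

instance : Ring (NC ι A) :=
  { (inferInstance : AddCommGroup (NC ι A)) with
    mul := (· * ·)
    one := 1
    mul_assoc := fun f g h => funext fun w => mul_assoc' h w f g
    one_mul := fun f => funext fun w => (cst_mul 1 f w).trans (one_mul _)
    mul_one := fun f => funext fun w => (mul_cst 1 w f).trans (mul_one _)
    left_distrib := fun f g g' => funext fun w => mul_add' g g' w f
    right_distrib := fun f f' g => funext fun w => add_mul' g w f f'
    zero_mul := fun g => funext fun w => zero_mul' g w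
    mul_zero := fun f => funext fun w => mul_zero' w f }

/-- constants as a ring homomorphism -/
def C : A →+* NC ι A where
  toFun := cst
  map_one' := rfl
  map_mul' a b := by
    ext w
    show (cst (a * b) : NC ι A) w = ((cst a : NC ι A) * (cst b : NC ι A)) w
    rw [cst_mul]; cases w <;> simp
  map_zero' := by ext w; cases w <;> simp
  map_add' a b := by ext w; cases w <;> simp

@[simp] lemma C_nil (a : A) : (C a : NC ι A) [] = a := rfl
@[simp] lemma C_cons (a : A) (i : ι) (w : List ι) : (C a : NC ι A) (i :: w) = 0 := rfl
lemma C_mul (a : A) (g : NC ι A) (w : List ι) : ((C a : NC ι A) * g) w = a * g w := cst_mul a g w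
lemma mul_C (a : A) (f : NC ι A) (w : List ι) : (f * (C a : NC ι A)) w = f w * a := mul_cst a w f

/-- the constant term -/
def ct : NC ι A →+* A where
  toFun f := f []
  map_one' := rfl
  map_mul' _ _ := rfl
  map_zero' := rfl
  map_add' _ _ := rfl

@[simp] lemma ct_apply (f : NC ι A) : ct f = f [] := rfl

open Classical in
/-- the variable -/
noncomputable def X (i : ι) : NC ι A := fun w => if w = [i] then 1 else 0

/-- coefficientwise map -/
def map {B : Type} [Ring B] (φ : A →+* B) : NC ι A →+* NC ι B where
  toFun f := fun w => φ (f w)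
  map_one' := by
    ext w
    cases w with
    | nil => exact φ.map_one
    | cons i w => exact φ.map_zero
  map_mul' f g := by
    ext w
    induction w generalizing f with
    | nil => simp
    | cons i w ih => rw [mul_cons, mul_cons, map_add, map_mul, ih]; rfl
  map_zero' := by ext w; simp
  map_add' f g := by ext w; simp

@[simp] lemma map_apply {B : Type} [Ring B] (φ : A →+* B) (f : NC ι A) (w : List ι) :
    map φ f w = φ (f w) := rfl

noncomputable instance {K : Type} [CommRing K] [Algebra K A] : Algebra K (NC ι A) :=
  RingHom.toAlgebra' (C.comp (algebraMap K A)) fun k f => by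
    ext w
    simp only [RingHom.comp_apply]
    rw [C_mul, mul_C, Algebra.commutes]

lemma algebraMap_eq {K : Type} [CommRing K] [Algebra K A] (k : K) :
    algebraMap K (NC ι A) k = C (algebraMap K A k) := rfl

lemma mul_one_letter (f g : NC ι A) (i : ι) : (f * g) [i] = f [] * g [i] + f [i] * g [] := rfl
lemma mul_two_letters (f g : NC ι A) (i j : ι) :
    (f * g) [i, j] = f [] * g [i, j] + (f [i] * g [j] + f [i, j] * g []) := rfl

end NC

end Crest.Agent.Ku
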