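import Crest.Agent.Ku.Defs2

/-! S0270, piece Nd: auxiliary lemmas. -/

set_option autoImplicit false

namespace Crest.Agent.Ku.NdP
open Module PowerSeries

section ext
variable {r : ℕ} {K D K₁ D₁ : Type} [Field K] [DivisionRing D] [Algebra K D] [Field K₁]
  [DivisionRing D₁] [Algebra K₁ D₁] (E : Ext r K D K₁ D₁)

lemma vu_pow (a : ℕ) : E.v * E.u ^ a = E.ζ ^ a • (E.u ^ a * E.v) := by
  induction a with
  | zero => simp
  | succ a ih =>
    rw [pow_succ, ← mul_assoc, ih, smul_mul_assoc, mul_assoc, E.vu, mul_smul_comm, smul_smul,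
      ← pow_succ, mul_assoc]

lemma vu_pow' (k a : ℕ) : E.v ^ k * E.u ^ a = E.ζ ^ (k * a) • (E.u ^ a * E.v ^ k) := by
  induction k with
  | zero => simp
  | succ k ih =>
    rw [pow_succ', mul_assoc, ih, mul_smul_comm, ← mul_assoc, vu_pow, smul_mul_assoc, smul_smul,
      ← pow_add, mul_assoc, add_mul, one_mul]

lemma mon_mod (α κ : ℕ) :
    ∃ σ : K₁, σ ≠ 0 ∧ E.u ^ α * E.v ^ κ = σ • (E.u ^ (α % r) * E.v ^ (κ % r)) := by
  obtain ⟨s, hs, hu⟩ := E.ur
  obtain ⟨t, ht, hv⟩ := E.vr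
  refine ⟨s ^ (α / r) * t ^ (κ / r), mul_ne_zero (pow_ne_zero _ hs) (pow_ne_zero _ ht), ?_⟩
  have h1 : E.u ^ α = s ^ (α / r) • E.u ^ (α % r) := by
    conv_lhs => rw [← Nat.div_add_mod α r]
    rw [pow_add, pow_mul, hu, ← map_pow, Algebra.smul_def]
  have h2 : E.v ^ κ = t ^ (κ / r) • E.v ^ (κ % r) := by
    conv_lhs => rw [← Nat.div_add_mod κ r]
    rw [pow_add, pow_mul, hv, ← map_pow, Algebra.smul_def]
  rw [h1, h2, smul_mul_assoc, mul_smul_comm, smul_smul]

lemma mem_ten (hr : 1 ≤ r) (U : Submodule K D) (P : ℕ → ℕ → Prop) {d : D} (hd : d ∈ U) (α κ : ℕ)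
    (hP : P (α % r) (κ % r)) : E.ψ d * (E.u ^ α * E.v ^ κ) ∈ E.ten U P := by
  obtain ⟨σ, -, h⟩ := mon_mod E α κ
  rw [h, mul_smul_comm]
  exact Submodule.smul_mem _ _ (Submodule.subset_span
    ⟨d, hd, _, Nat.mod_lt _ hr, _, Nat.mod_lt _ hr, hP, rfl⟩)

lemma ten_mono {U U' : Submodule K D} (h : U ≤ U') {P P' : ℕ → ℕ → Prop}
    (hP : ∀ a b, P a b → P' a b) : E.ten U P ≤ E.ten U' P' := by
  apply Submodule.span_mono
  rintro z ⟨d, hd, a, ha, b, hb, hp, rfl⟩
  exact ⟨d, h hd, a, ha, b, hb, hP a b hp, rfl⟩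

lemma comm_mon (d : D) (a b : ℕ) : Commute (E.ψ d) (E.u ^ a * E.v ^ b) :=
  ((E.cu d).pow_right a).mul_right ((E.cv d).pow_right b)

lemma comm_tenR (d : D) {z : D₁} (hz : z ∈ E.tenR 1) : Commute (E.ψ d) z := by
  induction hz using Submodule.span_induction with
  | mem z hz =>
    obtain ⟨d', hd', a, -, b, -, -, rfl⟩ := hz
    obtain ⟨k, rfl⟩ := Submodule.mem_one.1 hd'
    rw [E.compat]
    exact Commute.mul_right (Algebra.commutes _ _).symm (comm_mon E d a b)
  | zero => exact Commute.zero_right _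
  | add x y _ _ hx hy => exact hx.add_right hy
  | smul k x _ hx => exact hx.smul_right k

lemma psi_smul (k : K) (d : D) : E.ψ (k • d) = E.φ k • E.ψ d := by
  rw [Algebra.smul_def, map_mul, E.compat, Algebra.smul_def]

end ext

section lau
variable {K D K' D' : Type} [Field K] [DivisionRing D] [Algebra K D] [Field K']
  [DivisionRing D'] [Algebra K' D'] (L : Lau K D K' D')

lemma jD_map_mul (k : K⟦X⟧) (s : D⟦X⟧) :
    L.jD (PowerSeries.map (algebraMap K D) k * s) = L.jK k • L.jD s := by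
  rw [map_mul, L.compat, Algebra.smul_def]

lemma jD_X_pow_mul (hX : L.jD X = algebraMap K' D' (L.jK X)) (m : ℕ) (z : D') :
    L.jD X ^ m * z = L.jK X ^ m • z := by
  rw [hX, ← map_pow, Algebra.smul_def]

lemma integral (hX : L.jD X = algebraMap K' D' (L.jK X)) (U : Submodule K D)
    (hU : ∀ s, L.jD s ∈ L.sp U ↔ ∀ i, coeff i s ∈ U) {z : D'} (hz : z ∈ L.sp U) :
    ∃ m f, L.jK X ^ m • z = L.jD f ∧ ∀ i, coeff i f ∈ U := by
  obtain ⟨m, f, h⟩ := L.surjD z
  rw [jD_X_pow_mul L hX] at h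
  exact ⟨m, f, h, (hU f).1 (h ▸ Submodule.smul_mem _ _ hz)⟩

lemma prim {κ : Type} (hinj : Function.Injective L.jK) (y : κ → K') (m : ℕ) :
    ∀ (c : K') (k : κ → K⟦X⟧), c ≠ 0 → (∀ i, c * y i = L.jK (k i)) →
      (∃ i, coeff m (k i) ≠ 0) →
      ∃ (c : K') (k : κ → K⟦X⟧), c ≠ 0 ∧ (∀ i, c * y i = L.jK (k i)) ∧
        ∃ i, constantCoeff (k i) ≠ 0 := by
  have hx : L.jK X ≠ 0 := fun h => X_ne_zero (hinj (h.trans (map_zero _).symm))
  induction m with
  | zero => intro c k hc hk ⟨i, hi⟩; exact ⟨c, k, hc, hk, i, by simpa using hi⟩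
  | succ m ih =>
    intro c k hc hk ⟨i, hi⟩
    by_cases h : ∃ i, constantCoeff (k i) ≠ 0
    · exact ⟨c, k, hc, hk, h⟩
    · push Not at h
      choose k' hk' using fun i => X_dvd_iff.2 (h i)
      refine ih (c / L.jK X) k' (div_ne_zero hc hx) (fun i => ?_) ⟨i, ?_⟩
      · have := hk i
        rw [hk' i, map_mul] at this
        rw [div_mul_eq_mul_div, this]
        field_simp
      · rw [hk' i, coeff_succ_X_mul] at hi
        exact hi

lemma red [FiniteDimensional K D] (hinj : Function.Injective L.jK)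
    (hX : L.jD X = algebraMap K' D' (L.jK X)) (c : D' →ₗ[K'] K') (hc : c ≠ 0) :
    ∃ (κ : K') (cb : D →ₗ[K] K), κ ≠ 0 ∧ cb ≠ 0 ∧
      ∀ s, ∃ k, κ * c (L.jD s) = L.jK k ∧ constantCoeff k = cb (constantCoeff s) := by
  classical
  have hx : L.jK X ≠ 0 := fun h => X_ne_zero (hinj (h.trans (map_zero _).symm))
  let e := Module.finBasis K D
  have dec : ∀ s : D⟦X⟧, s = ∑ i, PowerSeries.map (algebraMap K D)
      (mk fun n => e.repr (coeff n s) i) * C (e i) := by
    intro s
    ext n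
    rw [map_sum]
    simp only [coeff_mul_C, coeff_map, coeff_mk, ← Algebra.smul_def]
    exact (e.sum_repr _).symm
  have dec2 : ∀ s : D⟦X⟧, c (L.jD s) =
      ∑ i, L.jK (mk fun n => e.repr (coeff n s) i) * c (L.jD (C (e i))) := by
    intro s
    conv_lhs => rw [dec s]
    rw [map_sum, map_sum]
    refine Finset.sum_congr rfl fun i _ => ?_
    rw [jD_map_mul, map_smul, smul_eq_mul]
  let y : Fin (finrank K D) → K' := fun i => c (L.jD (C (e i)))
  have hy : ∃ i, y i ≠ 0 := by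
    by_contra h
    push Not at h
    apply hc
    ext z
    obtain ⟨m, f, hf⟩ := L.surjD z
    rw [jD_X_pow_mul L hX] at hf
    have h1 : c (L.jD f) = 0 := by
      rw [dec2]; exact Finset.sum_eq_zero fun i _ => by rw [show c _ = 0 from h i, mul_zero]
    rw [← hf, map_smul, smul_eq_mul] at h1
    simpa [hx] using h1
  choose N k0 hk0 using fun i => L.surjK (y i)
  let N0 := Finset.univ.sup N
  have hN : ∀ i, N i ≤ N0 := fun i => Finset.le_sup (f := N) (Finset.mem_univ i)
  have h1 : ∀ i, L.jK X ^ N0 * y i = L.jK (X ^ (N0 - N i) * k0 i) := by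
    intro i
    rw [map_mul, map_pow, ← hk0 i, ← mul_assoc, ← pow_add, Nat.sub_add_cancel (hN i)]
  obtain ⟨i0, hi0⟩ := hy
  have h2 : X ^ (N0 - N i0) * k0 i0 ≠ 0 := by
    intro h
    have := h1 i0
    rw [h, map_zero] at this
    exact mul_ne_zero (pow_ne_zero _ hx) hi0 this
  obtain ⟨m, hm⟩ : ∃ m, coeff m (X ^ (N0 - N i0) * k0 i0) ≠ 0 := by
    by_contra h
    push Not at h
    exact h2 (PowerSeries.ext (by simpa using h))
  obtain ⟨κ, k, hκ, hk, i1, hi1⟩ := prim L hinj y m _ _ (pow_ne_zero N0 hx) h1 ⟨i0, hm⟩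
  refine ⟨κ, ∑ i, constantCoeff (k i) • e.coord i, hκ, fun h => hi1 ?_, fun s => ?_⟩
  · have := LinearMap.congr_fun h (e i1)
    simpa [LinearMap.sum_apply, Finsupp.single_apply] using this
  · refine ⟨∑ i, (mk fun n => e.repr (coeff n s) i) * k i, ?_, ?_⟩
    · rw [dec2, Finset.mul_sum, map_sum]
      refine Finset.sum_congr rfl fun i _ => ?_
      rw [map_mul, ← hk i]; ring
    · rw [map_sum, LinearMap.sum_apply]
      refine Finset.sum_congr rfl fun i _ => ?_
      simp [mul_comm]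

lemma gam (hinj : Function.Injective L.jK) (hX : L.jD X = algebraMap K' D' (L.jK X))
    (T : Submodule K D) (s N : D⟦X⟧)
    (hT : ∀ z ∈ T, z * constantCoeff s = constantCoeff s * z → z = 0) (y : D') (m : ℕ) :
    ∀ F : D⟦X⟧, (∀ i, coeff i F ∈ T) → L.jK X ^ m • y = L.jD F → X ^ m * N = F * s - s * F →
      ∃ f : D⟦X⟧, (∀ i, coeff i f ∈ T) ∧ y = L.jD f ∧ N = f * s - s * f := by
  have hx : L.jK X ≠ 0 := fun h => X_ne_zero (hinj (h.trans (map_zero _).symm))
  induction m with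
  | zero => intro F h1 h2 h3; exact ⟨F, h1, by simpa using h2, by simpa using h3⟩
  | succ m ih =>
    intro F h1 h2 h3
    have h0 : constantCoeff F = 0 := by
      apply hT _ (by simpa using h1 0)
      have := congrArg constantCoeff h3
      simp only [map_mul, map_pow, constantCoeff_X, map_sub] at this
      rw [zero_pow (Nat.succ_ne_zero m), zero_mul] at this
      exact sub_eq_zero.1 this.symm
    obtain ⟨F', rfl⟩ := X_dvd_iff.2 h0
    refine ih F' (fun i => by simpa [coeff_succ_X_mul] using h1 (i + 1)) ?_ ?_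
    · rw [map_mul, hX, ← Algebra.smul_def, pow_succ', mul_smul] at h2
      exact smul_right_injective _ hx h2
    · have e1 : s * (X * F') = X * (s * F') := by
        rw [← mul_assoc, ← mul_assoc, (commute_X s).eq]
      rw [e1, pow_succ', mul_assoc, mul_assoc, ← mul_sub] at h3
      exact mul_left_cancel₀ X_ne_zero h3

end lau

lemma det_ne {K K' κ : Type} [Field K] [Field K'] [Fintype κ] [DecidableEq κ] (j : K⟦X⟧ →+* K')
    (hinj : Function.Injective j) (B : Matrix κ κ K') (c : K')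
    (h : ∀ i k, ∃ m, c * B i k = j m ∧ (i = k → constantCoeff m ≠ 0) ∧
      (i ≠ k → constantCoeff m = 0)) : B.det ≠ 0 := by
  choose m h1 h2 h3 using h
  have e1 : c • B = j.mapMatrix (Matrix.of m) := by
    ext i k; simp [h1]
  have e2 : (constantCoeff (R := K)).mapMatrix (Matrix.of m) =
      Matrix.diagonal fun i => constantCoeff (m i i) := by
    ext i k
    by_cases hik : i = k
    · subst hik; simp
    · simp [Matrix.diagonal_apply_ne _ hik, h3 i k hik]
  intro hB
  have h4 : j (Matrix.of m).det = 0 := by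
    rw [RingHom.map_det, ← e1, Matrix.det_smul, hB, mul_zero]
  have h5 : (Matrix.of m).det = 0 := hinj (h4.trans (map_zero _).symm)
  have h6 := congrArg constantCoeff h5
  rw [RingHom.map_det, e2, Matrix.det_diagonal, map_zero] at h6
  obtain ⟨i, -, hi⟩ := Finset.prod_eq_zero_iff.1 h6
  exact h2 i i rfl hi

lemma exists_G {K D : Type} [Field K] [AddCommGroup D] [Module K D] [FiniteDimensional K D]
    (A : D →ₗ[K] D) (h : IsCompl (LinearMap.ker A) (LinearMap.range A)) :
    ∃ G : D →ₗ[K] D, ∀ z, G z ∈ LinearMap.range A ∧ z - A (G z) ∈ LinearMap.ker A := by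
  let R := LinearMap.range A
  let A' : R →ₗ[K] R := A.restrict (fun z _ => LinearMap.mem_range_self A z)
  have hinj : Function.Injective A' := by
    rw [← LinearMap.ker_eq_bot, eq_bot_iff]
    intro z hz
    have h1 : (z : D) ∈ LinearMap.ker A := congrArg Subtype.val (LinearMap.mem_ker.1 hz)
    have h2 : (z : D) = 0 := Submodule.disjoint_def.1 h.disjoint z h1 z.2
    exact Subtype.ext h2
  let e := LinearEquiv.ofInjectiveEndo A' hinj
  let π : D →ₗ[K] R := Submodule.projectionOnto R (LinearMap.ker A) h.symm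
  refine ⟨R.subtype ∘ₗ (e.symm : R →ₗ[K] R) ∘ₗ π, fun z => ⟨(e.symm (π z)).2, ?_⟩⟩
  have h1 : A ((e.symm (π z) : R) : D) = (π z : D) :=
    congrArg Subtype.val (e.apply_symm_apply (π z))
  show z - A ((e.symm (π z) : R) : D) ∈ _
  rw [h1]
  obtain ⟨a, ha, b, hb, rfl⟩ := Submodule.mem_sup.1 (h.sup_eq_top ▸ Submodule.mem_top (x := z))
  have h2 : π a = 0 := Submodule.projectionOnto_apply_of_mem_right h.symm ha
  have h3 : π b = ⟨b, hb⟩ := Submodule.projectionOnto_apply_left h.symm ⟨b, hb⟩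
  rw [map_add, h2, h3]
  simpa using ha

end Crest.Agent.Ku.NdP
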