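import Crest.Agent.Ku.Defs

set_option autoImplicit false

namespace Crest.Agent.Ku.H1
open Module PowerSeries

lemma nfp_core {A : Type} [Ring A] (s : A⟦X⟧)
    (hdec : ∀ y : A, ∃ γ c : A, Commute c (coeff 0 s) ∧ y = c + (γ * coeff 0 s - coeff 0 s * γ)) :
    ∃ g t : A⟦X⟧, coeff 0 g = 1 ∧ (∀ i, Commute (coeff i t) (coeff 0 s)) ∧ s * g = g * t := by
  classical
  choose γ c hc hy using hdec
  let R : ℕ → (ℕ → A × A) → A := fun n q =>
    ∑ p ∈ Finset.HasAntidiagonal.antidiagonal n, (coeff (p.1 + 1) s * (q p.2).1 - (q (p.1 + 1)).1 * (q p.2).2)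
  let F : ℕ → (ℕ → A × A) → A × A := fun n q => match n with
    | 0 => (1, coeff 0 s)
    | n + 1 => (γ (R n q), c (R n q))
  let P : ℕ → A × A := (Nat.lt_wfRel.wf).fix fun n ih =>
    F n fun m => if h : m < n then ih m h else (0, 0)
  have hP : ∀ n, P n = F n fun m => if m < n then P m else (0, 0) := fun n => by
    show (Nat.lt_wfRel.wf).fix _ n = _
    rw [WellFounded.fix_eq]
    congr 1
  have h0 : P 0 = (1, coeff 0 s) := hP 0
  refine ⟨mk fun n => (P n).1, mk fun n => (P n).2, by simp [h0], fun i => ?_, ?_⟩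
  · rw [coeff_mk]
    cases i with
    | zero => rw [h0]
    | succ n => rw [hP]; exact hc _
  · ext n
    rw [coeff_mul, coeff_mul]
    simp only [coeff_mk]
    cases n with
    | zero => simp [h0]
    | succ n =>
      set q : ℕ → A × A := fun m => if m < n + 1 then P m else (0, 0) with hq
      have h1 : P (n + 1) = (γ (R n q), c (R n q)) := hP (n + 1)
      have h2 := hy (R n q)
      have h3 : ∑ p ∈ Finset.HasAntidiagonal.antidiagonal n,
          (coeff (p.1 + 1) s * (P p.2).1 - (P (p.1 + 1)).1 * (P p.2).2)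
          = R n q - (P (n + 1)).1 * coeff 0 s := by
        rw [eq_sub_iff_add_eq, ← eq_sub_iff_add_eq', ← Finset.sum_sub_distrib,
          Finset.sum_eq_single (n, 0)]
        · simp [hq, h0]
        · intro p hp hne
          have h4 := Finset.HasAntidiagonal.mem_antidiagonal.1 hp
          have h5 : p.1 + 1 < n + 1 := by
            by_contra h
            exact hne (Prod.ext (by simp; omega) (by simp; omega))
          have h6 : p.2 < n + 1 := by omega
          simp only [hq, if_pos h5, if_pos h6, sub_self]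
        · intro h
          exact absurd (by simp) h
      rw [Finset.Nat.sum_antidiagonal_succ, Finset.Nat.sum_antidiagonal_succ, ← sub_eq_zero]
      rw [Finset.sum_sub_distrib] at h3
      simp only [h0, one_mul]
      rw [add_sub_add_comm, h3, h1]
      simp only
      conv_lhs => enter [2, 1]; rw [h2]
      abel

theorem nfp (hA : AlgStmt) : NfpStmt := by
  intro K D _ _ _ _ _ A s hs
  obtain ⟨-, -, hcompl, -⟩ := hA K D
  let s' : A⟦X⟧ := mk fun i => ⟨coeff i s, hs i⟩
  let a : A := coeff 0 s'
  have ha : (a : D) = constantCoeff s := by simp [a, s']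
  let f : A →ₗ[K] A := ad K a
  have hf : ∀ z : A, (f z : D) = ad K (a : D) z := fun z => by simp [f, ad]
  have hd : Disjoint (LinearMap.ker f) (LinearMap.range f) := by
    rw [Submodule.disjoint_def]
    rintro z h1 ⟨w, rfl⟩
    refine Subtype.ext (Submodule.disjoint_def.1 (hcompl a).disjoint _ ?_ ⟨w, (hf w).symm⟩)
    have h2 : ad K (a : D) (f w) = 0 := by rw [← hf, LinearMap.mem_ker.1 h1]; rfl
    refine (Subalgebra.mem_centralizer_iff K).2 ?_
    rintro _ rfl
    simp only [ad, LinearMap.sub_apply, LinearMap.mulRight_apply, LinearMap.mulLeft_apply] at h2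
    exact (sub_eq_zero.1 h2).symm
  have htop : LinearMap.ker f ⊔ LinearMap.range f = ⊤ := by
    refine Submodule.eq_top_of_disjoint _ _ ?_ hd
    have := LinearMap.finrank_range_add_finrank_ker f
    omega
  obtain ⟨g, t, hg, ht, hst⟩ := nfp_core s' fun y => by
    obtain ⟨c, hc, _, ⟨γ, rfl⟩, h⟩ := Submodule.mem_sup.1 (htop ▸ Submodule.mem_top : y ∈ _)
    refine ⟨γ, c, ?_, h.symm⟩
    have : c * a - a * c = 0 := hc
    exact sub_eq_zero.1 this
  have hu : IsUnit g := by
    rw [PowerSeries.isUnit_iff_constantCoeff, ← coeff_zero_eq_constantCoeff_apply, hg]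
    exact isUnit_one
  obtain ⟨u, rfl⟩ := hu
  let m : A⟦X⟧ →+* D⟦X⟧ := PowerSeries.map A.val.toRingHom
  have hms : m s' = s := by ext i; simp [m, s']
  refine ⟨Units.map m.toMonoidHom u, ?_, fun i => ?_, fun i => ?_, fun i => ?_⟩
  · show constantCoeff (m u) = 1
    rw [← coeff_zero_eq_constantCoeff_apply]
    simp only [m, coeff_map, hg, map_one]
  · show coeff i (m u) ∈ A
    simp only [m, coeff_map]
    exact Subtype.property _
  · show coeff i (m ↑u⁻¹) ∈ A
    simp only [m, coeff_map]
    exact Subtype.property _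
  · show Commute (coeff i (m ↑u⁻¹ * s * m u)) _
    rw [← hms, ← map_mul, ← map_mul, mul_assoc, hst, ← mul_assoc, Units.inv_mul, one_mul, hms, ← ha]
    simp only [m, coeff_map]
    exact (ht i).map A.val

end Crest.Agent.Ku.H1
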