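import Crest.Agent.Ku.Defs

/-! S0270: common part of the two perturbation pieces. -/

set_option autoImplicit false

namespace Crest.Agent.Ku.Pt
open PowerSeries Module

section
variable {r : ℕ} {K D K₁ D₁ : Type} [Field K] [DivisionRing D] [Algebra K D] [Field K₁]
  [DivisionRing D₁] [Algebra K₁ D₁] (E : Ext r K D K₁ D₁)

lemma vu_pow1 (a : ℕ) : E.v * E.u ^ a = E.ζ ^ a • (E.u ^ a * E.v) := by
  induction a with
  | zero => simp
  | succ a ih =>
    rw [pow_succ, ← mul_assoc, ih, smul_mul_assoc, mul_assoc, E.vu, mul_smul_comm, smul_smul,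
      ← pow_succ, mul_assoc]

lemma vu_pow (a b : ℕ) : E.v ^ b * E.u ^ a = E.ζ ^ (a * b) • (E.u ^ a * E.v ^ b) := by
  induction b with
  | zero => simp
  | succ b ih =>
    rw [pow_succ', mul_assoc, ih, mul_smul_comm, ← mul_assoc, vu_pow1, smul_mul_assoc, smul_smul,
      ← pow_add, mul_assoc, mul_add, mul_one]

lemma pow_mod {z : D₁} (hz : ∃ s : K₁, s ≠ 0 ∧ z ^ r = algebraMap K₁ D₁ s) (a : ℕ) :
    ∃ s : K₁, z ^ a = s • z ^ (a % r) := by
  obtain ⟨s, -, hs⟩ := hz
  refine ⟨s ^ (a / r), ?_⟩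
  conv_lhs => rw [← Nat.div_add_mod a r, pow_add, pow_mul, hs, ← map_pow]
  rw [Algebra.smul_def]

lemma psi_smul (k : K) (d : D) : E.ψ (k • d) = E.φ k • E.ψ d := by
  rw [Algebra.smul_def, map_mul, E.compat, Algebra.smul_def]

lemma gen_mem (hr : 1 ≤ r) {U : Submodule K D} {P : ℕ → ℕ → Prop} {d : D} (hd : d ∈ U) (a b : ℕ)
    (h : P (a % r) (b % r)) : E.ψ d * (E.u ^ a * E.v ^ b) ∈ E.ten U P := by
  obtain ⟨s, hs⟩ := pow_mod E.ur a
  obtain ⟨t, ht⟩ := pow_mod E.vr b
  rw [hs, ht, smul_mul_assoc, mul_smul_comm, mul_smul_comm, mul_smul_comm]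
  refine Submodule.smul_mem _ _ (Submodule.smul_mem _ _ (Submodule.subset_span ?_))
  exact ⟨d, hd, _, Nat.mod_lt _ hr, _, Nat.mod_lt _ hr, h, rfl⟩

lemma ten_mul (hr : 1 ≤ r) {U U' U'' : Submodule K D} {P P' P'' : ℕ → ℕ → Prop}
    (hU : ∀ d ∈ U, ∀ d' ∈ U', d * d' ∈ U'')
    (hP : ∀ a b a' b', P a b → P' a' b' → P'' ((a + a') % r) ((b + b') % r)) {z z' : D₁}
    (hz : z ∈ E.ten U P) (hz' : z' ∈ E.ten U' P') : z * z' ∈ E.ten U'' P'' := by
  induction hz using Submodule.span_induction with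
  | zero => rw [zero_mul]; exact Submodule.zero_mem _
  | add x y _ _ hx hy => rw [add_mul]; exact Submodule.add_mem _ hx hy
  | smul c x _ hx => rw [smul_mul_assoc]; exact Submodule.smul_mem _ _ hx
  | mem x hx =>
    obtain ⟨d, hd, a, -, b, -, hab, rfl⟩ := hx
    induction hz' using Submodule.span_induction with
    | zero => rw [mul_zero]; exact Submodule.zero_mem _
    | add x y _ _ hx hy => rw [mul_add]; exact Submodule.add_mem _ hx hy
    | smul c x _ hx => rw [mul_smul_comm]; exact Submodule.smul_mem _ _ hx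
    | mem y hy =>
      obtain ⟨d', hd', a', -, b', -, hab', rfl⟩ := hy
      have hc : Commute (E.ψ d') (E.u ^ a * E.v ^ b) :=
        ((E.cu d').pow_right a).mul_right ((E.cv d').pow_right b)
      have e1 : E.ψ d * (E.u ^ a * E.v ^ b) * (E.ψ d' * (E.u ^ a' * E.v ^ b')) =
          E.ζ ^ (a' * b) • (E.ψ (d * d') * (E.u ^ (a + a') * E.v ^ (b + b'))) := by
        rw [mul_assoc, ← mul_assoc (E.u ^ a * E.v ^ b), ← hc.eq, mul_assoc (E.ψ d'),
          ← mul_assoc (E.ψ d), ← map_mul, mul_assoc (E.u ^ a), ← mul_assoc (E.v ^ b), vu_pow,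
          smul_mul_assoc, mul_smul_comm, mul_smul_comm, pow_add, pow_add]
        simp only [mul_assoc]
      rw [e1]
      exact Submodule.smul_mem _ _ (gen_mem E hr (hU d hd d' hd') _ _ (hP _ _ _ _ hab hab'))

lemma ten_mono {U U' : Submodule K D} {P P' : ℕ → ℕ → Prop} (hU : U ≤ U')
    (hP : ∀ a b, P a b → P' a b) : E.ten U P ≤ E.ten U' P' := by
  refine Submodule.span_mono ?_
  rintro z ⟨d, hd, a, ha, b, hb, h, rfl⟩
  exact ⟨d, hU hd, a, ha, b, hb, hP a b h, rfl⟩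

lemma one_mul_one {d : D} (hd : d ∈ (1 : Submodule K D)) {U : Submodule K D} {d' : D}
    (hd' : d' ∈ U) : d * d' ∈ U := by
  obtain ⟨k, rfl⟩ := Submodule.mem_one.1 hd
  rw [← Algebra.smul_def]; exact U.smul_mem _ hd'

lemma one_mem_one : (1 : D) ∈ (1 : Submodule K D) := Submodule.mem_one.2 ⟨1, map_one _⟩

lemma comm_psi {P : ℕ → ℕ → Prop} (d : D) {z : D₁} (hz : z ∈ E.ten 1 P) : Commute (E.ψ d) z := by
  induction hz using Submodule.span_induction with
  | zero => exact Commute.zero_right _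
  | add x y _ _ hx hy => exact hx.add_right hy
  | smul c x _ hx => exact hx.smul_right c
  | mem x hx =>
    obtain ⟨d', hd', a, -, b, -, -, rfl⟩ := hx
    obtain ⟨k, rfl⟩ := Submodule.mem_one.1 hd'
    rw [E.compat]
    exact (Algebra.commute_algebraMap_right _ _).mul_right
      (((E.cu d).pow_right a).mul_right ((E.cv d).pow_right b))

lemma comm_u {z : D₁} (hz : z ∈ E.tenL 1) : Commute E.u z := by
  induction hz using Submodule.span_induction with
  | zero => exact Commute.zero_right _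
  | add x y _ _ hx hy => exact hx.add_right hy
  | smul c x _ hx => exact hx.smul_right c
  | mem x hx =>
    obtain ⟨d', -, a, -, b, -, rfl, rfl⟩ := hx
    rw [pow_zero, mul_one]
    exact (E.cu d').symm.mul_right ((Commute.refl _).pow_right a)

/-- the part of `v`-degree `k` -/
def T (U : Submodule K D) (k : ℕ) : Submodule K₁ D₁ := E.ten U fun _ b => b = k % r

lemma T_zero (U : Submodule K D) : T E U 0 = E.tenL U := by
  unfold T Ext.tenL; simp only [Nat.zero_mod]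

lemma T_self (U : Submodule K D) : T E U r = E.tenL U := by
  unfold T Ext.tenL; simp only [Nat.mod_self]

lemma T_mul (hr : 1 ≤ r) {U : Submodule K D} {k k' : ℕ} {z z' : D₁} (hz : z ∈ T E 1 k)
    (hz' : z' ∈ T E U k') : z * z' ∈ T E U (k + k') :=
  ten_mul E hr (fun _ hd _ hd' => one_mul_one hd hd')
    (fun a b a' b' h h' => by rw [h, h', ← Nat.add_mod]) hz hz'

lemma T_le (U : Submodule K D) (k : ℕ) : T E U k ≤ E.tenR U :=
  ten_mono E le_rfl fun _ _ _ => trivial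

lemma psi_mem (hr : 1 ≤ r) {U : Submodule K D} {d : D} (hd : d ∈ U) : E.ψ d ∈ T E U 0 := by
  have := gen_mem E hr (P := fun _ b => b = 0 % r) hd 0 0 rfl
  rw [pow_zero, pow_zero, mul_one, mul_one] at this
  exact this

lemma mono_mem (hr : 1 ≤ r) (a b : ℕ) : E.u ^ a * E.v ^ b ∈ T E 1 b := by
  have := gen_mem E hr (P := fun _ b' => b' = b % r) (one_mem_one (K := K) (D := D)) a b rfl
  rw [map_one, one_mul] at this
  exact this

lemma prod_mem (hr : 1 ≤ r) (L : List D₁) (hL : ∀ z ∈ L, z ∈ T E 1 1) :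
    L.prod ∈ T E 1 L.length := by
  induction L with
  | nil => simpa using mono_mem E hr 0 0
  | cons z L ih =>
    rw [List.prod_cons, List.length_cons, add_comm]
    exact T_mul E hr (hL z (by simp)) (ih fun y hy => hL y (by simp [hy]))

lemma lv_mem (hr : 1 ≤ r) {l : D₁} (hl : l ∈ E.tenL 1) : l * E.v ∈ T E 1 1 := by
  rw [← T_zero] at hl
  have := T_mul E hr hl (mono_mem E hr 0 1)
  simpa using this

/-- the symbol algebra -/
def RA (hr : 1 ≤ r) : Subalgebra K₁ D₁ :=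
  (E.tenR 1).toSubalgebra (by simpa using T_le E 1 0 (mono_mem E hr 0 0)) fun _ _ hx hy =>
    ten_mul E hr (fun _ hd _ hd' => one_mul_one hd hd') (fun _ _ _ _ _ _ => trivial) hx hy

/-- its maximal subfield -/
def LA (hr : 1 ≤ r) : Subalgebra K₁ D₁ :=
  (T E 1 0).toSubalgebra (by simpa using mono_mem E hr 0 0) fun _ _ hx hy =>
    T_mul E hr (k := 0) (k' := 0) hx hy

lemma c1_mul (c : D →ₗ[K] K) (c₁ : D₁ →ₗ[K₁] D₁)
    (hc : ∀ d a b, c₁ (E.ψ d * (E.u ^ a * E.v ^ b)) = E.φ (c d) • (E.u ^ a * E.v ^ b))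
    {P : ℕ → ℕ → Prop} (d : D) {p : D₁} (hp : p ∈ E.ten 1 P) :
    c₁ (p * E.ψ d) = E.φ (c d) • p := by
  induction hp using Submodule.span_induction with
  | zero => simp
  | add x y _ _ hx hy => rw [add_mul, map_add, hx, hy, smul_add]
  | smul s x _ hx => rw [smul_mul_assoc, map_smul, hx, smul_comm]
  | mem x hx =>
    obtain ⟨d', hd', a, -, b, -, -, rfl⟩ := hx
    obtain ⟨k, rfl⟩ := Submodule.mem_one.1 hd'
    have hcm : Commute (E.ψ d) (E.u ^ a * E.v ^ b) :=
      ((E.cu d).pow_right a).mul_right ((E.cv d).pow_right b)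
    rw [E.compat, ← Algebra.smul_def, smul_mul_assoc, map_smul, ← hcm.eq, hc, smul_comm]

lemma c1_ker (c : D →ₗ[K] K) (c₁ : D₁ →ₗ[K₁] D₁)
    (hc : ∀ d a b, c₁ (E.ψ d * (E.u ^ a * E.v ^ b)) = E.φ (c d) • (E.u ^ a * E.v ^ b))
    {P : ℕ → ℕ → Prop} {U : Submodule K D} (hU : ∀ d ∈ U, c d = 0) {p : D₁} (hp : p ∈ E.ten U P) :
    c₁ p = 0 := by
  induction hp using Submodule.span_induction with
  | zero => simp
  | add x y _ _ hx hy => rw [map_add, hx, hy, add_zero]
  | smul s x _ hx => rw [map_smul, hx, smul_zero]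
  | mem x hx =>
    obtain ⟨d', hd', a, -, b, -, -, rfl⟩ := hx
    rw [hc, hU d' hd', map_zero, zero_smul]

lemma c1_mem (c : D →ₗ[K] K) (c₁ : D₁ →ₗ[K₁] D₁)
    (hc : ∀ d a b, c₁ (E.ψ d * (E.u ^ a * E.v ^ b)) = E.φ (c d) • (E.u ^ a * E.v ^ b))
    {P : ℕ → ℕ → Prop} {U : Submodule K D} {p : D₁} (hp : p ∈ E.ten U P) :
    c₁ p ∈ E.ten 1 P := by
  induction hp using Submodule.span_induction with
  | zero => simp
  | add x y _ _ hx hy => rw [map_add]; exact Submodule.add_mem _ hx hy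
  | smul s x _ hx => rw [map_smul]; exact Submodule.smul_mem _ _ hx
  | mem x hx =>
    obtain ⟨d', hd', a, ha, b, hb, h, rfl⟩ := hx
    rw [hc]
    refine Submodule.smul_mem _ _ (Submodule.subset_span ⟨1, one_mem_one, a, ha, b, hb, h, ?_⟩)
    rw [map_one, one_mul]

lemma comm_adm {g : D₁⟦X⟧} (hg : ∀ i, coeff i g ∈ E.tenR 1) (d : D) :
    Commute ((C.comp E.ψ) d : D₁⟦X⟧) g := by
  show C (E.ψ d) * g = g * C (E.ψ d)
  ext n
  rw [coeff_C_mul, coeff_mul_C]
  exact (comm_psi E d (hg n)).eq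

end

lemma coeff_XC {B : Type} [Ring B] (k n : ℕ) (b : B) :
    coeff n (X ^ k * C b : B⟦X⟧) = if n = k then b else 0 := by
  rw [coeff_X_pow_mul', coeff_C]
  split_ifs <;> first | rfl | omega

lemma coeff_euler {B : Type} [Ring B] (n : ℕ) (g : B⟦X⟧) :
    coeff n (X * dX g) = n • coeff n g := by
  cases n with
  | zero => simp
  | succ n => rw [coeff_succ_X_mul, dX, coeff_mk]

lemma exists_lead {B : Type} [Ring B] (N : ℕ) (f : B⟦X⟧) (h : ∀ n < N, coeff n f = 0) :
    ∃ t, f = X ^ N * t ∧ constantCoeff t = coeff N f := by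
  obtain ⟨t, rfl⟩ := X_pow_dvd_iff.2 h
  refine ⟨t, rfl, ?_⟩
  rw [coeff_X_pow_mul', if_pos le_rfl, Nat.sub_self, coeff_zero_eq_constantCoeff_apply]

lemma nc_mul_mem {ι A : Type} [Ring A] (Cs : Subring A) (w : List ι) :
    ∀ p g : NC ι A, (∀ α, p α ∈ Cs) → (∀ α : List ι, α.length ≤ w.length → g α ∈ Cs) →
      (p * g) w ∈ Cs := by
  induction w with
  | nil => intro p g hp hg; exact Cs.mul_mem (hp _) (hg _ le_rfl)
  | cons i w ih =>
    intro p g hp hg
    rw [NC.mul_cons]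
    exact Cs.add_mem (Cs.mul_mem (hp _) (hg _ le_rfl))
      (ih _ _ (fun α => hp _) fun α hα => hg α (by simp only [List.length_cons]; omega))

lemma ev_mem {ι κ A : Type} [Fintype ι] [Ring A] (Cs : Subring A) (φ : ι → NC κ A)
    (Θ : NC ι A →+* NC κ A) (h0 : ∀ j, φ j [] = 0) (hφ : ∀ j α, φ j α ∈ Cs)
    (hΘ : IsEv NC.C φ Θ) : ∀ (n : ℕ) (w : List κ), w.length = n → ∀ f : NC ι A,
      (∀ α, f α ∈ Cs) → Θ f w ∈ Cs := by
  intro n
  induction n using Nat.strong_induction_on with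
  | _ n ih =>
    intro w hw f hf
    rw [hΘ f, NC.add_apply, NC.sum_apply]
    cases w with
    | nil =>
      refine Cs.add_mem (hf _) (Cs.sum_mem fun j _ => ?_)
      rw [NC.mul_nil, h0, zero_mul]; exact Cs.zero_mem
    | cons i w =>
      refine Cs.add_mem Cs.zero_mem (Cs.sum_mem fun j _ => ?_)
      rw [NC.mul_cons, h0, zero_mul, zero_add]
      refine nc_mul_mem Cs w _ _ (fun α => hφ _ _) fun α hα => ?_
      exact ih α.length (by rw [← hw]; simp only [List.length_cons]; omega) α rfl _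
        fun β => hf _

end Crest.Agent.Ku.Pt
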