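import Crest.Agent.Ku.Pt0

set_option autoImplicit false

namespace Crest.Agent.Ku
open Module Polynomial

lemma pif_core {K₁ L κ : Type} [Field K₁] [Infinite K₁] [Field L] [Algebra K₁ L] [Fintype κ]
    [DecidableEq κ] (m : ℕ) (hm : 1 ≤ m) (ζ μ : L) (hζ : IsPrimitiveRoot ζ m) (hμ : μ ≠ 0)
    (θ : List κ → L) (α : List κ) (hα : α.length = m) (J : Finset ℕ)
    (h : ∀ c : κ × Fin m → K₁, ∑ j ∈ J, ∑ β : Fin m → κ, θ (List.ofFn β) *
      ∏ k : Fin m, ∑ a : Fin m, algebraMap K₁ L (c (β k, a)) * (ζ ^ (k.val + j) * μ) ^ a.val = 0) :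
    ∑ j ∈ J, θ (α.rotate j) = 0 := by
  let P : MvPolynomial (κ × Fin m) L := ∑ j ∈ J, ∑ β : Fin m → κ, MvPolynomial.C (θ (List.ofFn β)) *
      ∏ k : Fin m, ∑ a : Fin m, MvPolynomial.X (β k, a) * MvPolynomial.C ((ζ ^ (k.val + j) * μ) ^ a.val)
  have hev : ∀ c : κ × Fin m → L, MvPolynomial.eval c P = ∑ j ∈ J, ∑ β : Fin m → κ, θ (List.ofFn β) *
      ∏ k : Fin m, ∑ a : Fin m, c (β k, a) * (ζ ^ (k.val + j) * μ) ^ a.val := by
    intro c
    simp only [P, map_sum, map_mul, map_prod, MvPolynomial.eval_C, MvPolynomial.eval_X]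
  have hP : P = 0 := by
    refine MvPolynomial.funext_set (fun _ => Set.range (algebraMap K₁ L))
      (fun _ => Set.infinite_range_of_injective (algebraMap K₁ L).injective) fun x hx => ?_
    choose c hc using fun p => hx p (Set.mem_univ p)
    rw [hev, map_zero, ← h c]
    simp only [hc]
  have hinj : Function.Injective fun n : Fin m => ζ ^ n.val * μ := by
    intro a b hab
    exact Fin.ext (hζ.pow_inj a.2 b.2 (mul_right_cancel₀ hμ hab))
  have hsurj := Matrix.mulVec_surjective_iff_isUnit.mpr ((Matrix.isUnit_iff_isUnit_det _).mpr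
    (isUnit_iff_ne_zero.mpr (Matrix.det_vandermonde_ne_zero_iff.mpr hinj)))
  choose c hc using fun i : κ => hsurj fun n : Fin m => if α[n.val]'(by rw [hα]; exact n.2) = i then 1 else 0
  have h0 := hev fun p => c p.1 p.2
  rw [hP, map_zero] at h0
  rw [h0]
  refine Finset.sum_congr rfl fun j _ => ?_
  have hval : ∀ (i : κ) (k : Fin m), ∑ a : Fin m, c i a * (ζ ^ (k.val + j) * μ) ^ a.val =
      if α[(k.val + j) % m]'(by rw [hα]; exact Nat.mod_lt _ hm) = i then 1 else 0 := by
    intro i k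
    have := congrFun (hc i) ⟨(k.val + j) % m, Nat.mod_lt _ hm⟩
    rw [← this]
    simp only [Matrix.mulVec, dotProduct, Matrix.vandermonde_apply]
    refine Finset.sum_congr rfl fun a _ => ?_
    rw [mul_comm]
    congr 3
    conv_lhs => rw [← Nat.div_add_mod (k.val + j) m, pow_add, pow_mul, hζ.pow_eq_one, one_pow, one_mul]
  simp only [hval]
  rw [Finset.sum_eq_single fun k : Fin m => α[(k.val + j) % m]'(by rw [hα]; exact Nat.mod_lt _ hm)]
  · simp only [if_true, Finset.prod_const_one, mul_one]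
    congr 1
    apply List.ext_getElem
    · simp [hα]
    · intro i h1 h2
      simp [List.getElem_rotate, hα]
  · intro β _ hβ
    obtain ⟨k, hk⟩ := Function.ne_iff.mp hβ
    rw [Finset.prod_eq_zero (Finset.mem_univ k) (if_neg (Ne.symm hk)), mul_zero]
  · simp

section
variable {m : ℕ} {K D K₁ D₁ : Type} [Field K] [DivisionRing D] [Algebra K D] [Field K₁]
  [DivisionRing D₁] [Algebra K₁ D₁] (E : Ext m K D K₁ D₁)

lemma Ext.vanish (hm : 1 ≤ m) {L : Type} [Field L] [Algebra K₁ L] (s : K₁)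
    (hs : E.u ^ m = algebraMap K₁ D₁ s) (p : K₁[X]) (hp : aeval E.u p = 0) (x : L)
    (hx : x ^ m = algebraMap K₁ L s) : aeval x p = 0 := by
  have hli : LinearIndependent K₁ fun a : Fin m => E.u ^ a.val := by
    have := (E.ind Unit (fun _ => 1) (by simp)).comp (fun a : Fin m => ((), a, (⟨0, hm⟩ : Fin m)))
      (fun a b h => by simpa using h)
    simpa [Function.comp_def] using this
  have hmon : (X ^ m - C s : K₁[X]).Monic := monic_X_pow_sub_C s (by omega)
  have hdiv := modByMonic_add_div p (X ^ m - C s)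
  have hdeg : (p %ₘ (X ^ m - C s)).degree < m := by
    have := degree_modByMonic_lt p hmon
    rwa [degree_X_pow_sub_C (by omega)] at this
  have hr : aeval E.u (p %ₘ (X ^ m - C s)) = 0 := by
    have := congrArg (aeval E.u) hdiv
    rwa [hp, map_add, map_mul, map_sub, map_pow, aeval_X, aeval_C, hs, sub_self, zero_mul,
      add_zero] at this
  have hr0 : p %ₘ (X ^ m - C s) = 0 := by
    by_contra h0
    have hnd : (p %ₘ (X ^ m - C s)).natDegree < m := (natDegree_lt_iff_degree_lt h0).mpr hdeg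
    rw [aeval_eq_sum_range' hnd, Finset.sum_range] at hr
    have := Fintype.linearIndependent_iff.mp hli _ hr
    apply h0
    ext i
    by_cases hi : i < m
    · exact this ⟨i, hi⟩
    · exact coeff_eq_zero_of_natDegree_lt (by omega)
  rw [← hdiv, hr0, zero_add, map_mul, map_sub, map_pow, aeval_X, aeval_C, hx, sub_self, zero_mul]

/-- twisted polynomials -/
noncomputable def Ext.Q {κ : Type} (c : κ × Fin m → K₁) (k : ℕ) (i : κ) : K₁[X] :=
  ∑ a : Fin m, C (c (i, a) * E.ζ ^ (k * a.val)) * X ^ a.val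

lemma Ext.prod_Q {κ : Type} (c : κ × Fin m → K₁) (n : ℕ) (β : Fin n → κ) :
    (List.ofFn fun k => aeval E.u (E.Q c 0 (β k)) * E.v).prod =
      aeval E.u (∏ k : Fin n, E.Q c k.val (β k)) * E.v ^ n := by
  induction n with
  | zero => simp
  | succ n ih =>
    rw [List.ofFn_succ', List.concat_eq_append, List.prod_append, ih fun k => β k.castSucc,
      Fin.prod_univ_castSucc, map_mul]
    have : E.v ^ n * aeval E.u (E.Q c 0 (β (Fin.last n))) =
        aeval E.u (E.Q c n (β (Fin.last n))) * E.v ^ n := by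
      simp only [Ext.Q, map_sum, map_mul, aeval_C, map_pow, aeval_X, Finset.mul_sum, Finset.sum_mul]
      refine Finset.sum_congr rfl fun a _ => ?_
      simp only [← map_pow, ← map_mul, ← Algebra.smul_def, mul_smul_comm, E.vpow_upow, smul_smul,
        smul_mul_assoc]
      simp
    simp only [List.prod_cons, List.prod_nil, mul_one, Fin.val_castSucc, Fin.val_last]
    rw [mul_assoc, ← mul_assoc (E.v ^ n), this, pow_succ, mul_assoc, mul_assoc]
end

theorem pif : PifStmt := by
  intro m K D K₁ D₁ _ _ _ _ _ _ _ E κ _ _ θ α hα hm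
  have : CharZero K₁ := (E.φ.charZero_iff E.φ.injective).1 inferInstance
  obtain ⟨s, hs0, hs⟩ := E.ur
  obtain ⟨t, ht0, ht⟩ := E.vr
  let L := AlgebraicClosure K₁
  obtain ⟨μ, hμ⟩ := IsAlgClosed.exists_pow_nat_eq (algebraMap K₁ L s) hm
  have hμ0 : μ ≠ 0 := by
    rintro rfl
    rw [zero_pow (by omega)] at hμ
    exact hs0 ((algebraMap K₁ L).injective (by rw [← hμ, map_zero]))
  have hζ : IsPrimitiveRoot (algebraMap K₁ L E.ζ) m := E.hζ.map_of_injective (algebraMap K₁ L).injective
  set ζ := algebraMap K₁ L E.ζ with hζdef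
  let p : (κ × Fin m → K₁) → K₁[X] := fun c =>
    ∑ β : Fin m → κ, C (E.φ (θ (List.ofFn β))) * ∏ k : Fin m, E.Q c k.val (β k)
  have hl : ∀ (c : κ × Fin m → K₁) i, aeval E.u (E.Q c 0 i) ∈ E.tenL 1 := by
    intro c i
    simp only [Ext.Q, map_sum, map_mul, aeval_C, map_pow, aeval_X]
    refine Submodule.sum_mem _ fun a _ => ?_
    simp only [← map_pow, ← map_mul, ← Algebra.smul_def]
    refine Submodule.smul_mem _ _ ?_
    simpa [Ext.tenL] using E.mono_one hm (P := fun _ b => b = 0) a.val 0 (by simp)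
  have hz : ∀ c : κ × Fin m → K₁, ∑ β : Fin m → κ, E.φ (θ (List.ofFn β)) •
      (List.ofFn fun k => aeval E.u (E.Q c 0 (β k)) * E.v).prod = t • aeval E.u (p c) := by
    intro c
    simp only [p, map_sum, Finset.smul_sum, E.prod_Q, ht, map_mul, aeval_C]
    refine Finset.sum_congr rfl fun β _ => ?_
    rw [← Algebra.commutes, ← Algebra.smul_def, ← Algebra.smul_def, smul_comm]
  have hx : ∀ j, (ζ ^ j * μ) ^ m = algebraMap K₁ L s := fun j => by
    rw [mul_pow, hμ, ← pow_mul, mul_comm j m, pow_mul, hζ.pow_eq_one, one_pow, one_mul]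
  have hpe : ∀ (c : κ × Fin m → K₁) j, aeval (ζ ^ j * μ) (p c) = ∑ β : Fin m → κ,
      algebraMap K₁ L (E.φ (θ (List.ofFn β))) *
      ∏ k : Fin m, ∑ a : Fin m, algebraMap K₁ L (c (β k, a)) * (ζ ^ (k.val + j) * μ) ^ a.val := by
    intro c j
    simp only [p, Ext.Q, map_sum, map_mul, map_prod, aeval_C, map_pow, aeval_X, ← hζdef]
    refine Finset.sum_congr rfl fun β _ => ?_
    congr 1
    refine Finset.prod_congr rfl fun k _ => Finset.sum_congr rfl fun a _ => ?_
    ring
  have hcore := pif_core (K₁ := K₁) m hm ζ μ hζ hμ0 (fun β => algebraMap K₁ L (E.φ (θ β))) α hα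
  constructor
  · intro hθ
    by_contra h
    push Not at h
    apply hθ
    have := hcore {0} fun c => by
      rw [Finset.sum_singleton, ← hpe]
      have h1 := h _ (hl c)
      rw [hz, smul_eq_zero] at h1
      exact E.vanish hm s hs _ (h1.resolve_left ht0) _ (hx 0)
    simpa using this
  · intro hθ
    by_contra h
    push Not at h
    apply hθ
    have hq : ∀ w ∈ E.tenL0 1, ∃ q : K₁[X], aeval E.u q = w ∧
        ∑ j ∈ Finset.range m, aeval (ζ ^ j * μ) q = 0 := by
      intro w hw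
      refine Submodule.span_induction (p := fun w _ => ∃ q : K₁[X], aeval E.u q = w ∧
        ∑ j ∈ Finset.range m, aeval (ζ ^ j * μ) q = 0) ?_ ⟨0, by simp⟩ ?_ ?_ hw
      · rintro _ ⟨d, hd, a, ha, b, -, ⟨ha0, rfl⟩, rfl⟩
        obtain ⟨k, rfl⟩ := Submodule.mem_one.mp hd
        refine ⟨C (E.φ k) * X ^ a, by simp [E.compat], ?_⟩
        have h1 : ζ ^ a ≠ 1 := hζ.pow_ne_one_of_pos_of_lt ha0 ha
        have h2 : ∑ j ∈ Finset.range m, (ζ ^ a) ^ j = 0 := by
          rw [geom_sum_eq h1, ← pow_mul, mul_comm, pow_mul, hζ.pow_eq_one, one_pow, sub_self, zero_div]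
        have h3 : ∀ j, aeval (ζ ^ j * μ) (C (E.φ k) * X ^ a) =
            algebraMap K₁ L (E.φ k) * μ ^ a * (ζ ^ a) ^ j := fun j => by
          simp only [map_mul, aeval_C, map_pow, aeval_X]; ring
        simp only [h3, ← Finset.mul_sum, h2, mul_zero]
      · rintro x y - - ⟨q, rfl, hq⟩ ⟨q', rfl, hq'⟩
        exact ⟨q + q', by simp, by simp only [map_add, Finset.sum_add_distrib, hq, hq', add_zero]⟩
      · rintro k x - ⟨q, rfl, hq⟩
        exact ⟨C k * q, by simp [Algebra.smul_def], by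
          simp only [map_mul, aeval_C, ← Finset.mul_sum, hq, mul_zero]⟩
    have := hcore (Finset.range m) fun c => by
      have h1 := h _ (hl c)
      rw [hz] at h1
      obtain ⟨q, hq1, hq2⟩ := hq _ ((Submodule.smul_mem_iff _ ht0).mp h1)
      rw [← hq2]
      refine Finset.sum_congr rfl fun j _ => ?_
      rw [← hpe, ← sub_eq_zero, ← map_sub]
      exact E.vanish hm s hs _ (by rw [map_sub, hq1, sub_self]) _ (hx j)
    rw [← map_sum, ← map_sum] at this
    exact (map_eq_zero E.φ).mp ((map_eq_zero (algebraMap K₁ L)).mp this)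

end Crest.Agent.Ku
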