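import Crest.Agent.Ku.Defs2

/-! Multiplication in the symbol extension, leading terms (S0270). -/

set_option autoImplicit false

namespace Crest.Agent.Ku.PB
open Module PowerSeries

section
variable {r : ℕ} {K D K₁ D₁ : Type} [Field K] [DivisionRing D] [Algebra K D] [Field K₁]
  [DivisionRing D₁] [Algebra K₁ D₁] (E : Ext r K D K₁ D₁)

lemma vu1 (b : ℕ) : E.v ^ b * E.u = (E.ζ ^ b) • (E.u * E.v ^ b) := by
  induction b with
  | zero => simp
  | succ b ih =>
    rw [pow_succ' E.v, mul_assoc, ih, mul_smul_comm, ← mul_assoc, E.vu, smul_mul_assoc, smul_smul,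
      mul_assoc, pow_succ E.ζ]

lemma vu2 (a b : ℕ) : ∃ c : K₁, E.v ^ b * E.u ^ a = c • (E.u ^ a * E.v ^ b) := by
  induction a with
  | zero => exact ⟨1, by simp⟩
  | succ a ih =>
    obtain ⟨c, hc⟩ := ih
    refine ⟨c * E.ζ ^ b, ?_⟩
    rw [pow_succ E.u, ← mul_assoc, hc, smul_mul_assoc, mul_assoc, vu1, mul_smul_comm, smul_smul,
      mul_assoc]

lemma mem_ten (hr : 1 ≤ r) (U : Submodule K D) (Q : ℕ → Prop) {d : D} (hd : d ∈ U) (a : ℕ) {b : ℕ}
    (hb : b < r) (hQ : Q b) : E.ψ d * (E.u ^ a * E.v ^ b) ∈ E.ten U (fun _ b => Q b) := by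
  obtain ⟨s, _, hs⟩ := E.ur
  have h1 : E.u ^ a = (s ^ (a / r)) • E.u ^ (a % r) := by
    conv_lhs => rw [← Nat.div_add_mod a r, pow_add, pow_mul, hs, ← map_pow, ← Algebra.smul_def]
  rw [h1, smul_mul_assoc, mul_smul_comm]
  exact Submodule.smul_mem _ _ (Submodule.subset_span
    ⟨d, hd, a % r, Nat.mod_lt _ hr, b, hb, hQ, rfl⟩)

lemma gen_mul (d d' : D) (a b a' b' : ℕ) : ∃ c : K₁,
    E.ψ d * (E.u ^ a * E.v ^ b) * (E.ψ d' * (E.u ^ a' * E.v ^ b'))
      = c • (E.ψ (d * d') * (E.u ^ (a + a') * E.v ^ (b + b'))) := by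
  obtain ⟨c, hc⟩ := vu2 E a' b
  refine ⟨c, ?_⟩
  have h1 : Commute (E.ψ d') (E.u ^ a * E.v ^ b) :=
    ((E.cu d').pow_right a).mul_right ((E.cv d').pow_right b)
  rw [map_mul, mul_assoc (E.ψ d), ← mul_assoc (E.u ^ a * E.v ^ b), ← h1.eq, pow_add, pow_add]
  simp only [mul_assoc]
  rw [← mul_assoc (E.v ^ b), hc]
  simp only [smul_mul_assoc, mul_smul_comm, mul_assoc]

lemma L_mul (hr : 1 ≤ r) {U U' U'' : Submodule K D} (h : ∀ d ∈ U, ∀ d' ∈ U', d * d' ∈ U'')
    (Q : ℕ → Prop) {x y : D₁} (hx : x ∈ E.tenL U) (hy : y ∈ E.ten U' (fun _ b => Q b)) :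
    x * y ∈ E.ten U'' (fun _ b => Q b) := by
  have := Submodule.mul_mem_mul hx hy
  refine (?_ : E.tenL U * E.ten U' (fun _ b => Q b) ≤ _) this
  unfold Ext.tenL Ext.ten
  rw [Submodule.span_mul_span, Submodule.span_le]
  rintro _ ⟨_, ⟨d, hd, a, ha, b, hb, rfl, rfl⟩, _, ⟨d', hd', a', ha', b', hb', hQ, rfl⟩, rfl⟩
  obtain ⟨c, hc⟩ := gen_mul E d d' a 0 a' b'
  simp only [SetLike.mem_coe]
  rw [hc, zero_add]
  exact Submodule.smul_mem _ _ (mem_ten E hr U'' Q (h d hd d' hd') _ hb' hQ)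

lemma mul_L (hr : 1 ≤ r) {U U' U'' : Submodule K D} (h : ∀ d ∈ U, ∀ d' ∈ U', d * d' ∈ U'')
    (Q : ℕ → Prop) {x y : D₁} (hx : x ∈ E.ten U (fun _ b => Q b)) (hy : y ∈ E.tenL U') :
    x * y ∈ E.ten U'' (fun _ b => Q b) := by
  have := Submodule.mul_mem_mul hx hy
  refine (?_ : E.ten U (fun _ b => Q b) * E.tenL U' ≤ _) this
  unfold Ext.tenL Ext.ten
  rw [Submodule.span_mul_span, Submodule.span_le]
  rintro _ ⟨_, ⟨d, hd, a, ha, b, hb, hQ, rfl⟩, _, ⟨d', hd', a', ha', b', hb', rfl, rfl⟩, rfl⟩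
  obtain ⟨c, hc⟩ := gen_mul E d d' a b a' 0
  simp only [SetLike.mem_coe]
  rw [hc, add_zero]
  exact Submodule.smul_mem _ _ (mem_ten E hr U'' Q (h d hd d' hd') _ hb hQ)

lemma psi_mem (hr : 1 ≤ r) {U : Submodule K D} {d : D} (hd : d ∈ U) (a : ℕ) :
    E.ψ d * E.u ^ a ∈ E.tenL U := by
  have := mem_ten E hr U (fun b => b = 0) hd a (b := 0) hr rfl
  rwa [pow_zero, mul_one] at this

lemma ten_mono {U U' : Submodule K D} (h : U ≤ U') (P : ℕ → ℕ → Prop) : E.ten U P ≤ E.ten U' P := by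
  apply Submodule.span_mono
  rintro _ ⟨d, hd, a, ha, b, hb, hP, rfl⟩
  exact ⟨d, h hd, a, ha, b, hb, hP, rfl⟩

/-- `tenL A` as a subalgebra -/
def subL (hr : 1 ≤ r) (A : Subalgebra K D) : Subalgebra K₁ D₁ :=
  (E.tenL (Subalgebra.toSubmodule A)).toSubalgebra
    (by simpa using psi_mem E hr (U := Subalgebra.toSubmodule A) (d := 1) A.one_mem 0)
    (fun x y hx hy => L_mul E hr (fun d hd d' hd' => A.mul_mem hd hd') (fun b => b = 0) hx hy)

lemma mem_subL (hr : 1 ≤ r) (A : Subalgebra K D) (x : D₁) :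
    x ∈ subL E hr A ↔ x ∈ E.tenL (Subalgebra.toSubmodule A) := Iff.rfl

end

section
variable {K D K' D' : Type} [Field K] [DivisionRing D] [Algebra K D] [Field K']
  [DivisionRing D'] [Algebra K' D'] (L : Lau K D K' D')

lemma split_series {A B : Submodule K D} (t : D⟦X⟧) (h : ∀ i, coeff i t ∈ A ⊔ B) :
    ∃ x y : D⟦X⟧, t = x + y ∧ (∀ i, coeff i x ∈ A) ∧ ∀ i, coeff i y ∈ B := by
  choose x hx y hy hxy using fun i => Submodule.mem_sup.1 (h i)
  refine ⟨mk x, mk y, ?_, by simpa using hx, by simpa using hy⟩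
  ext i
  simp [hxy]

lemma coeff_mul_mem (A : Subalgebra K D) {x y : D⟦X⟧} (hx : ∀ i, coeff i x ∈ A)
    (hy : ∀ i, coeff i y ∈ A) (i : ℕ) : coeff i (x * y) ∈ A := by
  rw [coeff_mul]
  exact A.sum_mem fun p _ => A.mul_mem (hx _) (hy _)

lemma div_X (hK : Function.Injective L.jK) (hX : L.jD X = algebraMap K' D' (L.jK X))
    (V : Submodule K' D') (i : ℕ) (t : D⟦X⟧) (h : L.jD (X ^ i * t) ∈ V) : L.jD t ∈ V := by
  have h0 : L.jK X ≠ 0 := fun h0 => X_ne_zero (hK (h0.trans (map_zero _).symm))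
  rw [map_mul, map_pow, hX, ← map_pow, ← Algebra.smul_def] at h
  have := V.smul_mem (L.jK X ^ i)⁻¹ h
  rwa [smul_smul, inv_mul_cancel₀ (pow_ne_zero _ h0), one_smul] at this

lemma isUnit_of_const {s : D⟦X⟧} (h : constantCoeff s ≠ 0) : IsUnit s := by
  rw [PowerSeries.isUnit_iff_constantCoeff]
  exact IsUnit.mk0 _ h

lemma jD_inv (w : (D⟦X⟧)ˣ) : L.jD (↑w⁻¹) = (L.jD w)⁻¹ := by
  apply eq_inv_of_mul_eq_one_left
  rw [← map_mul]; simp

lemma const_inv (w : (D⟦X⟧)ˣ) :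
    constantCoeff (↑w⁻¹ : D⟦X⟧) = (constantCoeff (w : D⟦X⟧))⁻¹ := by
  apply eq_inv_of_mul_eq_one_left
  rw [← map_mul]; simp

lemma dX_add (x y : D⟦X⟧) : dX (x + y) = dX x + dX y := by
  ext n; simp [dX]

lemma dX_mul (x y : D⟦X⟧) : dX (x * y) = dX x * y + x * dX y := by
  ext n
  simp only [dX, coeff_mk, map_add, coeff_mul]
  have e1 : ∑ p ∈ Finset.HasAntidiagonal.antidiagonal n, ((p.1 + 1) • coeff (p.1 + 1) x) * coeff p.2 y
      = ∑ p ∈ Finset.HasAntidiagonal.antidiagonal (n + 1), p.1 • (coeff p.1 x * coeff p.2 y) := by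
    rw [Finset.Nat.sum_antidiagonal_succ]
    simp [mul_assoc]
  have e2 : ∑ p ∈ Finset.HasAntidiagonal.antidiagonal n, coeff p.1 x * ((p.2 + 1) • coeff (p.2 + 1) y)
      = ∑ p ∈ Finset.HasAntidiagonal.antidiagonal (n + 1), p.2 • (coeff p.1 x * coeff p.2 y) := by
    rw [Finset.Nat.sum_antidiagonal_succ']
    simp only [zero_smul, zero_add, mul_smul_comm]
  rw [e1, e2, ← Finset.sum_add_distrib, Finset.smul_sum]
  apply Finset.sum_congr rfl
  intro p hp
  rw [← add_smul, Finset.HasAntidiagonal.mem_antidiagonal.1 hp]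

lemma dX_pow (x : D⟦X⟧) (h : Commute x (dX x)) (n : ℕ) :
    dX (x ^ (n + 1)) = (n + 1) • (x ^ n * dX x) := by
  induction n with
  | zero => simp
  | succ n ih =>
    rw [pow_succ, dX_mul, ih, smul_mul_assoc, mul_assoc, ← h.eq, ← mul_assoc, ← pow_succ,
      succ_nsmul _ (n + 1)]

lemma dX_map (k : K⟦X⟧) :
    dX (PowerSeries.map (algebraMap K D) k) = PowerSeries.map (algebraMap K D) (dX k) := by
  ext n; simp [dX]

lemma dX_one : dX (1 : D⟦X⟧) = 0 := by
  ext n; simp [dX, coeff_one]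

lemma dX_sum {κ : Type} (T : Finset κ) (f : κ → D⟦X⟧) : dX (∑ i ∈ T, f i) = ∑ i ∈ T, dX (f i) := by
  ext n; simp [dX, Finset.mul_sum]

/-- a subalgebra whose elements are invertible in it is stable under the derivative -/
lemma dX_mem [CharZero K'] [FiniteDimensional K' D'] (hK : Function.Injective L.jK)
    (A : Subalgebra K' D') (hA : ∀ z ∈ A, z⁻¹ ∈ A) (s : D⟦X⟧) (hs : L.jD s ∈ A)
    (hc : Commute s (dX s)) : L.jD (dX s) ∈ A := by
  classical
  have h0 : L.jK X ≠ 0 := fun h0 => X_ne_zero (hK (h0.trans (map_zero _).symm))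
  have hint : IsIntegral K' (L.jD s) := IsIntegral.of_finite K' _
  set p := minpoly K' (L.jD s) with hp
  choose N k hk using fun i => L.surjK (p.coeff i)
  set M := ∑ i ∈ Finset.range (p.natDegree + 1), N i with hM
  let κ : ℕ → K⟦X⟧ := fun i => X ^ (M - N i) * k i
  have hκ : ∀ i ∈ Finset.range (p.natDegree + 1), L.jK (κ i) = L.jK X ^ M * p.coeff i := by
    intro i hi
    have : N i ≤ M := Finset.single_le_sum (f := N) (fun _ _ => Nat.zero_le _) hi
    simp only [κ, map_mul, map_pow]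
    rw [← hk i, ← mul_assoc, ← pow_add, Nat.sub_add_cancel this]
  have h1 : ∑ i ∈ Finset.range (p.natDegree + 1),
      PowerSeries.map (algebraMap K D) (κ i) * s ^ i = 0 := by
    apply L.injD
    rw [map_sum, map_zero]
    have h2 := minpoly.aeval K' (L.jD s)
    rw [← hp, Polynomial.aeval_eq_sum_range] at h2
    have h3 := congrArg (fun z => (L.jK X ^ M) • z) h2
    simp only [Finset.smul_sum, smul_zero, smul_smul] at h3
    rw [← h3]
    apply Finset.sum_congr rfl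
    intro i hi
    rw [map_mul, L.compat, hκ i hi, map_pow, Algebra.smul_def]
  have h2 := congrArg (fun z => L.jD (dX z)) h1
  have hz : dX (0 : D⟦X⟧) = 0 := by ext n; simp [dX]
  simp only [dX_sum, dX_mul, dX_map, map_sum, map_add, map_mul, L.compat, hz, map_zero,
    Finset.sum_add_distrib] at h2
  have h3 : ∑ i ∈ Finset.range (p.natDegree + 1),
      algebraMap K' D' (L.jK (κ i)) * L.jD (dX (s ^ i))
      = ((L.jK X ^ M) • Polynomial.aeval (L.jD s) (Polynomial.derivative p)) * L.jD (dX s) := by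
    rw [Polynomial.aeval_eq_sum_range' (n := p.natDegree + 1)
      (lt_of_le_of_lt (Polynomial.natDegree_derivative_le p) (by omega)),
      Finset.sum_range_succ', Finset.sum_range_succ, Polynomial.coeff_derivative,
      Polynomial.coeff_eq_zero_of_natDegree_lt (Nat.lt_succ_self _)]
    simp only [pow_zero, dX_one, map_zero, mul_zero, add_zero, zero_mul, zero_smul,
      Finset.smul_sum, Finset.sum_mul]
    apply Finset.sum_congr rfl
    intro i hi
    rw [dX_pow s hc, hκ (i + 1) (by simp at hi ⊢; omega), Polynomial.coeff_derivative, map_nsmul,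
      ← Algebra.smul_def, map_mul, map_pow, smul_smul, smul_mul_assoc,
      ← Nat.cast_smul_eq_nsmul K', smul_smul]
    push_cast
    rw [mul_assoc]
  rw [h3] at h2
  have h4 : Polynomial.aeval (L.jD s) (Polynomial.derivative p) ≠ 0 := by
    intro h5
    have hd := minpoly.natDegree_pos hint
    have hne : Polynomial.derivative p ≠ 0 := by
      intro h6
      have := Polynomial.derivative_eq_zero.1 h6
      rw [hp] at this
      omega
    have h7 := minpoly.degree_le_of_ne_zero K' (L.jD s) hne h5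
    have h8 := Polynomial.degree_derivative_lt (minpoly.ne_zero hint)
    exact absurd (lt_of_le_of_lt h7 h8) (lt_irrefl _)
  set y := (L.jK X ^ M) • Polynomial.aeval (L.jD s) (Polynomial.derivative p) with hy
  have hy0 : y ≠ 0 := smul_ne_zero (pow_ne_zero _ h0) h4
  have hyA : y ∈ A := by
    apply A.smul_mem
    rw [Polynomial.aeval_eq_sum_range]
    exact A.sum_mem fun i _ => A.smul_mem (A.pow_mem hs _) _
  have h5 : L.jD (dX s) = y⁻¹ * -(∑ i ∈ Finset.range (p.natDegree + 1),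
      algebraMap K' D' (L.jK (dX (κ i))) * L.jD (s ^ i)) := by
    rw [eq_inv_mul_iff_mul_eq₀ hy0, eq_neg_iff_add_eq_zero, add_comm]
    exact h2
  rw [h5]
  refine A.mul_mem (hA y hyA) (A.neg_mem (A.sum_mem fun i _ => A.mul_mem (A.algebraMap_mem _) ?_))
  rw [map_pow]
  exact A.pow_mem hs _

end

end Crest.Agent.Ku.PB
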