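import Crest.Agent.Ku.Defs

set_option autoImplicit false

namespace Crest.Agent.Ku.R9
open Module

lemma dual_vecs {K U : Type} [Field K] [AddCommGroup U] [Module K U] {M : ℕ}
    (f : Fin M → U →ₗ[K] K) (hf : LinearIndependent K f) :
    ∃ v : Fin M → U, ∀ i k, f i (v k) = if i = k then 1 else 0 := by
  have hs : LinearMap.range (LinearMap.pi f) = ⊤ := by
    by_contra h
    obtain ⟨g, hg0, hg⟩ := Submodule.exists_le_ker_of_lt_top _ (lt_top_iff_ne_top.2 h)
    have hc := Fintype.linearIndependent_iff.1 hf (fun i => g (Pi.single i 1)) (by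
      ext u
      have := hg (LinearMap.mem_range_self _ u)
      rw [LinearMap.mem_ker, LinearMap.pi_apply_eq_sum_univ] at this
      simp only [LinearMap.coe_sum, Finset.sum_apply, LinearMap.smul_apply, LinearMap.zero_apply]
      rw [← this]
      refine Finset.sum_congr rfl fun i _ => ?_
      rw [smul_eq_mul, smul_eq_mul, mul_comm, LinearMap.pi_apply]
      congr 2
      ext j; simp [Pi.single_apply, eq_comm])
    apply hg0
    refine LinearMap.pi_ext' fun i => ?_
    ext
    simpa using hc i
  choose v hv using fun k : Fin M => LinearMap.range_eq_top.1 hs (Pi.single k 1)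
  exact ⟨v, fun i k => by have := congrFun (hv k) i; simpa [Pi.single_apply] using this⟩

lemma rk_ar1 {a b c d : ℕ} (h : a + b = c) (h2 : a ≤ d) : c ≤ b + d := by omega
lemma rk_ar2 {a b c d e M : ℕ} (h : a + b = c) (h2 : b ≤ d) (h1 : e ≤ c + d) (hM : M + 2 * d ≤ e) :
    M ≤ a := by omega

lemma rk_ind {K U V : Type} [Field K] [AddCommGroup U] [Module K U]
    [AddCommGroup V] [Module K V] (φ : U →ₗ[K] V) (M : ℕ)
    (h3 : M ≤ finrank K (LinearMap.range φ)) :
    ∃ u : Fin M → U, LinearIndependent K fun i => φ (u i) := by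
  obtain ⟨f, hf⟩ := exists_linearIndependent_of_le_finrank h3
  have hf' := hf.map' (LinearMap.range φ).subtype (Submodule.ker_subtype _)
  have : ∀ i, ∃ u, φ u = (f i : V) := fun i => (f i).2
  choose u hu using this
  refine ⟨u, ?_⟩
  simp only [hu]
  exact hf'

lemma rk_fin {K U U' : Type} [Field K] [AddCommGroup U] [Module K U]
    [AddCommGroup U'] [Module K U'] (φ : U →ₗ[K] U' →ₗ[K] K) (M : ℕ)
    (h3 : M ≤ finrank K (LinearMap.range φ)) :
    ∃ (u : Fin M → U) (v : Fin M → U'), ∀ i k, φ (u i) (v k) = if i = k then 1 else 0 := by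
  obtain ⟨u, hu⟩ := rk_ind φ M h3
  obtain ⟨v, hv⟩ := dual_vecs _ hu
  exact ⟨u, v, hv⟩

lemma rk_ker {K E Y Z : Type} [Field K] [AddCommGroup E] [Module K E]
    [AddCommGroup Y] [Module K Y] [FiniteDimensional K Y] [AddCommGroup Z] [Module K Z]
    (T : Z →ₗ[K] E →ₗ[K] K)
    (hT : Function.Injective T) (P' : E →ₗ[K] Y) (h : ∀ z w, P' w = 0 → T z w = 0) :
    finrank K Z ≤ finrank K Y := by
  have hmem : ∀ u : Z, T u ∈ LinearMap.range P'.dualMap := by
    intro u
    rw [LinearMap.range_dualMap_eq_dualAnnihilator_ker, Submodule.mem_dualAnnihilator]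
    exact fun w hw => h u w hw
  have hψ : Function.Injective (LinearMap.codRestrict _ T hmem) := by
    intro a b h
    exact hT (congrArg Subtype.val h)
  refine (LinearMap.finrank_le_finrank_of_injective hψ).trans ?_
  refine (LinearMap.finrank_range_le _).trans ?_
  rw [Subspace.dual_finrank_eq]

lemma rk_aux {K E Y : Type} [Field K] [AddCommGroup E] [Module K E] [FiniteDimensional K E]
    [AddCommGroup Y] [Module K Y] [FiniteDimensional K Y] (T : E →ₗ[K] E →ₗ[K] K)
    (hT : Function.Injective T) (P P' : E →ₗ[K] Y) (M : ℕ) (hM : M + 2 * finrank K Y ≤ finrank K E) :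
    ∃ u v : Fin M → E, (∀ i, P (u i) = 0) ∧ (∀ i, P' (v i) = 0) ∧
      ∀ i k, T (u i) (v k) = if i = k then 1 else 0 := by
  obtain ⟨φ, hφ⟩ : ∃ φ : LinearMap.ker P →ₗ[K] (LinearMap.ker P' →ₗ[K] K),
      ∀ a b, φ a b = T a b := ⟨T.compl₁₂ (LinearMap.ker P).subtype (LinearMap.ker P').subtype,
        fun _ _ => rfl⟩
  have h1 : finrank K E ≤ finrank K (LinearMap.ker P) + finrank K Y :=
    rk_ar1 P.finrank_range_add_finrank_ker (LinearMap.range P).finrank_le
  have h2 : finrank K (LinearMap.ker φ) ≤ finrank K Y := by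
    refine rk_ker (T ∘ₗ (LinearMap.ker P).subtype ∘ₗ (LinearMap.ker φ).subtype)
      (hT.comp (Subtype.val_injective.comp Subtype.val_injective)) P' fun z w hw => ?_
    have h := hφ z ⟨w, hw⟩
    rw [LinearMap.mem_ker.1 z.2] at h
    exact h.symm
  obtain ⟨u, v, h⟩ := rk_fin φ M (rk_ar2 φ.finrank_range_add_finrank_ker h2 h1 hM)
  exact ⟨fun i => u i, fun i => v i, fun i => (u i).2, fun i => (v i).2, fun i k => by
    rw [← h i k, hφ]⟩

theorem rk : RkStmt := by
  intro K A B _ _ _ _ _ β κ _ _ x y Y _ _ _ p p' M hdet hM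
  obtain ⟨T, hT⟩ : ∃ T : (κ → K) →ₗ[K] (κ → K) →ₗ[K] K, ∀ a b, T a b =
      β (Fintype.linearCombination K x a) (Fintype.linearCombination K y b) :=
    ⟨β.compl₁₂ (Fintype.linearCombination K x) (Fintype.linearCombination K y), fun _ _ => rfl⟩
  have hT' : Function.Injective T := by
    refine (injective_iff_map_eq_zero _).2 fun c hc => ?_
    refine Matrix.eq_zero_of_vecMul_eq_zero hdet ?_
    ext k
    have := hT c (Pi.single k 1)
    rw [hc, Fintype.linearCombination_apply_single, Fintype.linearCombination_apply, one_smul,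
      map_sum, LinearMap.sum_apply] at this
    simp only [map_smul, LinearMap.smul_apply, smul_eq_mul, LinearMap.zero_apply] at this
    simp only [Matrix.vecMul, dotProduct, Matrix.of_apply, Pi.zero_apply]
    exact this.symm
  obtain ⟨u, v, hu, hv, h⟩ := rk_aux T hT' (p ∘ₗ Fintype.linearCombination K x)
    (p' ∘ₗ Fintype.linearCombination K y) M (by rwa [Module.finrank_fintype_fun_eq_card])
  refine ⟨fun i => Fintype.linearCombination K x (u i), fun i => Fintype.linearCombination K y (v i),
    hu, hv, ?_⟩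
  have : (Matrix.of fun i k => β (Fintype.linearCombination K x (u i))
      (Fintype.linearCombination K y (v k))) = 1 := by
    ext i k
    rw [Matrix.one_apply, ← h i k, Matrix.of_apply, hT]
  rw [this]; simp

end Crest.Agent.Ku.R9
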